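import Crest.Agent.R236.AreaE

/-!
# R236/Area (helper72): part 3 of idea 1100 (area facts), in the form used by part 4
-/

set_option autoImplicit false

namespace Crest.Agent.R236

open Set MeasureTheory
open Crest.GeometryTopology.CoordMetric Crest.GeometryTopology.AffineMaximal
open scoped ContDiff

variable {n : ℕ} {Ω : Set (E n)} {u : E n → ℝ}

theorem AM.area_cont (h : AM Ω u) {N : E n → ℝ} (hN : ContinuousOn N Ω) (hN0 : ∀ x, 0 < N x) :
    ContinuousOn (fun x => (hessianMat u x).det / N x ^ (n + 1)) Ω :=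
  h.det_contDiffOn.continuousOn.div (hN.pow _) fun x _ => (pow_pos (hN0 x) _).ne'

theorem area_pt1 (n : ℕ) {c V ρ N f : ℝ} (hc : 0 < c) (hV : 0 < V) (hρ : 0 < ρ) (hN : 0 < N)
    (hf : ρ * N / c ≤ f) :
    f ^ (-(n : ℝ) / 2) * ρ⁻¹ ≤ c ^ ((n : ℝ) / 2) * (V⁻¹ * N + V * (ρ⁻¹ ^ (n + 2) / N ^ (n + 1))) := by
  have h0 : 0 < ρ * N / c := by positivity
  have h1 : f ^ (-(n : ℝ) / 2) ≤ (ρ * N / c) ^ (-(n : ℝ) / 2) :=
    Real.rpow_le_rpow_of_nonpos h0 hf (by have : (0 : ℝ) ≤ n := n.cast_nonneg; linarith)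
  have h2 : (ρ * N / c) ^ (-(n : ℝ) / 2) = c ^ ((n : ℝ) / 2) * (ρ * N) ^ (-(n : ℝ) / 2) := by
    rw [Real.div_rpow (by positivity) hc.le, neg_div, Real.rpow_neg hc.le, div_inv_eq_mul, mul_comm]
  have h3 : ((ρ * N) ^ (-(n : ℝ) / 2)) ^ 2 = ((ρ * N) ^ n)⁻¹ := by
    rw [← Real.rpow_natCast, ← Real.rpow_mul (by positivity), ← Real.rpow_natCast,
      ← Real.rpow_neg (by positivity)]
    congr 1
    push_cast
    ring
  have h4 : (ρ * N) ^ (-(n : ℝ) / 2) * ρ⁻¹ ≤ V⁻¹ * N + V * (ρ⁻¹ ^ (n + 2) / N ^ (n + 1)) := by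
    refine (pow_le_pow_iff_left₀ (by positivity) (by positivity) two_ne_zero).1 ?_
    have e : ((ρ * N) ^ (-(n : ℝ) / 2) * ρ⁻¹) ^ 2 = V⁻¹ * N * (V * (ρ⁻¹ ^ (n + 2) / N ^ (n + 1))) := by
      rw [mul_pow, h3, mul_pow, inv_pow, inv_pow]
      field_simp
      ring
    rw [e]
    have a0 : 0 ≤ V⁻¹ * N := by positivity
    have b0 : 0 ≤ V * (ρ⁻¹ ^ (n + 2) / N ^ (n + 1)) := by positivity
    nlinarith [mul_nonneg a0 b0]
  calc f ^ (-(n : ℝ) / 2) * ρ⁻¹ ≤ c ^ ((n : ℝ) / 2) * (ρ * N) ^ (-(n : ℝ) / 2) * ρ⁻¹ := by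
        rw [← h2]
        gcongr
    _ ≤ _ := by
        rw [mul_assoc]
        gcongr

theorem area_pt3 (n : ℕ) {l G N : ℝ} (hl : 0 < l) (hG : 0 < G) (hN : 0 < N) :
    G ≤ l⁻¹ * N + l ^ (n + 1) * (G ^ (n + 2) / N ^ (n + 1)) := by
  rcases le_total G (l⁻¹ * N) with h | h
  · exact h.trans (le_add_of_nonneg_right (by positivity))
  · refine le_trans ?_ (le_add_of_nonneg_left (by positivity))
    have h1 : N ≤ l * G := by rwa [inv_mul_le_iff₀ hl] at h
    have h2 : N ^ (n + 1) ≤ (l * G) ^ (n + 1) := by gcongr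
    rw [← mul_div_assoc, le_div_iff₀ (by positivity)]
    calc G * N ^ (n + 1) ≤ G * (l * G) ^ (n + 1) := by gcongr
      _ = _ := by ring

/-- (E1) `∫ wid^(-n/2) dμ ≤ C_n`, for any continuous majorant `f` of the width -/
theorem area_e1 (n : ℕ) (hn : 3 ≤ n) : ∃ C₁ : ℝ, 0 ≤ C₁ ∧ ∀ (Ω : Set (E n)) (u : E n → ℝ), AM Ω u →
    ∀ C : Set (F n), IsCompact C → Convex ℝ C → C ⊆ epi Ω u → (interior C).Nonempty →
      ∀ f : E n → ℝ, ContinuousOn f (piece Ω u C) →
        (∀ x ∈ piece Ω u C, ∀ Z ∈ C, ∀ Z' ∈ C, nu u (Z - Z') x ≤ f x) →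
        ∫ x in piece Ω u C, f x ^ (-(n : ℝ) / 2) * (rho u x)⁻¹ ≤ C₁ := by
  obtain ⟨c, hc, H⟩ := area_core n
  refine ⟨c ^ ((n : ℝ) / 2) * (c + c), by positivity, fun Ω u h C hC hv hK hi f hf hle => ?_⟩
  obtain ⟨hV, N, hNc, hN0, -, h2, h3, h4⟩ := H Ω u h C hC hv hK hi
  have hP := h.piece_isCompact hC hK
  set V := volume.real C
  have hNf : ∀ x ∈ piece Ω u C, rho u x * N x / c ≤ f x := fun x hx => by
    have hr := h.rho_pos hx.1
    have := h2 x (f x / rho u x) fun Z hZ Z' hZ' => by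
      rw [le_div_iff₀ hr, mul_comm]
      exact hle x hx Z hZ Z' hZ'
    rw [← mul_div_assoc, le_div_iff₀ hr] at this
    rw [div_le_iff₀ hc]
    linarith
  have hpos : ∀ x ∈ piece Ω u C, 0 < rho u x * N x / c := fun x hx =>
    div_pos (mul_pos (h.rho_pos hx.1) (hN0 x)) hc
  have i1 := (hNc.mono (piece_subset C)).integrableOn_compact (μ := volume) hP
  have i2 := (h.area_cont hNc hN0 |>.mono (piece_subset C)).integrableOn_compact (μ := volume) hP
  calc ∫ x in piece Ω u C, f x ^ (-(n : ℝ) / 2) * (rho u x)⁻¹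
      ≤ ∫ x in piece Ω u C, c ^ ((n : ℝ) / 2) *
          (V⁻¹ * N x + V * ((hessianMat u x).det / N x ^ (n + 1))) := by
        refine setIntegral_mono_on
          (((hf.rpow_const fun x hx => Or.inl ((hpos x hx).trans_le (hNf x hx)).ne').mul
            (h.rho_inv_continuousOn.mono (piece_subset C))).integrableOn_compact hP)
          (((i1.const_mul _).add (i2.const_mul _)).const_mul _) hP.measurableSet fun x hx => ?_
        rw [← h.areaD_rho_pow hx.1]
        exact area_pt1 n hc hV (h.rho_pos hx.1) (hN0 x) (hNf x hx)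
    _ = c ^ ((n : ℝ) / 2) * (V⁻¹ * (∫ x in piece Ω u C, N x) +
          V * ∫ x in piece Ω u C, (hessianMat u x).det / N x ^ (n + 1)) := by
        rw [integral_const_mul, integral_add (i1.const_mul _) (i2.const_mul _), integral_const_mul,
          integral_const_mul]
    _ ≤ c ^ ((n : ℝ) / 2) * (c + c) := by
        gcongr
        rw [inv_mul_le_iff₀ hV, mul_comm]
        exact h3

/-- (E2) caps have large affine area -/
theorem area_e2 (n : ℕ) (hn : 3 ≤ n) : ∃ c₂ : ℝ, 0 < c₂ ∧ ∀ (Ω : Set (E n)) (u : E n → ℝ), AM Ω u →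
    ∀ (o : F n) (l : F n →L[ℝ] ℝ), o ∈ epi Ω u → IsCompact (capH Ω u l o 1) →
      c₂ * volume.real (capH Ω u l o 1) ^ ((n : ℝ) / (n + 2)) ≤
        ∫ x in piece Ω u (capH Ω u l o 1), (rho u x)⁻¹ := by
  obtain ⟨c, hc, Hs⟩ := area_section n
  refine ⟨c, hc, fun Ω u h o l ho hC => ?_⟩
  have hl : ∀ (x : E n) (t : ℝ), l ((x, t) - o) = l (x, 0) + t * l (0, 1) - l o := fun x t => by
    have : ((x, t) : F n) = (x, 0) + t • (0, 1) := by simp
    rw [map_sub, this, map_add, map_smul, smul_eq_mul]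
  have hlam : 0 < l (0, 1) := by
    by_contra hneg
    rw [not_lt] at hneg
    obtain ⟨B, hB⟩ := hC.isBounded.exists_norm_le
    have hm : o + (|B| + ‖o‖ + 1) • ((0, 1) : F n) ∈ capH Ω u l o 1 := by
      refine ⟨⟨by simpa using ho.1, ?_⟩, ?_⟩
      · have := ho.2
        have e : 0 ≤ |B| + ‖o‖ + 1 := by positivity
        simp only [Prod.fst_add, Prod.smul_fst, smul_zero, add_zero, Prod.snd_add, Prod.smul_snd, smul_eq_mul]
        linarith
      · rw [add_sub_cancel_left, map_smul, smul_eq_mul]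
        have e : 0 ≤ |B| + ‖o‖ + 1 := by positivity
        nlinarith
    have e1 := (norm_snd_le _).trans (hB _ hm)
    have e2 := norm_snd_le o
    simp only [Prod.snd_add, Prod.smul_snd, smul_eq_mul, mul_one, Real.norm_eq_abs] at e1 e2
    linarith [le_abs_self B, le_abs_self (o.2 + (|B| + ‖o‖ + 1)), neg_abs_le o.2]
  set lam := l (0, 1) with hlamd
  set φ : E n →L[ℝ] ℝ := (-lam⁻¹) • l.comp (ContinuousLinearMap.inl ℝ (E n) ℝ) with hφ
  set d : ℝ := (1 + l o) / lam with hd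
  have hiff : ∀ (x : E n) (t : ℝ), l ((x, t) - o) ≤ 1 ↔ t ≤ d + φ x := fun x t => by
    have e : d + φ x = (1 + l o - l (x, 0)) / lam := by
      simp only [hd, hφ, ContinuousLinearMap.smul_apply, ContinuousLinearMap.comp_apply,
        ContinuousLinearMap.inl_apply, smul_eq_mul]
      field_simp
      ring
    rw [hl, e, le_div_iff₀ hlam]
    constructor <;> intro h <;> linarith
  set C := capH Ω u l o 1 with hCd
  have hK : C ⊆ epi Ω u := fun X hX => hX.1
  have hP := h.piece_isCompact hC hK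
  have hPe : piece Ω u C = {x | x ∈ Ω ∧ u x ≤ d + φ x} := by
    ext x
    exact and_congr_right fun hx => ⟨fun h1 => (hiff x (u x)).1 h1.2, fun h1 => ⟨gr_mem_epi hx, (hiff x (u x)).2 h1⟩⟩
  have hlc : ContinuousOn (fun x => d + φ x - u x) Ω :=
    (continuousOn_const.add φ.continuous.continuousOn).sub h.smooth.continuousOn
  have ho1 : o.2 + lam⁻¹ ≤ d + φ o.1 := (hiff o.1 _).1 (by
    have : ((o.1, o.2 + lam⁻¹) : F n) - o = lam⁻¹ • (0, 1) := by ext <;> simp
    rw [this, map_smul, smul_eq_mul, inv_mul_cancel₀ hlam.ne'])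
  have hli := inv_pos.2 hlam
  have ho2 : u o.1 ≤ o.2 := ho.2
  have hoP : o.1 ∈ piece Ω u C := by
    rw [hPe]
    exact ⟨ho.1, by linarith⟩
  obtain ⟨x₁, hx₁, hmax⟩ := hP.exists_isMaxOn ⟨_, hoP⟩ (hlc.mono (piece_subset C))
  set H := d + φ x₁ - u x₁ with hH
  have hmax' : ∀ x ∈ piece Ω u C, d + φ x - u x ≤ H := fun x hx => hmax hx
  have hH0 : 0 < H := by linarith [hmax' _ hoP]
  refine le_trans ?_ (Hs Ω u h φ d H x₁ _ hPe hP hx₁.1 hH0 rfl hmax')
  have hvol : volume C ≤ ENNReal.ofReal H * volume (piece Ω u C) := by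
    rw [Measure.volume_eq_prod, Measure.prod_apply hC.measurableSet, ← setLIntegral_const,
      ← lintegral_indicator hP.measurableSet]
    refine lintegral_mono fun x => ?_
    by_cases hx : x ∈ piece Ω u C
    · rw [indicator_of_mem hx]
      calc volume (Prod.mk x ⁻¹' C) ≤ volume (Icc (u x) (d + φ x)) :=
            measure_mono fun t ht => ⟨ht.1.2, (hiff x t).1 ht.2⟩
        _ ≤ ENNReal.ofReal H := by
            rw [Real.volume_Icc]
            exact ENNReal.ofReal_le_ofReal (hmax' x hx)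
    · have : Prod.mk x ⁻¹' C = ∅ := eq_empty_of_forall_notMem fun t ht => hx (by
        rw [hPe]
        exact ⟨ht.1.1, le_trans ht.1.2 ((hiff x t).1 ht.2)⟩)
      simp [this]
  have hvol' : volume.real C ≤ H * volume.real (piece Ω u C) := by
    have := ENNReal.toReal_mono (ENNReal.mul_ne_top ENNReal.ofReal_ne_top hP.measure_lt_top.ne) hvol
    rwa [ENNReal.toReal_mul, ENNReal.toReal_ofReal hH0.le] at this
  gcongr

/-- (E3) affine isoperimetric upper bound -/
theorem area_e3 (n : ℕ) (hn : 3 ≤ n) : ∃ C₃ : ℝ, 0 ≤ C₃ ∧ ∀ (Ω : Set (E n)) (u : E n → ℝ), AM Ω u →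
    ∀ C : Set (F n), IsCompact C → Convex ℝ C → C ⊆ epi Ω u → (interior C).Nonempty →
      ∫ x in piece Ω u C, (rho u x)⁻¹ ≤ C₃ * volume.real C ^ ((n : ℝ) / (n + 2)) := by
  obtain ⟨c, hc, H⟩ := area_core n
  refine ⟨c + c, by positivity, fun Ω u h C hC hv hK hi => ?_⟩
  obtain ⟨hV, N, hNc, hN0, -, -, h3, h4⟩ := H Ω u h C hC hv hK hi
  have hP := h.piece_isCompact hC hK
  set V := volume.real C
  have hn2 : (0 : ℝ) < n + 2 := by positivity
  set t := V ^ (1 / ((n : ℝ) + 2)) with ht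
  have ht0 : 0 < t := by positivity
  have e1 : t ^ (n + 2) = V := by
    rw [ht, ← Real.rpow_natCast, ← Real.rpow_mul hV.le]
    push_cast
    rw [one_div_mul_cancel hn2.ne', Real.rpow_one]
  have e2 : V ^ ((n : ℝ) / (n + 2)) = t ^ n := by
    rw [ht, ← Real.rpow_natCast, ← Real.rpow_mul hV.le]
    congr 1
    ring
  have i1 := (hNc.mono (piece_subset C)).integrableOn_compact (μ := volume) hP
  have i2 := (h.area_cont hNc hN0 |>.mono (piece_subset C)).integrableOn_compact (μ := volume) hP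
  calc ∫ x in piece Ω u C, (rho u x)⁻¹
      ≤ ∫ x in piece Ω u C, ((t ^ 2)⁻¹ * N x + (t ^ 2) ^ (n + 1) * ((hessianMat u x).det / N x ^ (n + 1))) := by
        refine setIntegral_mono_on ((h.rho_inv_continuousOn.mono (piece_subset C)).integrableOn_compact hP)
          ((i1.const_mul _).add (i2.const_mul _)) hP.measurableSet fun x hx => ?_
        rw [← h.areaD_rho_pow hx.1]
        exact area_pt3 n (by positivity) (inv_pos.2 (h.rho_pos hx.1)) (hN0 x)
    _ = (t ^ 2)⁻¹ * (∫ x in piece Ω u C, N x) +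
          t ^ n * (V * ∫ x in piece Ω u C, (hessianMat u x).det / N x ^ (n + 1)) := by
        rw [integral_add (i1.const_mul _) (i2.const_mul _), integral_const_mul, integral_const_mul, ← e1]
        ring
    _ ≤ (t ^ 2)⁻¹ * (c * V) + t ^ n * c := by gcongr
    _ = (c + c) * V ^ ((n : ℝ) / (n + 2)) := by
        rw [e2, ← e1]
        field_simp
        ring

/-- (E4) `∫ wid dμ ≤ C_n Vol`, for any continuous minorant `s` of the width on a compact part `B` -/
theorem area_e4 (n : ℕ) (hn : 3 ≤ n) : ∃ C₄ : ℝ, 0 ≤ C₄ ∧ ∀ (Ω : Set (E n)) (u : E n → ℝ), AM Ω u →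
    ∀ C : Set (F n), IsCompact C → Convex ℝ C → C ⊆ epi Ω u → (interior C).Nonempty →
      ∀ (B : Set (E n)) (s : E n → ℝ), IsCompact B → B ⊆ piece Ω u C → ContinuousOn s B →
        (∀ x ∈ B, ∃ Z ∈ C, ∃ Z' ∈ C, s x ≤ nu u (Z - Z') x) →
        ∫ x in B, s x * (rho u x)⁻¹ ≤ C₄ * volume.real C := by
  obtain ⟨c, hc, H⟩ := area_core n
  refine ⟨c * c, by positivity, fun Ω u h C hC hv hK hi B s hB hBP hs hle => ?_⟩
  obtain ⟨hV, N, hNc, hN0, h1, -, h3, -⟩ := H Ω u h C hC hv hK hi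
  have hP := h.piece_isCompact hC hK
  have hBΩ := hBP.trans (piece_subset C)
  calc ∫ x in B, s x * (rho u x)⁻¹ ≤ ∫ x in B, c * N x := by
        refine setIntegral_mono_on ((hs.mul (h.rho_inv_continuousOn.mono hBΩ)).integrableOn_compact hB)
          ((continuousOn_const.mul (hNc.mono hBΩ)).integrableOn_compact hB) hB.measurableSet fun x hx => ?_
        obtain ⟨Z, hZ, Z', hZ', e⟩ := hle x hx
        have hr := h.rho_pos (hBΩ hx)
        rw [mul_inv_le_iff₀ hr, mul_comm]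
        exact e.trans (mul_le_mul_of_nonneg_left (h1 x Z hZ Z' hZ') hr.le)
    _ = c * ∫ x in B, N x := integral_const_mul _ _
    _ ≤ c * ∫ x in piece Ω u C, N x := by
        refine mul_le_mul_of_nonneg_left ?_ hc.le
        exact setIntegral_mono_set ((hNc.mono (piece_subset C)).integrableOn_compact hP)
          (ae_of_all _ fun x => (hN0 x).le) hBP.eventuallyLE
    _ ≤ c * c * volume.real C := by
        rw [mul_assoc]
        gcongr

end Crest.Agent.R236
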