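import Crest.Agent.R236.Basic

/-!
# R236/AreaA TASK: the primal area bound (change of variables `(x, s) ↦ (x, u x) + s w`)
-/

set_option autoImplicit false

namespace Crest.Agent.R236

open Set MeasureTheory
open Crest.GeometryTopology.CoordMetric Crest.GeometryTopology.AffineMaximal
open scoped ContDiff

variable {n : ℕ} {Ω : Set (E n)} {u : E n → ℝ}

/-- `m_a = a₀ - Du·a'`, so that `ν_a = ρ m_a` -/
noncomputable def mm (u : E n → ℝ) (a : F n) (x : E n) : ℝ := a.2 - fderiv ℝ u x a.1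

theorem nu_eq_mm (a : F n) (x : E n) : nu u a x = rho u x * mm u a x := rfl

theorem mm_add (a b : F n) (x : E n) : mm u (a + b) x = mm u a x + mm u b x := by
  simp only [mm, Prod.fst_add, Prod.snd_add, map_add]; ring

theorem mm_sub (a b : F n) (x : E n) : mm u (a - b) x = mm u a x - mm u b x := by
  simp only [mm, Prod.fst_sub, Prod.snd_sub, map_sub]; ring

theorem mm_smul (c : ℝ) (a : F n) (x : E n) : mm u (c • a) x = c * mm u a x := by
  simp only [mm, Prod.smul_fst, Prod.smul_snd, map_smul, smul_eq_mul]; ring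

theorem mm_neg (a : F n) (x : E n) : mm u (-a) x = -mm u a x := by
  simp only [mm, Prod.fst_neg, Prod.snd_neg, map_neg]; ring

theorem AM.mm_continuousOn (h : AM Ω u) (a : F n) : ContinuousOn (mm u a) Ω :=
  continuousOn_const.sub
    ((h.smooth.continuousOn_fderiv_of_isOpen h.isOpen (by simp)).clm_apply continuousOn_const)

/-- Determinant of the block map `(v, t) ↦ (v + t w', φ v + t w₀)`: it is `w₀ - φ w'`
(`LinearMap.det_toMatrix` for the basis `b.prod (Basis.singleton Unit ℝ)`, `Matrix.det_fromBlocks_one₁₁`;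
or factor it into two shears and a diagonal map). -/
theorem areaA_det (w : F n) (φ : E n →L[ℝ] ℝ) (L : F n →L[ℝ] F n)
    (hL : ∀ v : E n, ∀ t : ℝ, L (v, t) = (v + t • w.1, φ v + t * w.2)) : L.det = w.2 - φ w.1 := by
  classical
  let b := (EuclideanSpace.basisFun (Fin n) ℝ).toBasis
  let B := b.prod (Module.Basis.singleton Unit ℝ)
  have hM : LinearMap.toMatrix B B (L : F n →ₗ[ℝ] F n) =
      Matrix.fromBlocks 1 (Matrix.of fun i _ => b.repr w.1 i) (Matrix.of fun _ j => φ (b j))
        (Matrix.of fun _ _ => w.2) := by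
    ext (i | i) (j | j)
    · simp [LinearMap.toMatrix_apply, B, hL, Matrix.one_apply, Finsupp.single_apply, eq_comm]
    · simp [LinearMap.toMatrix_apply, B, hL]
    · simp [LinearMap.toMatrix_apply, B, hL]
    · simp [LinearMap.toMatrix_apply, B, hL]
  rw [ContinuousLinearMap.det, ← LinearMap.det_toMatrix B, hM, Matrix.det_fromBlocks_one₁₁, Matrix.det_unique]
  simp only [Matrix.sub_apply, Matrix.of_apply, Matrix.mul_apply]
  congr 1
  conv_rhs => rw [← b.sum_repr w.1]
  rw [map_sum]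
  exact Finset.sum_congr rfl fun i _ => by rw [map_smul, smul_eq_mul, mul_comm]

/-- One-sided bound.  Let `w = a - b`, `P⁺ = {x ∈ piece | 0 < mm u w x}` (measurable) and
`Φ (x, s) = gr u x + s • w` on `P⁺ ×ˢ Icc 0 1`.  Its Jacobian is `mm u w x` (`areaA_det`).  `Φ` is injective there:
if `gr u x + s w = gr u y + t w` with `s ≤ t`, `Geo.tangent_le` at `x` gives `(t - s) * mm u w x ≤ 0`.
The image lies in the homothetic copy `b + 2 (C - b)` (`X + s (a - b) = b + 2 (X/2 + (s/2) a + ((1-s)/2) b - b)`),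
of measure `2^(n+1) vol C` (`Measure.addHaar_image_homothety`).
Use `lintegral_abs_det_fderiv_eq_addHaar_image` (or `..._le_...`) and Tonelli (`lintegral_prod`, `setLIntegral_prod`). -/
theorem areaA_pos (h : AM Ω u) {C : Set (F n)} (hC : IsCompact C) (hv : Convex ℝ C) (hK : C ⊆ epi Ω u)
    {a b : F n} (ha : a ∈ C) (hb : b ∈ C) :
    ∫⁻ x in piece Ω u C, ENNReal.ofReal (mm u (a - b) x) ≤ 2 ^ (n + 1) * volume C := by
  have : (volume : Measure (F n)).IsAddHaarMeasure :=
    inferInstanceAs ((volume : Measure (E n)).prod (volume : Measure ℝ)).IsAddHaarMeasure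
  set w : F n := a - b with hw
  have hpc : IsCompact (piece Ω u C) := h.piece_isCompact hC hK
  have hpm : MeasurableSet (piece Ω u C) := hpc.measurableSet
  have hO : IsOpen (Ω ∩ mm u w ⁻¹' Ioi 0) :=
    (h.mm_continuousOn w).isOpen_inter_preimage h.isOpen isOpen_Ioi
  set P : Set (E n) := (Ω ∩ mm u w ⁻¹' Ioi 0) ∩ piece Ω u C with hP
  have hPm : MeasurableSet P := hO.measurableSet.inter hpm
  have hPΩ : P ⊆ Ω := fun x hx => hx.1.1
  have e1 : ∫⁻ x in piece Ω u C, ENNReal.ofReal (mm u w x) = ∫⁻ x in P, ENNReal.ofReal (mm u w x) := by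
    rw [hP, ← Measure.restrict_restrict hO.measurableSet, ← lintegral_indicator hO.measurableSet]
    refine setLIntegral_congr_fun hpm fun x hx => ?_
    by_cases hx' : x ∈ Ω ∩ mm u w ⁻¹' Ioi 0
    · rw [indicator_of_mem hx']
    · rw [indicator_of_notMem hx']
      refine ENNReal.ofReal_eq_zero.2 (le_of_not_gt fun h0 => hx' ⟨hx.1, h0⟩)
  let Φ : F n → F n := fun p => gr u p.1 + p.2 • w
  let Φ' : F n → F n →L[ℝ] F n := fun p =>
    (ContinuousLinearMap.fst ℝ (E n) ℝ).prod ((fderiv ℝ u p.1).comp (ContinuousLinearMap.fst ℝ (E n) ℝ)) +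
      (ContinuousLinearMap.snd ℝ (E n) ℝ).smulRight w
  have hS : MeasurableSet (P ×ˢ Icc (0 : ℝ) 1) := hPm.prod measurableSet_Icc
  have hder : ∀ p ∈ P ×ˢ Icc (0 : ℝ) 1, HasFDerivWithinAt Φ (Φ' p) (P ×ˢ Icc (0 : ℝ) 1) p := by
    intro p hp
    have hu : HasFDerivAt u (fderiv ℝ u p.1) p.1 :=
      (((h.smooth p.1 (hPΩ hp.1)).contDiffAt (h.isOpen.mem_nhds (hPΩ hp.1))).differentiableAt
        (by simp)).hasFDerivAt
    exact ((hasFDerivAt_fst.prodMk (hu.comp p hasFDerivAt_fst)).add
      (hasFDerivAt_snd.smul_const w)).hasFDerivWithinAt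
  have hdet : ∀ p : F n, (Φ' p).det = mm u w p.1 := by
    intro p
    refine areaA_det w (fderiv ℝ u p.1) (Φ' p) fun v t => ?_
    ext <;> simp [Φ']
  have hle : ∀ x ∈ P, ∀ y ∈ P, ∀ s t : ℝ, gr u x + s • w = gr u y + t • w → t ≤ s := by
    intro x hx y hy s t hxy
    have h1 := h.nu_nonneg (hPΩ hx) (gr_mem_epi (u := u) (hPΩ hy))
    have h2 : gr u y - gr u x = (s - t) • w := by
      rw [sub_smul, sub_eq_sub_iff_add_eq_add, ← hxy, add_comm]
    rw [h2, nu_smul, nu_eq_mm] at h1
    have h3 : 0 < rho u x * mm u w x := mul_pos (h.rho_pos (hPΩ hx)) hx.1.2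
    have := nonneg_of_mul_nonneg_left h1 h3
    linarith
  have hinj : InjOn Φ (P ×ˢ Icc (0 : ℝ) 1) := by
    rintro ⟨x, s⟩ hx ⟨y, t⟩ hy hxy
    have h1 := hle x hx.1 y hy.1 s t hxy
    have h2 := hle y hy.1 x hx.1 t s hxy.symm
    have hst : s = t := le_antisymm h2 h1
    subst hst
    have h3 : gr u x = gr u y := add_right_cancel hxy
    have h4 : x = y := congrArg Prod.fst h3
    rw [h4]
  have e2 := lintegral_abs_det_fderiv_eq_addHaar_image (volume : Measure (F n)) hS hder hinj
  have e3 : ∫⁻ p in P ×ˢ Icc (0 : ℝ) 1, ENNReal.ofReal |(Φ' p).det| ∂(volume : Measure (F n)) =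
      ∫⁻ x in P, ENNReal.ofReal (mm u w x) := by
    have hm : AEMeasurable (fun x => ENNReal.ofReal (mm u w x)) (volume.restrict P) :=
      (((h.mm_continuousOn w).mono hPΩ).aemeasurable hPm).ennreal_ofReal
    have := lintegral_prod_mul (μ := volume.restrict P) (ν := volume.restrict (Icc (0 : ℝ) 1)) hm
      (g := fun _ => 1) aemeasurable_const
    rw [Measure.prod_restrict, ← Measure.volume_eq_prod] at this
    simp only [mul_one, lintegral_const, MeasurableSet.univ, Measure.restrict_apply, univ_inter, Real.volume_Icc,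
      sub_zero, ENNReal.ofReal_one] at this
    rw [← this]
    refine setLIntegral_congr_fun hS fun p hp => ?_
    have : 0 < mm u w p.1 := hp.1.1.2
    simp only [hdet, abs_of_pos this]
  have hsub : Φ '' (P ×ˢ Icc (0 : ℝ) 1) ⊆ AffineMap.homothety b (2 : ℝ) '' C := by
    rintro _ ⟨⟨x, s⟩, hp, rfl⟩
    have hx : gr u x ∈ C := hp.1.2.2
    have hs0 : 0 ≤ s := hp.2.1
    have hs1 : s ≤ 1 := hp.2.2
    have h1 : s • a + (1 - s) • b ∈ C := hv ha hb hs0 (by linarith) (by ring)
    have h2 : (1 / 2 : ℝ) • gr u x + (1 / 2 : ℝ) • (s • a + (1 - s) • b) ∈ C :=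
      hv hx h1 (by norm_num) (by norm_num) (by norm_num)
    refine ⟨_, h2, ?_⟩
    simp only [AffineMap.homothety_apply, vsub_eq_sub, vadd_eq_add, Φ, hw]
    module
  rw [e1, ← e3, e2]
  refine (measure_mono hsub).trans (le_of_eq ?_)
  rw [Measure.addHaar_image_homothety]
  have hf : Module.finrank ℝ (F n) = n + 1 := by simp
  rw [hf, abs_of_pos (by positivity), ENNReal.ofReal_pow (by norm_num)]
  simp

/-- `|m| = m₊ + (-m)₊`, `areaA_pos` for `(a, b)` and `(b, a)`; the piece is compact (`AM.piece_isCompact`). -/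
theorem area_primal (h : AM Ω u) {C : Set (F n)} (hC : IsCompact C) (hv : Convex ℝ C) (hK : C ⊆ epi Ω u)
    {a b : F n} (ha : a ∈ C) (hb : b ∈ C) :
    ∫ x in piece Ω u C, |mm u (a - b) x| ≤ 2 ^ (n + 2) * volume.real C := by
  have hpc : IsCompact (piece Ω u C) := h.piece_isCompact hC hK
  have hpm : MeasurableSet (piece Ω u C) := hpc.measurableSet
  have hm : AEMeasurable (mm u (a - b)) (volume.restrict (piece Ω u C)) :=
    ((h.mm_continuousOn (a - b)).mono (piece_subset C)).aemeasurable hpm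
  rw [integral_eq_lintegral_of_nonneg_ae (Filter.Eventually.of_forall fun x => abs_nonneg _)
    (continuous_abs.measurable.comp_aemeasurable hm).aestronglyMeasurable]
  have h1 := areaA_pos h hC hv hK ha hb
  have h2 := areaA_pos h hC hv hK hb ha
  have h3 : ∫⁻ x in piece Ω u C, ENNReal.ofReal |mm u (a - b) x| ≤ 2 ^ (n + 2) * volume C := by
    calc ∫⁻ x in piece Ω u C, ENNReal.ofReal |mm u (a - b) x|
        ≤ ∫⁻ x in piece Ω u C, (ENNReal.ofReal (mm u (a - b) x) + ENNReal.ofReal (mm u (b - a) x)) := by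
          refine lintegral_mono fun x => ?_
          rcases le_total 0 (mm u (a - b) x) with h0 | h0
          · rw [abs_of_nonneg h0]; exact le_self_add
          · rw [abs_of_nonpos h0, ← mm_neg, neg_sub]; exact le_add_self
      _ = (∫⁻ x in piece Ω u C, ENNReal.ofReal (mm u (a - b) x)) +
          ∫⁻ x in piece Ω u C, ENNReal.ofReal (mm u (b - a) x) := lintegral_add_left' hm.ennreal_ofReal _
      _ ≤ 2 ^ (n + 1) * volume C + 2 ^ (n + 1) * volume C := add_le_add h1 h2
      _ = 2 ^ (n + 2) * volume C := by ring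
  have h4 : (2 : ENNReal) ^ (n + 2) * volume C ≠ ⊤ :=
    ENNReal.mul_ne_top (ENNReal.pow_ne_top (by simp)) hC.measure_lt_top.ne
  refine (ENNReal.toReal_mono h4 h3).trans (le_of_eq ?_)
  rw [ENNReal.toReal_mul, ENNReal.toReal_pow, Measure.real]
  simp

end Crest.Agent.R236
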