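import Crest.Agent.R236.AreaA

/-!
# R236/AreaB TASK: the dual area bound (change of variables `(x, s) ↦ s (-∇u x, 1)`)
-/

set_option autoImplicit false

namespace Crest.Agent.R236

open Set MeasureTheory
open Crest.GeometryTopology.CoordMetric Crest.GeometryTopology.AffineMaximal
open scoped ContDiff

variable {n : ℕ} {Ω : Set (E n)} {u : E n → ℝ}

/-- the gradient in coordinates -/
noncomputable def grd (u : E n → ℝ) (x : E n) : E n := WithLp.toLp 2 fun i => pderiv i u x

/-- `inner (grd u x) v = fderiv ℝ u x v` (expand `v` in the standard basis) -/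
theorem areaB_inner (x v : E n) : inner ℝ (grd u x) v = fderiv ℝ u x v := by
  rw [Geo.geoc_lin (fderiv ℝ u x) v, PiLp.inner_apply]
  refine Finset.sum_congr rfl fun i _ => ?_
  simp [grd, pderiv]

/-- the derivative of the gradient map has the (transposed, symmetric) Hessian matrix -/
theorem areaB_grd_deriv (h : AM Ω u) {x : E n} (hx : x ∈ Ω) :
    ∃ A : E n →L[ℝ] E n, HasFDerivAt (grd u) A x ∧ A.det = (hessianMat u x).det := by
  have hd : ∀ i, DifferentiableAt ℝ (pderiv i u) x := fun i =>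
    ((pderiv_contDiffOn h.isOpen h.smooth i).contDiffAt (h.isOpen.mem_nhds hx)).differentiableAt (by simp)
  have hg : DifferentiableAt ℝ (grd u) x := differentiableAt_euclidean.2 fun i => hd i
  refine ⟨fderiv ℝ (grd u) x, hg.hasFDerivAt, ?_⟩
  have hb : LinearMap.toMatrix (EuclideanSpace.basisFun (Fin n) ℝ).toBasis (EuclideanSpace.basisFun (Fin n) ℝ).toBasis
      (fderiv ℝ (grd u) x : E n →ₗ[ℝ] E n) = (hessianMat u x).transpose := by
    ext i j
    rw [LinearMap.toMatrix_apply, Matrix.transpose_apply]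
    have h1 : HasFDerivAt (fun y => grd u y i) ((EuclideanSpace.proj i : E n →L[ℝ] ℝ).comp (fderiv ℝ (grd u) x)) x :=
      (EuclideanSpace.proj i : E n →L[ℝ] ℝ).hasFDerivAt.comp x hg.hasFDerivAt
    have h2 : hessianMat u x j i = fderiv ℝ (fun y => grd u y i) x (EuclideanSpace.single j 1) := rfl
    rw [h2, h1.fderiv]
    simp
  rw [ContinuousLinearMap.det, ← LinearMap.det_toMatrix (EuclideanSpace.basisFun (Fin n) ℝ).toBasis, hb,
    Matrix.det_transpose]

/-- add `Geo.tangent_lt` at `x` and at `y` -/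
theorem areaB_grd_inj (h : AM Ω u) : InjOn (grd u) Ω := by
  intro x hx y hy hxy
  by_contra hne
  have h1 := Geo.tangent_lt h.isOpen h.convex h.smooth h.pos hx hy (Ne.symm hne)
  have h2 := Geo.tangent_lt h.isOpen h.convex h.smooth h.pos hy hx hne
  rw [← areaB_inner] at h1 h2
  rw [← hxy, ← neg_sub y x, inner_neg_right] at h2
  linarith

/-- block triangular determinant (`Matrix.det_fromBlocks_zero₂₁` in the basis `b.prod (Basis.singleton Unit ℝ)`) -/
theorem areaB_det (A : E n →L[ℝ] E n) (w : E n) (L : F n →L[ℝ] F n)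
    (hL : ∀ v : E n, ∀ t : ℝ, L (v, t) = (A v + t • w, t)) : L.det = A.det := by
  set b := (EuclideanSpace.basisFun (Fin n) ℝ).toBasis with hb
  have hM : LinearMap.toMatrix (b.prod (Module.Basis.singleton Unit ℝ)) (b.prod (Module.Basis.singleton Unit ℝ))
      (L : F n →ₗ[ℝ] F n) = Matrix.fromBlocks (LinearMap.toMatrix b b (A : E n →ₗ[ℝ] E n))
        (Matrix.of fun i _ => b.repr w i) 0 1 := by
    ext (i | i) (j | j) <;> simp [LinearMap.toMatrix_apply, hL]
  rw [ContinuousLinearMap.det, ← LinearMap.det_toMatrix (b.prod (Module.Basis.singleton Unit ℝ)), hM,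
    Matrix.det_fromBlocks_zero₂₁, Matrix.det_one, mul_one, LinearMap.det_toMatrix]

/-- the transpose for the pairing `⟨p, y⟩ = inner p.1 y.1 + p.2 * y.2` has the same determinant
(transposed matrix in the basis `(EuclideanSpace.basisFun _ ℝ).toBasis.prod (Basis.singleton Unit ℝ)`) -/
theorem areaB_transpose (T : F n →ₗ[ℝ] F n) : ∃ S : F n →ₗ[ℝ] F n, LinearMap.det S = LinearMap.det T ∧
    ∀ p y : F n, inner ℝ (S p).1 y.1 + (S p).2 * y.2 = inner ℝ p.1 (T y).1 + p.2 * (T y).2 := by
  set B := (EuclideanSpace.basisFun (Fin n) ℝ).toBasis.prod (Module.Basis.singleton Unit ℝ) with hB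
  have hp : ∀ p y : F n, inner ℝ p.1 y.1 + p.2 * y.2 = dotProduct (B.repr p) (B.repr y) := by
    intro p y
    simp [hB, dotProduct, Fintype.sum_sum_type, PiLp.inner_apply, mul_comm]
  refine ⟨Matrix.toLin B B (LinearMap.toMatrix B B T).transpose, ?_, fun p y => ?_⟩
  · rw [LinearMap.det_toLin, Matrix.det_transpose, LinearMap.det_toMatrix]
  · rw [hp, hp, ← LinearMap.toMatrix_mulVec_repr B B T y, ← LinearMap.toMatrix_mulVec_repr B B _ p,
      LinearMap.toMatrix_toLin, Matrix.mulVec_transpose, Matrix.dotProduct_mulVec]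

theorem areaB_one (n : ℕ) {a c : ℝ} (ha : 0 ≤ a) (hc : 0 ≤ c) :
    ∫⁻ s in Ioo 0 a, ENNReal.ofReal (s ^ n * c) = ENNReal.ofReal (c * a ^ (n + 1) / (n + 1)) := by
  rw [← ofReal_integral_eq_lintegral_ofReal]
  · congr 1
    rw [← integral_Ioc_eq_integral_Ioo, ← intervalIntegral.integral_of_le ha, intervalIntegral.integral_mul_const,
      integral_pow]
    simp
    ring
  · exact ((by fun_prop : Continuous fun s : ℝ => s ^ n * c).integrableOn_Icc).mono_set Ioo_subset_Icc_self
  · filter_upwards [ae_restrict_mem measurableSet_Ioo] with s hs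
    exact mul_nonneg (pow_nonneg hs.1.le _) hc

theorem areaB_jac (h : AM Ω u) {p : F n} (hp : p.1 ∈ Ω) :
    ∃ L : F n →L[ℝ] F n, HasFDerivAt (fun q : F n => ((-(q.2 • grd u q.1), q.2) : F n)) L p ∧
      L.det = (-p.2) ^ n * (hessianMat u p.1).det := by
  obtain ⟨A, hA, hdet⟩ := areaB_grd_deriv h hp
  have h1 : HasFDerivAt (fun q : F n => grd u q.1) (A.comp (ContinuousLinearMap.fst ℝ (E n) ℝ)) p :=
    hA.comp p hasFDerivAt_fst
  have h2 : HasFDerivAt (fun q : F n => q.2) (ContinuousLinearMap.snd ℝ (E n) ℝ) p := hasFDerivAt_snd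
  refine ⟨_, ((h2.smul h1).neg).prodMk h2, ?_⟩
  rw [areaB_det ((-p.2) • A) (-grd u p.1) _ ?_, ← hdet]
  · rw [ContinuousLinearMap.det, ContinuousLinearMap.det, ContinuousLinearMap.toLinearMap_smul, LinearMap.det_smul]
    simp
  · intro v t
    simp [add_comm]

theorem areaB_ball {p : F n} (h : ∀ y : F n, |inner ℝ p.1 y.1 + p.2 * y.2| ≤ ‖y‖) :
    p ∈ Metric.closedBall (0 : F n) 1 := by
  rw [mem_closedBall_zero_iff, Prod.norm_def, max_le_iff]
  have h1 := h (p.1, 0)
  have h2 := h (0, p.2)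
  simp only [Prod.norm_def, norm_zero, mul_zero, add_zero, inner_zero_right, zero_add, real_inner_self_eq_norm_sq,
    norm_nonneg, max_eq_left, max_eq_right] at h1 h2
  rw [abs_of_nonneg (sq_nonneg _)] at h1
  rw [abs_mul, ← Real.norm_eq_abs] at h2
  constructor
  · nlinarith [norm_nonneg p.1]
  · nlinarith [norm_nonneg p.2]

/-- `Ψ (x, s) = (-(s • grd u x), s)` on the measurable set `D = {(x, s) | x ∈ P, 0 < s ≤ 1 / N x}` is injective
(`areaB_grd_inj`), has Jacobian `(-s)^n det D²u(x)` (`areaB_det`, `LinearMap.det_smul`), and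
`⟨Ψ (x, s), T y⟩ = s * mm u (T y) x`, so that `S (Ψ (x, s)) ∈ closedBall 0 1` (test with `y = ((S p).1, 0)` and
`y = (0, (S p).2)`; sup norm on `F n`).  `Measure.addHaar_preimage_linearMap` (or `addHaar_image_linearMap`) bounds
`|det T| * vol (Ψ '' D) ≤ vol (closedBall 0 1)`, and by Tonelli
`∫_D s^n det = ∫_P det * (1 / N)^(n+1) / (n+1)`.  Take `c = (n + 1) * volume.real (closedBall (0 : F n) 1)`. -/
theorem area_dual (n : ℕ) : ∃ c : ℝ, 0 ≤ c ∧ ∀ (Ω : Set (E n)) (u : E n → ℝ), AM Ω u →
    ∀ P : Set (E n), IsCompact P → P ⊆ Ω → ∀ (T : F n →ₗ[ℝ] F n) (N : E n → ℝ), ContinuousOn N P →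
      (∀ x ∈ P, 0 < N x) → (∀ x ∈ P, ∀ y : F n, |mm u (T y) x| ≤ N x * ‖y‖) →
      |LinearMap.det T| * ∫ x in P, (hessianMat u x).det / N x ^ (n + 1) ≤ c := by
  classical
  have hH : (volume : Measure (F n)).IsAddHaarMeasure :=
    inferInstanceAs ((volume : Measure (E n)).prod (volume : Measure ℝ)).IsAddHaarMeasure
  refine ⟨(n + 1) * volume.real (Metric.closedBall (0 : F n) 1), by positivity, ?_⟩
  intro Ω u h P hP hPΩ T N hN hN0 hb
  have hPm : MeasurableSet P := hP.measurableSet
  obtain ⟨S, hS, hSp⟩ := areaB_transpose T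
  have hdc : ContinuousOn (fun x => (hessianMat u x).det) P := h.det_contDiffOn.continuousOn.mono hPΩ
  have hd0 : ∀ x ∈ P, 0 < (hessianMat u x).det := fun x hx => (h.pos x (hPΩ hx)).det_pos
  have hgc : ContinuousOn (fun x => (N x)⁻¹) P := hN.inv₀ fun x hx => (hN0 x hx).ne'
  set g : E n → ℝ := P.piecewise (fun x => (N x)⁻¹) 0 with hg
  set d : E n → ℝ := P.piecewise (fun x => (hessianMat u x).det) 0 with hd
  have hgm : Measurable g := hgc.measurable_piecewise continuousOn_const hPm
  have hdm : Measurable d := hdc.measurable_piecewise continuousOn_const hPm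
  have hgx : ∀ x ∈ P, g x = (N x)⁻¹ := fun x hx => piecewise_eq_of_mem _ _ _ hx
  have hdx : ∀ x ∈ P, d x = (hessianMat u x).det := fun x hx => piecewise_eq_of_mem _ _ _ hx
  set D : Set (F n) := regionBetween (fun _ => 0) g P with hD
  have hDm : MeasurableSet D := measurableSet_regionBetween measurable_const hgm hPm
  set Ψ : F n → F n := fun q => (-(q.2 • grd u q.1), q.2) with hΨ
  have hder : ∀ p ∈ D, HasFDerivWithinAt Ψ (fderiv ℝ Ψ p) D p := fun p hp => by
    obtain ⟨L, hL, -⟩ := areaB_jac h (hPΩ hp.1)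
    exact hL.differentiableAt.hasFDerivAt.hasFDerivWithinAt
  have hdet : ∀ p ∈ D, |(fderiv ℝ Ψ p).det| = p.2 ^ n * d p.1 := fun p hp => by
    obtain ⟨L, hL, hL'⟩ := areaB_jac h (hPΩ hp.1)
    rw [hL.fderiv, hL', hdx _ hp.1, abs_mul, abs_pow, abs_neg, abs_of_pos hp.2.1, abs_of_pos (hd0 _ hp.1)]
  have hinj : InjOn Ψ D := by
    intro p hp q hq hpq
    have h2 : p.2 = q.2 := (congrArg Prod.snd hpq : (Ψ p).2 = (Ψ q).2)
    have h1 : -(p.2 • grd u p.1) = -(q.2 • grd u q.1) := congrArg Prod.fst hpq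
    rw [neg_inj, ← h2] at h1
    have h3 := smul_right_injective (E n) (ne_of_gt hp.2.1) h1
    exact Prod.ext (areaB_grd_inj h (hPΩ hp.1) (hPΩ hq.1) h3) h2
  have hcv := lintegral_abs_det_fderiv_eq_addHaar_image volume hDm hder hinj
  have hsub : S '' (Ψ '' D) ⊆ Metric.closedBall (0 : F n) 1 := by
    rintro _ ⟨_, ⟨p, hp, rfl⟩, rfl⟩
    refine areaB_ball fun y => ?_
    rw [hSp]
    have e : inner ℝ (Ψ p).1 (T y).1 + (Ψ p).2 * (T y).2 = p.2 * mm u (T y) p.1 := by
      simp only [hΨ, mm, inner_neg_left, real_inner_smul_left, areaB_inner]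
      ring
    have h1 : 0 < p.2 := hp.2.1
    have h2 : p.2 < g p.1 := hp.2.2
    rw [hgx _ hp.1] at h2
    have h3 := hN0 _ hp.1
    rw [e, abs_mul, abs_of_pos h1]
    calc p.2 * |mm u (T y) p.1| ≤ (N p.1)⁻¹ * (N p.1 * ‖y‖) :=
          mul_le_mul h2.le (hb _ hp.1 y) (abs_nonneg _) (by positivity)
      _ = ‖y‖ := by field_simp
  have hle := measure_mono (μ := volume) hsub
  rw [Measure.addHaar_image_linearMap, hS, ← hcv] at hle
  have hI : ∫⁻ p in D, ENNReal.ofReal |(fderiv ℝ Ψ p).det| =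
      ∫⁻ x in P, ENNReal.ofReal ((hessianMat u x).det / N x ^ (n + 1) / (n + 1)) := by
    rw [setLIntegral_congr_fun hDm (g := fun p => ENNReal.ofReal (p.2 ^ n * d p.1))
      (fun p hp => by simp only [hdet p hp]), ← lintegral_indicator hDm, ← lintegral_indicator hPm,
      Measure.volume_eq_prod, lintegral_prod]
    · refine lintegral_congr fun x => ?_
      by_cases hx : x ∈ P
      · rw [indicator_of_mem hx]
        have e : (hessianMat u x).det / N x ^ (n + 1) / (n + 1) = d x * g x ^ (n + 1) / (n + 1) := by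
          rw [hdx x hx, hgx x hx, inv_pow, div_eq_mul_inv (hessianMat u x).det]
        rw [e, ← areaB_one n (by rw [hgx x hx]; exact (inv_pos.2 (hN0 x hx)).le)
          (by rw [hdx x hx]; exact (hd0 x hx).le), ← lintegral_indicator measurableSet_Ioo]
        refine lintegral_congr fun s => ?_
        by_cases hs : s ∈ Ioo 0 (g x)
        · rw [indicator_of_mem hs, indicator_of_mem (show (x, s) ∈ D from ⟨hx, hs⟩)]
        · rw [indicator_of_notMem hs, indicator_of_notMem (show (x, s) ∉ D from fun h' => hs h'.2)]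
      · rw [indicator_of_notMem hx]
        refine (lintegral_congr fun s => ?_).trans lintegral_zero
        exact indicator_of_notMem (show (x, s) ∉ D from fun h' => hx h'.1) _
    · refine (Measurable.indicator ?_ hDm).aemeasurable
      exact ((measurable_snd.pow_const n).mul (hdm.comp measurable_fst)).ennreal_ofReal
  have hc : ContinuousOn (fun x => (hessianMat u x).det / N x ^ (n + 1) / (n + 1)) P :=
    (hdc.div (hN.pow _) fun x hx => pow_ne_zero _ (hN0 x hx).ne').div_const _
  rw [hI, ← ofReal_integral_eq_lintegral_ofReal (hc.integrableOn_compact hP), ← ENNReal.ofReal_mul (abs_nonneg _),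
    ENNReal.ofReal_le_iff_le_toReal (measure_closedBall_lt_top).ne, integral_div] at hle
  · rw [← mul_div_assoc, div_le_iff₀ (by positivity), mul_comm _ ((n : ℝ) + 1)] at hle
    exact hle
  · filter_upwards [ae_restrict_mem hPm] with x hx
    have := hd0 x hx
    have := hN0 x hx
    positivity

end Crest.Agent.R236
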