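import Crest.Agent.R236.GeoLL

/-!
# R236/GeoNorm TASK: normalisation of convex bodies by a simplex of maximal volume
-/

set_option autoImplicit false

namespace Crest.Agent.R236.Geo

open Set Filter Topology Metric

variable {F : Type} [NormedAddCommGroup F] [NormedSpace ℝ F] [FiniteDimensional ℝ F]

omit [FiniteDimensional ℝ F] in
theorem convex_sub_comb {ι : Type} [Fintype ι] {C : Set F} (hv : Convex ℝ C) {o : F} (ho : o ∈ C)
    {x : ι → F} (hx : ∀ i, x i ∈ C) {y : ι → ℝ} (h0 : ∀ i, 0 ≤ y i) (h1 : ∑ i, y i ≤ 1) :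
    o + ∑ i, y i • (x i - o) ∈ C := by
  have := hv.sum_mem (t := (Finset.univ : Finset (Option ι)))
    (w := fun j => j.elim (1 - ∑ i, y i) y) (z := fun j => j.elim o x)
    (fun j _ => by
      cases j with
      | none => simpa using h1
      | some i => simpa using h0 i)
    (by simp [Fintype.sum_option])
    (fun j _ => by
      cases j with
      | none => simpa using ho
      | some i => simpa using hx i)
  convert this using 1
  simp only [Fintype.sum_option, Option.elim_none, Option.elim_some, smul_sub, Finset.sum_sub_distrib,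
    ← Finset.sum_smul, sub_smul, one_smul]
  abel

theorem exists_det_ne {C : Set F} (b : Module.Basis (Fin (Module.finrank ℝ F)) ℝ F)
    (hi : (interior C).Nonempty) (o : F) :
    ∃ x : Fin (Module.finrank ℝ F) → F, (∀ i, x i ∈ C) ∧ b.det (fun i => x i - o) ≠ 0 := by
  classical
  obtain ⟨p, hp⟩ := hi
  set σ : F →ₗ[ℝ] ℝ := ∑ i, b.coord i with hσ
  have hσb : ∀ i, σ (b i) = 1 := fun i => by
    simp [hσ, Finsupp.single_apply]
  have h1 : ∀ᶠ r in 𝓝 (0 : ℝ), ∀ i, p + r • b i ∈ C := by
    rw [eventually_all]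
    intro i
    have : Tendsto (fun r : ℝ => p + r • b i) (𝓝 0) (𝓝 p) := by
      have hc : Continuous fun r : ℝ => p + r • b i := by fun_prop
      simpa using hc.tendsto 0
    exact this (mem_interior_iff_mem_nhds.1 hp)
  have h2 : ∀ᶠ r in 𝓝[≠] (0 : ℝ), r ≠ -σ (p - o) :=
    nhdsNE_le_cofinite _ (eventually_cofinite_ne _)
  have h3 : ∀ᶠ r in 𝓝[≠] (0 : ℝ), r ≠ 0 := self_mem_nhdsWithin
  obtain ⟨r, ⟨hr1, hr2⟩, hr3⟩ := (((h1.filter_mono nhdsWithin_le_nhds).and h2).and h3).exists
  refine ⟨fun i => p + r • b i, hr1, ?_⟩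
  have hli : LinearIndependent ℝ (fun i => p + r • b i - o) := by
    rw [Fintype.linearIndependent_iff]
    intro c hc
    have e1 : ∑ i, c i • (p + r • b i - o) = (∑ i, c i) • (p - o) + r • ∑ i, c i • b i := by
      rw [Finset.sum_smul, Finset.smul_sum, ← Finset.sum_add_distrib]
      refine Finset.sum_congr rfl fun i _ => ?_
      module
    rw [e1] at hc
    have e2 := congrArg σ hc
    simp only [map_add, map_smul, map_sum, hσb, smul_eq_mul, mul_one, map_zero] at e2
    have e3 : (∑ i, c i) = 0 := by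
      have : (∑ i, c i) * (r + σ (p - o)) = 0 := by linarith
      rcases mul_eq_zero.1 this with h | h
      · exact h
      · exact absurd (by linarith) hr2
    rw [e3, zero_smul, zero_add, smul_eq_zero] at hc
    exact Fintype.linearIndependent_iff.1 b.linearIndependent c (hc.resolve_left hr3)
  have hsp := hli.span_eq_top_of_card_eq_finrank' (by simp)
  exact isUnit_iff_ne_zero.1 ((b.is_basis_iff_det).1 ⟨hli, hsp⟩)

/-- Fix a basis `b` of `F` (`Module.finBasis`).  Maximise `|b.det (fun i => x i - o)|` over `x ∈ C^N` (compact);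
the maximum is positive since `C` has interior (`C - o` spans: a ball `B(p,r) ⊆ C`; take `x i = p + r' b i`
or `p` itself suitably; e.g. the function `x ↦ det` is a nonzero polynomial on an open set, or use
`exists_linearIndependent`/`span_eq_top_of_mem_interior`-type lemmas).  `T` maps `x i - o ↦ b i`.
Replacing `x i` by `X ∈ C` shows that the coordinates of `T (X - o)` are `≤ 1` in absolute value;
`T (C - o) ⊇ convexHull {0, b i}` contains a fixed ball around `c₀ = (N+1)⁻¹ ∑ b i`. -/
theorem exists_norm : ∃ (c₀ : F) (r₀ R₀ : ℝ), 0 < r₀ ∧ ∀ (C : Set F) (o : F), IsCompact C → Convex ℝ C →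
    (interior C).Nonempty → o ∈ C → ∃ T : F ≃L[ℝ] F,
      ball c₀ r₀ ⊆ aff T (-T o) C ∧ aff T (-T o) C ⊆ closedBall 0 R₀ := by
  classical
  set b := Module.finBasis ℝ F with hb
  set N := Module.finrank ℝ F with hN
  have hco : ∀ i, Continuous (b.coord i) := fun i => LinearMap.continuous_of_finiteDimensional _
  set U : Set F := {Y | (∀ i, 0 < b.coord i Y) ∧ ∑ i, b.coord i Y < 1} with hU
  have hUo : IsOpen U := by
    have h1 : IsOpen {Y : F | ∀ i, 0 < b.coord i Y} := by
      rw [setOf_forall]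
      exact isOpen_iInter_of_finite fun i => isOpen_lt continuous_const (hco i)
    have h2 : IsOpen {Y : F | ∑ i, b.coord i Y < 1} :=
      isOpen_lt (continuous_finsetSum _ fun i _ => hco i) continuous_const
    exact h1.inter h2
  set c₀ : F := ∑ i, ((N : ℝ) + 1)⁻¹ • b i with hc₀
  have hcc : ∀ i, b.coord i c₀ = ((N : ℝ) + 1)⁻¹ := by
    intro i
    simp [hc₀, Finsupp.single_apply, Pi.single_apply]
  have hN1 : (0 : ℝ) < (N : ℝ) + 1 := by positivity
  have hc₀U : c₀ ∈ U := by
    refine ⟨fun i => by rw [hcc]; positivity, ?_⟩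
    simp only [hcc, Finset.sum_const, Finset.card_univ, Fintype.card_fin, nsmul_eq_mul]
    rw [← div_eq_mul_inv, div_lt_one hN1]
    linarith
  obtain ⟨r₀, hr₀, hball⟩ := Metric.isOpen_iff.1 hUo c₀ hc₀U
  refine ⟨c₀, r₀, ∑ i, ‖b i‖, hr₀, fun C o hC hv hi ho => ?_⟩
  have hD : Continuous fun x : Fin N → F => |b.det (fun i => x i - o)| := by
    refine Continuous.abs ?_
    simp only [Module.Basis.det_apply]
    refine Continuous.matrix_det ?_
    refine continuous_matrix fun i j => ?_
    simp only [Module.Basis.toMatrix_apply]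
    exact (hco i).comp ((continuous_apply j).sub continuous_const)
  have hK : IsCompact (Set.pi univ fun _ : Fin N => C) := isCompact_univ_pi fun _ => hC
  obtain ⟨x, hx, hmax⟩ := hK.exists_isMaxOn ⟨fun _ => o, fun _ _ => ho⟩ hD.continuousOn
  have hxC : ∀ i, x i ∈ C := fun i => hx i (mem_univ _)
  obtain ⟨x', hx', hdet'⟩ := exists_det_ne b hi o
  have hdet : b.det (fun i => x i - o) ≠ 0 := by
    intro h0
    have := hmax (a := x') (fun i _ => hx' i)
    simp only [mem_setOf_eq, h0, abs_zero] at this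
    exact hdet' (abs_nonpos_iff.1 this)
  obtain ⟨hli, hsp⟩ := (b.is_basis_iff_det (v := fun i => x i - o)).2 (isUnit_iff_ne_zero.2 hdet)
  set B := Module.Basis.mk hli hsp.ge with hB
  have hBi : ∀ i, B i = x i - o := fun i => by simp [hB]
  set T : F ≃L[ℝ] F := (B.equiv b (Equiv.refl _)).toContinuousLinearEquiv with hT
  have hTB : ∀ i, T (B i) = b i := fun i => by simp [hT]
  have hTs : ∀ i, T.symm (b i) = x i - o := fun i => by
    rw [← hTB, ContinuousLinearEquiv.symm_apply_apply, hBi]
  refine ⟨T, fun Y hY => ?_, ?_⟩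
  · obtain ⟨h1, h2⟩ := hball hY
    rw [mem_aff]
    have : T.symm (Y - -T o) = o + ∑ i, b.coord i Y • (x i - o) := by
      conv_lhs => rw [← b.sum_repr Y]
      simp only [sub_neg_eq_add, map_add, map_sum, map_smul, hTs,
        ContinuousLinearEquiv.symm_apply_apply, Module.Basis.coord_apply]
      rw [add_comm]
    rw [this]
    exact convex_sub_comb hv ho hxC (fun i => (h1 i).le) h2.le
  · rintro _ ⟨X, hX, rfl⟩
    have hcoord : ∀ i, |B.coord i (X - o)| ≤ 1 := by
      intro i
      have h1 := LinearMap.congr_fun (b.det_smul_mk_coord_eq_det_update hli hsp.ge i) (X - o)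
      simp only [LinearMap.smul_apply, smul_eq_mul, MultilinearMap.toLinearMap_apply,
        AlternatingMap.coe_multilinearMap] at h1
      have h2 := hmax (a := Function.update x i X) (fun j _ => by
        by_cases hj : j = i
        · subst hj; simpa using hX
        · simpa [Function.update_of_ne hj] using hxC j)
      simp only [mem_setOf_eq] at h2
      have h3 : (fun j => Function.update x i X j - o) = Function.update (fun i => x i - o) i (X - o) := by
        funext j
        by_cases hj : j = i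
        · subst hj; simp
        · simp [Function.update_of_ne hj]
      rw [h3, ← h1, abs_mul] at h2
      have h4 : 0 < |b.det (fun i => x i - o)| := abs_pos.2 hdet
      rw [← hB] at h2
      nlinarith
    rw [mem_closedBall_zero_iff]
    have : T X + -T o = ∑ i, B.coord i (X - o) • b i := by
      rw [← sub_eq_add_neg, ← map_sub]
      conv_lhs => rw [← B.sum_repr (X - o)]
      simp only [map_sum, map_smul, hTB, Module.Basis.coord_apply]
    show ‖T X + -T o‖ ≤ _
    rw [this]
    refine (norm_sum_le _ _).trans (Finset.sum_le_sum fun i _ => ?_)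
    rw [norm_smul, Real.norm_eq_abs]
    exact mul_le_of_le_one_left (norm_nonneg _) (hcoord i)

theorem cap_convex {r : ℕ} {K : Set F} (h : Convex ℝ K) (o : F) (ξ : Fin r → F →L[ℝ] ℝ) :
    Convex ℝ (cap K o ξ) := by
  intro X hX Y hY a b ha hb hab
  refine ⟨h hX.1 hY.1 ha hb hab, ?_⟩
  have e : a • X + b • Y - o = a • (X - o) + b • (Y - o) := by
    have : o = a • o + b • o := by rw [← add_smul, hab, one_smul]
    conv_lhs => rw [this]
    simp only [smul_sub]; abel
  simp only [e, map_add, map_smul, smul_eq_mul, Finset.sum_add_distrib, ← Finset.mul_sum]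
  have h1 := mul_le_mul_of_nonneg_left hX.2 ha
  have h2 := mul_le_mul_of_nonneg_left hY.2 hb
  nlinarith

theorem cap_closed {r : ℕ} {K : Set F} (h : IsClosed K) (o : F) (ξ : Fin r → F →L[ℝ] ℝ) :
    IsClosed (cap K o ξ) := by
  have : IsClosed {X : F | ∑ i, ξ i (X - o) ≤ 4} :=
    isClosed_le (continuous_finsetSum _ fun i _ => (ξ i).continuous.comp
      (continuous_id.sub continuous_const)) continuous_const
  exact h.inter this

/-- `o + s (p - o)` for `p ∈ interior K`, `s > 0` small (`Convex.add_smul_sub_mem_interior`) -/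
theorem cap_interior {r : ℕ} {K : Set F} (h : Convex ℝ K) {o : F} (ho : o ∈ K)
    (hi : (interior K).Nonempty) (ξ : Fin r → F →L[ℝ] ℝ) : (interior (cap K o ξ)).Nonempty := by
  obtain ⟨p, hp⟩ := hi
  have hc : Continuous fun X : F => ∑ i, ξ i (X - o) :=
    continuous_finsetSum _ fun i _ => (ξ i).continuous.comp (continuous_id.sub continuous_const)
  have hO : IsOpen {X : F | ∑ i, ξ i (X - o) < 4} := isOpen_lt hc continuous_const
  have h1 : ∀ᶠ s in 𝓝 (0 : ℝ), o + s • (p - o) ∈ {X : F | ∑ i, ξ i (X - o) < 4} := by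
    have hc' : Continuous fun s : ℝ => o + s • (p - o) := by fun_prop
    have : Tendsto (fun s : ℝ => o + s • (p - o)) (𝓝 0) (𝓝 o) := by simpa using hc'.tendsto 0
    exact this (hO.mem_nhds (by simp))
  have h2 : ∀ᶠ s in 𝓝[>] (0 : ℝ), s ∈ Ioc (0 : ℝ) 1 := Ioc_mem_nhdsGT one_pos
  obtain ⟨s, hs1, hs2⟩ := ((h1.filter_mono nhdsWithin_le_nhds).and h2).exists
  refine ⟨o + s • (p - o), ?_⟩
  have h3 := h.add_smul_sub_mem_interior ho hp hs2
  refine interior_maximal (t := interior K ∩ {X : F | ∑ i, ξ i (X - o) < 4}) ?_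
    (isOpen_interior.inter hO) ⟨h3, hs1⟩
  exact fun X hX => ⟨interior_subset hX.1, le_of_lt hX.2⟩

theorem cap_aff {r : ℕ} (K : Set F) (o : F) (ξ : Fin r → F →L[ℝ] ℝ) (T : F ≃L[ℝ] F) :
    cap (aff T (-T o) K) 0 (fun i => (ξ i).comp (T.symm : F →L[ℝ] F)) = aff T (-T o) (cap K o ξ) := by
  ext Y
  simp only [cap, mem_setOf_eq, mem_aff, sub_neg_eq_add, map_add,
    ContinuousLinearEquiv.symm_apply_apply, add_sub_cancel_right, sub_zero,
    ContinuousLinearMap.comp_apply, ContinuousLinearEquiv.coe_coe]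

theorem App.aff {r : ℕ} {K : Set F} {o : F} {e : Fin r → F} {ξ : Fin r → F →L[ℝ] ℝ} {L ε : ℝ}
    (h : App K o e ξ L ε) (T : F ≃L[ℝ] F) :
    App (aff T (-T o) K) 0 (fun i => T (e i)) (fun i => (ξ i).comp (T.symm : F →L[ℝ] F)) L ε := by
  refine ⟨?_, fun i t h0 h1 => ?_, fun i X hX => ?_, fun i j => ?_, ?_, aff_interior h.int _ _⟩
  · exact ⟨o, h.mem, by simp⟩
  · exact ⟨o + t • e i, h.ray i t h0 h1, by simp⟩
  · obtain ⟨X, hX, rfl⟩ := hX
    have := h.nonneg i X hX
    simpa [← sub_eq_add_neg, ← map_sub] using this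
  · simpa using h.dual i j
  · rw [cap_aff]
    have hL : LipschitzWith ‖(T : F →L[ℝ] F)‖₊ (fun X => T X + -T o) := by
      intro X Y
      have := (T : F →L[ℝ] F).lipschitz X Y
      simpa [edist_add_right] using this
    exact hL.isBounded_image h.bdd

theorem Str.app {r : ℕ} {K : Set F} {o : F} {e : Fin r → F} {ξ : Fin r → F →L[ℝ] ℝ}
    (h : Str K o e ξ) (L : ℝ) : App K o e ξ L 0 := by
  refine ⟨h.mem, fun i t h0 _ => h.ray i t h0, fun i X hX => by simpa using h.nonneg i X hX,
    fun i j => by simp [h.dual], h.bdd, h.int⟩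

/-- rays are recession directions of a closed convex set -/
theorem Str.recession {r : ℕ} {K : Set F} {o : F} {e : Fin r → F} {ξ : Fin r → F →L[ℝ] ℝ}
    (h : Str K o e ξ) (hc : IsClosed K) (hv : Convex ℝ K) {X : F} (hX : X ∈ K) (a : Fin r → ℝ)
    (ha : ∀ i, 0 ≤ a i) : X + ∑ i, a i • e i ∈ K := by
  classical
  have key : ∀ (Y : F), Y ∈ K → ∀ i (t : ℝ), 0 ≤ t → Y + t • e i ∈ K := by
    intro Y hY i t ht
    have hc' : Continuous fun s : ℝ => Y + t • e i + s • (o - Y) := by fun_prop
    have h1 : Tendsto (fun s : ℝ => Y + t • e i + s • (o - Y)) (𝓝[>] 0) (𝓝 (Y + t • e i)) := by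
      have := hc'.tendsto 0
      simp only [zero_smul, add_zero] at this
      exact this.mono_left nhdsWithin_le_nhds
    refine hc.mem_of_tendsto h1 ?_
    filter_upwards [Ioc_mem_nhdsGT one_pos] with s hs
    have h2 := hv hY (h.ray i (t / s) (div_nonneg ht hs.1.le)) (sub_nonneg.2 hs.2) hs.1.le
      (by ring)
    convert h2 using 1
    rw [smul_add, smul_smul, mul_div_cancel₀ _ hs.1.ne']
    module
  have : ∀ s : Finset (Fin r), X + ∑ i ∈ s, a i • e i ∈ K := by
    intro s
    induction s using Finset.induction_on with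
    | empty => simpa using hX
    | insert j s hj ih =>
      rw [Finset.sum_insert hj, add_comm (a j • e j), ← add_assoc]
      exact key _ ih j _ (ha j)
  exact this _

/-- every level set is bounded: `{∑ ξ ≤ 4λ} ∩ K ⊆ o + λ (cap - o)` for `λ ≥ 1` -/
theorem Str.bdd_level {r : ℕ} {K : Set F} {o : F} {e : Fin r → F} {ξ : Fin r → F →L[ℝ] ℝ}
    (h : Str K o e ξ) (hv : Convex ℝ K) (M : ℝ) :
    Bornology.IsBounded {X | X ∈ K ∧ ∑ i, ξ i (X - o) ≤ M} := by
  obtain ⟨R, hR⟩ := (isBounded_iff_subset_closedBall o).1 h.bdd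
  set l : ℝ := max 1 (M / 4) with hl
  have hl1 : 1 ≤ l := le_max_left _ _
  have hl2 : M / 4 ≤ l := le_max_right _ _
  have hl0 : 0 < l := by linarith
  refine (isBounded_closedBall (x := o) (r := l * R)).subset fun X hX => ?_
  have h1 : o + l⁻¹ • (X - o) ∈ cap K o ξ := by
    refine ⟨hv.add_smul_sub_mem h.mem hX.1 ⟨by positivity, inv_le_one_of_one_le₀ hl1⟩, ?_⟩
    simp only [add_sub_cancel_left, map_smul, smul_eq_mul, ← Finset.mul_sum]
    rw [inv_mul_le_iff₀ hl0]
    have := hX.2
    linarith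
  have h2 := hR h1
  rw [mem_closedBall, dist_eq_norm] at h2 ⊢
  rw [add_sub_cancel_left, norm_smul, Real.norm_eq_abs, abs_of_pos (by positivity),
    inv_mul_le_iff₀ hl0] at h2
  exact h2

theorem Str.scale {r : ℕ} {K : Set F} {o : F} {e : Fin r → F} {ξ : Fin r → F →L[ℝ] ℝ}
    (h : Str K o e ξ) (hv : Convex ℝ K) {a : Fin r → ℝ} (ha : ∀ i, 0 < a i) :
    Str K o (fun i => a i • e i) (fun i => (a i)⁻¹ • ξ i) := by
  refine ⟨h.mem, fun i t ht => ?_, fun i X hX => ?_, fun i j => ?_, ?_, h.int⟩
  · rw [smul_smul]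
    exact h.ray i _ (mul_nonneg ht (ha i).le)
  · simp only [ContinuousLinearMap.smul_apply, smul_eq_mul]
    exact mul_nonneg (inv_nonneg.2 (ha i).le) (h.nonneg i X hX)
  · simp only [ContinuousLinearMap.smul_apply, map_smul, smul_eq_mul, h.dual]
    split_ifs with hij
    · subst hij
      field_simp [(ha i).ne']
    · simp
  · refine (h.bdd_level hv ((∑ j, a j) * 4)).subset fun X hX => ⟨hX.1, ?_⟩
    have hA : 0 ≤ ∑ j, a j := Finset.sum_nonneg fun j _ => (ha j).le
    refine le_trans ?_ (mul_le_mul_of_nonneg_left hX.2 hA)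
    rw [Finset.mul_sum]
    refine Finset.sum_le_sum fun i _ => ?_
    simp only [ContinuousLinearMap.smul_apply, smul_eq_mul]
    have h1 : a i ≤ ∑ j, a j := Finset.single_le_sum (fun j _ => (ha j).le) (Finset.mem_univ i)
    have h2 := h.nonneg i X hX.1
    have h3 : 0 ≤ (a i)⁻¹ * ξ i (X - o) := mul_nonneg (inv_nonneg.2 (ha i).le) h2
    calc ξ i (X - o) = a i * ((a i)⁻¹ * ξ i (X - o)) := by field_simp [(ha i).ne']
      _ ≤ _ := mul_le_mul_of_nonneg_right h1 h3

/-- the `e i` are linearly independent -/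
theorem Str.le_finrank {r : ℕ} {K : Set F} {o : F} {e : Fin r → F} {ξ : Fin r → F →L[ℝ] ℝ}
    (h : Str K o e ξ) : r ≤ Module.finrank ℝ F := by
  have hli : LinearIndependent ℝ e := by
    rw [Fintype.linearIndependent_iff]
    intro c hc i
    have := congrArg (ξ i) hc
    simpa [h.dual] using this
  simpa using hli.fintype_card_le_finrank

end Crest.Agent.R236.Geo
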