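import Crest.Agent.R236.AreaB
import Crest.Agent.R236.GeoNorm

/-!
# R236/AreaC (helper72): normalisation and the gauge `N` with the primal and the dual bound
-/

set_option autoImplicit false

namespace Crest.Agent.R236

open Set MeasureTheory Metric
open Crest.GeometryTopology.CoordMetric Crest.GeometryTopology.AffineMaximal
open scoped ContDiff

variable {n : ℕ} {Ω : Set (E n)} {u : E n → ℝ}

theorem area_norm {X : Type} [NormedAddCommGroup X] [NormedSpace ℝ X] [FiniteDimensional ℝ X]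
    [MeasurableSpace X] [BorelSpace X] (μ : Measure X) [μ.IsAddHaarMeasure] :
    ∃ r R a b : ℝ, 0 < r ∧ 0 < R ∧ 0 < a ∧ 0 < b ∧ ∀ (C : Set X) (o : X), IsCompact C → Convex ℝ C →
      (interior C).Nonempty → o ∈ C → ∃ T : X ≃L[ℝ] X,
        (∀ y, ‖y‖ ≤ r → ∃ Z ∈ C, ∃ Z' ∈ C, Z - Z' = T.symm y) ∧ (∀ Z ∈ C, ‖T (Z - o)‖ ≤ R) ∧
        a ≤ |LinearMap.det (T : X →ₗ[ℝ] X)| * μ.real C ∧ |LinearMap.det (T : X →ₗ[ℝ] X)| * μ.real C ≤ b := by
  obtain ⟨c₀, r₀, R₀, hr₀, H⟩ := Geo.exists_norm (F := X)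
  have hp : ∀ s : ℝ, 0 < s → 0 < μ.real (closedBall (0 : X) s) := fun s hs =>
    ENNReal.toReal_pos (measure_closedBall_pos μ 0 hs).ne' measure_closedBall_lt_top.ne
  have hR : 0 < max R₀ 1 := lt_max_of_lt_right one_pos
  refine ⟨r₀ / 2, max R₀ 1, _, _, by positivity, hR, hp (r₀ / 2) (by positivity), hp _ hR,
    fun C o hC hv hi ho => ?_⟩
  obtain ⟨T, h1, h2⟩ := H C o hC hv hi ho
  have hin : ∀ y, ‖y‖ ≤ r₀ / 2 → T.symm (c₀ + y + T o) ∈ C := fun y hy => by
    have := Geo.mem_aff.1 (h1 (a := c₀ + y) (by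
      rw [mem_ball, dist_eq_norm, add_sub_cancel_left]; linarith))
    rwa [sub_neg_eq_add] at this
  have hout : ∀ Z ∈ C, ‖T (Z - o)‖ ≤ max R₀ 1 := fun Z hZ => by
    have := h2 (a := T Z + -T o) ⟨Z, hZ, rfl⟩
    rw [mem_closedBall, dist_zero_right, ← sub_eq_add_neg, ← map_sub] at this
    exact this.trans (le_max_left _ _)
  have hvol : μ.real (T '' C) = |LinearMap.det (T : X →ₗ[ℝ] X)| * μ.real C := by
    rw [measureReal_def, Measure.addHaar_image_continuousLinearEquiv, ENNReal.toReal_mul,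
      ENNReal.toReal_ofReal (abs_nonneg _), measureReal_def]
  have hc : ∀ (p : X) (s : ℝ), μ.real (closedBall p s) = μ.real (closedBall (0 : X) s) := fun p s => by
    rw [measureReal_def, Measure.addHaar_closedBall_center, measureReal_def]
  refine ⟨T, fun y hy => ⟨_, hin y hy, _, hin 0 (by rw [norm_zero]; positivity), ?_⟩, hout, ?_, ?_⟩
  · rw [← map_sub]
    congr 1
    abel
  · rw [← hvol, ← hc (c₀ + T o)]
    refine measureReal_mono (fun Y hY => ⟨_, hin (Y - (c₀ + T o)) (by rwa [← dist_eq_norm]), ?_⟩)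
      (hC.image T.continuous).measure_lt_top.ne
    rw [ContinuousLinearEquiv.apply_symm_apply]
    abel
  · rw [← hvol, ← hc (T o)]
    refine measureReal_mono ?_ measure_closedBall_lt_top.ne
    rintro _ ⟨Z, hZ, rfl⟩
    rw [mem_closedBall, dist_eq_norm, ← map_sub]
    exact hout Z hZ

/-- `mm` as a functional -/
noncomputable def mmL (u : E n → ℝ) (x : E n) : F n →L[ℝ] ℝ :=
  ContinuousLinearMap.snd ℝ _ _ - (fderiv ℝ u x).comp (ContinuousLinearMap.fst ℝ _ _)

theorem mmL_apply (x : E n) (a : F n) : mmL u x a = mm u a x := rfl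

theorem AM.mmL_continuousOn (h : AM Ω u) : ContinuousOn (mmL u) Ω :=
  continuousOn_const.sub
    ((h.smooth.continuousOn_fderiv_of_isOpen h.isOpen (by simp)).clm_comp continuousOn_const)

theorem areaC_opnorm {X : Type} [NormedAddCommGroup X] [NormedSpace ℝ X] [FiniteDimensional ℝ X]
    {r : ℝ} (hr : 0 < r) : ∃ (m : ℕ) (y : Fin m → X) (L : ℝ), 0 < L ∧ (∀ k, ‖y k‖ ≤ r) ∧
      ∀ φ : X →L[ℝ] ℝ, ‖φ‖ ≤ L * ∑ k, |φ (y k)| := by
  set b := Module.finBasis ℝ X
  obtain ⟨M, hM⟩ : ∃ M : ℝ, 0 < M ∧ ∀ k, ‖b k‖ ≤ M := by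
    refine ⟨∑ k, ‖b k‖ + 1, by positivity, fun k => ?_⟩
    have := Finset.single_le_sum (f := fun k => ‖b k‖) (fun k _ => norm_nonneg _) (Finset.mem_univ k)
    linarith
  obtain ⟨L, hL⟩ : ∃ L : ℝ, 0 < L ∧ ∀ k v, |b.repr v k| ≤ L * ‖v‖ := by
    set c := fun k => LinearMap.toContinuousLinearMap (b.coord k)
    refine ⟨∑ k, ‖c k‖ + 1, by positivity, fun k v => ((c k).le_opNorm v).trans ?_⟩
    have := Finset.single_le_sum (f := fun k => ‖c k‖) (fun k _ => norm_nonneg _) (Finset.mem_univ k)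
    gcongr
    linarith
  obtain ⟨hM0, hM⟩ := hM
  obtain ⟨hL0, hL⟩ := hL
  refine ⟨_, fun k => (r / M) • b k, L * (M / r), by positivity, fun k => ?_, fun φ => ?_⟩
  · rw [norm_smul, Real.norm_of_nonneg (by positivity), div_mul_eq_mul_div, div_le_iff₀ hM0]
    exact mul_le_mul_of_nonneg_left (hM k) hr.le
  · refine φ.opNorm_le_bound (by positivity) fun v => ?_
    conv_lhs => rw [← b.sum_repr v]
    rw [map_sum, Finset.mul_sum, Finset.sum_mul]
    refine (norm_sum_le _ _).trans (Finset.sum_le_sum fun k _ => ?_)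
    rw [map_smul, map_smul, smul_eq_mul, smul_eq_mul, Real.norm_eq_abs, abs_mul, abs_mul,
      abs_of_pos (div_pos hr hM0)]
    have e : L * (M / r) * (r / M * |φ (b k)|) * ‖v‖ = L * ‖v‖ * |φ (b k)| := by field_simp
    rw [e]
    exact mul_le_mul_of_nonneg_right (hL k v) (abs_nonneg _)

theorem area_core (n : ℕ) : ∃ c : ℝ, 0 < c ∧ ∀ (Ω : Set (E n)) (u : E n → ℝ), AM Ω u →
    ∀ C : Set (F n), IsCompact C → Convex ℝ C → C ⊆ epi Ω u → (interior C).Nonempty →
      0 < volume.real C ∧ ∃ N : E n → ℝ, ContinuousOn N Ω ∧ (∀ x, 0 < N x) ∧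
        (∀ x, ∀ Z ∈ C, ∀ Z' ∈ C, mm u (Z - Z') x ≤ c * N x) ∧
        (∀ x t, (∀ Z ∈ C, ∀ Z' ∈ C, mm u (Z - Z') x ≤ t) → N x ≤ c * t) ∧
        ∫ x in piece Ω u C, N x ≤ c * volume.real C ∧
        volume.real C * ∫ x in piece Ω u C, (hessianMat u x).det / N x ^ (n + 1) ≤ c := by
  have : (volume : Measure (F n)).IsAddHaarMeasure := Measure.prod.instIsAddHaarMeasure _ _
  obtain ⟨r, R, a, b, hr, hR, ha, hb, H⟩ := area_norm (volume : Measure (F n))
  obtain ⟨m, y, L, hL, hy, hφ⟩ := areaC_opnorm (X := F n) hr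
  obtain ⟨c₁, hc₁, Hd⟩ := area_dual n
  set c := 2 * R + 1 / r + L * (m * 2 ^ (n + 2)) + b * c₁ with hc
  have p1 : 0 < 2 * R := by positivity
  have p2 : 0 < 1 / r := by positivity
  have p3 : 0 ≤ L * (m * 2 ^ (n + 2)) := by positivity
  have p4 : 0 ≤ b * c₁ := by positivity
  refine ⟨c, by linarith, fun Ω u h C hC hv hK hi => ?_⟩
  obtain ⟨o, ho⟩ := hi.mono interior_subset
  obtain ⟨T, h1, h2, h3, h4⟩ := H C o hC hv hi ho
  have hV : 0 < volume.real C := by
    rcases (measureReal_nonneg (μ := volume) (s := C)).eq_or_lt with h0 | h0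
    · rw [← h0, mul_zero] at h3
      linarith
    · exact h0
  have hP := h.piece_isCompact hC hK
  set N : E n → ℝ := fun x => ‖(mmL u x).comp (T.symm : F n →L[ℝ] F n)‖ with hN
  have hle : ∀ x z, |mm u (T.symm z) x| ≤ N x * ‖z‖ := fun x z =>
    ((mmL u x).comp (T.symm : F n →L[ℝ] F n)).le_opNorm z
  have hNc : ContinuousOn N Ω := (h.mmL_continuousOn.clm_comp continuousOn_const).norm
  have hN0 : ∀ x, 0 < N x := fun x => by
    refine (norm_nonneg _).lt_of_ne fun h0 => ?_
    have := hle x (T (0, 1))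
    rw [ContinuousLinearEquiv.symm_apply_apply, hN] at this
    simp only [← h0] at this
    simp [mm] at this
    linarith
  refine ⟨hV, N, hNc, hN0, fun x Z hZ Z' hZ' => ?_, fun x t ht => ?_, ?_, ?_⟩
  · have e1 := hle x (T (Z - Z'))
    rw [ContinuousLinearEquiv.symm_apply_apply] at e1
    have e2 : ‖T (Z - Z')‖ ≤ 2 * R := by
      have : T (Z - Z') = T (Z - o) - T (Z' - o) := by rw [← map_sub]; congr 1; abel
      rw [this]
      have := norm_sub_le (T (Z - o)) (T (Z' - o))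
      linarith [h2 Z hZ, h2 Z' hZ']
    have e3 := hN0 x
    calc mm u (Z - Z') x ≤ N x * (2 * R) := (le_abs_self _).trans (e1.trans (by gcongr))
      _ ≤ c * N x := by rw [mul_comm]; gcongr; linarith
  · have t0 : 0 ≤ t := by simpa [mm] using ht o ho o ho
    have key : ∀ z : F n, ‖z‖ ≤ r → |mm u (T.symm z) x| ≤ t := fun z hz => by
      obtain ⟨Z, hZ, Z', hZ', e⟩ := h1 z hz
      rw [← e, abs_le]
      refine ⟨?_, ht Z hZ Z' hZ'⟩
      have := ht Z' hZ' Z hZ
      rw [← neg_sub, mm_neg] at this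
      linarith
    have : N x ≤ 1 / r * t := by
      refine ContinuousLinearMap.opNorm_le_of_unit_norm (by positivity) fun z hz => ?_
      have := key (r • z) (by rw [norm_smul, hz, mul_one, Real.norm_of_nonneg hr.le])
      rw [map_smul, mm_smul, abs_mul, abs_of_pos hr] at this
      rw [one_div, inv_mul_eq_div, le_div_iff₀ hr, mul_comm]
      exact this
    exact this.trans (by gcongr; linarith)
  · have hi1 : ∀ k, IntegrableOn (fun x => |mm u (T.symm (y k)) x|) (piece Ω u C) := fun k =>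
      ((h.mm_continuousOn _).mono (piece_subset C)).abs.integrableOn_compact hP
    calc ∫ x in piece Ω u C, N x ≤ ∫ x in piece Ω u C, L * ∑ k, |mm u (T.symm (y k)) x| :=
          setIntegral_mono_on ((hNc.mono (piece_subset C)).integrableOn_compact hP)
            ((integrable_finsetSum _ fun k _ => hi1 k).const_mul L) hP.measurableSet fun x _ => hφ _
      _ = L * ∑ k, ∫ x in piece Ω u C, |mm u (T.symm (y k)) x| := by
          rw [integral_const_mul, integral_finsetSum _ fun k _ => hi1 k]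
      _ ≤ L * ∑ _k : Fin m, 2 ^ (n + 2) * volume.real C := by
          gcongr with k
          obtain ⟨Z, hZ, Z', hZ', e⟩ := h1 _ (hy k)
          rw [← e]
          exact area_primal h hC hv hK hZ hZ'
      _ = L * (m * 2 ^ (n + 2)) * volume.real C := by
          simp only [Finset.sum_const, Finset.card_univ, Fintype.card_fin, nsmul_eq_mul]
          ring
      _ ≤ c * volume.real C := by gcongr; linarith
  · have e1 := Hd Ω u h _ hP (piece_subset C) (T.symm : F n →ₗ[ℝ] F n) N (hNc.mono (piece_subset C))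
      (fun x _ => hN0 x) fun x _ z => hle x z
    have e2 : |LinearMap.det (T : F n →ₗ[ℝ] F n)| * |LinearMap.det (T.symm : F n →ₗ[ℝ] F n)| = 1 := by
      rw [← abs_mul, ← LinearMap.det_comp]
      have : (T : F n →ₗ[ℝ] F n) ∘ₗ (T.symm : F n →ₗ[ℝ] F n) = LinearMap.id :=
        LinearMap.ext fun z => T.apply_symm_apply z
      rw [this, LinearMap.det_id, abs_one]
    have e3 : 0 ≤ ∫ x in piece Ω u C, (hessianMat u x).det / N x ^ (n + 1) :=
      setIntegral_nonneg hP.measurableSet fun x hx =>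
        div_nonneg (h.pos x hx.1).det_pos.le (pow_pos (hN0 x) _).le
    calc volume.real C * ∫ x in piece Ω u C, (hessianMat u x).det / N x ^ (n + 1)
        = |LinearMap.det (T : F n →ₗ[ℝ] F n)| * volume.real C *
          (|LinearMap.det (T.symm : F n →ₗ[ℝ] F n)| *
            ∫ x in piece Ω u C, (hessianMat u x).det / N x ^ (n + 1)) := by
          linear_combination (-(volume.real C *
            ∫ x in piece Ω u C, (hessianMat u x).det / N x ^ (n + 1))) * e2
      _ ≤ b * c₁ := mul_le_mul h4 e1 (by positivity) hb.le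
      _ ≤ c := by linarith

end Crest.Agent.R236
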