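import Crest.Agent.R236.Basic

/-!
# R236/AreaM TASK: concavity of `det^(1/(n+2))` and the Hessian of the competitor paraboloid
-/

set_option autoImplicit false

namespace Crest.Agent.R236

open Set MeasureTheory
open Crest.GeometryTopology.CoordMetric Crest.GeometryTopology.AffineMaximal
open scoped ContDiff

variable {n : ℕ}

theorem areaM_prod_le (lam : Fin n → ℝ) (hl : ∀ i, 0 ≤ lam i) :
    ∏ i, lam i ≤ ((∑ i, lam i + 2) / (n + 2)) ^ (n + 2) := by
  have hs : 0 ≤ ∑ i, lam i := Finset.sum_nonneg fun i _ => hl i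
  have hn : (0 : ℝ) < n + 2 := by positivity
  set m : ℝ := (∑ i, lam i + 2) / (n + 2) with hm
  have hm0 : 0 < m := by positivity
  have h1 : ∀ t : ℝ, t ≤ Real.exp (t - 1) := fun t => by linarith [Real.add_one_le_exp (t - 1)]
  have h2 : ∏ i, lam i / m ≤ ∏ i, Real.exp (lam i / m - 1) :=
    Finset.prod_le_prod (fun i _ => div_nonneg (hl i) hm0.le) fun i _ => h1 _
  have h3 : (1 / m) * (1 / m) ≤ Real.exp (1 / m - 1) * Real.exp (1 / m - 1) :=
    mul_le_mul (h1 _) (h1 _) (by positivity) (by positivity)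
  have h4 : (∏ i, lam i / m) * ((1 / m) * (1 / m)) ≤
      (∏ i, Real.exp (lam i / m - 1)) * (Real.exp (1 / m - 1) * Real.exp (1 / m - 1)) :=
    mul_le_mul h2 h3 (by positivity) (by positivity)
  have h5 : (∏ i, Real.exp (lam i / m - 1)) * (Real.exp (1 / m - 1) * Real.exp (1 / m - 1)) = 1 := by
    rw [← Real.exp_sum, ← Real.exp_add, ← Real.exp_add, Finset.sum_sub_distrib, ← Finset.sum_div]
    simp only [Finset.sum_const, Finset.card_univ, Fintype.card_fin, nsmul_eq_mul, mul_one]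
    rw [Real.exp_eq_one_iff]
    have h6 : ∑ i, lam i + 2 = m * (n + 2) := by rw [hm]; field_simp
    field_simp
    linarith
  rw [h5, Finset.prod_div_distrib] at h4
  simp only [Finset.prod_const, Finset.card_univ, Fintype.card_fin] at h4
  have h7 : (∏ i, lam i) / m ^ n * (1 / m * (1 / m)) = (∏ i, lam i) / m ^ (n + 2) := by
    field_simp
    ring
  rw [h7, div_le_one (by positivity)] at h4
  exact h4

/-- AM-GM for the eigenvalues of a positive semidefinite matrix together with two extra `1`s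
(`Real.inner_le_nnorm..`-free: `inner_le`/`Real.geom_mean_le_arith_mean_weighted` on `Fin n ⊕ Fin 2`, or
`∏ λ_i ≤ ∏ exp (λ_i / m - 1) * m^n`-type argument: with `m = (tr B + 2) / (n + 2)`, `log t ≤ t - 1` applied to
`λ_i / m` and twice to `1 / m`). -/
theorem areaM_amgm {B : Matrix (Fin n) (Fin n) ℝ} (hB : B.PosSemidef) :
    B.det ≤ ((B.trace + 2) / (n + 2)) ^ (n + 2) := by
  rw [hB.1.det_eq_prod_eigenvalues, hB.1.trace_eq_sum_eigenvalues]
  exact areaM_prod_le (fun i => hB.1.eigenvalues i) fun i => hB.eigenvalues_nonneg i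

open scoped MatrixOrder in
theorem areaM_sqrt {A : Matrix (Fin n) (Fin n) ℝ} (hA : A.PosSemidef) :
    ∃ S : Matrix (Fin n) (Fin n) ℝ, A = S.conjTranspose * S :=
  CStarAlgebra.nonneg_iff_eq_star_mul_self.1 hA.nonneg

/-- Write `A⁻¹ = Sᴴ * S` (e.g. `S = CFC.sqrt A⁻¹`, or `Matrix.posSemidef_iff_eq_conjTranspose_mul_self`-type lemma),
`B = S * Q * Sᴴ` is positive semidefinite, `det B = det Q / det A`, `trace B = trace (A⁻¹ * Q) = ∑ i j, A⁻¹ i j * Q i j`
(`Q` is symmetric). -/
theorem area_concave {A Q : Matrix (Fin n) (Fin n) ℝ} (hA : A.PosDef) (hQ : Q.PosSemidef) {δ G : ℝ}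
    (hG : 0 < G) (hGA : G ^ (n + 2) = A.det) (hδ : 0 ≤ δ) (hδQ : δ ^ (n + 2) ≤ Q.det) :
    (n + 2) * δ ≤ G * (∑ i, ∑ j, A⁻¹ i j * Q i j + 2) := by
  obtain ⟨S, hS⟩ := areaM_sqrt hA.inv.posSemidef
  have hB : (S * Q * S.conjTranspose).PosSemidef := hQ.mul_mul_conjTranspose_same S
  have hdA : 0 < A.det := hA.det_pos
  have hdet : A.det * (S * Q * S.conjTranspose).det = Q.det := by
    have h1 : A.det * A⁻¹.det = 1 := by
      rw [← Matrix.det_mul, Matrix.mul_nonsing_inv _ (isUnit_iff_ne_zero.2 hdA.ne'), Matrix.det_one]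
    rw [hS, Matrix.det_mul] at h1
    rw [Matrix.det_mul, Matrix.det_mul]
    linear_combination Q.det * h1
  have htr : (S * Q * S.conjTranspose).trace = ∑ i, ∑ j, A⁻¹ i j * Q i j := by
    rw [Matrix.trace_mul_cycle, ← hS]
    simp only [Matrix.trace, Matrix.diag_apply, Matrix.mul_apply]
    refine Finset.sum_congr rfl fun i _ => Finset.sum_congr rfl fun j _ => ?_
    have := hQ.1.apply i j
    simp only [star_trivial] at this
    rw [this]
  have h1 := areaM_amgm hB
  have h0 := hB.trace_nonneg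
  rw [htr] at h1 h0
  set t : ℝ := ∑ i, ∑ j, A⁻¹ i j * Q i j with ht
  have hn : (0 : ℝ) < n + 2 := by positivity
  have h2 : δ ^ (n + 2) ≤ (G * ((t + 2) / (n + 2))) ^ (n + 2) := by
    rw [mul_pow, hGA]
    refine hδQ.trans ?_
    rw [← hdet]
    exact mul_le_mul_of_nonneg_left h1 hdA.le
  have h3 : δ ≤ G * ((t + 2) / (n + 2)) :=
    le_of_pow_le_pow_left₀ (by omega) (by positivity) h2
  calc (n + 2) * δ ≤ (n + 2) * (G * ((t + 2) / (n + 2))) := mul_le_mul_of_nonneg_left h3 hn.le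
    _ = G * (t + 2) := by field_simp

theorem areaM_pd (T : E n →L[ℝ] E n) (φ : E n →L[ℝ] ℝ) (o : E n) (c κ : ℝ) (j : Fin n) (y : E n) :
    pderiv j (fun x => c + φ x + κ * ‖T (x - o)‖ ^ 2) y =
      φ (EuclideanSpace.single j 1) + 2 * κ * inner ℝ (T (EuclideanSpace.single j 1)) (T (y - o)) := by
  have h1 : HasFDerivAt (fun x : E n => T (x - o)) T y := by
    have := T.hasFDerivAt.comp y ((hasFDerivAt_id y).sub_const o)
    rw [ContinuousLinearMap.comp_id] at this
    exact this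
  have h2 := ((φ.hasFDerivAt (x := y)).const_add c).add (h1.norm_sq.const_mul κ)
  unfold pderiv
  have h3 : fderiv ℝ (fun x => c + φ x + κ * ‖T (x - o)‖ ^ 2) y = _ := h2.fderiv
  rw [h3]
  simp only [add_apply, smul_apply, ContinuousLinearMap.comp_apply,
    innerSL_apply_apply, smul_eq_mul, nsmul_eq_mul, real_inner_comm (T (EuclideanSpace.single j 1))]
  push_cast
  ring

theorem areaM_hess (T : E n →L[ℝ] E n) (φ : E n →L[ℝ] ℝ) (o : E n) (c κ : ℝ) (x : E n) (i j : Fin n) :
    hessianMat (fun x => c + φ x + κ * ‖T (x - o)‖ ^ 2) x i j =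
      2 * κ * inner ℝ (T (EuclideanSpace.single i 1)) (T (EuclideanSpace.single j 1)) := by
  unfold hessianMat
  simp only [areaM_pd]
  have h1 : HasFDerivAt (fun x : E n => T (x - o)) T x := by
    have := T.hasFDerivAt.comp x ((hasFDerivAt_id x).sub_const o)
    rw [ContinuousLinearMap.comp_id] at this
    exact this
  have h2 := (((innerSL ℝ (T (EuclideanSpace.single j 1))).hasFDerivAt.comp x h1).const_mul (2 * κ)).const_add
    (φ (EuclideanSpace.single j 1))
  unfold pderiv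
  have h3 : fderiv ℝ (fun y => φ (EuclideanSpace.single j 1) +
      2 * κ * inner ℝ (T (EuclideanSpace.single j 1)) (T (y - o))) x = _ := h2.fderiv
  rw [h3]
  simp only [smul_apply, ContinuousLinearMap.comp_apply,
    innerSL_apply_apply, smul_eq_mul, real_inner_comm (T (EuclideanSpace.single i 1))]

/-- The Hessian of `q = c + φ x + κ ‖T (x - o)‖²` is `(2 κ) • (Mᵀ * M)`, `M` the matrix of `T` in the standard basis:
`pderiv j q y = φ e_j + 2 κ ⟪T (y - o), T e_j⟫`, `hessianMat q x i j = 2 κ ⟪T e_i, T e_j⟫`. -/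
theorem area_quad (T : E n →L[ℝ] E n) (φ : E n →L[ℝ] ℝ) (o : E n) (c κ : ℝ) (hκ : 0 ≤ κ) (q : E n → ℝ)
    (hq : ∀ x, q x = c + φ x + κ * ‖T (x - o)‖ ^ 2) :
    ContDiff ℝ ∞ q ∧ ∀ x, (hessianMat q x).PosSemidef ∧ (hessianMat q x).det = (2 * κ) ^ n * T.det ^ 2 := by
  obtain rfl : q = fun x => c + φ x + κ * ‖T (x - o)‖ ^ 2 := funext hq
  refine ⟨?_, fun x => ?_⟩
  · refine (contDiff_const.add φ.contDiff).add (contDiff_const.mul (ContDiff.norm_sq ℝ ?_))
    exact T.contDiff.comp (contDiff_id.sub contDiff_const)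
  · set M : Matrix (Fin n) (Fin n) ℝ := LinearMap.toMatrix (EuclideanSpace.basisFun (Fin n) ℝ).toBasis
      (EuclideanSpace.basisFun (Fin n) ℝ).toBasis (T : E n →ₗ[ℝ] E n) with hM
    have hMij : ∀ k i, M k i = T (EuclideanSpace.single i 1) k := fun k i => by
      simp [hM, LinearMap.toMatrix_apply]
    have hH : hessianMat (fun x => c + φ x + κ * ‖T (x - o)‖ ^ 2) x = (2 * κ) • (M.conjTranspose * M) := by
      ext i j
      rw [areaM_hess]
      simp only [Matrix.smul_apply, Matrix.mul_apply, Matrix.conjTranspose_apply, star_trivial, hMij,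
        smul_eq_mul, PiLp.inner_apply]
      congr 1
      refine Finset.sum_congr rfl fun k _ => ?_
      simp [mul_comm]
    rw [hH]
    refine ⟨(Matrix.posSemidef_conjTranspose_mul_self M).smul (by positivity), ?_⟩
    have hd : M.det = T.det := LinearMap.det_toMatrix _ _
    rw [Matrix.det_smul, Matrix.det_mul, Matrix.det_conjTranspose, star_trivial, hd, Fintype.card_fin, sq]

end Crest.Agent.R236
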