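import Crest.Agent.R236.Cal0

/-!
# R236/Ibp: integration by parts.  Extend `ρ⁻² u^{ij} V_j` by zero outside `U`: it is `C¹` on `E n` with
compact support (`K₀` closed, so near a point outside `K₀` the extension vanishes), and the integral of a partial
derivative of a compactly supported `C¹` function vanishes
(`integral_bilinear_hasLineDerivAt_right_eq_neg_left_of_integrable` or `integral_fderiv_eq_zero`-type lemma).
-/

set_option autoImplicit false
open scoped ContDiff
open Crest.GeometryTopology.CoordMetric Crest.GeometryTopology.AffineMaximal MeasureTheory Set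

noncomputable section

namespace Crest.Agent.R236

variable {n : ℕ} {Ω : Set (E n)} {u : E n → ℝ}

/-- the integral of a directional derivative of a compactly supported `C¹` function vanishes -/
theorem ibp_global {G : E n → ℝ} (hG : ContDiff ℝ 1 G) (hc : HasCompactSupport G) (v : E n) :
    ∫ x, fderiv ℝ G x v = 0 := by
  have hcont : Continuous fun x => fderiv ℝ G x v := (hG.continuous_fderiv one_ne_zero).clm_apply continuous_const
  have hcs : HasCompactSupport fun x => fderiv ℝ G x v := hc.fderiv_apply ℝ v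
  have := integral_mul_fderiv_eq_neg_fderiv_mul_of_integrable (μ := (volume : Measure (E n)))
    (f := fun _ : E n => (1 : ℝ)) (g := G) (v := v) (by simp) (by simpa using hcont.integrable_of_hasCompactSupport hcs)
    (by simpa using hG.continuous.integrable_of_hasCompactSupport hc) (fun x _ => differentiableAt_const _)
    (fun x _ => hG.differentiable one_ne_zero x)
  simpa using this

/-- local version: `g` is `C¹` on the open set `U` and vanishes on `U \ K₀`, `K₀ ⊆ U` compact -/
theorem ibp_local {U K₀ : Set (E n)} (hU : IsOpen U) (hK : IsCompact K₀) (hKU : K₀ ⊆ U) {g : E n → ℝ}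
    (hg : ContDiffOn ℝ 1 g U) (h0 : ∀ x ∈ U, x ∉ K₀ → g x = 0) (v : E n) :
    IntegrableOn (fun x => fderiv ℝ g x v) K₀ ∧ ∫ x in K₀, fderiv ℝ g x v = 0 := by
  have e1 : ∀ x ∈ U, U.indicator g =ᶠ[nhds x] g := fun x hx => by
    filter_upwards [hU.mem_nhds hx] with y hy using indicator_of_mem hy g
  have z : ∀ y, y ∉ K₀ → U.indicator g y = 0 := fun y hy => by
    by_cases hyU : y ∈ U
    · rw [indicator_of_mem hyU, h0 y hyU hy]
    · exact indicator_of_notMem hyU g
  have e2 : ∀ x, x ∉ K₀ → U.indicator g =ᶠ[nhds x] fun _ => 0 := fun x hx => by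
    filter_upwards [hK.isClosed.isOpen_compl.mem_nhds hx] with y hy using z y hy
  have hG : ContDiff ℝ 1 (U.indicator g) := contDiff_iff_contDiffAt.2 fun x => by
    by_cases hx : x ∈ K₀
    · exact (hg.contDiffAt (hU.mem_nhds (hKU hx))).congr_of_eventuallyEq (e1 x (hKU hx))
    · exact contDiffAt_const.congr_of_eventuallyEq (e2 x hx)
  have hc : HasCompactSupport (U.indicator g) := HasCompactSupport.intro hK z
  refine ⟨ContinuousOn.integrableOn_compact hK ((((hg.continuousOn_fderiv_of_isOpen hU le_rfl).clm_apply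
    continuousOn_const)).mono hKU), ?_⟩
  calc ∫ x in K₀, fderiv ℝ g x v = ∫ x in K₀, fderiv ℝ (U.indicator g) x v :=
        setIntegral_congr_fun hK.measurableSet fun x hx => by
          simp only [(e1 x (hKU hx)).fderiv_eq]
    _ = ∫ x, fderiv ℝ (U.indicator g) x v :=
        setIntegral_eq_integral_of_forall_compl_eq_zero fun x hx => by
          rw [(e2 x hx).fderiv_eq]
          simp
    _ = 0 := ibp_global hG hc v

theorem AM.ibp (h : AM Ω u) {U K₀ : Set (E n)} (hU : IsOpen U) (hUΩ : U ⊆ Ω) (hK : IsCompact K₀)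
    (hKU : K₀ ⊆ U) {V : E n → Fin n → ℝ} (hV : ∀ i, ContDiffOn ℝ 1 (fun x => V x i) U)
    (h0 : ∀ x ∈ U, x ∉ K₀ → V x = 0) :
    ∫ x in K₀, dv u V x * (rho u x)⁻¹ = 0 := by
  have key : ∀ i : Fin n, IntegrableOn (pderiv i
      fun y => (rho u y)⁻¹ ^ 2 * ∑ j, (hessianMat u y)⁻¹ i j * V y j) K₀ ∧
      ∫ x in K₀, pderiv i (fun y => (rho u y)⁻¹ ^ 2 * ∑ j, (hessianMat u y)⁻¹ i j * V y j) x = 0 := fun i => by
    refine ibp_local hU hK hKU ?_ (fun x hx hx' => by simp [h0 x hx hx']) _
    have hr : ContDiffOn ℝ 1 (fun y => (rho u y)⁻¹) U :=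
      ((h.rho_contDiffOn.inv fun x hx => (h.rho_pos hx).ne').of_le (by simp)).mono hUΩ
    exact (hr.pow 2).mul (ContDiffOn.sum fun j _ =>
      (((h.inv_contDiffOn i j).of_le (by simp)).mono hUΩ).mul (hV j))
  calc _ = ∫ x in K₀, ∑ i, pderiv i (fun y => (rho u y)⁻¹ ^ 2 * ∑ j, (hessianMat u y)⁻¹ i j * V y j) x :=
        setIntegral_congr_fun hK.measurableSet fun x hx => by
          have := (h.rho_pos (hUΩ (hKU hx))).ne'
          simp only [dv]
          field_simp
    _ = 0 := by
      rw [integral_finsetSum _ fun i _ => (key i).1]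
      exact Finset.sum_eq_zero fun i _ => (key i).2

end Crest.Agent.R236

end
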