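import Crest.Agent.R236.Cal1
import Crest.Agent.R236.Ibp
import Crest.Agent.R236.AreaM

/-!
# R236/AreaD TASK: the affine maximal graph beats every competitor (tested variational inequality)
-/

set_option autoImplicit false

namespace Crest.Agent.R236

open Set MeasureTheory
open Crest.GeometryTopology.CoordMetric Crest.GeometryTopology.AffineMaximal
open scoped ContDiff

variable {n : ℕ} {Ω : Set (E n)} {u : E n → ℝ}

/-- `ρ⁻¹ ^ (n + 2) = det D²u` (`Real.rpow_natCast`, `Real.rpow_mul`) -/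
theorem AM.areaD_rho_pow (h : AM Ω u) {x : E n} (hx : x ∈ Ω) :
    (rho u x)⁻¹ ^ (n + 2) = (hessianMat u x).det := by
  have hd := (h.pos x hx).det_pos.le
  rw [rho, ← Real.rpow_neg hd, ← Real.rpow_natCast, ← Real.rpow_mul hd]
  convert Real.rpow_one _ using 2
  push_cast
  field_simp

theorem AM.areaD_sum (h : AM Ω u) {x : E n} (hx : x ∈ Ω) {V : Fin n → E n → Fin n → ℝ}
    (hV : ∀ j i, DifferentiableAt ℝ (fun y => V j y i) x) (s : Finset (Fin n)) :
    dv u (fun y => ∑ j ∈ s, V j y) x = ∑ j ∈ s, dv u (V j) x := by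
  induction s using Finset.induction_on with
  | empty => simp [dv, pderiv]
  | insert a s ha ih =>
    simp only [Finset.sum_insert ha]
    rw [h.dv_add hx (hV a) fun i => by simpa only [Finset.sum_apply] using .fun_sum fun j _ => hV j i, ih]

theorem areaD_at {f : E n → ℝ} {x : E n} (hΩ : IsOpen Ω) (hf : ContDiffOn ℝ ∞ f Ω) (hx : x ∈ Ω) :
    DifferentiableAt ℝ f x :=
  (hf.contDiffAt (hΩ.mem_nhds hx)).differentiableAt (by simp)

/-- `Δ f = ρ⁻¹ u^{ij} f_ij + n Γ(log ρ, f)`.  Write `dd f y = ∑ j, pderiv j f y • dd x_j y` with the coordinate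
functions `x_j = af u ξ_j 0`, `ξ_j = (EuclideanSpace.proj j).comp (fst ..)` (so `dd x_j y = Pi.single j 1`); use
`AM.dv_add` (finite sums), `AM.dv_smul`, `AM.Lap_af`, `AM.Yv_apply` (`ξ_j (0, 1) = 0`).
Or directly: `Lap_af` for `ξ_j` says `ρ ∑ i, ∂_i (ρ⁻² u^{ij}) = n ρ⁻¹ ∑ i, u^{ij} ∂_i log ρ`; then the product rule. -/
theorem AM.areaD_Lap (h : AM Ω u) {f : E n → ℝ} (hf : ContDiffOn ℝ ∞ f Ω) {x : E n} (hx : x ∈ Ω) :
    Lap u f x = (rho u x)⁻¹ * ∑ i, ∑ j, (hessianMat u x)⁻¹ i j * hessianMat f x i j +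
      n * Gam u (fun y => Real.log (rho u y)) f x := by
  have hip : ∀ α j, ip u x α (Pi.single j 1) = (rho u x)⁻¹ * ∑ i, (hessianMat u x)⁻¹ i j * α i := fun α j => by
    simp [ip, Pi.single_apply]
  have h1 : ∀ j, dv u (fun _ => Pi.single j 1) x =
      n * ip u x (dd (fun y => Real.log (rho u y)) x) (Pi.single j 1) := fun j => by
    have e : dd (af u ((EuclideanSpace.proj j).comp (ContinuousLinearMap.fst ℝ (E n) ℝ)) 0) =
        fun _ => Pi.single j 1 := by
      funext y i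
      have : af u ((EuclideanSpace.proj j).comp (ContinuousLinearMap.fst ℝ (E n) ℝ)) 0 =
        (EuclideanSpace.proj j : E n →L[ℝ] ℝ) := funext fun y => by simp [af, gr]
      rw [this, dd, pderiv, ContinuousLinearMap.fderiv]
      simp [Pi.single_apply, eq_comm]
    have := h.Lap_af hx ((EuclideanSpace.proj j).comp (ContinuousLinearMap.fst ℝ (E n) ℝ)) 0
    rw [h.Yv_apply hx _ 0, Lap, Gam, e] at this
    simpa using this
  have h2 := fun j => areaD_at h.isOpen (pderiv_contDiffOn h.isOpen hf j) hx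
  have e : dd f = fun y => ∑ j, pderiv j f y • (Pi.single j 1 : Fin n → ℝ) := by
    funext y i
    simp [dd, Finset.sum_apply, Pi.single_apply]
  rw [Lap, e, h.areaD_sum hx fun j i => by simpa using (h2 j).mul_const _]
  simp only [fun j => h.dv_smul hx (h2 j) (W := fun _ => Pi.single j 1) fun i => differentiableAt_const _, h1, hip,
    Finset.sum_add_distrib]
  rw [add_comm, ← Finset.mul_sum, Finset.sum_comm, Gam, ip]
  congr 1
  rw [Finset.sum_comm]
  simp only [Finset.mul_sum]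
  exact Finset.sum_congr rfl fun j _ => Finset.sum_congr rfl fun i _ => by simp only [dd]; ring

theorem areaD_pos (k : ℕ) (t : ℝ) :
    HasDerivAt (fun t : ℝ => max t 0 ^ (k + 2)) ((k + 2) * max t 0 ^ (k + 1)) t := by
  have h1 : HasDerivAt (fun t : ℝ => t ^ (k + 2)) ((k + 2) * t ^ (k + 1)) t := by
    simpa using hasDerivAt_pow (k + 2) t
  rcases lt_trichotomy t 0 with ht | rfl | ht
  · rw [max_eq_right ht.le, zero_pow k.succ_ne_zero, mul_zero]
    refine (hasDerivAt_const t 0).congr_of_eventuallyEq ?_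
    filter_upwards [Iio_mem_nhds ht] with s hs
    simp [max_eq_right (mem_Iio.1 hs).le]
  · rw [← hasDerivWithinAt_univ, ← Iic_union_Ici (a := (0 : ℝ)), max_self]
    refine HasDerivWithinAt.union ?_ (h1.hasDerivWithinAt.congr (fun s hs => by rw [max_eq_left hs]) (by simp))
    rw [zero_pow k.succ_ne_zero, mul_zero]
    exact (hasDerivWithinAt_const _ _ 0).congr (fun s hs => by simp [max_eq_right (mem_Iic.1 hs)]) (by simp)
  · rw [max_eq_left ht.le]
    refine h1.congr_of_eventuallyEq ?_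
    filter_upwards [Ioi_mem_nhds ht] with s hs
    rw [max_eq_left (mem_Ioi.1 hs).le]

theorem areaD_pos' (k : ℕ) : ContDiff ℝ 1 fun t : ℝ => max t 0 ^ (k + 2) := by
  refine contDiff_one_iff_deriv.2 ⟨fun t => (areaD_pos k t).differentiableAt, ?_⟩
  rw [funext fun t => (areaD_pos k t).deriv]
  fun_prop

theorem AM.areaD_tr (h : AM Ω u) {q : E n → ℝ} (hq : ContDiffOn ℝ ∞ q Ω) {x : E n} (hx : x ∈ Ω) :
    ∑ i, ∑ j, (hessianMat u x)⁻¹ i j * hessianMat (fun y => q y - u y) x i j =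
      ∑ i, ∑ j, (hessianMat u x)⁻¹ i j * hessianMat q x i j - n := by
  have h1 : ∀ i j, hessianMat (fun y => q y - u y) x i j = hessianMat q x i j - hessianMat u x j i := by
    intro i j
    have e : (fun y => pderiv j (fun y => q y - u y) y) =ᶠ[nhds x] fun y => pderiv j q y - pderiv j u y := by
      filter_upwards [h.isOpen.mem_nhds hx] with y hy
      rw [pderiv, fderiv_fun_sub (areaD_at h.isOpen hq hy) (areaD_at h.isOpen h.smooth hy)]
      rfl
    rw [← (h.pos x hx).1.apply j i, hessianMat, pderiv, e.fderiv_eq,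
      fderiv_fun_sub (areaD_at h.isOpen (pderiv_contDiffOn h.isOpen hq j) hx)
        (areaD_at h.isOpen (pderiv_contDiffOn h.isOpen h.smooth j) hx)]
    rfl
  have h2 := congrArg Matrix.trace (Matrix.nonsing_inv_mul _ (h.pos x hx).det_pos.ne'.isUnit)
  rw [Matrix.trace_one, Fintype.card_fin] at h2
  simp only [h1, mul_sub, Finset.sum_sub_distrib, ← h2]
  rfl

/-- With `r = q - u`, `r₊ = max r 0`, the one-form `W = (3 ρ r₊²) • dr - ((n + 1) r₊³) • dρ` is `C¹` on `Ω`
(`t ↦ (max t 0)^2` and `t ↦ (max t 0)^3` are `C¹`, derivatives `2 max t 0`, `3 (max t 0)^2`), vanishes on `U \ K₀`, and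
`div W = 3 r₊² u^{ij} r_ij + 6 ρ r₊ Γ(r, r)` by `AM.dv_add`, `AM.dv_smul`, `areaD_Lap`, `ρ Γ(log ρ, r) = Γ(ρ, r)` and
`Δ ρ = 0` (`AM.Lap_nu` for `a = (0, 1)`: `nu u (0, 1) = rho u`).  `u^{ij} r_ij = u^{ij} q_ij - n`, so `area_concave` with
`G = ρ⁻¹` gives `div W * ρ⁻¹ ≥ 3 (n + 2) r² (δ - ρ⁻¹)` on `K₀`; `AM.ibp` says that `∫_{K₀} div W * ρ⁻¹ = 0`. -/
theorem area_test (h : AM Ω u) {U K₀ : Set (E n)} (hU : IsOpen U) (hUΩ : U ⊆ Ω) (hK : IsCompact K₀)
    (hKU : K₀ ⊆ U) {q : E n → ℝ} (hq : ContDiff ℝ ∞ q) {δ : ℝ} (hδ0 : 0 ≤ δ)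
    (hδ : ∀ x, (hessianMat q x).PosSemidef ∧ δ ^ (n + 2) ≤ (hessianMat q x).det)
    (h0 : ∀ x ∈ K₀, u x ≤ q x) (h1 : ∀ x ∈ U, x ∉ K₀ → q x ≤ u x) :
    δ * ∫ x in K₀, (q x - u x) ^ 2 ≤ ∫ x in K₀, (q x - u x) ^ 2 * (rho u x)⁻¹ := by
  have hr : ContDiffOn ℝ ∞ (fun y => q y - u y) Ω := hq.contDiffOn.sub h.smooth
  have hρ := h.rho_contDiffOn
  let W : E n → Fin n → ℝ := fun y => (rho u y * (3 * max (q y - u y) 0 ^ (0 + 2))) • dd (fun y => q y - u y) y +
    (-(n + 1) * max (q y - u y) 0 ^ (1 + 2)) • dd (rho u) y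
  have one : (1 : WithTop ℕ∞) ≤ ∞ := by simp
  have hW : ∀ i, ContDiffOn ℝ 1 (fun x => W x i) U := fun i => by
    have := fun k => (areaD_pos' k).comp_contDiffOn (hr.of_le one)
    exact ((((hρ.of_le one).mul (contDiffOn_const.mul (this 0))).mul ((contDiffOn_dd h.isOpen hr i).of_le one)).add
      ((contDiffOn_const.mul (this 1)).mul ((contDiffOn_dd h.isOpen hρ i).of_le one))).mono hUΩ
  have hI := h.ibp hU hUΩ hK hKU hW fun x hx hx' => by
    simp [W, max_eq_right (sub_nonpos.2 (h1 x hx hx'))]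
  have hKΩ := hKU.trans hUΩ
  have c1 : ContinuousOn (fun x => (q x - u x) ^ 2) K₀ := (hr.continuousOn.mono hKΩ).pow 2
  have c2 := h.contDiffOn_rho_inv.continuousOn.mono hKΩ
  have i1 := c1.integrableOn_compact (μ := volume) hK
  have i2 : IntegrableOn (fun x => (q x - u x) ^ 2 * (rho u x)⁻¹) K₀ := (c1.mul c2).integrableOn_compact hK
  have key := setIntegral_mono_on (((i1.const_mul δ).sub i2).const_mul (3 * (n + 2)))
    ((((h.continuousOn_dv hU hUΩ hW).mono hKU).mul c2).integrableOn_compact hK) hK.measurableSet fun x hxK => ?_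
  · simp only [Pi.sub_apply, Pi.mul_apply] at key
    rw [hI, integral_const_mul, integral_sub (i1.const_mul δ) i2, integral_const_mul] at key
    exact sub_nonpos.1 (nonpos_of_mul_nonpos_right key (by positivity))
  have hx := hKΩ hxK
  have ρ0 := h.rho_pos hx
  have d1 := areaD_at h.isOpen hr hx
  have d2 := areaD_at h.isOpen hρ hx
  have d3 := fun i => areaD_at h.isOpen (contDiffOn_dd h.isOpen hr i) hx
  have d4 := fun i => areaD_at h.isOpen (contDiffOn_dd h.isOpen hρ i) hx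
  have p2 := (areaD_pos 0 (q x - u x)).const_mul 3
  have p3 := (areaD_pos 1 (q x - u x)).const_mul (-(n + 1 : ℝ))
  have d5 := p2.differentiableAt.comp x d1
  have d6 := p3.differentiableAt.comp x d1
  have e0 : dv u (dd (rho u)) x = 0 := by
    have := h.Lap_nu hx (0, 1)
    rwa [show nu u (0, 1) = rho u from funext fun y => by simp [nu]] at this
  have e1 := h.areaD_Lap hr hx
  rw [h.areaD_tr hq.contDiffOn hx, Lap, Gam, dd_comp d2 (Real.hasDerivAt_log ρ0.ne'), ip_smul_left] at e1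
  have e2 := area_concave (h.pos x hx) (hδ x).1 (inv_pos.2 ρ0) (h.areaD_rho_pow hx) hδ0 (hδ x).2
  have e3 := h.dv_add hx (V := fun y => (rho u y * (3 * max (q y - u y) 0 ^ (0 + 2))) • dd (fun y => q y - u y) y)
    (W := fun y => (-(n + 1) * max (q y - u y) 0 ^ (1 + 2)) • dd (rho u) y)
    (fun i => (d2.mul d5).mul (d3 i)) fun i => d6.mul (d4 i)
  rw [h.dv_smul hx (ψ := fun y => rho u y * (3 * max (q y - u y) 0 ^ (0 + 2))) (d2.mul d5) d3,
    h.dv_smul hx (ψ := fun y => -(n + 1) * max (q y - u y) 0 ^ (1 + 2)) d6 d4, e0, e1,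
    dd_mul (g := fun y => 3 * max (q y - u y) 0 ^ (0 + 2)) d2 d5, dd_comp d1 p2, dd_comp d1 p3] at e3
  simp only [ip_add_left, ip_smul_left, ip_smul_right, h.ip_symm hx _ (dd (rho u) x), max_eq_left (sub_nonneg.2 (h0 x hxK))] at e3
  have e4 := h.ip_nonneg hx (dd (fun y => q y - u y) x)
  have r0 := sub_nonneg.2 (h0 x hxK)
  simp only [Pi.sub_apply, Pi.mul_apply, W, e3]
  generalize ip u x (dd (fun y => q y - u y) x) (dd (fun y => q y - u y) x) = a at *
  generalize ip u x (dd (rho u) x) (dd (fun y => q y - u y) x) = b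
  generalize ∑ i, ∑ j, (hessianMat u x)⁻¹ i j * hessianMat q x i j = t at *
  generalize q x - u x = r at *
  have := mul_le_mul_of_nonneg_left e2 (by positivity : 0 ≤ 3 * r ^ 2)
  have e5 : 0 ≤ 6 * r * a := by positivity
  refine le_of_sub_nonneg (le_of_le_of_eq (add_nonneg (sub_nonneg.2 this) e5) ?_)
  push_cast
  field_simp
  ring

end Crest.Agent.R236
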