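import Crest.Agent.R236.AreaC
import Crest.Agent.R236.AreaD

/-!
# R236/AreaE (helper72): lower bound of the affine area of a section
-/

set_option autoImplicit false

namespace Crest.Agent.R236

open Set MeasureTheory Metric
open Crest.GeometryTopology.CoordMetric Crest.GeometryTopology.AffineMaximal
open scoped ContDiff

variable {n : ℕ} {Ω : Set (E n)} {u : E n → ℝ}

theorem AM.rho_inv_continuousOn (h : AM Ω u) : ContinuousOn (fun x => (rho u x)⁻¹) Ω :=
  h.rho_contDiffOn.continuousOn.inv₀ fun _ hx => (h.rho_pos hx).ne'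

/-- sections: `∫_P ρ⁻¹ ≥ c (H |P|)^(n/(n+2))` -/
theorem area_section (n : ℕ) : ∃ c : ℝ, 0 < c ∧ ∀ (Ω : Set (E n)) (u : E n → ℝ), AM Ω u →
    ∀ (φ : E n →L[ℝ] ℝ) (d H : ℝ) (x₁ : E n) (P : Set (E n)), P = {x | x ∈ Ω ∧ u x ≤ d + φ x} → IsCompact P →
      x₁ ∈ Ω → 0 < H → d + φ x₁ - u x₁ = H → (∀ x ∈ P, d + φ x - u x ≤ H) →
      c * (H * volume.real P) ^ ((n : ℝ) / (n + 2)) ≤ ∫ x in P, (rho u x)⁻¹ := by
  obtain ⟨r, R, a, b, hr, hR, ha, hb, HN⟩ := area_norm (volume : Measure (E n))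
  have hn2 : (0 : ℝ) < n + 2 := by positivity
  set c₀ : ℝ := ((1 / (4 * R ^ 2)) ^ n * a ^ 2) ^ (1 / ((n : ℝ) + 2)) with hc₀
  have hc₀p : 0 < c₀ := by positivity
  refine ⟨c₀ * (1 / 2) ^ n / 16, by positivity, fun Ω u h φ d H x₁ P hP hPc hx₁ hH hH1 hmax => ?_⟩
  have hcv := Geo.convexOn_u h.isOpen h.convex h.smooth h.pos
  have hPΩ : P ⊆ Ω := fun x hx => (hP ▸ hx : x ∈ {x | x ∈ Ω ∧ u x ≤ d + φ x}).1
  have hPu : ∀ x ∈ P, u x ≤ d + φ x := fun x hx => (hP ▸ hx : x ∈ {x | x ∈ Ω ∧ u x ≤ d + φ x}).2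
  have hmem : ∀ x ∈ Ω, u x ≤ d + φ x → x ∈ P := fun x h1 h2 => by rw [hP]; exact ⟨h1, h2⟩
  have hx₁P : x₁ ∈ P := hmem _ hx₁ (by linarith)
  have hcomb : ∀ x ∈ Ω, ∀ y ∈ Ω, ∀ s t : ℝ, 0 ≤ s → 0 ≤ t → s + t = 1 →
      s * (d + φ x - u x) + t * (d + φ y - u y) ≤ d + φ (s • x + t • y) - u (s • x + t • y) := by
    intro x hx y hy s t hs ht hst
    have := hcv.2 hx hy hs ht hst
    simp only [map_add, map_smul, smul_eq_mul] at this ⊢
    have e : d = s * d + t * d := by rw [← add_mul, hst, one_mul]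
    linarith
  have hPv : Convex ℝ P := fun x hx y hy s t hs ht hst => by
    refine hmem _ (h.convex (hPΩ hx) (hPΩ hy) hs ht hst) ?_
    have := hcomb x (hPΩ hx) y (hPΩ hy) s t hs ht hst
    have e1 := mul_nonneg hs (sub_nonneg.2 (hPu x hx))
    have e2 := mul_nonneg ht (sub_nonneg.2 (hPu y hy))
    linarith
  set U : Set (E n) := Ω ∩ (fun x => d + φ x - u x) ⁻¹' Ioi 0 with hU
  have hlc : ContinuousOn (fun x => d + φ x - u x) Ω :=
    (continuousOn_const.add φ.continuous.continuousOn).sub h.smooth.continuousOn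
  have hUo : IsOpen U := hlc.isOpen_inter_preimage h.isOpen isOpen_Ioi
  have hUP : U ⊆ P := fun x hx => hmem x hx.1 (by have : 0 < d + φ x - u x := hx.2; linarith)
  have hi : (interior P).Nonempty :=
    ⟨x₁, interior_maximal hUP hUo ⟨hx₁, show 0 < d + φ x₁ - u x₁ by linarith⟩⟩
  obtain ⟨T, -, h2, h3, -⟩ := HN P x₁ hPc hPv hi hx₁P
  set V := volume.real P with hV
  have hV0 : 0 < V := by
    rcases (measureReal_nonneg (μ := volume) (s := P)).eq_or_lt with h0 | h0
    · rw [hV, ← h0, mul_zero] at h3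
      linarith
    · exact h0
  set κ : ℝ := H / (8 * R ^ 2) with hκ
  have hκ0 : 0 < κ := by positivity
  set q : E n → ℝ := fun x => d - H / 4 + φ x + κ * ‖T (x - x₁)‖ ^ 2 with hq
  obtain ⟨hqs, hqh⟩ := area_quad (T : E n →L[ℝ] E n) φ x₁ (d - H / 4) κ hκ0.le q fun x => rfl
  have hq1 : ∀ x ∈ P, q x ≤ d + φ x - H / 8 := fun x hx => by
    have e1 : ‖T (x - x₁)‖ ^ 2 ≤ R ^ 2 := by gcongr; exact h2 x hx
    have e2 : κ * R ^ 2 = H / 8 := by rw [hκ]; field_simp
    have e3 := mul_le_mul_of_nonneg_left e1 hκ0.le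
    simp only [hq]
    linarith
  have hq2 : ∀ x, d + φ x - H / 4 ≤ q x := fun x => by
    have : 0 ≤ κ * ‖T (x - x₁)‖ ^ 2 := by positivity
    simp only [hq]
    linarith
  set K₀ : Set (E n) := P ∩ (fun x => q x - u x) ⁻¹' Ici 0 with hK₀
  have hrc : ContinuousOn (fun x => q x - u x) P :=
    hqs.continuous.continuousOn.sub (h.smooth.continuousOn.mono hPΩ)
  have hKc : IsCompact K₀ :=
    hPc.of_isClosed_subset (hrc.preimage_isClosed_of_isClosed hPc.isClosed isClosed_Ici) inter_subset_left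
  have hKU : K₀ ⊆ U := fun x hx => ⟨hPΩ hx.1, by
    have e1 : 0 ≤ q x - u x := hx.2
    have e2 := hq1 x hx.1
    show 0 < d + φ x - u x
    linarith⟩
  set δ : ℝ := c₀ * (H * V) ^ ((n : ℝ) / (n + 2)) / V with hδ
  have hδ0 : 0 ≤ δ := by positivity
  have hδp : δ ^ (n + 2) = (2 * κ) ^ n * (a / V) ^ 2 := by
    have e1 : c₀ ^ (n + 2) = (1 / (4 * R ^ 2)) ^ n * a ^ 2 := by
      rw [hc₀, ← Real.rpow_natCast, ← Real.rpow_mul (by positivity)]
      push_cast
      rw [one_div_mul_cancel hn2.ne', Real.rpow_one]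
    have e2 : ((H * V) ^ ((n : ℝ) / (n + 2))) ^ (n + 2) = (H * V) ^ n := by
      rw [← Real.rpow_natCast, ← Real.rpow_mul (by positivity)]
      push_cast
      rw [div_mul_cancel₀ _ hn2.ne', Real.rpow_natCast]
    have e3 : 2 * κ = 1 / (4 * R ^ 2) * H := by rw [hκ]; field_simp; norm_num
    rw [hδ, div_pow, mul_pow, e1, e2, e3, mul_pow, mul_pow, pow_add V]
    field_simp
  have hT := area_test h hUo (fun x hx => hx.1) hKc hKU hqs hδ0 (fun x => ⟨(hqh x).1, by
      rw [(hqh x).2, hδp, ← sq_abs (ContinuousLinearMap.det _)]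
      gcongr
      rw [div_le_iff₀ hV0]
      exact h3⟩)
    (fun x hx => sub_nonneg.1 hx.2) fun x hx hx' => by
      by_contra hlt
      exact hx' ⟨hUP hx, show 0 ≤ q x - u x by linarith⟩
  have hri := h.rho_inv_continuousOn
  have hr0 : ∀ x ∈ Ω, 0 ≤ (rho u x)⁻¹ := fun x hx => (inv_pos.2 (h.rho_pos hx)).le
  have hKP : K₀ ⊆ P := inter_subset_left
  have hup : ∫ x in K₀, (q x - u x) ^ 2 * (rho u x)⁻¹ ≤ H ^ 2 * ∫ x in P, (rho u x)⁻¹ := by
    calc ∫ x in K₀, (q x - u x) ^ 2 * (rho u x)⁻¹ ≤ ∫ x in K₀, H ^ 2 * (rho u x)⁻¹ := by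
          refine setIntegral_mono_on
            ((((hrc.mono hKP).pow 2).mul (hri.mono (hKP.trans hPΩ))).integrableOn_compact hKc)
            ((continuousOn_const.mul (hri.mono (hKP.trans hPΩ))).integrableOn_compact hKc)
            hKc.measurableSet fun x hx => ?_
          have e1 : 0 ≤ q x - u x := hx.2
          have e2 := hq1 x hx.1
          have e3 := hmax x hx.1
          have e4 := hr0 x (hPΩ hx.1)
          gcongr
          linarith
      _ = H ^ 2 * ∫ x in K₀, (rho u x)⁻¹ := integral_const_mul _ _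
      _ ≤ H ^ 2 * ∫ x in P, (rho u x)⁻¹ := by
          refine mul_le_mul_of_nonneg_left ?_ (by positivity)
          exact setIntegral_mono_set ((hri.mono hPΩ).integrableOn_compact hPc)
            (ae_restrict_of_forall_mem hPc.measurableSet fun x hx => hr0 x (hPΩ hx))
            hKP.eventuallyLE
  set S := AffineMap.homothety x₁ (1 / 2 : ℝ) '' P with hS
  have hSc : IsCompact S := hPc.image (AffineMap.homothety_continuous _ _)
  have hSr : ∀ x ∈ S, x ∈ P ∧ H / 4 ≤ q x - u x := by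
    rintro _ ⟨y, hy, rfl⟩
    have e : AffineMap.homothety x₁ (1 / 2 : ℝ) y = (1 / 2 : ℝ) • y + (1 / 2 : ℝ) • x₁ := by
      rw [AffineMap.homothety_apply, vsub_eq_sub, vadd_eq_add]
      module
    rw [e]
    refine ⟨hPv hy hx₁P (by norm_num) (by norm_num) (by norm_num), ?_⟩
    have e1 := hcomb y (hPΩ hy) x₁ hx₁ (1 / 2) (1 / 2) (by norm_num) (by norm_num) (by norm_num)
    have e2 := hq2 ((1 / 2 : ℝ) • y + (1 / 2 : ℝ) • x₁)
    have e3 := hPu y hy
    linarith
  have hSK : S ⊆ K₀ := fun x hx => ⟨(hSr x hx).1, by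
    have := (hSr x hx).2
    show 0 ≤ q x - u x
    linarith⟩
  have hSv : volume.real S = (1 / 2) ^ n * V := by
    rw [measureReal_def, hS, Measure.addHaar_image_homothety, ENNReal.toReal_mul,
      ENNReal.toReal_ofReal (abs_nonneg _), finrank_euclideanSpace_fin, abs_of_nonneg (by positivity), hV,
      measureReal_def]
  have hlow : (H / 4) ^ 2 * ((1 / 2) ^ n * V) ≤ ∫ x in K₀, (q x - u x) ^ 2 := by
    calc (H / 4) ^ 2 * ((1 / 2) ^ n * V) = ∫ _x in S, (H / 4) ^ 2 := by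
          rw [setIntegral_const, smul_eq_mul, hSv, mul_comm]
      _ ≤ ∫ x in S, (q x - u x) ^ 2 := by
          refine setIntegral_mono_on (continuousOn_const.integrableOn_compact hSc)
            (((hrc.mono (hSK.trans hKP)).pow 2).integrableOn_compact hSc) hSc.measurableSet fun x hx => ?_
          have := (hSr x hx).2
          gcongr
      _ ≤ ∫ x in K₀, (q x - u x) ^ 2 :=
          setIntegral_mono_set (((hrc.mono hKP).pow 2).integrableOn_compact hKc)
            (ae_of_all _ fun x => sq_nonneg _) hSK.eventuallyLE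
  have hfin := ((mul_le_mul_of_nonneg_left hlow hδ0).trans hT).trans hup
  have e : δ * ((H / 4) ^ 2 * ((1 / 2) ^ n * V)) =
      H ^ 2 * (c₀ * (1 / 2) ^ n / 16 * (H * V) ^ ((n : ℝ) / (n + 2))) := by
    rw [hδ]
    field_simp
    norm_num
  rw [e] at hfin
  exact le_of_mul_le_mul_left hfin (by positivity)

end Crest.Agent.R236
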