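import Mathlib

/-!
# R236/GeoDefs: pure convex geometry for the affine Bernstein theorem (part 5 of idea 1100; helper97)

`F` is any finite-dimensional real normed space (later `F = E × ℝ`).
-/

set_option autoImplicit false

namespace Crest.Agent.R236.Geo

open Set Filter Topology

variable {F : Type} [NormedAddCommGroup F] [NormedSpace ℝ F]

/-- the cap `K ∩ {ξ/a + η/b ≤ 4}` -/
def cap2 (K : Set F) (o : F) (ξ η : F →L[ℝ] ℝ) (a b : ℝ) : Set F :=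
  {X | X ∈ K ∧ ξ (X - o) / a + η (X - o) / b ≤ 4}

/-- the corner configuration excluded by the analytic theorem (at the scale `a, b`) -/
structure QAt (K : Set F) (ε ρ : ℝ) (o e₁ e₂ : F) (ξ η : F →L[ℝ] ℝ) (a b : ℝ) : Prop where
  cpt : IsCompact (cap2 K o ξ η a b)
  int : (interior (cap2 K o ξ η a b)).Nonempty
  wide : ∀ X ∈ cap2 K o ξ η a b, ∀ Y ∈ cap2 K o ξ η a b, ∀ Z ∈ cap2 K o ξ η a b,
    X + (a • e₁ + b • e₂) + ρ • (Y - Z) ∈ K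
  lowξ : ∀ X ∈ cap2 K o ξ η a b, -(ε * a) ≤ ξ (X - o)
  lowη : ∀ X ∈ cap2 K o ξ η a b, -(ε * b) ≤ η (X - o)
  box : ∀ x y : ℝ, ε * a ≤ x → x ≤ 4 * a → ε * b ≤ y → y ≤ 4 * b →
    ∀ Y ∈ cap2 K o ξ η a b, ∀ Z ∈ cap2 K o ξ η a b, o + (x • e₁ + y • e₂) + ρ • (Y - Z) ∈ K

/-- `Q(R, ρ)` of the plan -/
def Q (K : Set F) (ε R ρ : ℝ) : Prop :=
  ∃ (o e₁ e₂ : F) (ξ η : F →L[ℝ] ℝ), o ∈ K ∧ ξ e₁ = 1 ∧ ξ e₂ = 0 ∧ η e₁ = 0 ∧ η e₂ = 1 ∧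
    ∀ a b : ℝ, Real.exp (-R) ≤ a → a ≤ Real.exp R → Real.exp (-R) ≤ b → b ≤ Real.exp R →
      QAt K ε ρ o e₁ e₂ ξ η a b

/-- affine image -/
def aff (T : F ≃L[ℝ] F) (b : F) (K : Set F) : Set F := (fun X => T X + b) '' K

/-- `ε`-close on the ball of radius `R` -/
def Close (R ε : ℝ) (A B : Set F) : Prop :=
  (∀ x ∈ A, ‖x‖ ≤ R → ∃ y ∈ B, ‖x - y‖ ≤ ε) ∧ ∀ y ∈ B, ‖y‖ ≤ R → ∃ x ∈ A, ‖x - y‖ ≤ ε

/-- `K'` is a local Hausdorff limit of affine images of `K` -/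
structure LL (K K' : Set F) : Prop where
  closed : IsClosed K'
  convex : Convex ℝ K'
  approx : ∀ R ε : ℝ, 0 < ε → ∃ (T : F ≃L[ℝ] F) (b : F), Close R ε (aff T b K) K'

/-- ultralimit of sets -/
def ulim (𝒰 : Ultrafilter ℕ) (Ks : ℕ → Set F) : Set F :=
  {X | ∀ ε : ℝ, 0 < ε → ∀ᶠ k in (𝒰 : Filter ℕ), ∃ Y ∈ Ks k, ‖X - Y‖ ≤ ε}

/-- the cap `K ∩ {∑ ξ_i ≤ 4}` -/
def cap {r : ℕ} (K : Set F) (o : F) (ξ : Fin r → F →L[ℝ] ℝ) : Set F :=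
  {X | X ∈ K ∧ ∑ i, ξ i (X - o) ≤ 4}

/-- approximate structure of rank `r` -/
structure App {r : ℕ} (K : Set F) (o : F) (e : Fin r → F) (ξ : Fin r → F →L[ℝ] ℝ) (L ε : ℝ) :
    Prop where
  mem : o ∈ K
  ray : ∀ i (t : ℝ), 0 ≤ t → t ≤ L → o + t • e i ∈ K
  nonneg : ∀ i, ∀ X ∈ K, -ε ≤ ξ i (X - o)
  dual : ∀ i j, |ξ i (e j) - if i = j then 1 else 0| ≤ ε
  bdd : Bornology.IsBounded (cap K o ξ)
  int : (interior K).Nonempty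

/-- structure of rank `r` -/
structure Str {r : ℕ} (K : Set F) (o : F) (e : Fin r → F) (ξ : Fin r → F →L[ℝ] ℝ) : Prop where
  mem : o ∈ K
  ray : ∀ i (t : ℝ), 0 ≤ t → o + t • e i ∈ K
  nonneg : ∀ i, ∀ X ∈ K, 0 ≤ ξ i (X - o)
  dual : ∀ i j, ξ i (e j) = if i = j then 1 else 0
  bdd : Bornology.IsBounded (cap K o ξ)
  int : (interior K).Nonempty

/-- property `(W)_ρ` -/
def Wide {r : ℕ} (K : Set F) (o : F) (e : Fin r → F) (ξ : Fin r → F →L[ℝ] ℝ) (ρ : ℝ) : Prop :=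
  ∀ a : Fin r → ℝ, (∀ i, 0 < a i) →
    ∀ X ∈ cap K o (fun i => (a i)⁻¹ • ξ i), ∀ Y ∈ cap K o (fun i => (a i)⁻¹ • ξ i),
      ∀ Z ∈ cap K o (fun i => (a i)⁻¹ • ξ i), X + ∑ i, a i • e i + ρ • (Y - Z) ∈ K

/-- there is a limit of affine images of `K` with a structure of rank `r` -/
def Rk (K : Set F) (r : ℕ) : Prop :=
  ∃ (K' : Set F) (o : F) (e : Fin r → F) (ξ : Fin r → F →L[ℝ] ℝ), LL K K' ∧ Str K' o e ξ

end Crest.Agent.R236.Geo
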