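import Crest.Prelude.Def_AffineMaximal
import Crest.Agent.R236.GeoDefs

/-!
# R236/GeoC TASK (part 9): convexity of `u`, completeness implies that the epigraph is closed
-/

set_option autoImplicit false

namespace Crest.Agent.R236.Geo

open Set Filter Topology Metric
open Crest.GeometryTopology.CoordMetric Crest.GeometryTopology.AffineMaximal
open scoped ContDiff

variable {n : ℕ} {Ω : Set (EuclideanSpace ℝ (Fin n))} {u : EuclideanSpace ℝ (Fin n) → ℝ}

/-- the epigraph -/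
def epi (Ω : Set (EuclideanSpace ℝ (Fin n))) (u : EuclideanSpace ℝ (Fin n) → ℝ) :
    Set (EuclideanSpace ℝ (Fin n) × ℝ) := {X | X.1 ∈ Ω ∧ u X.1 ≤ X.2}

theorem geoc_lin (L : EuclideanSpace ℝ (Fin n) →L[ℝ] ℝ) (w : EuclideanSpace ℝ (Fin n)) :
    L w = ∑ j, w j * L (EuclideanSpace.single j 1) := by
  have e : w = ∑ j, w j • EuclideanSpace.single j (1 : ℝ) := by
    ext i
    simp [Finset.sum_apply, Pi.single_apply]
  conv_lhs => rw [e]
  simp only [map_sum, map_smul, smul_eq_mul]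

theorem geoc_line (x w : EuclideanSpace ℝ (Fin n)) (t : ℝ) : HasDerivAt (fun s : ℝ => x + s • w) w t := by
  simpa using ((hasDerivAt_id t).smul_const w).const_add x

theorem geoc_diff (hΩ : IsOpen Ω) (hu : ContDiffOn ℝ ∞ u Ω) {x : EuclideanSpace ℝ (Fin n)} (hx : x ∈ Ω) :
    DifferentiableAt ℝ u x := (hu.contDiffAt (hΩ.mem_nhds hx)).differentiableAt (by simp)

theorem geoc_der (hΩ : IsOpen Ω) (hu : ContDiffOn ℝ ∞ u Ω) (x w : EuclideanSpace ℝ (Fin n)) {t : ℝ}
    (ht : x + t • w ∈ Ω) : HasDerivAt (fun s : ℝ => u (x + s • w)) (fderiv ℝ u (x + t • w) w) t :=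
  (geoc_diff hΩ hu ht).hasFDerivAt.comp_hasDerivAt t (geoc_line x w t)

theorem geoc_cont (hΩ : IsOpen Ω) (hu : ContDiffOn ℝ ∞ u Ω) : ContinuousOn (fderiv ℝ u) Ω :=
  hu.continuousOn_fderiv_of_isOpen hΩ (by simp)


/-- second derivative along a line: with `γ t = x + t • w`, the function `t ↦ fderiv ℝ u (γ t) w`
(`= ∑ j, w j * pderiv j u (γ t)`) has derivative `∑ i j, w i * hessianMat u (γ t) i j * w j` -/
theorem hasDerivAt_fderiv_line (hΩ : IsOpen Ω) (hu : ContDiffOn ℝ ∞ u Ω)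
    (x w : EuclideanSpace ℝ (Fin n)) {t : ℝ} (ht : x + t • w ∈ Ω) :
    HasDerivAt (fun s : ℝ => fderiv ℝ u (x + s • w) w)
      (∑ i, ∑ j, w i * hessianMat u (x + t • w) i j * w j) t := by
  have h1 : ∀ j, HasDerivAt (fun s : ℝ => w j * pderiv j u (x + s • w))
      (w j * ∑ i, w i * hessianMat u (x + t • w) i j) t := fun j => by
    have h2 : DifferentiableAt ℝ (fderiv ℝ u) (x + t • w) :=
      ((hu.contDiffAt (hΩ.mem_nhds ht)).fderiv_right (m := 1) (by norm_cast)).differentiableAt one_ne_zero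
    have h3 : DifferentiableAt ℝ (fun y => pderiv j u y) (x + t • w) := h2.clm_apply (differentiableAt_const _)
    have h4 := h3.hasFDerivAt.comp_hasDerivAt t (geoc_line x w t)
    rw [geoc_lin] at h4
    exact h4.const_mul (w j)
  have h5 := HasDerivAt.fun_sum fun j (_ : j ∈ Finset.univ) => h1 j
  refine (h5.congr_of_eventuallyEq (Eventually.of_forall fun s => geoc_lin _ _)).congr_deriv ?_
  rw [Finset.sum_comm]
  refine Finset.sum_congr rfl fun j _ => ?_
  rw [Finset.mul_sum]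
  exact Finset.sum_congr rfl fun i _ => by ring

/-- strict tangent plane inequality: `t ↦ u (x + t (y - x))` has strictly increasing derivative on `[0,1]` -/
theorem tangent_lt (hΩ : IsOpen Ω) (hΩc : Convex ℝ Ω) (hu : ContDiffOn ℝ ∞ u Ω)
    (hconv : ∀ x ∈ Ω, (hessianMat u x).PosDef) {x y : EuclideanSpace ℝ (Fin n)} (hx : x ∈ Ω)
    (hy : y ∈ Ω) (hxy : y ≠ x) : u x + fderiv ℝ u x (y - x) < u y := by
  have hm : ∀ t ∈ Icc (0 : ℝ) 1, x + t • (y - x) ∈ Ω := fun t ht => hΩc.add_smul_sub_mem hx hy ht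
  have hw : (y - x).ofLp ≠ 0 := fun h => sub_ne_zero.2 hxy (by ext i; exact congrFun h i)
  have h1 : StrictMonoOn (fun s : ℝ => fderiv ℝ u (x + s • (y - x)) (y - x)) (Icc 0 1) := by
    refine strictMonoOn_of_deriv_pos (convex_Icc 0 1)
      (fun t ht => (hasDerivAt_fderiv_line hΩ hu x _ (hm t ht)).continuousAt.continuousWithinAt) fun t ht => ?_
    have ht' := interior_subset ht
    rw [(hasDerivAt_fderiv_line hΩ hu x _ (hm t ht')).deriv]
    refine ((hconv _ (hm t ht')).dotProduct_mulVec_pos hw).trans_eq ?_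
    simp only [dotProduct, Matrix.mulVec, star_trivial, Finset.mul_sum, mul_assoc]
  obtain ⟨c, hc, hc'⟩ := exists_hasDerivAt_eq_slope (fun s : ℝ => u (x + s • (y - x)))
    (fun s => fderiv ℝ u (x + s • (y - x)) (y - x)) zero_lt_one
    (fun t ht => (geoc_der hΩ hu x _ (hm t ht)).continuousAt.continuousWithinAt)
    fun t ht => geoc_der hΩ hu x _ (hm t (Ioo_subset_Icc_self ht))
  have h2 := h1 (left_mem_Icc.2 zero_le_one) (Ioo_subset_Icc_self hc) hc.1
  simp only [zero_smul, add_zero, one_smul, add_sub_cancel, sub_zero, div_one] at h2 hc'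
  linarith

theorem tangent_le (hΩ : IsOpen Ω) (hΩc : Convex ℝ Ω) (hu : ContDiffOn ℝ ∞ u Ω)
    (hconv : ∀ x ∈ Ω, (hessianMat u x).PosDef) {x y : EuclideanSpace ℝ (Fin n)} (hx : x ∈ Ω)
    (hy : y ∈ Ω) : u x + fderiv ℝ u x (y - x) ≤ u y := by
  rcases eq_or_ne y x with rfl | h
  · simp
  · exact (tangent_lt hΩ hΩc hu hconv hx hy h).le

/-- apply `tangent_le` at `a x + b y` -/
theorem convexOn_u (hΩ : IsOpen Ω) (hΩc : Convex ℝ Ω) (hu : ContDiffOn ℝ ∞ u Ω)
    (hconv : ∀ x ∈ Ω, (hessianMat u x).PosDef) : ConvexOn ℝ Ω u := by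
  refine ⟨hΩc, fun x hx y hy a b ha hb hab => ?_⟩
  have hz := hΩc hx hy ha hb hab
  have h1 := tangent_le hΩ hΩc hu hconv hz hx
  have h2 := tangent_le hΩ hΩc hu hconv hz hy
  have h3 : a * fderiv ℝ u (a • x + b • y) (x - (a • x + b • y)) +
      b * fderiv ℝ u (a • x + b • y) (y - (a • x + b • y)) = 0 := by
    rw [← smul_eq_mul, ← smul_eq_mul, ← map_smul, ← map_smul, ← map_add, smul_sub, smul_sub,
      sub_add_sub_comm, ← add_smul, hab, one_smul, sub_self, map_zero]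
  have h4 : u (a • x + b • y) = a * u (a • x + b • y) + b * u (a • x + b • y) := by
    rw [← add_mul, hab, one_mul]
  simp only [smul_eq_mul]
  nlinarith [mul_le_mul_of_nonneg_left h1 ha, mul_le_mul_of_nonneg_left h2 hb]

theorem epi_convex (hΩ : IsOpen Ω) (hΩc : Convex ℝ Ω) (hu : ContDiffOn ℝ ∞ u Ω)
    (hconv : ∀ x ∈ Ω, (hessianMat u x).PosDef) : Convex ℝ (epi Ω u) := by
  exact (convexOn_u hΩ hΩc hu hconv).convex_epigraph

/-- `quadForm (graphMetric u) x v = ‖v‖² + (fderiv ℝ u x v)²` -/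
theorem quadForm_graph (x v : EuclideanSpace ℝ (Fin n)) :
    quadForm (graphMetric u) x v = ‖v‖ ^ 2 + (fderiv ℝ u x v) ^ 2 := by
  rw [geoc_lin (fderiv ℝ u x) v, EuclideanSpace.real_norm_sq_eq, sq (∑ j, _), Finset.sum_mul_sum,
    ← Finset.sum_add_distrib]
  refine Finset.sum_congr rfl fun i _ => ?_
  simp only [graphMetric, pderiv, add_mul, Finset.sum_add_distrib, ite_mul, one_mul, zero_mul,
    Finset.sum_ite_eq, Finset.mem_univ, if_true]
  congr 1
  · ring
  · exact Finset.sum_congr rfl fun j _ => by ring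

/-- the segment is admissible -/
def geocSeg (hΩc : Convex ℝ Ω) {x y : EuclideanSpace ℝ (Fin n)} (hx : x ∈ Ω) (hy : y ∈ Ω) :
    AdmissiblePath Ω x y :=
  ⟨fun t => x + t • (y - x), by fun_prop, by simp, by simp, fun _ ht => hΩc.add_smul_sub_mem hx hy ht⟩

theorem geoc_int (hΩ : IsOpen Ω) (hu : ContDiffOn ℝ ∞ u Ω) {x y : EuclideanSpace ℝ (Fin n)}
    (γ : AdmissiblePath Ω x y) :
    IntervalIntegrable (fun t => √(quadForm (graphMetric u) (γ.1 t) (deriv γ.1 t))) MeasureTheory.volume 0 1 := by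
  obtain ⟨γ, h1, -, -, h4⟩ := γ
  refine ContinuousOn.intervalIntegrable ?_
  rw [uIcc_of_le zero_le_one]
  simp only [quadForm_graph]
  have h5 := h1.continuous_deriv le_rfl
  have h6 : ContinuousOn (fun t => fderiv ℝ u (γ t) (deriv γ t)) (Icc 0 1) :=
    ((geoc_cont hΩ hu).comp h1.continuous.continuousOn h4).clm_apply h5.continuousOn
  exact ((h5.norm.pow 2).continuousOn.add (h6.pow 2)).sqrt


/-- lower bound: every admissible path has length `≥ ‖γ 1 - γ 0‖` (FTC, `norm_integral_le_integral_norm`,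
`√(‖v‖² + _) ≥ ‖v‖`; the integrand is continuous on `[0,1]`); the segment is admissible, `le_ciInf` -/
theorem norm_le_riemDist (hΩ : IsOpen Ω) (hΩc : Convex ℝ Ω) (hu : ContDiffOn ℝ ∞ u Ω)
    {x y : EuclideanSpace ℝ (Fin n)} (hx : x ∈ Ω) (hy : y ∈ Ω) :
    ‖x - y‖ ≤ riemDist (graphMetric u) Ω x y := by
  have : Nonempty (AdmissiblePath Ω x y) := ⟨geocSeg hΩc hx hy⟩
  refine le_ciInf fun γ => ?_
  have hi := geoc_int hΩ hu γ
  obtain ⟨γ, h1, h2, h3, h4⟩ := γ
  have h5 := h1.continuous_deriv le_rfl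
  have h6 := intervalIntegral.integral_eq_sub_of_hasDerivAt (a := 0) (b := 1)
    (fun t _ => (h1.differentiable one_ne_zero t).hasDerivAt) (h5.intervalIntegrable 0 1)
  rw [h2, h3] at h6
  rw [norm_sub_rev, ← h6]
  refine (intervalIntegral.norm_integral_le_integral_norm zero_le_one).trans
    (intervalIntegral.integral_mono_on zero_le_one (h5.norm.intervalIntegrable 0 1) hi fun t _ => ?_)
  rw [quadForm_graph]
  exact Real.le_sqrt_of_sq_le (le_add_of_nonneg_right (sq_nonneg _))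

/-- upper bound along the segment when the derivative along the segment has a sign:
`√(a² + b²) ≤ |a| + |b|`, FTC; `ciInf_le` (lengths are `≥ 0`) -/
theorem riemDist_le (hΩ : IsOpen Ω) (hΩc : Convex ℝ Ω) (hu : ContDiffOn ℝ ∞ u Ω)
    {x y : EuclideanSpace ℝ (Fin n)} (hx : x ∈ Ω) (hy : y ∈ Ω)
    (hs : (∀ t ∈ Icc (0 : ℝ) 1, 0 ≤ fderiv ℝ u (x + t • (y - x)) (y - x)) ∨
      ∀ t ∈ Icc (0 : ℝ) 1, fderiv ℝ u (x + t • (y - x)) (y - x) ≤ 0) :
    riemDist (graphMetric u) Ω x y ≤ ‖y - x‖ + |u y - u x| := by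
  have hm : ∀ t ∈ Icc (0 : ℝ) 1, x + t • (y - x) ∈ Ω := fun t ht => hΩc.add_smul_sub_mem hx hy ht
  refine (ciInf_le ⟨0, ?_⟩ (geocSeg hΩc hx hy)).trans ?_
  · rintro _ ⟨γ, rfl⟩
    exact intervalIntegral.integral_nonneg zero_le_one fun _ _ => Real.sqrt_nonneg _
  have hc : IntervalIntegrable (fun t : ℝ => fderiv ℝ u (x + t • (y - x)) (y - x)) MeasureTheory.volume 0 1 := by
    refine ContinuousOn.intervalIntegrable ?_
    rw [uIcc_of_le zero_le_one]
    exact fun t ht => (hasDerivAt_fderiv_line hΩ hu x _ (hm t ht)).continuousAt.continuousWithinAt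
  have h6 := intervalIntegral.integral_eq_sub_of_hasDerivAt (a := 0) (b := 1)
    (fun t ht => geoc_der hΩ hu x (y - x) (hm t (by rwa [uIcc_of_le zero_le_one] at ht))) hc
  simp only [zero_smul, add_zero, one_smul, add_sub_cancel] at h6
  have h7 : ∫ t in (0 : ℝ)..1, |fderiv ℝ u (x + t • (y - x)) (y - x)| = |u y - u x| := by
    rw [← h6]
    rcases hs with hs | hs
    · rw [abs_of_nonneg (intervalIntegral.integral_nonneg zero_le_one hs)]
      exact intervalIntegral.integral_congr fun t ht =>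
        abs_of_nonneg (hs t (by rwa [uIcc_of_le zero_le_one] at ht))
    · rw [← abs_neg, ← intervalIntegral.integral_neg,
        abs_of_nonneg (intervalIntegral.integral_nonneg zero_le_one fun t ht => neg_nonneg.2 (hs t ht))]
      exact intervalIntegral.integral_congr fun t ht =>
        abs_of_nonpos (hs t (by rwa [uIcc_of_le zero_le_one] at ht))
  have h8 := intervalIntegral.integral_mono_on zero_le_one (geoc_int hΩ hu (geocSeg hΩc hx hy))
    ((intervalIntegrable_const (c := ‖y - x‖)).add hc.abs) fun t _ => by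
      have e : deriv (geocSeg hΩc hx hy).1 t = y - x := (geoc_line x (y - x) t).deriv
      rw [quadForm_graph, e]
      refine Real.sqrt_le_iff.2 ⟨by positivity, ?_⟩
      rw [add_sq, sq_abs]
      have : 0 ≤ 2 * ‖y - x‖ * |fderiv ℝ u (x + t • (y - x)) (y - x)| := by positivity
      change _ + fderiv ℝ u (x + t • (y - x)) (y - x) ^ 2 ≤ _
      linarith
  rw [intervalIntegral.integral_add intervalIntegrable_const hc.abs, h7] at h8
  simpa [curveLength] using h8

/-- Let `(x_k, t_k) → (x, t)` in the epigraph, `x₀ ∈ Ω`, `γ s = x₀ + s (x - x₀) ∈ Ω` for `s ∈ [0,1)`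
(`Convex.add_smul_sub_mem_interior`-type lemma for `x ∈ closure Ω`).  Convexity and continuity give
`g s = u (γ s) ≤ (1-s) u x₀ + s t`.  If `x ∉ Ω`: `g'` is monotone on `[0,1)`, so it has a sign on some `[s₀,1)`,
`g` is monotone and bounded there (below by the tangent plane at `x₀`), so `γ (s_k)`, `s_k ↑ 1`, is Cauchy for
`riemDist` (`riemDist_le`); its limit `p ∈ Ω` equals `x` by `norm_le_riemDist`: contradiction.
If `x ∈ Ω`, continuity of `u` at `x`. -/
theorem epi_closed (hΩ : IsOpen Ω) (hΩc : Convex ℝ Ω) (hΩn : Ω.Nonempty) (hu : ContDiffOn ℝ ∞ u Ω)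
    (hconv : ∀ x ∈ Ω, (hessianMat u x).PosDef) (hcomp : IsCompleteOn (graphMetric u) Ω) :
    IsClosed (epi Ω u) := by
  refine IsSeqClosed.isClosed fun X P hX hP => ?_
  obtain ⟨x, t⟩ := P
  have hx1 : Tendsto (fun k => (X k).1) atTop (𝓝 x) := (continuous_fst.tendsto _).comp hP
  have ht1 : Tendsto (fun k => (X k).2) atTop (𝓝 t) := (continuous_snd.tendsto _).comp hP
  suffices hx : x ∈ Ω from ⟨hx, le_of_tendsto_of_tendsto'
    ((geoc_diff hΩ hu hx).continuousAt.tendsto.comp hx1) ht1 fun k => (hX k).2⟩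
  obtain ⟨x₀, hx₀⟩ := hΩn
  have hcl : x ∈ closure Ω := mem_closure_of_tendsto hx1 (Eventually.of_forall fun k => (hX k).1)
  set w := x₀ - x with hw
  have hm : ∀ s ∈ Ioc (0 : ℝ) 1, x + s • w ∈ Ω := fun s hs =>
    interior_subset (hΩc.add_smul_sub_mem_interior' hcl (by rwa [hΩ.interior_eq]) hs)
  set g : ℝ → ℝ := fun s => u (x + s • w) with hg
  set φ : ℝ → ℝ := fun s => fderiv ℝ u (x + s • w) w with hφ
  have hsub : ∀ s s' : ℝ, x + s' • w - (x + s • w) = (s' - s) • w := fun s s' => by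
    rw [add_sub_add_left_eq_sub, sub_smul]
  have htan : ∀ s ∈ Ioc (0 : ℝ) 1, ∀ s' ∈ Ioc (0 : ℝ) 1, g s + (s' - s) * φ s ≤ g s' := fun s hs s' hs' => by
    have := tangent_le hΩ hΩc hu hconv (hm s hs) (hm s' hs')
    rwa [hsub, map_smul, smul_eq_mul] at this
  have hup : ∀ s ∈ Ioc (0 : ℝ) 1, g s ≤ |t| + |u x₀| := fun s hs => by
    have h1 : Tendsto (fun k => (1 - s) • (X k).1 + s • x₀) atTop (𝓝 (x + s • w)) := by
      have e : x + s • w = (1 - s) • x + s • x₀ := by rw [hw, smul_sub, sub_smul, one_smul]; abel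
      rw [e]
      exact (hx1.const_smul _).add_const _
    have h2 : g s ≤ (1 - s) * t + s * u x₀ := by
      refine le_of_tendsto_of_tendsto' ((geoc_diff hΩ hu (hm s hs)).continuousAt.tendsto.comp h1)
        ((ht1.const_mul (1 - s)).add_const (s * u x₀)) fun k => ?_
      refine ((convexOn_u hΩ hΩc hu hconv).2 (hX k).1 hx₀ (sub_nonneg.2 hs.2) hs.1.le (by ring)).trans ?_
      simp only [smul_eq_mul]
      have := mul_le_mul_of_nonneg_left (hX k).2 (sub_nonneg.2 hs.2)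
      linarith
    have h3 := mul_le_mul_of_nonneg_left (le_abs_self t) (sub_nonneg.2 hs.2)
    have h4 := mul_le_mul_of_nonneg_left (le_abs_self (u x₀)) hs.1.le
    nlinarith [mul_nonneg hs.1.le (abs_nonneg t), mul_nonneg (sub_nonneg.2 hs.2) (abs_nonneg (u x₀))]
  have hlo : ∀ s ∈ Ioc (0 : ℝ) 1, g 1 - |φ 1| ≤ g s := fun s hs => by
    have h1 := htan 1 ⟨one_pos, le_rfl⟩ s hs
    have h3 := mul_le_mul_of_nonneg_left (le_abs_self (φ 1)) (sub_nonneg.2 hs.2)
    nlinarith [mul_nonneg hs.1.le (abs_nonneg (φ 1))]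
  obtain ⟨s₀, hs₀, hsg⟩ : ∃ s₀ ∈ Ioc (0 : ℝ) 1, (∀ s ∈ Ioc 0 s₀, 0 ≤ φ s) ∨ ∀ s ∈ Ioc 0 s₀, φ s ≤ 0 := by
    by_cases h : ∃ s₀ ∈ Ioc (0 : ℝ) 1, φ s₀ ≤ 0
    · obtain ⟨s₀, hs₀, h⟩ := h
      refine ⟨s₀, hs₀, Or.inr fun s hs => ?_⟩
      rcases hs.2.eq_or_lt with rfl | hlt
      · exact h
      have h1 := htan s ⟨hs.1, hs.2.trans hs₀.2⟩ s₀ hs₀
      have h2 := htan s₀ hs₀ s ⟨hs.1, hs.2.trans hs₀.2⟩
      by_contra h3
      nlinarith [mul_pos (sub_pos.2 hlt) (not_le.1 h3), mul_nonneg (sub_pos.2 hlt).le (neg_nonneg.2 h)]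
    · exact ⟨1, ⟨one_pos, le_rfl⟩, Or.inl fun s hs => (not_le.1 fun h' => h ⟨s, hs, h'⟩).le⟩
  set r : ℕ → ℝ := fun k => s₀ * (1 / ((k : ℝ) + 1)) with hr
  have hr0 : Tendsto r atTop (𝓝 0) := by
    have := (tendsto_one_div_add_atTop_nhds_zero_nat (𝕜 := ℝ)).const_mul s₀
    rwa [mul_zero] at this
  have hra : Antitone r := fun k l hkl => mul_le_mul_of_nonneg_left (Nat.one_div_le_one_div hkl) hs₀.1.le
  have hrm : ∀ k, r k ∈ Ioc 0 s₀ := fun k =>
    ⟨mul_pos hs₀.1 Nat.one_div_pos_of_nat, (hra (Nat.zero_le k)).trans_eq (by simp [hr])⟩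
  have hrm' : ∀ k, r k ∈ Ioc (0 : ℝ) 1 := fun k => ⟨(hrm k).1, (hrm k).2.trans hs₀.2⟩
  have hγ : Tendsto (fun k => x + r k • w) atTop (𝓝 x) := by
    simpa using (hr0.smul_const w).const_add x
  have hgc : CauchySeq fun k => g (r k) := by
    rcases hsg with h | h
    · refine (tendsto_atTop_ciInf (fun k l hkl => ?_) ⟨g 1 - |φ 1|, ?_⟩).cauchySeq
      · have := htan _ (hrm' l) _ (hrm' k)
        have := mul_nonneg (sub_nonneg.2 (hra hkl)) (h _ (hrm l))
        linarith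
      · rintro _ ⟨k, rfl⟩
        exact hlo _ (hrm' k)
    · refine (tendsto_atTop_ciSup (fun k l hkl => ?_) ⟨|t| + |u x₀|, ?_⟩).cauchySeq
      · have := htan _ (hrm' k) _ (hrm' l)
        have := mul_nonneg (sub_nonneg.2 (hra hkl)) (neg_nonneg.2 (h _ (hrm k)))
        linarith
      · rintro _ ⟨k, rfl⟩
        exact hup _ (hrm' k)
  have hd : ∀ k l, riemDist (graphMetric u) Ω (x + r k • w) (x + r l • w) ≤
      dist (x + r l • w) (x + r k • w) + dist (g (r l)) (g (r k)) := fun k l => by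
    rw [dist_eq_norm, Real.dist_eq]
    refine riemDist_le hΩ hΩc hu (hm _ (hrm' k)) (hm _ (hrm' l)) ?_
    have e : ∀ τ : ℝ, fderiv ℝ u (x + r k • w + τ • (x + r l • w - (x + r k • w)))
        (x + r l • w - (x + r k • w)) = (r l - r k) * φ (r k + τ * (r l - r k)) := fun τ => by
      rw [hsub, map_smul, smul_eq_mul, smul_smul, add_assoc, ← add_smul]
    have hi : ∀ τ ∈ Icc (0 : ℝ) 1, r k + τ * (r l - r k) ∈ Ioc 0 s₀ := fun τ hτ =>
      (convex_Ioc 0 s₀).add_smul_sub_mem (hrm k) (hrm l) hτ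
    simp only [e]
    rcases le_total (r k) (r l) with h1 | h1 <;> rcases hsg with h | h
    · exact Or.inl fun τ hτ => mul_nonneg (sub_nonneg.2 h1) (h _ (hi τ hτ))
    · exact Or.inr fun τ hτ => mul_nonpos_of_nonneg_of_nonpos (sub_nonneg.2 h1) (h _ (hi τ hτ))
    · exact Or.inr fun τ hτ => mul_nonpos_of_nonpos_of_nonneg (sub_nonpos.2 h1) (h _ (hi τ hτ))
    · exact Or.inl fun τ hτ => mul_nonneg_of_nonpos_of_nonpos (sub_nonpos.2 h1) (h _ (hi τ hτ))
  obtain ⟨p, hp, hp'⟩ := hcomp (fun k => x + r k • w) (fun k => hm _ (hrm' k)) fun ε hε => by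
    obtain ⟨N1, h1⟩ := Metric.cauchySeq_iff.1 hγ.cauchySeq (ε / 2) (half_pos hε)
    obtain ⟨N2, h2⟩ := Metric.cauchySeq_iff.1 hgc (ε / 2) (half_pos hε)
    refine ⟨max N1 N2, fun k hk l hl => (hd k l).trans_lt ?_⟩
    have := h1 l (le_of_max_le_left hl) k (le_of_max_le_left hk)
    have := h2 l (le_of_max_le_right hl) k (le_of_max_le_right hk)
    linarith
  have hγ' : Tendsto (fun k => x + r k • w) atTop (𝓝 p) :=
    tendsto_iff_norm_sub_tendsto_zero.2 (squeeze_zero (fun _ => norm_nonneg _)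
      (fun k => norm_le_riemDist hΩ hΩc hu (hm _ (hrm' k)) hp) hp')
  rwa [tendsto_nhds_unique hγ hγ']

end Crest.Agent.R236.Geo
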