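import Crest.Agent.R236.Defs
import Crest.Agent.R236.GeoC

/-!
# R236/Basic: routine facts on the definitions of `Defs` (smoothness, linearity, signs, compactness)
-/

set_option autoImplicit false

namespace Crest.Agent.R236

open Set MeasureTheory
open Crest.GeometryTopology.CoordMetric Crest.GeometryTopology.AffineMaximal
open scoped ContDiff

variable {n : ℕ} {Ω : Set (E n)} {u : E n → ℝ}

/-- `⟨ds + (t-1) π, dζ⟩ = t ⟨π, dζ⟩ + s ζ(Y)` for `ζ ∈ {ξ, η}`, `π = ν₁ dξ + ν₂ dη` -/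
noncomputable def wq (u : E n → ℝ) (o e₁ e₂ : F n) (ξ η ζ : F n →L[ℝ] ℝ) (x : E n) : ℝ :=
  tc n * (nu u e₁ x * Gam u (af u ξ o) (af u ζ o) x + nu u e₂ x * Gam u (af u η o) (af u ζ o) x) +
    sP u o e₁ e₂ ξ η x * ζ (Yv u x)

theorem AM.rho_pos (h : AM Ω u) {x : E n} (hx : x ∈ Ω) : 0 < rho u x :=
  Real.rpow_pos_of_pos (h.pos x hx).det_pos _

theorem basic_fderiv (hΩ : IsOpen Ω) {f : E n → ℝ} (hf : ContDiffOn ℝ ∞ f Ω) :
    ContDiffOn ℝ ∞ (fderiv ℝ f) Ω := hf.fderiv_of_isOpen hΩ (by simp)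

theorem basic_det {M : E n → Matrix (Fin n) (Fin n) ℝ} (h : ∀ i j, ContDiffOn ℝ ∞ (fun x => M x i j) Ω) :
    ContDiffOn ℝ ∞ (fun x => (M x).det) Ω := by
  simp only [Matrix.det_apply']
  exact ContDiffOn.sum fun σ _ => contDiffOn_const.mul (contDiffOn_prod fun i _ => h _ _)

theorem pderiv_contDiffOn (hΩ : IsOpen Ω) {f : E n → ℝ} (hf : ContDiffOn ℝ ∞ f Ω) (i : Fin n) :
    ContDiffOn ℝ ∞ (pderiv i f) Ω := by
  exact (basic_fderiv hΩ hf).clm_apply contDiffOn_const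

theorem AM.hess_contDiffOn (h : AM Ω u) (i j : Fin n) : ContDiffOn ℝ ∞ (fun x => hessianMat u x i j) Ω := by
  exact pderiv_contDiffOn h.isOpen (pderiv_contDiffOn h.isOpen h.smooth j) i

theorem AM.det_contDiffOn (h : AM Ω u) : ContDiffOn ℝ ∞ (fun x => (hessianMat u x).det) Ω := by
  exact basic_det h.hess_contDiffOn

/-- `A⁻¹ = (det A)⁻¹ • adjugate A` -/
theorem AM.inv_contDiffOn (h : AM Ω u) (i j : Fin n) :
    ContDiffOn ℝ ∞ (fun x => (hessianMat u x)⁻¹ i j) Ω := by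
  simp only [Matrix.inv_def, Matrix.smul_apply, smul_eq_mul, Ring.inverse_eq_inv', Matrix.adjugate_apply]
  refine (h.det_contDiffOn.inv fun x hx => (h.pos x hx).det_pos.ne').mul (basic_det fun k l => ?_)
  simp only [Matrix.updateRow_apply]
  split_ifs
  · exact contDiffOn_const
  · exact h.hess_contDiffOn k l

theorem AM.rho_contDiffOn (h : AM Ω u) : ContDiffOn ℝ ∞ (rho u) Ω := by
  exact h.det_contDiffOn.rpow_const_of_ne fun x hx => (h.pos x hx).det_pos.ne'

theorem AM.Gam_contDiffOn (h : AM Ω u) {f g : E n → ℝ} (hf : ContDiffOn ℝ ∞ f Ω) (hg : ContDiffOn ℝ ∞ g Ω) :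
    ContDiffOn ℝ ∞ (Gam u f g) Ω := by
  exact (h.rho_contDiffOn.inv fun x hx => (h.rho_pos hx).ne').mul (ContDiffOn.sum fun i _ =>
    ContDiffOn.sum fun j _ => ((h.inv_contDiffOn i j).mul (pderiv_contDiffOn h.isOpen hf i)).mul
      (pderiv_contDiffOn h.isOpen hg j))

theorem AM.gr_contDiffOn (h : AM Ω u) : ContDiffOn ℝ ∞ (gr u) Ω := by
  exact contDiffOn_id.prodMk h.smooth

theorem AM.nu_contDiffOn (h : AM Ω u) (a : F n) : ContDiffOn ℝ ∞ (nu u a) Ω := by
  exact h.rho_contDiffOn.mul (contDiffOn_const.sub ((basic_fderiv h.isOpen h.smooth).clm_apply contDiffOn_const))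

theorem AM.af_contDiffOn (h : AM Ω u) (ζ : F n →L[ℝ] ℝ) (o : F n) : ContDiffOn ℝ ∞ (af u ζ o) Ω := by
  exact ζ.contDiff.comp_contDiffOn (h.gr_contDiffOn.sub contDiffOn_const)

theorem AM.Yv_contDiffOn (h : AM Ω u) : ContDiffOn ℝ ∞ (Yv u) Ω := by
  have hr := h.rho_contDiffOn.inv fun x hx => (h.rho_pos hx).ne'
  have hY : ContDiffOn ℝ ∞ (Yh u) Ω := ContDiffOn.sum fun j _ => (hr.mul (ContDiffOn.sum fun i _ =>
    (h.inv_contDiffOn i j).mul (pderiv_contDiffOn h.isOpen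
      (h.rho_contDiffOn.log fun x hx => (h.rho_pos hx).ne') i))).smul contDiffOn_const
  exact hY.prodMk (((basic_fderiv h.isOpen h.smooth).clm_apply hY).add hr)

theorem AM.sP_contDiffOn (h : AM Ω u) (o e₁ e₂ : F n) (ξ η : F n →L[ℝ] ℝ) :
    ContDiffOn ℝ ∞ (sP u o e₁ e₂ ξ η) Ω := by
  have hv : ContDiffOn ℝ ∞ (fun x => o + (af u ξ o x • e₁ + af u η o x • e₂) - gr u x) Ω :=
    (contDiffOn_const.add (((h.af_contDiffOn ξ o).smul contDiffOn_const).add
      ((h.af_contDiffOn η o).smul contDiffOn_const))).sub h.gr_contDiffOn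
  exact h.rho_contDiffOn.mul (hv.snd.sub ((basic_fderiv h.isOpen h.smooth).clm_apply hv.fst))

theorem AM.wq_contDiffOn (h : AM Ω u) (o e₁ e₂ : F n) (ξ η ζ : F n →L[ℝ] ℝ) :
    ContDiffOn ℝ ∞ (wq u o e₁ e₂ ξ η ζ) Ω := by
  exact (contDiffOn_const.mul (((h.nu_contDiffOn e₁).mul (h.Gam_contDiffOn (h.af_contDiffOn ξ o)
    (h.af_contDiffOn ζ o))).add ((h.nu_contDiffOn e₂).mul (h.Gam_contDiffOn (h.af_contDiffOn η o)
    (h.af_contDiffOn ζ o))))).add ((h.sP_contDiffOn o e₁ e₂ ξ η).mul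
      (ζ.contDiff.comp_contDiffOn h.Yv_contDiffOn))

theorem nu_add (a b : F n) (x : E n) : nu u (a + b) x = nu u a x + nu u b x := by
  simp only [nu, Prod.fst_add, Prod.snd_add, map_add]; ring

theorem nu_sub (a b : F n) (x : E n) : nu u (a - b) x = nu u a x - nu u b x := by
  simp only [nu, Prod.fst_sub, Prod.snd_sub, map_sub]; ring

theorem nu_smul (c : ℝ) (a : F n) (x : E n) : nu u (c • a) x = c * nu u a x := by
  simp only [nu, Prod.smul_fst, Prod.smul_snd, map_smul, smul_eq_mul]; ring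

theorem nu_neg (a : F n) (x : E n) : nu u (-a) x = -nu u a x := by
  simp only [nu, Prod.fst_neg, Prod.snd_neg, map_neg]; ring

theorem gr_mem_epi {x : E n} (hx : x ∈ Ω) : gr u x ∈ epi Ω u := ⟨hx, le_rfl⟩

/-- the tangent plane supports the epigraph (`Geo.tangent_le`) -/
theorem AM.nu_nonneg (h : AM Ω u) {x : E n} (hx : x ∈ Ω) {Z : F n} (hZ : Z ∈ epi Ω u) :
    0 ≤ nu u (Z - gr u x) x := by
  have h1 := Geo.tangent_le h.isOpen h.convex h.smooth h.pos hx hZ.1
  have h2 : u Z.1 ≤ Z.2 := hZ.2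
  refine mul_nonneg (h.rho_pos hx).le ?_
  simp only [gr, Prod.snd_sub, Prod.fst_sub]
  linarith

/-- a set with interior has positive width (vertical displacement of an interior point) -/
theorem AM.exists_nu_pos (h : AM Ω u) {x : E n} (hx : x ∈ Ω) {C : Set (F n)} (hC : (interior C).Nonempty) :
    ∃ Z ∈ C, ∃ Z' ∈ C, 0 < nu u (Z - Z') x := by
  obtain ⟨Z, hZ⟩ := hC
  have hc : Continuous fun t : ℝ => Z + t • ((0 : E n), (1 : ℝ)) := by fun_prop
  have h1 : ∀ᶠ t in nhds (0 : ℝ), Z + t • ((0 : E n), (1 : ℝ)) ∈ interior C :=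
    hc.continuousAt.eventually_mem (by simpa using isOpen_interior.mem_nhds hZ)
  obtain ⟨t, ht, ht0⟩ := ((h1.filter_mono nhdsWithin_le_nhds).and
    (self_mem_nhdsWithin : Ioi (0 : ℝ) ∈ nhdsWithin 0 (Ioi 0))).exists
  refine ⟨_, interior_subset ht, Z, interior_subset hZ, ?_⟩
  rw [add_sub_cancel_left, nu_smul]
  refine mul_pos ht0 ?_
  simpa [nu] using h.rho_pos hx

/-- `piece = {x ∈ fst '' C | gr u x ∈ C}`, `gr u` is continuous on the compact set `fst '' C ⊆ Ω` -/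
theorem AM.piece_isCompact (h : AM Ω u) {C : Set (F n)} (hC : IsCompact C) (hCK : C ⊆ epi Ω u) :
    IsCompact (piece Ω u C) := by
  have hK : IsCompact (Prod.fst '' C) := hC.image continuous_fst
  have hsub : Prod.fst '' C ⊆ Ω := by
    rintro _ ⟨Z, hZ, rfl⟩
    exact (hCK hZ).1
  have e : piece Ω u C = Prod.fst '' C ∩ gr u ⁻¹' C := by
    ext x
    exact ⟨fun hx => ⟨⟨_, hx.2, rfl⟩, hx.2⟩, fun hx => ⟨hsub hx.1, hx.2⟩⟩
  rw [e]
  exact hK.of_isClosed_subset ((h.gr_contDiffOn.continuousOn.mono hsub).preimage_isClosed_of_isClosed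
    hK.isClosed hC.isClosed) inter_subset_left

theorem piece_subset (C : Set (F n)) : piece Ω u C ⊆ Ω := fun _ hx => hx.1

theorem AM.Gam_symm (h : AM Ω u) (f g : E n → ℝ) {x : E n} (hx : x ∈ Ω) : Gam u f g x = Gam u g f x := by
  have hs : ∀ i j, (hessianMat u x)⁻¹ i j = (hessianMat u x)⁻¹ j i := fun i j => by
    simpa using ((h.pos x hx).inv.isHermitian.apply i j).symm
  simp only [Gam, ip]
  rw [Finset.sum_comm]
  congr 1
  exact Finset.sum_congr rfl fun i _ => Finset.sum_congr rfl fun j _ => by rw [hs j i]; ring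

theorem basic_ip_nonneg (h : AM Ω u) {x : E n} (hx : x ∈ Ω) (α : Fin n → ℝ) : 0 ≤ ip u x α α := by
  refine mul_nonneg (inv_nonneg.2 (h.rho_pos hx).le) ?_
  have h1 := (h.pos x hx).inv.posSemidef.dotProduct_mulVec_nonneg α
  refine h1.trans (le_of_eq ?_)
  simp only [dotProduct, Matrix.mulVec, Finset.mul_sum, star_trivial]
  exact Finset.sum_congr rfl fun i _ => Finset.sum_congr rfl fun j _ => by ring

theorem AM.Gam_nonneg (h : AM Ω u) (f : E n → ℝ) {x : E n} (hx : x ∈ Ω) : 0 ≤ Gam u f f x := by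
  exact basic_ip_nonneg h hx _

/-- Cauchy-Schwarz for the positive definite matrix `(D²u)⁻¹` -/
theorem AM.Gam_sq_le (h : AM Ω u) (f g : E n → ℝ) {x : E n} (hx : x ∈ Ω) :
    Gam u f g x ^ 2 ≤ Gam u f f x * Gam u g g x := by
  have key : ∀ t : ℝ, 0 ≤ Gam u g g x * (t * t) + 2 * Gam u f g x * t + Gam u f f x := fun t => by
    have h1 := basic_ip_nonneg h hx fun i => dd f x i + t * dd g x i
    have h2 := h.Gam_symm f g hx
    have h3 : ip u x (fun i => dd f x i + t * dd g x i) (fun i => dd f x i + t * dd g x i) =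
        Gam u g g x * (t * t) + (Gam u f g x + Gam u g f x) * t + Gam u f f x := by
      simp only [Gam, ip, Finset.mul_sum, Finset.sum_mul, ← Finset.sum_add_distrib, add_mul]
      exact Finset.sum_congr rfl fun i _ => Finset.sum_congr rfl fun j _ => by ring
    rw [h3, ← h2] at h1
    linarith
  have := discrim_le_zero key
  unfold discrim at this
  nlinarith

theorem basic_dd (c : ℝ) (ζ : F n →L[ℝ] ℝ) (o : F n) (x : E n) (i : Fin n) :
    dd (af u (c • ζ) o) x i = c * dd (af u ζ o) x i := by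
  have e : af u (c • ζ) o = c • af u ζ o := by
    funext y
    simp [af]
  simp only [dd, pderiv, e, fderiv_const_smul_of_field]
  simp

/-- `af u (c • ζ) o = c • af u ζ o`, `fderiv_const_smul_of_field` -/
theorem Gam_af_smul_left (c : ℝ) (ζ : F n →L[ℝ] ℝ) (o : F n) (g : E n → ℝ) (x : E n) :
    Gam u (af u (c • ζ) o) g x = c * Gam u (af u ζ o) g x := by
  simp only [Gam, ip, basic_dd, Finset.mul_sum]
  exact Finset.sum_congr rfl fun i _ => Finset.sum_congr rfl fun j _ => by ring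

theorem Gam_af_smul_right (c : ℝ) (ζ : F n →L[ℝ] ℝ) (o : F n) (f : E n → ℝ) (x : E n) :
    Gam u f (af u (c • ζ) o) x = c * Gam u f (af u ζ o) x := by
  simp only [Gam, ip, basic_dd, Finset.mul_sum]
  exact Finset.sum_congr rfl fun i _ => Finset.sum_congr rfl fun j _ => by ring


end Crest.Agent.R236
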