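import Crest.Agent.R236.Basic

/-!
# R236/Cal0: smoothness, algebra of `ip`, product rules (part 0, elementary)
-/

set_option autoImplicit false
open scoped ContDiff
open Crest.GeometryTopology.CoordMetric Crest.GeometryTopology.AffineMaximal MeasureTheory Set

noncomputable section

namespace Crest.Agent.R236

variable {n : ℕ} {Ω : Set (E n)} {u : E n → ℝ}

theorem contDiffOn_dd {U : Set (E n)} (hU : IsOpen U) {f : E n → ℝ} (hf : ContDiffOn ℝ ∞ f U)
    (i : Fin n) : ContDiffOn ℝ ∞ (fun x => dd f x i) U :=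
  pderiv_contDiffOn hU hf i

theorem contDiffOn_dd_one {U : Set (E n)} (hU : IsOpen U) {f : E n → ℝ} (hf : ContDiffOn ℝ 2 f U)
    (i : Fin n) : ContDiffOn ℝ 1 (fun x => dd f x i) U := by
  have h1 : ContDiffOn ℝ 1 (fderiv ℝ f) U := hf.fderiv_of_isOpen hU (by norm_num)
  exact h1.clm_apply contDiffOn_const

theorem AM.contDiffOn_rho_inv (h : AM Ω u) : ContDiffOn ℝ ∞ (fun x => (rho u x)⁻¹) Ω :=
  h.rho_contDiffOn.inv fun _ hx => (h.rho_pos hx).ne'

theorem AM.contDiffOn_ip (h : AM Ω u) {U : Set (E n)} (hUΩ : U ⊆ Ω) {k : ℕ∞}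
    {α β : E n → Fin n → ℝ} (hα : ∀ i, ContDiffOn ℝ k (fun x => α x i) U)
    (hβ : ∀ i, ContDiffOn ℝ k (fun x => β x i) U) :
    ContDiffOn ℝ k (fun x => ip u x (α x) (β x)) U := by
  have hk : ((k : ℕ∞) : WithTop ℕ∞) ≤ ∞ := by exact_mod_cast le_top
  refine ((h.contDiffOn_rho_inv.of_le hk).mono hUΩ).mul (ContDiffOn.sum fun i _ =>
    ContDiffOn.sum fun j _ => ?_)
  exact ((((h.inv_contDiffOn i j).of_le hk).mono hUΩ).mul (hα i)).mul (hβ j)

theorem AM.contDiffOn_Gam (h : AM Ω u) {U : Set (E n)} (hU : IsOpen U) (hUΩ : U ⊆ Ω)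
    {f g : E n → ℝ} (hf : ContDiffOn ℝ ∞ f U) (hg : ContDiffOn ℝ ∞ g U) :
    ContDiffOn ℝ ∞ (Gam u f g) U :=
  h.contDiffOn_ip (k := ⊤) hUΩ (fun i => contDiffOn_dd hU hf i) (fun i => contDiffOn_dd hU hg i)

theorem AM.continuousOn_dv (h : AM Ω u) {U : Set (E n)} (hU : IsOpen U) (hUΩ : U ⊆ Ω)
    {V : E n → Fin n → ℝ} (hV : ∀ i, ContDiffOn ℝ 1 (fun x => V x i) U) :
    ContinuousOn (dv u V) U := by
  have hk : (1 : WithTop ℕ∞) ≤ ∞ := by exact_mod_cast le_top
  refine (h.rho_contDiffOn.continuousOn.mono hUΩ).mul (continuousOn_finset_sum _ fun i _ => ?_)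
  have h1 : ContDiffOn ℝ 1
      (fun y => (rho u y)⁻¹ ^ 2 * ∑ j, (hessianMat u y)⁻¹ i j * V y j) U :=
    (((h.contDiffOn_rho_inv.of_le hk).mono hUΩ).pow 2).mul (ContDiffOn.sum fun j _ =>
      (((h.inv_contDiffOn i j).of_le hk).mono hUΩ).mul (hV j))
  exact (h1.continuousOn_fderiv_of_isOpen hU le_rfl).clm_apply continuousOn_const

theorem AM.convex_epi (h : AM Ω u) : Convex ℝ (epi Ω u) :=
  Geo.epi_convex h.isOpen h.convex h.smooth h.pos

theorem ip_add_left (x : E n) (α β γ : Fin n → ℝ) :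
    ip u x (α + β) γ = ip u x α γ + ip u x β γ := by
  simp only [ip, Pi.add_apply, mul_add, add_mul, Finset.sum_add_distrib]

theorem ip_add_right (x : E n) (α β γ : Fin n → ℝ) :
    ip u x α (β + γ) = ip u x α β + ip u x α γ := by
  simp only [ip, Pi.add_apply, mul_add, Finset.sum_add_distrib]

theorem ip_smul_left (x : E n) (c : ℝ) (α β : Fin n → ℝ) : ip u x (c • α) β = c * ip u x α β := by
  simp only [ip, Pi.smul_apply, smul_eq_mul, Finset.mul_sum]
  exact Finset.sum_congr rfl fun i _ => Finset.sum_congr rfl fun j _ => by ring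

theorem ip_smul_right (x : E n) (c : ℝ) (α β : Fin n → ℝ) : ip u x α (c • β) = c * ip u x α β := by
  simp only [ip, Pi.smul_apply, smul_eq_mul, Finset.mul_sum]
  exact Finset.sum_congr rfl fun i _ => Finset.sum_congr rfl fun j _ => by ring

theorem AM.ip_symm (h : AM Ω u) {x : E n} (hx : x ∈ Ω) (α β : Fin n → ℝ) :
    ip u x α β = ip u x β α := by
  have hs : ∀ i j, (hessianMat u x)⁻¹ i j = (hessianMat u x)⁻¹ j i := fun i j => by
    simpa using ((h.pos x hx).inv.isHermitian.apply i j).symm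
  simp only [ip]
  rw [Finset.sum_comm]
  congr 1
  exact Finset.sum_congr rfl fun i _ => Finset.sum_congr rfl fun j _ => by rw [hs j i]; ring

theorem AM.ip_nonneg (h : AM Ω u) {x : E n} (hx : x ∈ Ω) (α : Fin n → ℝ) : 0 ≤ ip u x α α :=
  basic_ip_nonneg h hx α

theorem AM.ip_sq_le (h : AM Ω u) {x : E n} (hx : x ∈ Ω) (α β : Fin n → ℝ) :
    ip u x α β ^ 2 ≤ ip u x α α * ip u x β β := by
  have key : ∀ t : ℝ, 0 ≤ ip u x β β * (t * t) + 2 * ip u x α β * t + ip u x α α := fun t => by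
    have h1 := h.ip_nonneg hx (α + t • β)
    rw [ip_add_left, ip_add_right, ip_add_right, ip_smul_left, ip_smul_left, ip_smul_right,
      ip_smul_right, h.ip_symm hx β α] at h1
    linarith
  have := discrim_le_zero key
  unfold discrim at this
  nlinarith

theorem dd_mul {f g : E n → ℝ} {x : E n} (hf : DifferentiableAt ℝ f x)
    (hg : DifferentiableAt ℝ g x) :
    dd (fun y => f y * g y) x = f x • dd g x + g x • dd f x := by
  funext i
  simp only [dd, pderiv, fderiv_fun_mul hf hg, Pi.add_apply, Pi.smul_apply, smul_eq_mul,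
    ContinuousLinearMap.add_apply, ContinuousLinearMap.smul_apply]

theorem dd_add {f g : E n → ℝ} {x : E n} (hf : DifferentiableAt ℝ f x)
    (hg : DifferentiableAt ℝ g x) : dd (fun y => f y + g y) x = dd f x + dd g x := by
  funext i
  simp only [dd, pderiv, fderiv_fun_add hf hg, Pi.add_apply, ContinuousLinearMap.add_apply]

theorem dd_comp {f : E n → ℝ} {φ : ℝ → ℝ} {φ' : ℝ} {x : E n} (hf : DifferentiableAt ℝ f x)
    (hφ : HasDerivAt φ φ' (f x)) : dd (fun y => φ (f y)) x = φ' • dd f x := by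
  funext i
  have h1 : HasFDerivAt (fun y => φ (f y)) (φ' • fderiv ℝ f x) x :=
    hφ.comp_hasFDerivAt x hf.hasFDerivAt
  simp only [dd, pderiv, h1.fderiv, Pi.smul_apply, smul_eq_mul, ContinuousLinearMap.smul_apply]

theorem dd_congr {f g : E n → ℝ} {x : E n} (hfg : f =ᶠ[nhds x] g) : dd f x = dd g x := by
  funext i
  simp only [dd, pderiv, hfg.fderiv_eq]

theorem dv_congr {V W : E n → Fin n → ℝ} {x : E n} (hVW : V =ᶠ[nhds x] W) :
    dv u V x = dv u W x := by
  unfold dv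
  congr 1
  refine Finset.sum_congr rfl fun i _ => ?_
  have h1 : (fun y => (rho u y)⁻¹ ^ 2 * ∑ j, (hessianMat u y)⁻¹ i j * V y j) =ᶠ[nhds x]
      fun y => (rho u y)⁻¹ ^ 2 * ∑ j, (hessianMat u y)⁻¹ i j * W y j :=
    hVW.mono fun y hy => by simp only [hy]
  simp only [pderiv, h1.fderiv_eq]

theorem AM.diffAt_rho_inv (h : AM Ω u) {x : E n} (hx : x ∈ Ω) :
    DifferentiableAt ℝ (fun y => (rho u y)⁻¹) x :=
  (h.contDiffOn_rho_inv.contDiffAt (h.isOpen.mem_nhds hx)).differentiableAt (by simp)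

theorem AM.diffAt_hinv (h : AM Ω u) {x : E n} (hx : x ∈ Ω) (i j : Fin n) :
    DifferentiableAt ℝ (fun y => (hessianMat u y)⁻¹ i j) x :=
  ((h.inv_contDiffOn i j).contDiffAt (h.isOpen.mem_nhds hx)).differentiableAt (by simp)

/-- the flux `ρ⁻² u^{ij} W_j` is differentiable where `W` is -/
theorem AM.diffAt_flux (h : AM Ω u) {x : E n} (hx : x ∈ Ω) {W : E n → Fin n → ℝ}
    (hW : ∀ i, DifferentiableAt ℝ (fun y => W y i) x) (i : Fin n) :
    DifferentiableAt ℝ (fun y => (rho u y)⁻¹ ^ 2 * ∑ j, (hessianMat u y)⁻¹ i j * W y j) x :=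
  ((h.diffAt_rho_inv hx).fun_pow 2).fun_mul (DifferentiableAt.fun_sum fun j _ =>
    (h.diffAt_hinv hx i j).fun_mul (hW j))

theorem AM.dv_add (h : AM Ω u) {x : E n} (hx : x ∈ Ω) {V W : E n → Fin n → ℝ}
    (hV : ∀ i, DifferentiableAt ℝ (fun y => V y i) x)
    (hW : ∀ i, DifferentiableAt ℝ (fun y => W y i) x) :
    dv u (fun y => V y + W y) x = dv u V x + dv u W x := by
  unfold dv
  rw [← mul_add, ← Finset.sum_add_distrib]
  congr 1
  refine Finset.sum_congr rfl fun i _ => ?_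
  have e : (fun y => (rho u y)⁻¹ ^ 2 * ∑ j, (hessianMat u y)⁻¹ i j * (V y + W y) j) =
      fun y => (rho u y)⁻¹ ^ 2 * ∑ j, (hessianMat u y)⁻¹ i j * V y j +
        (rho u y)⁻¹ ^ 2 * ∑ j, (hessianMat u y)⁻¹ i j * W y j := by
    funext y
    simp only [Pi.add_apply, mul_add, Finset.sum_add_distrib]
  rw [e]
  exact congrFun (dd_add (h.diffAt_flux hx hV i) (h.diffAt_flux hx hW i)) i

/-- product rule -/
theorem AM.dv_smul (h : AM Ω u) {x : E n} (hx : x ∈ Ω) {ψ : E n → ℝ} {W : E n → Fin n → ℝ}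
    (hψ : DifferentiableAt ℝ ψ x) (hW : ∀ i, DifferentiableAt ℝ (fun y => W y i) x) :
    dv u (fun y => ψ y • W y) x = ψ x * dv u W x + ip u x (dd ψ x) (W x) := by
  have hr := (h.rho_pos hx).ne'
  have key : ∀ i, pderiv i (fun y => (rho u y)⁻¹ ^ 2 * ∑ j, (hessianMat u y)⁻¹ i j * (ψ y • W y) j) x =
      ψ x * pderiv i (fun y => (rho u y)⁻¹ ^ 2 * ∑ j, (hessianMat u y)⁻¹ i j * W y j) x +
        ((rho u x)⁻¹ ^ 2 * ∑ j, (hessianMat u x)⁻¹ i j * W x j) * dd ψ x i := fun i => by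
    have e : (fun y => (rho u y)⁻¹ ^ 2 * ∑ j, (hessianMat u y)⁻¹ i j * (ψ y • W y) j) =
        fun y => ψ y * ((rho u y)⁻¹ ^ 2 * ∑ j, (hessianMat u y)⁻¹ i j * W y j) := by
      funext y
      simp only [Pi.smul_apply, smul_eq_mul, Finset.mul_sum]
      exact Finset.sum_congr rfl fun j _ => by ring
    rw [e]
    exact congrFun (dd_mul hψ (h.diffAt_flux hx hW i)) i
  unfold dv ip
  simp only [key, Finset.sum_add_distrib, mul_add]
  congr 1
  · rw [← Finset.mul_sum]; ring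
  · simp only [Finset.mul_sum, Finset.sum_mul]
    exact Finset.sum_congr rfl fun i _ => Finset.sum_congr rfl fun j _ => by field_simp

end Crest.Agent.R236

end
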