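import Crest.Agent.R236.Cal1A

/-!
# R236/Cal1: the structure equations (part 0 of idea 1100)
-/

set_option autoImplicit false
open scoped ContDiff
open Crest.GeometryTopology.CoordMetric Crest.GeometryTopology.AffineMaximal MeasureTheory Set
open Filter Topology

noncomputable section

namespace Crest.Agent.R236

variable {n : ℕ} {Ω : Set (E n)} {u : E n → ℝ}

namespace C1

variable {x : E n}

theorem af_eq (ξ : F n →L[ℝ] ℝ) (o : F n) (y : E n) :
    af u ξ o y = ∑ k, ξ (EuclideanSpace.single k 1, 0) * y k + ξ (0, 1) * u y - ξ o := by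
  have e : gr u y = ∑ k, y k • ((EuclideanSpace.single k 1, 0) : F n) + u y • ((0, 1) : F n) := by
    ext i
    · simp [gr, Prod.fst_sum, Finset.sum_apply, Pi.single_apply]
    · simp [gr, Prod.snd_sum]
  rw [af, map_sub, e]
  simp only [map_add, map_sum, map_smul, smul_eq_mul, mul_comm]

theorem lin_eq (ξ : F n →L[ℝ] ℝ) (a : F n) :
    ξ a = ∑ k, ξ (EuclideanSpace.single k 1, 0) * a.1 k + ξ (0, 1) * a.2 := by
  have := af_eq (u := fun _ => a.2) ξ 0 a.1
  simpa [af, gr] using this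

theorem dd_af (h : AM Ω u) (hx : x ∈ Ω) (ξ : F n →L[ℝ] ℝ) (o : F n) (j : Fin n) :
    dd (af u ξ o) x j = ξ (EuclideanSpace.single j 1, 0) + ξ (0, 1) * pderiv j u x := by
  have e : af u ξ o = fun y => ∑ k, ξ (EuclideanSpace.single k 1, 0) * y k + ξ (0, 1) * u y - ξ o :=
    funext (af_eq ξ o)
  have hu := da h h.smooth hx
  have hc : ∀ k, DifferentiableAt ℝ (fun y : E n => y k) x := fun k => by fun_prop
  have hs : DifferentiableAt ℝ (fun y : E n => ∑ k, ξ (EuclideanSpace.single k 1, 0) * y k) x :=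
    DifferentiableAt.fun_sum fun k _ => (hc k).const_mul _
  rw [dd, e, pd_sub (hs.fun_add (hu.const_mul _)) (differentiableAt_const _), pd_add hs (hu.const_mul _),
    pd_const, pd_cmul hu, pd_sum fun k => (hc k).const_mul _]
  simp only [pd_cmul (hc _), pd_coord]
  simp

/-- the factor `g = a₀ - Du·a'` for a variable vector `a` with `d a₀ = Du·d a'` -/
structure Fac (Ω : Set (E n)) (u : E n → ℝ) (g : E n → ℝ) (a : E n → Fin n → ℝ) : Prop where
  sm : ContDiffOn ℝ ∞ g Ω
  sma : ∀ k, ContDiffOn ℝ ∞ (fun y => a y k) Ω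
  d : ∀ y ∈ Ω, ∀ j, pderiv j g y = -∑ k, hessianMat u y j k * a y k

theorem Hi_dg (h : AM Ω u) (hx : x ∈ Ω) {g : E n → ℝ} {a : E n → Fin n → ℝ} (hg : Fac Ω u g a)
    (i : Fin n) : ∑ j, (hessianMat u x)⁻¹ i j * pderiv j g x = -a x i := by
  simp only [hg.d x hx, mul_neg, Finset.sum_neg_distrib, Finset.mul_sum, ← mul_assoc]
  rw [Finset.sum_comm]
  simp only [← Finset.sum_mul, Hi_H h hx]
  simp

theorem Gam_fac (h : AM Ω u) (hx : x ∈ Ω) {g : E n → ℝ} {a : E n → Fin n → ℝ} (hg : Fac Ω u g a)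
    (f : E n → ℝ) : Gam u (fun y => rho u y * g y) f x =
      rho u x * g x * Gam u (fun y => Real.log (rho u y)) f x - ∑ j, a x j * dd f x j := by
  have h0 := (h.rho_pos hx).ne'
  have e : ∑ j, a x j * dd f x j = -∑ i, ∑ j, (hessianMat u x)⁻¹ i j * pderiv i g x * dd f x j := by
    rw [Finset.sum_comm, ← Finset.sum_neg_distrib]
    refine Finset.sum_congr rfl fun j _ => ?_
    rw [← Finset.sum_mul, ← neg_mul, ← neg_neg (a x j), ← Hi_dg h hx hg j]
    simp only [Hi_symm h hx j]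
  rw [e]
  simp only [Gam, ip, dd, pd_mul (da h h.rho_contDiffOn hx) (da h hg.sm hx), pd_rho h hx,
    Finset.mul_sum, sub_neg_eq_add, ← Finset.sum_add_distrib]
  refine Finset.sum_congr rfl fun i _ => Finset.sum_congr rfl fun j _ => ?_
  field_simp

theorem Lap_fac (h : AM Ω u) (hx : x ∈ Ω) {g : E n → ℝ} {a : E n → Fin n → ℝ} (hg : Fac Ω u g a) :
    Lap u (fun y => rho u y * g y) x = -∑ i, pderiv i (fun y => a y i) x := by
  have h0 := (h.rho_pos hx).ne'
  have hr := da h h.rho_contDiffOn hx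
  have hr1 := fun j => da h (pderiv_contDiffOn h.isOpen h.rho_contDiffOn j) hx
  have hg1 := fun j => da h (pderiv_contDiffOn h.isOpen hg.sm j) hx
  have hI := fun i j => da h (h.inv_contDiffOn i j) hx
  have hgd := da h hg.sm hx
  have ha := fun i => da h (hg.sma i) hx
  have L := Lap_rho h hx
  have e1 : ∀ i, pderiv i (fun y => (rho u y)⁻¹ ^ 2 *
      ∑ j, (hessianMat u y)⁻¹ i j * dd (fun y => rho u y * g y) y j) x =
      pderiv i (fun y => g y * ((rho u y)⁻¹ ^ 2 * ∑ j, (hessianMat u y)⁻¹ i j * dd (rho u) y j) -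
        (rho u y)⁻¹ * a y i) x := by
    intro i
    refine pd_congr ?_ i
    filter_upwards [h.isOpen.mem_nhds hx] with y hy
    have h1 := (h.rho_pos hy).ne'
    rw [← neg_neg (a y i), ← Hi_dg h hy hg i]
    simp only [dd, pd_mul (da h h.rho_contDiffOn hy) (da h hg.sm hy), Finset.mul_sum, mul_neg,
      sub_neg_eq_add, ← Finset.sum_add_distrib]
    refine Finset.sum_congr rfl fun j _ => ?_
    field_simp
  have hS : ∀ i, DifferentiableAt ℝ
      (fun y => (rho u y)⁻¹ ^ 2 * ∑ j, (hessianMat u y)⁻¹ i j * dd (rho u) y j) x := fun i =>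
    ((hr.fun_inv h0).fun_pow 2).fun_mul (DifferentiableAt.fun_sum fun j _ => (hI i j).fun_mul (hr1 j))
  have e2 : ∀ i, pderiv i (fun y => (rho u y)⁻¹) x = -((rho u x) ^ 2)⁻¹ * pderiv i (rho u) x :=
    fun i => pd_comp (φ := fun t => t⁻¹) hr (hasDerivAt_inv h0) i
  have e3 : ∑ i, pderiv i g x * ((rho u x)⁻¹ ^ 2 * ∑ j, (hessianMat u x)⁻¹ i j * dd (rho u) x j) =
      -∑ i, ((rho u x) ^ 2)⁻¹ * pderiv i (rho u) x * a x i := by
    simp only [Finset.mul_sum]
    rw [Finset.sum_comm, ← Finset.sum_neg_distrib]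
    refine Finset.sum_congr rfl fun j _ => ?_
    rw [← mul_neg, ← Hi_dg h hx hg j, Finset.mul_sum]
    refine Finset.sum_congr rfl fun i _ => ?_
    rw [Hi_symm h hx j, dd, inv_pow]
    ring
  rw [Lap, dv] at L ⊢
  have L' := (mul_eq_zero.mp L).resolve_left h0
  simp only [e1, pd_sub (hgd.fun_mul (hS _)) ((hr.fun_inv h0).fun_mul (ha _)), pd_mul hgd (hS _),
    pd_mul (hr.fun_inv h0) (ha _), e2, Finset.sum_sub_distrib, Finset.sum_add_distrib, e3]
  rw [← Finset.mul_sum, L', ← Finset.mul_sum (a := (rho u x)⁻¹)]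
  simp only [neg_mul, Finset.sum_neg_distrib]
  field_simp
  ring

theorem fac_nu (h : AM Ω u) (a : F n) :
    Fac Ω u (fun y => a.2 - fderiv ℝ u y a.1) fun _ k => a.1 k := by
  have e : (fun y => a.2 - fderiv ℝ u y a.1) = fun y => a.2 - ∑ k, a.1 k * pderiv k u y :=
    funext fun y => by rw [fd_eq]
  have h1 := fun k => pderiv_contDiffOn h.isOpen h.smooth k
  rw [e]
  refine ⟨contDiffOn_const.sub (ContDiffOn.sum fun k _ => contDiffOn_const.mul (h1 k)),
    fun _ => contDiffOn_const, fun y hy j => ?_⟩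
  rw [pd_sub (differentiableAt_const _)
    (DifferentiableAt.fun_sum fun k _ => (da h (h1 k) hy).const_mul _), pd_const,
    pd_sum fun k => (da h (h1 k) hy).const_mul _, zero_sub]
  simp only [pd_cmul (da h (h1 _) hy)]
  congr 1
  exact Finset.sum_congr rfl fun k _ => mul_comm _ _

theorem fac_sig (h : AM Ω u) (o : F n) :
    Fac Ω u (fun y => (o - gr u y).2 - fderiv ℝ u y (o - gr u y).1) fun y k => o.1 k - y k := by
  have e : (fun y => (o - gr u y).2 - fderiv ℝ u y (o - gr u y).1) =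
      fun y => (o.2 - u y) - ∑ k, (o.1 k - y k) * pderiv k u y :=
    funext fun y => by rw [fd_eq]; simp [gr]
  have h1 := fun k => pderiv_contDiffOn h.isOpen h.smooth k
  have h2 : ∀ k, ContDiffOn ℝ ∞ (fun y : E n => o.1 k - y k) Ω := fun k =>
    ContDiff.contDiffOn (by fun_prop)
  rw [e]
  refine ⟨(contDiffOn_const.sub h.smooth).sub (ContDiffOn.sum fun k _ => (h2 k).mul (h1 k)),
    h2, fun y hy j => ?_⟩
  have hu := da h h.smooth hy
  have hc : ∀ k, DifferentiableAt ℝ (fun y : E n => y k) y := fun k => by fun_prop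
  rw [pd_sub ((differentiableAt_const _).fun_sub hu)
    (DifferentiableAt.fun_sum fun k _ => (da h (h2 k) hy).fun_mul (da h (h1 k) hy)),
    pd_sub (differentiableAt_const _) hu, pd_const,
    pd_sum fun k => (da h (h2 k) hy).fun_mul (da h (h1 k) hy)]
  simp only [pd_mul (da h (h2 _) hy) (da h (h1 _) hy), pd_sub (differentiableAt_const _) (hc _),
    pd_const, pd_coord, Finset.sum_add_distrib]
  have e2 : ∑ k, (o.1 k - y k) * pderiv j (pderiv k u) y = ∑ k, hessianMat u y j k * (o.1 k - y k) :=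
    Finset.sum_congr rfl fun k _ => mul_comm _ _
  rw [e2]
  simp

theorem sum_dd_af (h : AM Ω u) (hx : x ∈ Ω) (ξ : F n →L[ℝ] ℝ) (o : F n) (w : E n) :
    ∑ j, w j * dd (af u ξ o) x j = ξ (w, fderiv ℝ u x w) := by
  rw [lin_eq ξ (w, _), fd_eq]
  simp only [dd_af h hx, Finset.mul_sum, ← Finset.sum_add_distrib]
  exact Finset.sum_congr rfl fun j _ => by ring

theorem lin_split (ξ : F n →L[ℝ] ℝ) (w : E n) (s t : ℝ) : ξ (w, s + t) = ξ (w, s) + t * ξ (0, 1) := by
  rw [← smul_eq_mul, ← map_smul, ← map_add]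
  simp

end C1

open C1

/-- `ξ(Y) = Γ(log ρ, ξ∘gr) + ξ(0,1)/ρ` -/
theorem AM.Yv_apply (h : AM Ω u) {x : E n} (hx : x ∈ Ω) (ξ : F n →L[ℝ] ℝ) (o : F n) :
    ξ (Yv u x) = Gam u (fun y => Real.log (rho u y)) (af u ξ o) x + ξ (0, 1) / rho u x := by
  rw [Yv, lin_split, ← sum_dd_af h hx ξ o, div_eq_inv_mul]
  congr 1
  simp only [Gam, ip, Finset.mul_sum]
  rw [Finset.sum_comm]
  refine Finset.sum_congr rfl fun j _ => ?_
  have : Yh u x j = (rho u x)⁻¹ * ∑ i, (hessianMat u x)⁻¹ i j *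
      pderiv i (fun y => Real.log (rho u y)) x := by
    simp [Yh, Finset.sum_apply, Pi.single_apply]
  rw [this, Finset.mul_sum, Finset.sum_mul]
  exact Finset.sum_congr rfl fun i _ => by simp only [dd]; ring

/-- the conormal is harmonic (this is the equation) -/
theorem AM.Lap_nu (h : AM Ω u) {x : E n} (hx : x ∈ Ω) (a : F n) : Lap u (nu u a) x = 0 := by
  have := Lap_fac h hx (fac_nu h a)
  simp only [pd_const, Finset.sum_const_zero, neg_zero] at this
  exact this

theorem AM.Lap_af (h : AM Ω u) {x : E n} (hx : x ∈ Ω) (ξ : F n →L[ℝ] ℝ) (o : F n) :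
    Lap u (af u ξ o) x = n * ξ (Yv u x) := by
  have h1 := fun j => da h (pderiv_contDiffOn h.isOpen (h.af_contDiffOn ξ o) j) hx
  have e : ∀ i j, pderiv i (fun y => dd (af u ξ o) y j) x = ξ (0, 1) * hessianMat u x j i := by
    intro i j
    have h2 := da h (pderiv_contDiffOn h.isOpen h.smooth j) hx
    have : pderiv i (fun y => dd (af u ξ o) y j) x =
        pderiv i (fun y => ξ (EuclideanSpace.single j 1, 0) + ξ (0, 1) * pderiv j u y) x := by
      refine pd_congr ?_ i
      filter_upwards [h.isOpen.mem_nhds hx] with y hy using dd_af h hy ξ o j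
    rw [this, pd_add (differentiableAt_const _) (h2.const_mul _), pd_const, pd_cmul h2, zero_add,
      H_symm h hx j i]
    rfl
  have e2 : ∑ i, ∑ j, (hessianMat u x)⁻¹ i j * (ξ (0, 1) * hessianMat u x j i) = n * ξ (0, 1) := by
    have : ∀ i, ∑ j, (hessianMat u x)⁻¹ i j * (ξ (0, 1) * hessianMat u x j i) = ξ (0, 1) := by
      intro i
      have h3 := Hi_H h hx i i
      rw [if_pos rfl] at h3
      calc _ = ξ (0, 1) * ∑ j, (hessianMat u x)⁻¹ i j * hessianMat u x j i := by
            rw [Finset.mul_sum]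
            exact Finset.sum_congr rfl fun j _ => by ring
        _ = _ := by rw [h3, mul_one]
    simp [this]
  rw [Lap, dv_eq h hx (W := dd (af u ξ o)) h1, h.Yv_apply hx ξ o]
  simp only [e, mul_add, Finset.sum_add_distrib, e2, Gam, ip]
  rw [add_comm]
  congr 1
  · simp only [Finset.mul_sum]
    exact Finset.sum_congr rfl fun i _ => Finset.sum_congr rfl fun j _ => by simp only [dd]; ring
  · ring

theorem AM.Gam_nu_af' (h : AM Ω u) {x : E n} (hx : x ∈ Ω) (a : F n) (ξ : F n →L[ℝ] ℝ) (o : F n) :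
    Gam u (nu u a) (af u ξ o) x = nu u a x * ξ (Yv u x) - ξ a := by
  have h0 := (h.rho_pos hx).ne'
  have h1 := Gam_fac h hx (fac_nu h a) (af u ξ o)
  have h2 : ξ a = ξ (a.1, fderiv ℝ u x a.1) + (a.2 - fderiv ℝ u x a.1) * ξ (0, 1) := by
    rw [← lin_split]
    simp
  rw [sum_dd_af h hx] at h1
  rw [h.Yv_apply hx ξ o, h2]
  refine h1.trans ?_
  rw [nu]
  field_simp
  ring

/-- `σ = ν(o - X)` -/
theorem AM.Lap_sig (h : AM Ω u) {x : E n} (hx : x ∈ Ω) (o : F n) :
    Lap u (fun y => nu u (o - gr u y) y) x = n := by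
  have := Lap_fac h hx (fac_sig h o)
  have hc : ∀ k, DifferentiableAt ℝ (fun y : E n => y k) x := fun k => by fun_prop
  simp only [pd_sub (differentiableAt_const _) (hc _), pd_const, pd_coord] at this
  refine this.trans ?_
  simp

theorem AM.Gam_sig_af (h : AM Ω u) {x : E n} (hx : x ∈ Ω) (o : F n) (ξ : F n →L[ℝ] ℝ) :
    Gam u (fun y => nu u (o - gr u y) y) (af u ξ o) x =
      nu u (o - gr u x) x * ξ (Yv u x) + af u ξ o x := by
  have h0 := (h.rho_pos hx).ne'
  have h1 := Gam_fac h hx (fac_sig h o) (af u ξ o)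
  have h2 : af u ξ o x = -(ξ ((o - gr u x).1, fderiv ℝ u x (o - gr u x).1) +
      ((o - gr u x).2 - fderiv ℝ u x (o - gr u x).1) * ξ (0, 1)) := by
    rw [← lin_split, af, ← map_neg, add_sub_cancel, Prod.mk.eta, neg_sub]
  have h3 := sum_dd_af h hx ξ o (o - gr u x).1
  have h4 : ∀ j, (o - gr u x).1 j = o.1 j - x j := fun j => by simp [gr]
  simp only [h4] at h3
  rw [h3] at h1
  rw [h.Yv_apply hx ξ o, h2]
  refine h1.trans ?_
  rw [nu]
  field_simp
  ring

end Crest.Agent.R236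

end
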