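import Crest.Agent.R236.Cal0
import Crest.Agent.R238.AP1

/-!
# R236/Cal1A: pointwise calculus behind the structure equations
-/

set_option autoImplicit false
open scoped ContDiff
open Crest.GeometryTopology.CoordMetric Crest.GeometryTopology.AffineMaximal MeasureTheory Set
open Filter Topology

noncomputable section

namespace Crest.Agent.R236.C1

variable {n : ℕ} {Ω : Set (E n)} {u : E n → ℝ}

section pd

variable {f g : E n → ℝ} {x : E n}

theorem pd_congr (h : f =ᶠ[𝓝 x] g) (i : Fin n) : pderiv i f x = pderiv i g x := by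
  simp only [pderiv, h.fderiv_eq]

theorem pd_mul (hf : DifferentiableAt ℝ f x) (hg : DifferentiableAt ℝ g x) (i : Fin n) :
    pderiv i (fun y => f y * g y) x = pderiv i f x * g x + f x * pderiv i g x := by
  simp only [pderiv]
  rw [fderiv_fun_mul hf hg]
  simp only [add_apply, smul_apply, smul_eq_mul]
  ring

theorem pd_add (hf : DifferentiableAt ℝ f x) (hg : DifferentiableAt ℝ g x) (i : Fin n) :
    pderiv i (fun y => f y + g y) x = pderiv i f x + pderiv i g x := by
  simp only [pderiv]
  rw [fderiv_fun_add hf hg]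
  rfl

theorem pd_sub (hf : DifferentiableAt ℝ f x) (hg : DifferentiableAt ℝ g x) (i : Fin n) :
    pderiv i (fun y => f y - g y) x = pderiv i f x - pderiv i g x := by
  simp only [pderiv]
  rw [fderiv_fun_sub hf hg]
  rfl

theorem pd_const (c : ℝ) (i : Fin n) : pderiv i (fun _ : E n => c) x = 0 := by
  simp [pderiv]

theorem pd_cmul (hf : DifferentiableAt ℝ f x) (c : ℝ) (i : Fin n) :
    pderiv i (fun y => c * f y) x = c * pderiv i f x := by
  rw [pd_mul (differentiableAt_const c) hf, pd_const]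
  ring

theorem pd_sum {ι : Type*} [Fintype ι] {F : ι → E n → ℝ} (hF : ∀ k, DifferentiableAt ℝ (F k) x)
    (i : Fin n) : pderiv i (fun y => ∑ k, F k y) x = ∑ k, pderiv i (F k) x := by
  simp only [pderiv]
  rw [fderiv_fun_sum fun k _ => hF k]
  simp

theorem pd_comp {φ : ℝ → ℝ} {φ' : ℝ} (hf : DifferentiableAt ℝ f x) (hφ : HasDerivAt φ φ' (f x))
    (i : Fin n) : pderiv i (fun y => φ (f y)) x = φ' * pderiv i f x := by
  simp only [pderiv]
  have := (hφ.comp_hasFDerivAt x hf.hasFDerivAt).fderiv
  simp only [Function.comp_def] at this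
  rw [this]
  simp

theorem pd_coord (i k : Fin n) : pderiv i (fun y : E n => y k) x = if k = i then 1 else 0 := by
  simp only [pderiv]
  have : (fun y : E n => y k) = EuclideanSpace.proj (𝕜 := ℝ) k := rfl
  rw [this, ContinuousLinearMap.fderiv]
  simp

theorem pd_comm (hf : ContDiffAt ℝ 2 f x) (i j : Fin n) :
    pderiv i (pderiv j f) x = pderiv j (pderiv i f) x := by
  have h1 : DifferentiableAt ℝ (fderiv ℝ f) x :=
    (hf.fderiv_right (m := 1) (by norm_num)).differentiableAt (by norm_num)
  have h2 : ∀ a b : Fin n, pderiv a (pderiv b f) x =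
      fderiv ℝ (fderiv ℝ f) x (EuclideanSpace.single a 1) (EuclideanSpace.single b 1) := by
    intro a b
    have e : pderiv b f = fun y => fderiv ℝ f y (EuclideanSpace.single b 1) := rfl
    rw [pderiv, e, fderiv_clm_apply h1 (differentiableAt_const _)]
    simp
  rw [h2, h2]
  exact (hf.isSymmSndFDerivAt (by simp)) _ _

theorem pd_line (hf : DifferentiableAt ℝ f x) (i : Fin n) :
    HasDerivAt (fun s : ℝ => f (x + s • EuclideanSpace.single i (1 : ℝ))) (pderiv i f x) 0 := by
  have h1 : HasDerivAt (fun s : ℝ => x + s • EuclideanSpace.single i (1 : ℝ))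
      (EuclideanSpace.single i (1 : ℝ)) 0 := Geo.geoc_line x _ 0
  have h2 : HasFDerivAt f (fderiv ℝ f x) (x + (0 : ℝ) • EuclideanSpace.single i (1 : ℝ)) := by
    simpa using hf.hasFDerivAt
  exact h2.comp_hasDerivAt (0 : ℝ) h1

theorem fd_eq (f : E n → ℝ) (x w : E n) : fderiv ℝ f x w = ∑ j, w j * pderiv j f x :=
  Geo.geoc_lin _ _

end pd

variable {x : E n}

theorem cda {f : E n → ℝ} (h : AM Ω u) (hf : ContDiffOn ℝ ∞ f Ω) (hx : x ∈ Ω) : ContDiffAt ℝ ∞ f x :=
  hf.contDiffAt (h.isOpen.mem_nhds hx)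

theorem da {f : E n → ℝ} (h : AM Ω u) (hf : ContDiffOn ℝ ∞ f Ω) (hx : x ∈ Ω) : DifferentiableAt ℝ f x :=
  (cda h hf hx).differentiableAt (by simp)

theorem cda2 {f : E n → ℝ} (h : AM Ω u) (hf : ContDiffOn ℝ ∞ f Ω) (hx : x ∈ Ω) : ContDiffAt ℝ 2 f x :=
  (cda h hf hx).of_le (WithTop.coe_le_coe.mpr (le_top : (2 : ℕ∞) ≤ ⊤))

theorem H_symm (h : AM Ω u) (hx : x ∈ Ω) (i j : Fin n) : hessianMat u x i j = hessianMat u x j i := by
  have := (h.pos x hx).isHermitian.apply i j
  simpa using this.symm

theorem Hi_symm (h : AM Ω u) (hx : x ∈ Ω) (i j : Fin n) :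
    (hessianMat u x)⁻¹ i j = (hessianMat u x)⁻¹ j i := by
  have := (h.pos x hx).inv.isHermitian.apply i j
  simpa using this.symm

theorem Hi_H (h : AM Ω u) (hx : x ∈ Ω) (i k : Fin n) :
    ∑ j, (hessianMat u x)⁻¹ i j * hessianMat u x j k = if i = k then 1 else 0 := by
  have := Matrix.nonsing_inv_mul (hessianMat u x) (h.pos x hx).det_pos.ne'.isUnit
  have h2 := congrFun (congrFun this i) k
  rwa [Matrix.mul_apply, Matrix.one_apply] at h2

theorem H_Hi (h : AM Ω u) (hx : x ∈ Ω) (i k : Fin n) :
    ∑ j, hessianMat u x i j * (hessianMat u x)⁻¹ j k = if i = k then 1 else 0 := by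
  have := Matrix.mul_nonsing_inv (hessianMat u x) (h.pos x hx).det_pos.ne'.isUnit
  have h2 := congrFun (congrFun this i) k
  rwa [Matrix.mul_apply, Matrix.one_apply] at h2

/-- third derivatives are symmetric -/
theorem T_symm (h : AM Ω u) (hx : x ∈ Ω) (i a b : Fin n) :
    pderiv i (fun y => hessianMat u y a b) x = pderiv b (fun y => hessianMat u y a i) x := by
  have e1 : pderiv i (fun y => hessianMat u y a b) x = pderiv i (pderiv b (pderiv a u)) x := by
    refine pd_congr ?_ i
    filter_upwards [h.isOpen.mem_nhds hx] with y hy using H_symm h hy a b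
  have e2 : pderiv b (fun y => hessianMat u y a i) x = pderiv b (pderiv i (pderiv a u)) x := by
    refine pd_congr ?_ b
    filter_upwards [h.isOpen.mem_nhds hx] with y hy using H_symm h hy a i
  rw [e1, e2]
  exact pd_comm (cda2 h (pderiv_contDiffOn h.isOpen h.smooth a) hx) i b

theorem logrho_contDiffOn (h : AM Ω u) : ContDiffOn ℝ ∞ (fun y => Real.log (rho u y)) Ω :=
  h.rho_contDiffOn.log fun _ hy => (h.rho_pos hy).ne'

/-- Jacobi's formula -/
theorem pd_logrho (h : AM Ω u) (hx : x ∈ Ω) (b : Fin n) :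
    ((n : ℝ) + 2) * pderiv b (fun y => Real.log (rho u y)) x =
      -∑ i, ∑ a, (hessianMat u x)⁻¹ i a * pderiv b (fun y => hessianMat u y a i) x := by
  have hn : (n : ℝ) + 2 ≠ 0 := by positivity
  have hlog : DifferentiableAt ℝ (fun y => Real.log (hessianMat u y).det) x :=
    da h (h.det_contDiffOn.log fun y hy => (h.pos y hy).det_pos.ne') hx
  have e1 : pderiv b (fun y => Real.log (rho u y)) x =
      pderiv b (fun y => (-1 / ((n : ℝ) + 2)) * Real.log (hessianMat u y).det) x := by
    refine pd_congr ?_ b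
    filter_upwards [h.isOpen.mem_nhds hx] with y hy
    rw [rho, Real.log_rpow (h.pos y hy).det_pos]
  have hM : R238.AP.MD (fun s : ℝ => hessianMat u (x + s • EuclideanSpace.single b (1 : ℝ)))
      (Matrix.of fun a i => pderiv b (fun y => hessianMat u y a i) x) 0 := fun a i =>
    pd_line (da h (h.hess_contDiffOn a i) hx) b
  have h2 := hM.logdet (by simpa using (h.pos x hx).det_pos.ne')
  have h3 := (pd_line hlog b).unique h2
  rw [e1, pd_cmul hlog, h3]
  simp only [zero_smul, add_zero, Matrix.trace, Matrix.diag_apply, Matrix.mul_apply, Matrix.of_apply]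
  field_simp

/-- divergence of the inverse Hessian -/
theorem div_inv (h : AM Ω u) (hx : x ∈ Ω) (j : Fin n) :
    ∑ i, pderiv i (fun y => (hessianMat u y)⁻¹ i j) x =
      ((n : ℝ) + 2) * ∑ i, (hessianMat u x)⁻¹ i j * pderiv i (fun y => Real.log (rho u y)) x := by
  have h1 : ∀ i k, ∑ a, (pderiv i (fun y => (hessianMat u y)⁻¹ i a) x * hessianMat u x a k +
      (hessianMat u x)⁻¹ i a * pderiv i (fun y => hessianMat u y a k) x) = 0 := by
    intro i k
    have e : pderiv i (fun y => ∑ a, (hessianMat u y)⁻¹ i a * hessianMat u y a k) x =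
        pderiv i (fun _ => if i = k then (1 : ℝ) else 0) x := by
      refine pd_congr ?_ i
      filter_upwards [h.isOpen.mem_nhds hx] with y hy using Hi_H h hy i k
    rw [pd_const, pd_sum fun a =>
      (da h (h.inv_contDiffOn i a) hx).fun_mul (da h (h.hess_contDiffOn a k) hx)] at e
    rw [← e]
    exact Finset.sum_congr rfl fun a _ =>
      (pd_mul (da h (h.inv_contDiffOn i a) hx) (da h (h.hess_contDiffOn a k) hx) i).symm
  have h2 : ∀ k, ∑ a, (∑ i, pderiv i (fun y => (hessianMat u y)⁻¹ i a) x) * hessianMat u x a k =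
      ((n : ℝ) + 2) * pderiv k (fun y => Real.log (rho u y)) x := by
    intro k
    rw [pd_logrho h hx, eq_neg_iff_add_eq_zero]
    simp only [Finset.sum_mul]
    rw [Finset.sum_comm, ← Finset.sum_add_distrib]
    refine Finset.sum_eq_zero fun i _ => ?_
    rw [← Finset.sum_add_distrib, ← h1 i k]
    exact Finset.sum_congr rfl fun a _ => by rw [T_symm h hx i a k]
  calc ∑ i, pderiv i (fun y => (hessianMat u y)⁻¹ i j) x
      = ∑ a, (∑ i, pderiv i (fun y => (hessianMat u y)⁻¹ i a) x) *
          ∑ k, hessianMat u x a k * (hessianMat u x)⁻¹ k j := by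
        simp only [H_Hi h hx, mul_ite, mul_one, mul_zero, Finset.sum_ite_eq', Finset.mem_univ, if_true]
    _ = ∑ k, (∑ a, (∑ i, pderiv i (fun y => (hessianMat u y)⁻¹ i a) x) * hessianMat u x a k) *
          (hessianMat u x)⁻¹ k j := by
        simp only [Finset.mul_sum]
        rw [Finset.sum_comm]
        refine Finset.sum_congr rfl fun k _ => ?_
        rw [Finset.sum_mul]
        exact Finset.sum_congr rfl fun a _ => by ring
    _ = _ := by
        simp only [h2, Finset.mul_sum]
        exact Finset.sum_congr rfl fun k _ => by ring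

theorem pd_rho (h : AM Ω u) (hx : x ∈ Ω) (i : Fin n) :
    pderiv i (rho u) x = rho u x * pderiv i (fun y => Real.log (rho u y)) x := by
  have h0 := (h.rho_pos hx).ne'
  rw [pd_comp (da h h.rho_contDiffOn hx) (Real.hasDerivAt_log h0)]
  field_simp

/-- the divergence in non-divergence form -/
theorem dv_eq (h : AM Ω u) (hx : x ∈ Ω) {W : E n → Fin n → ℝ}
    (hW : ∀ i, DifferentiableAt ℝ (fun y => W y i) x) :
    dv u W x = (rho u x)⁻¹ * ∑ i, ∑ j, (hessianMat u x)⁻¹ i j *
      (pderiv i (fun y => W y j) x + n * pderiv i (fun y => Real.log (rho u y)) x * W x j) := by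
  have h0 := (h.rho_pos hx).ne'
  have hr := da h h.rho_contDiffOn hx
  have hI := fun i j => da h (h.inv_contDiffOn i j) hx
  have e1 : ∀ i, pderiv i (fun y => (rho u y)⁻¹ ^ 2) x =
      -2 * (rho u x)⁻¹ ^ 2 * pderiv i (fun y => Real.log (rho u y)) x := by
    intro i
    rw [pd_comp (φ := fun t => t⁻¹ ^ 2) hr ((hasDerivAt_inv h0).fun_pow 2), pd_rho h hx]
    simp only [Nat.cast_ofNat, Nat.add_one_sub_one, pow_one]
    field_simp
  have e2 : ∀ i, pderiv i (fun y => (rho u y)⁻¹ ^ 2 * ∑ j, (hessianMat u y)⁻¹ i j * W y j) x =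
      (rho u x)⁻¹ ^ 2 * ∑ j, ((hessianMat u x)⁻¹ i j * (pderiv i (fun y => W y j) x -
        2 * pderiv i (fun y => Real.log (rho u y)) x * W x j) +
        pderiv i (fun y => (hessianMat u y)⁻¹ i j) x * W x j) := by
    intro i
    rw [pd_mul ((hr.fun_inv h0).fun_pow 2) (DifferentiableAt.fun_sum fun j _ => (hI i j).fun_mul (hW j)), e1,
      pd_sum fun j => (hI i j).fun_mul (hW j)]
    simp only [Finset.mul_sum, ← Finset.sum_add_distrib]
    refine Finset.sum_congr rfl fun j _ => ?_
    rw [pd_mul (hI i j) (hW j)]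
    ring
  have e3 : ∑ i, ∑ j, pderiv i (fun y => (hessianMat u y)⁻¹ i j) x * W x j =
      ∑ i, ∑ j, ((n : ℝ) + 2) * ((hessianMat u x)⁻¹ i j *
        pderiv i (fun y => Real.log (rho u y)) x) * W x j := by
    rw [Finset.sum_comm, Finset.sum_comm (f := fun i j => ((n : ℝ) + 2) * ((hessianMat u x)⁻¹ i j *
        pderiv i (fun y => Real.log (rho u y)) x) * W x j)]
    refine Finset.sum_congr rfl fun j _ => ?_
    rw [← Finset.sum_mul, div_inv h hx, Finset.mul_sum, Finset.sum_mul]
  rw [dv]
  simp only [e2, ← Finset.mul_sum, Finset.sum_add_distrib, e3]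
  rw [← mul_assoc, show rho u x * (rho u x)⁻¹ ^ 2 = (rho u x)⁻¹ by field_simp,
    ← Finset.sum_add_distrib]
  congr 1
  refine Finset.sum_congr rfl fun i _ => ?_
  rw [← Finset.sum_add_distrib]
  exact Finset.sum_congr rfl fun j _ => by ring

/-- the equation: `ρ` is harmonic -/
theorem Lap_rho (h : AM Ω u) (hx : x ∈ Ω) : Lap u (rho u) x = 0 := by
  have hρ1 := fun j => pderiv_contDiffOn h.isOpen h.rho_contDiffOn j
  have hn : (n : ℝ) + 2 ≠ 0 := by positivity
  have e0 : ∀ y ∈ Ω, detPower n u y = rho u y ^ (n + 1) := by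
    intro y hy
    rw [detPower, rho, ← Real.rpow_natCast, ← Real.rpow_mul (h.pos y hy).det_pos.le]
    congr 1
    push_cast
    field_simp
  have e1 : ∀ j, ∀ y ∈ Ω, pderiv j (detPower n u) y = ((n : ℝ) + 1) * (rho u y ^ n * pderiv j (rho u) y) := by
    intro j y hy
    have : pderiv j (detPower n u) y = pderiv j (fun z => rho u z ^ (n + 1)) y := by
      refine pd_congr ?_ j
      filter_upwards [h.isOpen.mem_nhds hy] with z hz using e0 z hz
    rw [this, pd_comp (φ := fun t => t ^ (n + 1)) (da h h.rho_contDiffOn hy) (hasDerivAt_pow _ _)]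
    simp only [Nat.cast_add, Nat.cast_one, Nat.add_sub_cancel]
    ring
  have e2 : ∀ i j, hessianMat (detPower n u) x i j = ((n : ℝ) + 1) * rho u x ^ n *
      (pderiv i (fun y => dd (rho u) y j) x +
        n * pderiv i (fun y => Real.log (rho u y)) x * dd (rho u) x j) := by
    intro i j
    have : hessianMat (detPower n u) x i j =
        pderiv i (fun y => ((n : ℝ) + 1) * (rho u y ^ n * pderiv j (rho u) y)) x := by
      refine pd_congr ?_ i
      filter_upwards [h.isOpen.mem_nhds hx] with z hz using e1 j z hz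
    have hr := da h h.rho_contDiffOn hx
    have e3 : pderiv i (fun y => rho u y ^ n) x =
        n * rho u x ^ n * pderiv i (fun y => Real.log (rho u y)) x := by
      have h4 : pderiv i (fun y => rho u y ^ n) x =
          pderiv i (fun y => Real.exp (n * Real.log (rho u y))) x := by
        refine pd_congr ?_ i
        filter_upwards [h.isOpen.mem_nhds hx] with z hz
        rw [Real.exp_nat_mul, Real.exp_log (h.rho_pos hz)]
      have hl := da h (logrho_contDiffOn h) hx
      rw [h4, pd_comp (f := fun y => n * Real.log (rho u y)) (hl.const_mul _) (Real.hasDerivAt_exp _),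
        pd_cmul hl, Real.exp_nat_mul, Real.exp_log (h.rho_pos hx)]
      ring
    rw [this, pd_cmul ((hr.fun_pow n).fun_mul (da h (hρ1 j) hx)), pd_mul (hr.fun_pow n) (da h (hρ1 j) hx), e3]
    simp only [dd]
    ring
  have hm := h.max x hx
  rw [affineMaximalOp] at hm
  simp only [e2] at hm
  rw [Lap, dv_eq h hx (W := dd (rho u)) fun j => da h (hρ1 j) hx]
  refine mul_eq_zero_of_right _ ?_
  have hc : (hessianMat u x).det * (((n : ℝ) + 1) * rho u x ^ n) ≠ 0 :=
    mul_ne_zero (h.pos x hx).det_pos.ne' (mul_ne_zero (by positivity) (pow_ne_zero _ (h.rho_pos hx).ne'))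
  refine (mul_eq_zero.mp ?_).resolve_left hc
  rw [← hm]
  simp only [Finset.mul_sum]
  exact Finset.sum_congr rfl fun i _ => Finset.sum_congr rfl fun j _ => by ring

end Crest.Agent.R236.C1

end
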