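import Mathlib
import Crest.Prelude.Def_AffineMaximal

/-!
# R236/Defs: common definitions for the affine Bernstein theorem (idea 1100; owner helper29)

`E n = ℝⁿ`, `F n = ℝⁿ × ℝ`, `epi Ω u` the epigraph, `gr u x = (x, u x)`.
Blaschke metric `ρ u_ij`, `ρ = det(D²u)^(-1/(n+2))`, measure `dμ = ρ⁻¹ dx`.
One-forms on the base are functions `E n → Fin n → ℝ`.
-/

set_option autoImplicit false
open scoped ContDiff
open Crest.GeometryTopology.CoordMetric Crest.GeometryTopology.AffineMaximal MeasureTheory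

noncomputable section

namespace Crest.Agent.R236

abbrev E (n : ℕ) : Type := EuclideanSpace ℝ (Fin n)
abbrev F (n : ℕ) : Type := E n × ℝ

variable {n : ℕ}

/-- standing hypotheses: smooth, strictly convex, affine maximal on the open convex set `Ω` -/
structure AM (Ω : Set (E n)) (u : E n → ℝ) : Prop where
  isOpen : IsOpen Ω
  convex : Convex ℝ Ω
  smooth : ContDiffOn ℝ ∞ u Ω
  pos : ∀ x ∈ Ω, (hessianMat u x).PosDef
  max : ∀ x ∈ Ω, affineMaximalOp n u x = 0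

/-- the epigraph `K` -/
def epi (Ω : Set (E n)) (u : E n → ℝ) : Set (F n) := {X | X.1 ∈ Ω ∧ u X.1 ≤ X.2}

/-- the point of the graph over `x` -/
def gr (u : E n → ℝ) (x : E n) : F n := (x, u x)

/-- the part of the graph inside `C`, in base coordinates -/
def piece (Ω : Set (E n)) (u : E n → ℝ) (C : Set (F n)) : Set (E n) := {x | x ∈ Ω ∧ gr u x ∈ C}

/-- `ρ = det(D²u)^(-1/(n+2))` -/
def rho (u : E n → ℝ) (x : E n) : ℝ := (hessianMat u x).det ^ (-1 / ((n : ℝ) + 2))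

/-- the differential of a function as a one-form -/
def dd (f : E n → ℝ) (x : E n) (i : Fin n) : ℝ := pderiv i f x

/-- Blaschke inner product of two covectors at `x`: `ρ⁻¹ u^{ij} α_i β_j` -/
def ip (u : E n → ℝ) (x : E n) (α β : Fin n → ℝ) : ℝ :=
  (rho u x)⁻¹ * ∑ i, ∑ j, (hessianMat u x)⁻¹ i j * α i * β j

/-- `Γ(f,g) = ρ⁻¹ u^{ij} f_i g_j` -/
def Gam (u f g : E n → ℝ) (x : E n) : ℝ := ip u x (dd f x) (dd g x)

/-- Blaschke divergence of a one-form: `ρ ∂_i(ρ⁻² u^{ij} W_j)` -/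
def dv (u : E n → ℝ) (W : E n → Fin n → ℝ) (x : E n) : ℝ :=
  rho u x * ∑ i, pderiv i (fun y => (rho u y)⁻¹ ^ 2 * ∑ j, (hessianMat u y)⁻¹ i j * W y j) x

/-- Blaschke Laplacian -/
def Lap (u f : E n → ℝ) (x : E n) : ℝ := dv u (dd f) x

/-- the conormal `ν_a = ρ (a₀ - Du·a')` (linear in `a`) -/
def nu (u : E n → ℝ) (a : F n) (x : E n) : ℝ := rho u x * (a.2 - fderiv ℝ u x a.1)

/-- the affine function `X ↦ ξ (X - o)` restricted to the graph -/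
def af (u : E n → ℝ) (ξ : F n →L[ℝ] ℝ) (o : F n) (x : E n) : ℝ := ξ (gr u x - o)

/-- horizontal part of the affine normal: `Y'_j = ρ⁻¹ u^{ij} ∂_i log ρ` -/
def Yh (u : E n → ℝ) (x : E n) : E n :=
  ∑ j, ((rho u x)⁻¹ * ∑ i, (hessianMat u x)⁻¹ i j * pderiv i (fun y => Real.log (rho u y)) x) •
    EuclideanSpace.single j (1 : ℝ)

/-- the affine normal `Y = (Y', Du·Y' + 1/ρ)`; so `ξ(Y) = Γ(log ρ, ξ∘gr) + ξ(0,1)/ρ`, `ν_Y = 1` -/
def Yv (u : E n → ℝ) (x : E n) : F n := (Yh u x, fderiv ℝ u x (Yh u x) + (rho u x)⁻¹)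

/-- the cap `K ∩ {λ(X - o) ≤ h}` -/
def capH (Ω : Set (E n)) (u : E n → ℝ) (lam : F n →L[ℝ] ℝ) (o : F n) (h : ℝ) : Set (F n) :=
  {X | X ∈ epi Ω u ∧ lam (X - o) ≤ h}

/-- `s = ν(P(X) - X)`, `P(X) = o + ξ e₁ + η e₂` -/
def sP (u : E n → ℝ) (o e₁ e₂ : F n) (ξ η : F n →L[ℝ] ℝ) (x : E n) : ℝ :=
  nu u (o + (af u ξ o x • e₁ + af u η o x • e₂) - gr u x) x

/-- `π = ν₁ dξ + ν₂ dη` -/
def piP (u : E n → ℝ) (o e₁ e₂ : F n) (ξ η : F n →L[ℝ] ℝ) (x : E n) (i : Fin n) : ℝ :=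
  nu u e₁ x * dd (af u ξ o) x i + nu u e₂ x * dd (af u η o) x i

/-- the constant `t = (n-2)/2 + 1/4` -/
def tc (n : ℕ) : ℝ := ((n : ℝ) - 2) / 2 + 1 / 4

/-- the certificate `W = -s^(-n/2) (ds + (t-1) π)` -/
def Wc (u : E n → ℝ) (o e₁ e₂ : F n) (ξ η : F n →L[ℝ] ℝ) (x : E n) (i : Fin n) : ℝ :=
  -(sP u o e₁ e₂ ξ η x ^ (-(n : ℝ) / 2)) *
    (dd (sP u o e₁ e₂ ξ η) x i + (tc n - 1) * piP u o e₁ e₂ ξ η x i)

end Crest.Agent.R236

end
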