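import Mathlib

/-!
# R236/EA: the local solution of the singular radial ODE (helper49)

Implicit function theorem on `C([0,1])³` with the scale `ε` as parameter.
-/

set_option autoImplicit false

namespace Crest.Agent.R236.Ex

open Set Filter Topology MeasureTheory
open scoped ContDiff unitInterval

noncomputable section

abbrev X : Type := C(I, ℝ)

/-- extension to the real line -/
def ex (f : X) (s : ℝ) : ℝ := f (projIcc 0 1 zero_le_one s)

theorem ex_cont (f : X) : Continuous (ex f) := f.continuous.comp continuous_projIcc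

theorem ex_coe (f : X) (θ : I) : ex f θ = f θ := by
  simp [ex, projIcc_val]

theorem ex_abs (f : X) (s : ℝ) : |ex f s| ≤ ‖f‖ := f.norm_coe_le_norm _

/-- averaging operators `f ↦ (θ ↦ ∫₀¹ a^k f (a^m θ) da)` -/
def avL (k m : ℕ) : X →L[ℝ] X :=
  LinearMap.mkContinuous
    { toFun := fun f => ⟨fun θ => ∫ a in (0 : ℝ)..1, a ^ k * ex f (a ^ m * θ),
        intervalIntegral.continuous_parametric_intervalIntegral_of_continuous'
          (f := fun (θ : I) (a : ℝ) => a ^ k * ex f (a ^ m * θ))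
          (by have := ex_cont f; unfold Function.uncurry; fun_prop) 0 1⟩
      map_add' := fun f g => by
        ext θ
        have hf := ex_cont f
        have hg := ex_cont g
        simp only [ContinuousMap.coe_mk, ContinuousMap.add_apply]
        rw [← intervalIntegral.integral_add (Continuous.intervalIntegrable (by fun_prop) _ _)
          (Continuous.intervalIntegrable (by fun_prop) _ _)]
        congr 1
        funext a
        simp only [ex, ContinuousMap.add_apply]
        ring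
      map_smul' := fun c f => by
        ext θ
        simp only [ContinuousMap.coe_mk, ContinuousMap.smul_apply, RingHom.id_apply, smul_eq_mul]
        rw [← intervalIntegral.integral_const_mul]
        congr 1
        funext a
        simp only [ex, ContinuousMap.smul_apply, smul_eq_mul]
        ring } 1 fun f => by
    rw [one_mul]
    refine (ContinuousMap.norm_le _ (norm_nonneg _)).2 fun θ => ?_
    have := intervalIntegral.norm_integral_le_of_norm_le_const (a := 0) (b := 1) (C := ‖f‖)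
      (f := fun a : ℝ => a ^ k * ex f (a ^ m * θ)) fun a ha => by
        rw [uIoc_of_le zero_le_one] at ha
        rw [Real.norm_eq_abs, abs_mul, abs_of_nonneg (pow_nonneg ha.1.le _)]
        calc _ ≤ 1 * ‖f‖ := mul_le_mul (pow_le_one₀ ha.1.le ha.2) (ex_abs _ _) (abs_nonneg _) zero_le_one
          _ = _ := one_mul _
    simpa using this

theorem avL_apply (k m : ℕ) (f : X) (θ : I) :
    avL k m f θ = ∫ a in (0 : ℝ)..1, a ^ k * ex f (a ^ m * θ) := rfl

/-- the coordinate -/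
def co : X := ⟨fun θ => θ, continuous_subtype_val⟩

/-- dilation -/
def dil (η : I) (f : X) : X := f.comp ⟨fun θ => η * θ, by fun_prop⟩

theorem dil_apply (η θ : I) (f : X) : dil η f θ = f (η * θ) := rfl

theorem dil_avL (k m : ℕ) (η : I) (f : X) : dil η (avL k m f) = avL k m (dil η f) := by
  ext θ
  rw [dil_apply, avL_apply, avL_apply]
  refine intervalIntegral.integral_congr fun a ha => ?_
  rw [uIcc_of_le zero_le_one] at ha
  have h1 : a ^ m ∈ I := ⟨pow_nonneg ha.1 _, pow_le_one₀ ha.1 ha.2⟩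
  have e1 : a ^ m * ((η * θ : I) : ℝ) = ((η * (⟨_, h1⟩ * θ) : I) : ℝ) := by
    simp only [Icc.coe_mul]; ring
  have e2 : a ^ m * (θ : ℝ) = ((⟨_, h1⟩ * θ : I) : ℝ) := by simp only [Icc.coe_mul]
  rw [e1, e2, ex_coe, ex_coe, dil_apply]

theorem dil_norm (η : I) (f : X) (c : ℝ) : ‖dil η f - c • 1‖ ≤ ‖f - c • 1‖ :=
  (ContinuousMap.norm_le _ (norm_nonneg _)).2 fun θ => (f - c • 1).norm_coe_le_norm (η * θ)

/-- right hand sides -/
def T1 (ε : ℝ) (p y : X) : X := 1 + ε • (co * avL 0 1 ((1 / 2 : ℝ) • (p * (y - p))))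
def T3 (ε : ℝ) (p V : X) : X := (1 / 9 : ℝ) • (1 - (2 * ε) • (co * p * V))
def T2 (ε : ℝ) (p y V : X) : X :=
  avL 10 2 (((21 : ℝ) • T1 ε p y + ε • (co * ((24 : ℝ) • (p * y) + (2 : ℝ) • (p * p) +
    y * ((21 : ℝ) • p - (81 : ℝ) • y + ε • (co * ((2 : ℝ) • (p * p) + (6 : ℝ) • (p * y))))))) * T3 ε p V)

def ff (v : ℝ × X × X × X) : X × X × X :=
  v.2 - (T1 v.1 v.2.1 v.2.2.1, T2 v.1 v.2.1 v.2.2.1 v.2.2.2, T3 v.1 v.2.1 v.2.2.2)

def z0 : X × X × X := ((1 : ℝ) • 1, (7 / 33 : ℝ) • 1, (1 / 9 : ℝ) • 1)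

theorem ff_contDiff : ContDiff ℝ ω ff := by
  have h0 := (avL 0 1).contDiff (n := ω)
  have h1 := (avL 10 2).contDiff (n := ω)
  unfold ff T2 T1 T3
  fun_prop

theorem avL_const (c : ℝ) : avL 10 2 (c • 1) = (c / 11) • 1 := by
  ext θ
  rw [avL_apply]
  simp only [ex, ContinuousMap.smul_apply, ContinuousMap.one_apply, smul_eq_mul, mul_one]
  rw [intervalIntegral.integral_mul_const, integral_pow]
  norm_num
  ring

theorem ff_zero (z : X × X × X) : ff (0, z) = z - z0 := by
  have : ((21 : ℝ) • (1 : X)) * ((1 / 9 : ℝ) • (1 : X)) = (7 / 3 : ℝ) • 1 := by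
    ext θ; simp; norm_num
  simp only [ff, T1, T2, T3, z0, zero_smul, add_zero, mul_zero, sub_zero, one_smul, this, avL_const]
  norm_num

theorem ff_dil (ε : ℝ) (η : I) (p y V : X) (h : ff (ε, p, y, V) = 0) :
    ff (ε * η, dil η p, dil η y, dil η V) = 0 := by
  simp only [ff, Prod.mk_sub_mk, Prod.mk_eq_zero, sub_eq_zero] at h ⊢
  have e1 : dil η (T1 ε p y) = T1 (ε * η) (dil η p) (dil η y) := by
    have : (1 / 2 : ℝ) • (dil η p * (dil η y - dil η p)) = dil η ((1 / 2 : ℝ) • (p * (y - p))) := rfl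
    unfold T1
    rw [this, ← dil_avL]
    ext θ
    simp [dil_apply, co]
    ring_nf
  have e3 : dil η (T3 ε p V) = T3 (ε * η) (dil η p) (dil η V) := by
    ext θ
    simp [T3, dil_apply, co]
    ring
  refine ⟨by rw [← e1, ← h.1], ?_, by rw [← e3, ← h.2.2]⟩
  conv_lhs => rw [h.2.1]
  unfold T2
  rw [dil_avL, ← e1, ← e3]
  congr 1
  ext θ
  simp [dil_apply, co]
  left
  ring

theorem exists_fix : ∃ z : ℝ → X × X × X, AnalyticAt ℝ z 0 ∧ z 0 = z0 ∧ ∃ δ, 0 < δ ∧ ∀ ε, |ε| < δ →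
    ff (ε, z ε) = 0 ∧ ∀ η : I, z (ε * η) = (dil η (z ε).1, dil η (z ε).2.1, dil η (z ε).2.2) := by
  have cdf : ContDiffAt ℝ ω ff (0, z0) := ff_contDiff.contDiffAt
  have pn : (ω : WithTop ℕ∞) ≠ 0 := by simp
  have h1 : HasFDerivAt (fun z : X × X × X => ff (0, z))
      (fderiv ℝ ff (0, z0) ∘L .inr ℝ ℝ (X × X × X)) z0 :=
    (cdf.differentiableAt pn).hasFDerivAt.comp z0 (hasFDerivAt_prodMk_right 0 z0)
  have h2 : HasFDerivAt (fun z : X × X × X => ff (0, z)) (ContinuousLinearMap.id ℝ _) z0 := by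
    simp only [ff_zero]
    exact (hasFDerivAt_id z0).sub_const z0
  have inv : (fderiv ℝ ff (0, z0) ∘L .inr ℝ ℝ (X × X × X)).IsInvertible := by
    rw [h1.unique h2]
    exact ⟨ContinuousLinearEquiv.refl ℝ _, rfl⟩
  have f0 : ff (0, z0) = 0 := by rw [ff_zero, sub_self]
  set z := cdf.implicitFunction pn inv with hz
  have a1 : AnalyticAt ℝ z 0 := (cdf.contDiffAt_implicitFunction pn inv).analyticAt
  have a2 : z 0 = z0 := cdf.implicitFunction_apply_self pn inv
  obtain ⟨r, hr, a3⟩ := Metric.eventually_nhds_iff.1 (cdf.eventually_apply_eq_iff_implicitFunction pn inv)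
  have a4 : ∀ᶠ ε in 𝓝 (0 : ℝ), dist (z ε) z0 < r := by
    have := a1.continuousAt.tendsto
    rw [a2] at this
    exact Metric.tendsto_nhds.1 this r hr
  obtain ⟨δ, hδ, a5⟩ := Metric.eventually_nhds_iff.1 a4
  refine ⟨z, a1, a2, min δ r, lt_min hδ hr, fun ε hε => ?_⟩
  have b1 : dist (z ε) z0 < r := a5 (by simpa using (lt_min_iff.1 hε).1)
  have b2 : ff (ε, z ε) = 0 := by
    rw [← f0]
    refine (@a3 (ε, z ε) ?_).2 rfl
    rw [Prod.dist_eq, max_lt_iff]
    exact ⟨by simpa using (lt_min_iff.1 hε).2, b1⟩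
  refine ⟨b2, fun η => ?_⟩
  refine (@a3 (ε * η, dil η (z ε).1, dil η (z ε).2.1, dil η (z ε).2.2) ?_).1 ?_
  · simp only [Prod.dist_eq, max_lt_iff, z0] at b1 ⊢
    simp only [dist_eq_norm] at b1 ⊢
    refine ⟨?_, (dil_norm _ _ _).trans_lt b1.1, (dil_norm _ _ _).trans_lt b1.2.1, (dil_norm _ _ _).trans_lt b1.2.2⟩
    rw [sub_zero, Real.norm_eq_abs, abs_mul, abs_of_nonneg η.2.1]
    exact (mul_le_of_le_one_right (abs_nonneg _) η.2.2).trans_lt (lt_min_iff.1 hε).2
  · rw [f0]
    exact ff_dil ε η _ _ _ b2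

theorem ftc {F : ℝ → ℝ} {δ sg : ℝ} (hF : ∀ s, |s| < δ → ContinuousAt F s) (hsg : |sg| < δ) :
    HasDerivAt (fun s => ∫ a in (0 : ℝ)..s, F a) (F sg) sg := by
  have hc : ContinuousOn F (Ioo (-δ) δ) := fun s hs => (hF s (abs_lt.2 hs)).continuousWithinAt
  have h0 : (0 : ℝ) ∈ Ioo (-δ) δ := abs_lt.1 (by simpa using (abs_nonneg sg).trans_lt hsg)
  refine intervalIntegral.integral_hasDerivAt_right ?_ ?_ (hF sg hsg)
  · exact (hc.mono (ordConnected_Ioo.uIcc_subset h0 (abs_lt.1 hsg))).intervalIntegrable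
  · exact hc.stronglyMeasurableAtFilter isOpen_Ioo sg (abs_lt.1 hsg)

theorem exists_loc : ∃ (p y : ℝ → ℝ) (δ : ℝ), 0 < δ ∧ p 0 = 1 ∧ y 0 = 7 / 33 ∧
    (∀ sg, |sg| < δ → AnalyticAt ℝ p sg ∧ AnalyticAt ℝ y sg) ∧ ∀ sg, 0 ≤ sg → sg < δ →
      HasDerivAt p (p sg * (y sg - p sg) / 2) sg ∧ HasDerivAt (fun s => 1 + s * y s)
        ((1 + sg * y sg) * (21 * p sg - 81 * y sg + 2 * sg * p sg ^ 2 + 6 * sg * p sg * y sg) /
          (2 * (9 + 2 * sg * p sg))) sg := by
  obtain ⟨z, hz, hz0, δ₁, hδ₁, hfix⟩ := exists_fix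
  obtain ⟨δ₂, hδ₂, han⟩ := Metric.eventually_nhds_iff.1 hz.eventually_analyticAt
  set p : ℝ → ℝ := fun s => (z s).1 1 with hp
  set y : ℝ → ℝ := fun s => (z s).2.1 1 with hy
  set V : ℝ → ℝ := fun s => (z s).2.2 1 with hV
  set δ := min δ₁ δ₂ with hδ
  have an : ∀ sg, |sg| < δ → AnalyticAt ℝ p sg ∧ AnalyticAt ℝ y sg ∧ AnalyticAt ℝ V sg := by
    intro sg hsg
    have h := @han sg (by simpa using (lt_min_iff.1 hsg).2)
    have e := (ContinuousMap.evalCLM ℝ (1 : I) : X →L[ℝ] ℝ).analyticAt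
    exact ⟨(e _).comp (analyticAt_fst.comp h), (e _).comp (analyticAt_fst.comp (analyticAt_snd.comp h)),
      (e _).comp (analyticAt_snd.comp (analyticAt_snd.comp h))⟩
  have sc : ∀ ε, |ε| < δ → ∀ η : I, (z ε).1 η = p (ε * η) ∧ (z ε).2.1 η = y (ε * η) ∧ (z ε).2.2 η = V (ε * η) := by
    intro ε hε η
    have h := (hfix ε (lt_min_iff.1 hε).1).2 η
    simp only [hp, hy, hV, h, dil_apply, mul_one, and_self]
  have fx : ∀ ε, |ε| < δ → (z ε).1 = T1 ε (z ε).1 (z ε).2.1 ∧ (z ε).2.1 = T2 ε (z ε).1 (z ε).2.1 (z ε).2.2 ∧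
      (z ε).2.2 = T3 ε (z ε).1 (z ε).2.2 := by
    intro ε hε
    have h := (hfix ε (lt_min_iff.1 hε).1).1
    simp only [ff, sub_eq_zero] at h
    exact ⟨congrArg Prod.fst h, congrArg (fun w => w.2.1) h, congrArg (fun w => w.2.2) h⟩
  set F : ℝ → ℝ := fun s => p s * (y s - p s) / 2 with hF
  set G : ℝ → ℝ := fun s => (21 * p s + s * (24 * (p s * y s) + 2 * (p s * p s) +
    y s * (21 * p s - 81 * y s + s * (2 * (p s * p s) + 6 * (p s * y s))))) * V s with hG
  have q1 : ∀ ε, |ε| < δ → p ε = 1 + ∫ a in (0 : ℝ)..ε, F a := by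
    intro ε hε
    have h := congrArg (fun f : X => f 1) (fx ε hε).1
    have h2 := intervalIntegral.smul_integral_comp_mul_left (a := 0) (b := 1) F ε
    rw [mul_zero, mul_one] at h2
    rw [← h2]
    refine h.trans ?_
    simp only [T1, ContinuousMap.add_apply, ContinuousMap.one_apply, ContinuousMap.smul_apply,
      ContinuousMap.mul_apply, avL_apply, co, ContinuousMap.coe_mk, Icc.coe_one, one_mul, mul_one, pow_zero, pow_one]
    congr 2
    refine intervalIntegral.integral_congr fun a ha => ?_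
    rw [uIcc_of_le zero_le_one] at ha
    have := ex_coe ((1 / 2 : ℝ) • ((z ε).1 * ((z ε).2.1 - (z ε).1))) ⟨a, ha⟩
    simp only [ContinuousMap.smul_apply, ContinuousMap.mul_apply, ContinuousMap.sub_apply, (sc ε hε _).1,
      (sc ε hε _).2.1, smul_eq_mul] at this
    simp only [this, hF]
    ring
  have q3 : ∀ ε, |ε| < δ → V ε * (9 + 2 * ε * p ε) = 1 := by
    intro ε hε
    have h := congrArg (fun f : X => f 1) (fx ε hε).2.2
    simp only [T3, ContinuousMap.sub_apply, ContinuousMap.one_apply, ContinuousMap.smul_apply,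
      ContinuousMap.mul_apply, co, ContinuousMap.coe_mk, Icc.coe_one, one_mul, smul_eq_mul] at h
    simp only [hV, hp]
    linarith
  have q2 : ∀ ε, |ε| < δ → y ε = ∫ a in (0 : ℝ)..1, a ^ 10 * G (ε * a ^ 2) := by
    intro ε hε
    have h := congrArg (fun f : X => f 1) (fx ε hε).2.1
    refine h.trans ?_
    unfold T2
    rw [← (fx ε hε).1, ← (fx ε hε).2.2, avL_apply]
    refine intervalIntegral.integral_congr fun a ha => ?_
    rw [uIcc_of_le zero_le_one] at ha
    have h1 : a ^ 2 ∈ I := ⟨pow_nonneg ha.1 _, pow_le_one₀ ha.1 ha.2⟩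
    have e : a ^ 2 * ((1 : I) : ℝ) = ((⟨_, h1⟩ : I) : ℝ) := by simp
    beta_reduce
    rw [e, ex_coe]
    simp only [ContinuousMap.smul_apply, ContinuousMap.mul_apply, ContinuousMap.sub_apply, ContinuousMap.add_apply,
      (sc ε hε _).1, (sc ε hε _).2.1, (sc ε hε _).2.2, smul_eq_mul, co, ContinuousMap.coe_mk, hG]
    ring
  have cF : ∀ s, |s| < δ → ContinuousAt F s := fun s hs => by
    have h1 := (an s hs).1.continuousAt
    have h2 := (an s hs).2.1.continuousAt
    simp only [hF]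
    fun_prop
  have cG : ∀ s, |s| < δ → ContinuousAt G s := fun s hs => by
    have h1 := (an s hs).1.continuousAt
    have h2 := (an s hs).2.1.continuousAt
    have h3 := (an s hs).2.2.continuousAt
    simp only [hG]
    fun_prop
  have hδ0 : 0 < δ := lt_min hδ₁ hδ₂
  refine ⟨p, y, δ, hδ0, by simp [hp, hz0, z0], by simp [hy, hz0, z0],
    fun sg hsg => ⟨(an sg hsg).1, (an sg hsg).2.1⟩, fun sg h0 h1 => ?_⟩
  have hsg : |sg| < δ := by rwa [abs_of_nonneg h0]
  have nb : ∀ᶠ s in 𝓝 sg, |s| < δ := (isOpen_lt continuous_abs continuous_const).mem_nhds hsg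
  refine ⟨((ftc cF hsg).const_add 1).congr_of_eventuallyEq (nb.mono q1), ?_⟩
  have dy := (an sg hsg).2.1.differentiableAt.hasDerivAt
  have key : 2 * sg * deriv y sg + 11 * y sg = G sg := by
    rcases h0.eq_or_lt with rfl | h0
    · rw [q2 0 hsg]
      simp only [zero_mul, mul_zero, zero_add]
      rw [intervalIntegral.integral_mul_const, integral_pow]
      norm_num
      ring
    · have hs : ∀ r : ℝ, |r| < √δ → |r ^ 2| < δ := fun r hr => by
        rw [abs_pow]
        exact (Real.lt_sqrt (abs_nonneg r)).1 hr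
      have hρ : |√sg| < √δ := by
        rw [abs_of_nonneg (Real.sqrt_nonneg _)]
        exact Real.sqrt_lt_sqrt h0.le h1
      have d1 := ftc (F := fun r => r ^ 10 * G (r ^ 2)) (δ := √δ)
        (fun r hr => (continuous_pow 10).continuousAt.mul
          (ContinuousAt.comp (f := fun r : ℝ => r ^ 2) (cG _ (hs r hr)) (continuous_pow 2).continuousAt)) hρ
      have nb' : ∀ᶠ r in 𝓝 √sg, |r| < √δ := (isOpen_lt continuous_abs continuous_const).mem_nhds hρ
      have d2 : HasDerivAt (fun r => r ^ 11 * y (r ^ 2)) (√sg ^ 10 * G (√sg ^ 2)) √sg := by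
        refine d1.congr_of_eventuallyEq (nb'.mono fun r hr => ?_)
        have h2 := intervalIntegral.smul_integral_comp_mul_left (a := 0) (b := 1)
          (fun r => r ^ 10 * G (r ^ 2)) r
        rw [mul_zero, mul_one] at h2
        beta_reduce
        rw [← h2, q2 _ (hs r hr), smul_eq_mul, ← intervalIntegral.integral_const_mul,
          ← intervalIntegral.integral_const_mul]
        congr 1
        funext a
        rw [mul_pow r a 2]
        ring
      have sq : √sg ^ 2 = sg := Real.sq_sqrt h0.le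
      have d3 := (hasDerivAt_pow 11 √sg).mul
        (HasDerivAt.comp (h₂ := y) (h := fun r : ℝ => r ^ 2) √sg (by rw [sq]; exact dy) (hasDerivAt_pow 2 √sg))
      have h3 := d2.unique d3
      simp only [Function.comp, sq] at h3
      have h4 : √sg ^ 10 ≠ 0 := pow_ne_zero _ (Real.sqrt_pos.2 h0).ne'
      refine mul_left_cancel₀ h4 ?_
      rw [h3]
      norm_num
      linear_combination (-2 * √sg ^ 10 * deriv y sg) * sq
  have h9 := q3 sg hsg
  have h10 : 9 + 2 * sg * p sg ≠ 0 := fun h => by rw [h, mul_zero] at h9; exact zero_ne_one h9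
  refine (((hasDerivAt_id' sg).fun_mul dy).const_add 1).congr_deriv ?_
  simp only [hG] at key ⊢
  rw [eq_div_iff (mul_ne_zero two_ne_zero h10)]
  linear_combination (9 + 2 * sg * p sg) * key + (21 * p sg + sg * (24 * (p sg * y sg) + 2 * (p sg * p sg) +
    y sg * (21 * p sg - 81 * y sg + sg * (2 * (p sg * p sg) + 6 * (p sg * y sg))))) * h9

end

end Crest.Agent.R236.Ex
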