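import Crest.Agent.R236.EA

/-!
# R236/EB: the global solution of the radial ODE (helper49): trapping region
`0 < P < 9`, `0 < Y < 5/4 + P/4`.
-/

set_option autoImplicit false

namespace Crest.Agent.R236.Ex

open Set Filter Topology MeasureTheory
open scoped ContDiff NNReal

noncomputable section

theorem exists_forward {g : ℝ × ℝ → ℝ × ℝ} {K L : ℝ≥0} (hl : LipschitzWith K g)
    (hb : ∀ x, ‖g x‖ ≤ L) (x₀ : ℝ × ℝ) :
    ∃ x : ℝ → ℝ × ℝ, (∀ t, 0 ≤ t → HasDerivWithinAt x (g (x t)) (Ici 0) t) ∧ x 0 = x₀ := by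
  have hloc : ∀ n : ℕ, ∃ α : ℝ → ℝ × ℝ, α 0 = x₀ ∧
      ∀ t ∈ Set.Icc (0 : ℝ) n, HasDerivWithinAt α (g (α t)) (Set.Icc (0 : ℝ) n) t := by
    intro n
    have hpl : IsPicardLindelof (fun _ => g) (tmin := 0) (tmax := n)
        ⟨0, le_rfl, Nat.cast_nonneg n⟩ x₀ (L * n) 0 L K :=
      IsPicardLindelof.of_time_independent (fun x _ => hb x) hl.lipschitzOnWith (by simp)
    exact hpl.exists_eq_forall_mem_Icc_hasDerivWithinAt₀
  choose α hα0 hα using hloc
  have hright : ∀ n : ℕ, ∀ t ∈ Set.Ico (0 : ℝ) n, HasDerivWithinAt (α n) (g (α n t)) (Set.Ici t) t := by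
    intro n t ht
    exact (hα n t ⟨ht.1, ht.2.le⟩).mono_of_mem_nhdsWithin
      (mem_of_superset (Icc_mem_nhdsGE ht.2) (Set.Icc_subset_Icc_left ht.1))
  have huniq : ∀ n m : ℕ, ∀ t : ℝ, 0 ≤ t → t ≤ n → t ≤ m → α n t = α m t := by
    intro n m t h0 hn hm
    have c1 : ContinuousOn (α n) (Set.Icc 0 t) :=
      (HasDerivWithinAt.continuousOn (hα n)).mono (Set.Icc_subset_Icc_right hn)
    have c2 : ContinuousOn (α m) (Set.Icc 0 t) :=
      (HasDerivWithinAt.continuousOn (hα m)).mono (Set.Icc_subset_Icc_right hm)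
    exact ODE_solution_unique (v := fun _ => g) (fun _ => hl) c1
      (fun s hs => hright n s ⟨hs.1, lt_of_lt_of_le hs.2 hn⟩) c2
      (fun s hs => hright m s ⟨hs.1, lt_of_lt_of_le hs.2 hm⟩) (by rw [hα0, hα0]) ⟨h0, le_rfl⟩
  refine ⟨fun t => α ⌈t⌉₊ t, fun t ht => ?_, by simp [hα0]⟩
  set N : ℕ := ⌈t⌉₊ + 1 with hN
  have htN : t < N := by rw [hN]; push_cast; linarith [Nat.le_ceil t]
  have hmem : Set.Icc (0 : ℝ) N ∈ 𝓝[Set.Ici 0] t := by
    rw [← Set.Ici_inter_Iic]
    exact inter_mem_nhdsWithin _ (Iic_mem_nhds htN)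
  have h1 := (hα N t ⟨ht, htN.le⟩).mono_of_mem_nhdsWithin hmem
  have h2 : α ⌈t⌉₊ t = α N t := huniq _ _ t ht (Nat.le_ceil t) htN.le
  have h3 : (fun t => α ⌈t⌉₊ t) =ᶠ[𝓝[Set.Ici 0] t] α N := by
    filter_upwards [hmem] with s hs
    exact huniq _ _ s hs.1 (Nat.le_ceil s) hs.2
  have h4 := h1.congr_of_eventuallyEq h3 h2
  simpa only [h2] using h4

/-- the vector field in the logarithmic variable -/
def fld (z : ℝ × ℝ) : ℝ × ℝ :=
  (z.1 * (z.2 + 1 - z.1 / 2), z.2 * (2 * (9 - z.1) ^ 2 - (z.2 + 1 - z.1 / 2) * (81 - 3 * z.1)) / (9 + z.1))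

def clamp (z : ℝ × ℝ) : ℝ × ℝ := (max 0 (min 9 z.1), max 0 (min 9 z.2))

/-- the trapping region -/
def Reg (z : ℝ × ℝ) : Prop := 0 < z.1 ∧ 0 < z.2 ∧ 0 < 9 - z.1 ∧ 0 < 5 / 4 + z.1 / 4 - z.2

theorem exists_trunc (x₀ : ℝ × ℝ) : ∃ (g : ℝ × ℝ → ℝ × ℝ) (x : ℝ → ℝ × ℝ), (∀ z, Reg z → g z = fld z) ∧
    (∀ t, 0 ≤ t → HasDerivWithinAt x (g (x t)) (Ici 0) t) ∧ x 0 = x₀ := by
  have hf : ContDiffOn ℝ 1 fld (Icc 0 9 ×ˢ Icc 0 9) := by
    unfold fld
    refine ContDiffOn.prodMk (by fun_prop) (ContDiffOn.div (by fun_prop) (by fun_prop) fun z hz => ?_)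
    have := hz.1.1
    positivity
  have hc : IsCompact (Icc (0 : ℝ) 9 ×ˢ Icc (0 : ℝ) 9) := isCompact_Icc.prod isCompact_Icc
  obtain ⟨K, hK⟩ := hf.exists_lipschitzOnWith one_ne_zero ((convex_Icc _ _).prod (convex_Icc _ _)) hc
  obtain ⟨L, hL⟩ := hc.exists_bound_of_continuousOn hf.continuousOn
  have hm : ∀ z, clamp z ∈ Icc (0 : ℝ) 9 ×ˢ Icc (0 : ℝ) 9 := fun z =>
    ⟨⟨le_max_left _ _, max_le (by norm_num) (min_le_left _ _)⟩,
      ⟨le_max_left _ _, max_le (by norm_num) (min_le_left _ _)⟩⟩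
  have hcl : LipschitzWith (max 1 1) clamp :=
    ((LipschitzWith.prod_fst.const_min 9).const_max 0).prodMk ((LipschitzWith.prod_snd.const_min 9).const_max 0)
  have hl : LipschitzWith (K * max 1 1) (fld ∘ clamp) := by
    rw [← lipschitzOnWith_univ]
    exact hK.comp hcl.lipschitzOnWith fun y _ => hm y
  obtain ⟨x, h1, h2⟩ := exists_forward (L := L.toNNReal) hl
    (fun y => (hL _ (hm y)).trans (Real.le_coe_toNNReal L)) x₀
  refine ⟨_, x, fun z hz => ?_, h1, h2⟩
  obtain ⟨a, b, c, d⟩ := hz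
  have : clamp z = z := by
    unfold clamp
    rw [min_eq_right (by linarith), min_eq_right (by linarith), max_eq_right a.le, max_eq_right b.le]
  simp only [Function.comp, this]

theorem pos_of_deriv {f f' : ℝ → ℝ} {b : ℝ} (hb : 0 ≤ b) (hc : ContinuousOn f (Icc 0 b))
    (hd : ∀ t ∈ Ioo 0 b, HasDerivAt f (f' t) t) (h : ∀ t ∈ Ioo 0 b, 0 ≤ f' t + 40 * f t) (h0 : 0 < f 0) :
    0 < f b := by
  have d : ∀ t ∈ Ioo 0 b, HasDerivAt (fun t => Real.exp (40 * t) * f t)
      (Real.exp (40 * t) * (f' t + 40 * f t)) t := fun t ht =>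
    ((((hasDerivAt_id' t).const_mul 40).exp).fun_mul (hd t ht)).congr_deriv (by ring)
  have m : MonotoneOn (fun t => Real.exp (40 * t) * f t) (Icc 0 b) := by
    refine monotoneOn_of_deriv_nonneg (convex_Icc _ _) (ContinuousOn.mul (by fun_prop) hc) ?_ ?_
    · rw [interior_Icc]
      exact fun t ht => (d t ht).differentiableAt.differentiableWithinAt
    · rw [interior_Icc]
      intro t ht
      rw [(d t ht).deriv]
      exact mul_nonneg (Real.exp_pos _).le (h t ht)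
  have := m ⟨le_rfl, hb⟩ ⟨hb, le_rfl⟩ hb
  simp only [mul_zero, Real.exp_zero, one_mul] at this
  exact pos_of_mul_pos_right (h0.trans_le this) (Real.exp_pos _).le

theorem exists_glob {x₀ : ℝ × ℝ} (h₀ : Reg x₀) : ∃ x : ℝ → ℝ × ℝ, x 0 = x₀ ∧
    ∀ t, 0 ≤ t → Reg (x t) ∧ HasDerivWithinAt x (fld (x t)) (Ici 0) t := by
  obtain ⟨g, x, hg, hx, hx0⟩ := exists_trunc x₀
  have hc : ContinuousOn x (Ici 0) := fun t ht => (hx t ht).continuousWithinAt
  have key : ∀ t, 0 ≤ t → Reg (x t) := by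
    by_contra hcon
    push Not at hcon
    have ho : IsOpen {z : ℝ × ℝ | Reg z} :=
      (isOpen_lt continuous_const continuous_fst).inter ((isOpen_lt continuous_const continuous_snd).inter
        ((isOpen_lt (g := fun z : ℝ × ℝ => 9 - z.1) continuous_const (by fun_prop)).inter
          (isOpen_lt (g := fun z : ℝ × ℝ => 5 / 4 + z.1 / 4 - z.2) continuous_const (by fun_prop))))
    have hS : IsClosed (Ici 0 ∩ x ⁻¹' {z | Reg z}ᶜ) :=
      hc.preimage_isClosed_of_isClosed isClosed_Ici ho.isClosed_compl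
    have hne : (Ici 0 ∩ x ⁻¹' {z | Reg z}ᶜ).Nonempty := hcon
    have hbd : BddBelow (Ici 0 ∩ x ⁻¹' {z | Reg z}ᶜ) := ⟨0, fun t ht => ht.1⟩
    obtain ⟨hb, hb'⟩ := hS.csInf_mem hne hbd
    set b := sInf (Ici 0 ∩ x ⁻¹' {z | Reg z}ᶜ) with hbdef
    have hr : ∀ t ∈ Ioo 0 b, Reg (x t) := fun t ht => by
      by_contra h
      exact absurd (csInf_le hbd ⟨ht.1.le, h⟩) (not_le.2 ht.2)
    have hd : ∀ t ∈ Ioo 0 b, HasDerivAt x (fld (x t)) t := fun t ht => by
      rw [← hg _ (hr t ht)]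
      exact (hx t ht.1.le).hasDerivAt (Ici_mem_nhds ht.1)
    have hc' : ContinuousOn x (Icc 0 b) := hc.mono Icc_subset_Ici_self
    have c1 : ContinuousOn (fun t => (x t).1) (Icc 0 b) := hc'.fst
    have c2 : ContinuousOn (fun t => (x t).2) (Icc 0 b) := hc'.snd
    have d1 : ∀ t ∈ Ioo 0 b, HasDerivAt (fun t => (x t).1) (fld (x t)).1 t := fun t ht => (hd t ht).fst
    have d2 : ∀ t ∈ Ioo 0 b, HasDerivAt (fun t => (x t).2) (fld (x t)).2 t := fun t ht => (hd t ht).snd
    rw [← hx0] at h₀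
    refine hb' ⟨pos_of_deriv hb c1 d1 (fun t ht => ?_) h₀.1, pos_of_deriv hb c2 d2 (fun t ht => ?_) h₀.2.1,
      pos_of_deriv (f := fun t => 9 - (x t).1) hb (by fun_prop) (fun t ht => (d1 t ht).const_sub 9)
        (fun t ht => ?_) h₀.2.2.1,
      pos_of_deriv (f := fun t => 5 / 4 + (x t).1 / 4 - (x t).2) hb (by fun_prop)
        (fun t ht => (((d1 t ht).div_const 4).const_add (5 / 4)).fun_sub (d2 t ht)) (fun t ht => ?_) h₀.2.2.2⟩
    all_goals
      obtain ⟨a1, a2, a3, a4⟩ := hr t ht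
      simp only [fld]
      generalize (x t).1 = P at *
      generalize (x t).2 = Y at *
    · nlinarith
    · have h9 : 0 < 9 + P := by linarith
      have : Y * (2 * (9 - P) ^ 2 - (Y + 1 - P / 2) * (81 - 3 * P)) / (9 + P) + 40 * Y =
          Y * (2 * (9 - P) ^ 2 - (Y + 1 - P / 2) * (81 - 3 * P) + 40 * (9 + P)) / (9 + P) := by
        field_simp
      rw [this]
      refine div_nonneg (mul_nonneg a2.le ?_) h9.le
      nlinarith
    · nlinarith
    · have h9 : 0 < 9 + P := by linarith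
      have : P * (Y + 1 - P / 2) / 4 - Y * (2 * (9 - P) ^ 2 - (Y + 1 - P / 2) * (81 - 3 * P)) / (9 + P) +
          40 * (5 / 4 + P / 4 - Y) = ((9 + P) * (9 - P) * (P / 4 + Y) / 4 + Y * (9 - P) * P +
            (5 / 4 + P / 4 - Y) * ((9 + P) * (40 - P / 4 - Y) - Y * (72 - 4 * P))) / (9 + P) := by
        field_simp
        ring
      rw [this]
      refine div_nonneg (add_nonneg (by positivity) (mul_nonneg a4.le ?_)) h9.le
      nlinarith
  exact ⟨x, hx0, fun t ht => ⟨key t ht, by rw [← hg _ (key t ht)]; exact hx t ht⟩⟩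

theorem glue {f g : ℝ → ℝ} {a s d : ℝ} (hfg : f a = g a) (hf : s ≤ a → HasDerivAt f d s)
    (hg : a ≤ s → HasDerivWithinAt g d (Ici a) s) : HasDerivAt (fun s => if s ≤ a then f s else g s) d s := by
  rcases lt_trichotomy s a with h | rfl | h
  · refine (hf h.le).congr_of_eventuallyEq ?_
    filter_upwards [Iic_mem_nhds h] with r hr
    exact if_pos hr
  · have h1 : HasDerivWithinAt (fun r => if r ≤ s then f r else g r) d (Iic s) s :=
      (hf le_rfl).hasDerivWithinAt.congr (fun r hr => if_pos hr) (if_pos le_rfl)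
    have h2 : HasDerivWithinAt (fun r => if r ≤ s then f r else g r) d (Ici s) s := by
      refine (hg le_rfl).congr (fun r hr => ?_) (by rw [if_pos le_rfl, hfg])
      split_ifs with h
      · rw [le_antisymm h hr, hfg]
      · rfl
    have := h1.union h2
    rwa [Iic_union_Ici, hasDerivWithinAt_univ] at this
  · refine ((hg h.le).hasDerivAt (Ici_mem_nhds h)).congr_of_eventuallyEq ?_
    filter_upwards [Ioi_mem_nhds h] with r hr
    exact if_neg (not_le.2 hr)

/-- the radial ODE -/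
structure Ode (p y : ℝ → ℝ) : Prop where
  sm : ∀ σ, 0 ≤ σ → ContDiffAt ℝ ∞ p σ
  ev : ∀ᶠ σ in 𝓝 (0 : ℝ), ContinuousAt p σ
  pos : ∀ σ, 0 ≤ σ → 0 < p σ
  posY : ∀ σ, 0 ≤ σ → 0 < 1 + σ * y σ
  dp : ∀ σ, 0 ≤ σ → HasDerivAt p (p σ * (y σ - p σ) / 2) σ
  dY : ∀ σ, 0 ≤ σ → HasDerivAt (fun s => 1 + s * y s)
    ((1 + σ * y σ) * (21 * p σ - 81 * y σ + 2 * σ * p σ ^ 2 + 6 * σ * p σ * y σ) / (2 * (9 + 2 * σ * p σ))) σ

theorem boot {p y : ℝ → ℝ} (pos : ∀ σ, 0 < σ → 0 < p σ)
    (dp : ∀ σ, 0 < σ → HasDerivAt p (p σ * (y σ - p σ) / 2) σ)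
    (dY : ∀ σ, 0 < σ → HasDerivAt (fun s => 1 + s * y s)
      ((1 + σ * y σ) * (21 * p σ - 81 * y σ + 2 * σ * p σ ^ 2 + 6 * σ * p σ * y σ) / (2 * (9 + 2 * σ * p σ))) σ) :
    ContDiffOn ℝ ∞ p (Ioi 0) := by
  have hy : ∀ (k : ℕ), ContDiffOn ℝ k (fun s => 1 + s * y s) (Ioi 0) → ContDiffOn ℝ k y (Ioi 0) := by
    intro k h
    refine ((h.sub contDiffOn_const (g := fun _ => 1)).div contDiffOn_id fun s hs => ne_of_gt hs).congr
      fun s hs => ?_
    have : s ≠ 0 := ne_of_gt hs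
    simp only [Pi.div_apply, id]
    field_simp
    ring
  have key : ∀ k : ℕ, ContDiffOn ℝ k p (Ioi 0) ∧ ContDiffOn ℝ k (fun s => 1 + s * y s) (Ioi 0) := by
    intro k
    induction k with
    | zero =>
      simp only [Nat.cast_zero, contDiffOn_zero]
      exact ⟨fun s hs => (dp s hs).continuousAt.continuousWithinAt,
        fun s hs => (dY s hs).continuousAt.continuousWithinAt⟩
    | succ k ih =>
      have h1 := ih.1
      have h2 := hy k ih.2
      push_cast
      constructor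
      · rw [contDiffOn_succ_iff_deriv_of_isOpen isOpen_Ioi]
        refine ⟨fun s hs => (dp s hs).differentiableAt.differentiableWithinAt, by simp, ?_⟩
        exact ContDiffOn.congr (f := fun σ => p σ * (y σ - p σ) / 2) (by fun_prop) fun s hs => (dp s hs).deriv
      · rw [contDiffOn_succ_iff_deriv_of_isOpen isOpen_Ioi]
        refine ⟨fun s hs => (dY s hs).differentiableAt.differentiableWithinAt, by simp, ?_⟩
        refine ContDiffOn.congr (f := fun σ => (1 + σ * y σ) * (21 * p σ - 81 * y σ + 2 * σ * p σ ^ 2 +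
          6 * σ * p σ * y σ) / (2 * (9 + 2 * σ * p σ))) (ContDiffOn.div (by fun_prop) (by fun_prop) fun s hs => ?_)
          fun s hs => (dY s hs).deriv
        have := pos s hs
        have : 0 < s := hs
        positivity
  exact contDiffOn_infty.2 fun k => (key k).1

theorem exists_ode : ∃ p y : ℝ → ℝ, Ode p y := by
  obtain ⟨p, y, δ, hδ, hp0, hy0, han, hode⟩ := exists_loc
  have c1 := (han 0 (by simpa using hδ)).1.continuousAt
  have c2 := (han 0 (by simpa using hδ)).2.continuousAt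
  have e : ∀ᶠ s in 𝓝 (0 : ℝ), |s| < δ ∧ 0 < p s ∧ 0 < 1 + s * y s ∧ 0 < 9 - 2 * s * p s ∧
      0 < 5 / 4 + 2 * s * p s / 4 - (1 + s * y s) := by
    refine (Eventually.and ((isOpen_lt continuous_abs continuous_const).mem_nhds (by simpa using hδ))
      (Eventually.and ?_ (Eventually.and ?_ (Eventually.and ?_ ?_))))
    · exact continuousAt_const.eventually_lt c1 (by simp [hp0])
    · exact continuousAt_const.eventually_lt (by fun_prop) (by simp)
    · exact continuousAt_const.eventually_lt (by fun_prop) (by simp)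
    · exact continuousAt_const.eventually_lt (by fun_prop) (by norm_num)
  obtain ⟨r, hr, he⟩ := Metric.eventually_nhds_iff.1 e
  set a := r / 2 with ha
  have ha0 : 0 < a := by positivity
  have he' : ∀ s, 0 ≤ s → s ≤ a → s < δ ∧ 0 < p s ∧ 0 < 1 + s * y s ∧ 0 < 9 - 2 * s * p s ∧
      0 < 5 / 4 + 2 * s * p s / 4 - (1 + s * y s) := fun s h0 h1 => by
    have := @he s (by rw [dist_zero_right, Real.norm_eq_abs, abs_of_nonneg h0]; linarith)
    rwa [abs_of_nonneg h0] at this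
  obtain ⟨x, hx0, hx⟩ := exists_glob (x₀ := (2 * a * p a, 1 + a * y a)) (by
    obtain ⟨-, b1, b2, b3, b4⟩ := he' a ha0.le le_rfl
    exact ⟨by positivity, b2, b3, b4⟩)
  set τ : ℝ → ℝ := fun s => Real.log (s / a) / 2 with hτ
  have τ0 : ∀ s, a ≤ s → 0 ≤ τ s := fun s hs =>
    div_nonneg (Real.log_nonneg ((one_le_div ha0).2 hs)) zero_le_two
  have τa : τ a = 0 := by simp [hτ, ha0.ne']
  have dτ : ∀ s, a ≤ s → HasDerivAt τ (1 / (2 * s)) s := fun s hs => by
    have h1 : 0 < s := ha0.trans_le hs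
    refine ((((hasDerivAt_id' s).div_const a).log (by positivity)).div_const 2).congr_deriv ?_
    field_simp
  have dx : ∀ s, a ≤ s → HasDerivWithinAt (fun s => x (τ s)) ((1 / (2 * s)) • fld (x (τ s))) (Ici a) s :=
    fun s hs => HasDerivWithinAt.scomp s (hx _ (τ0 s hs)).2 (dτ s hs).hasDerivWithinAt fun r hr => τ0 r hr
  have dx1 : ∀ s, a ≤ s → HasDerivWithinAt (fun s => (x (τ s)).1) ((1 / (2 * s)) * (fld (x (τ s))).1) (Ici a) s :=
    fun s hs => (ContinuousLinearMap.fst ℝ ℝ ℝ).hasFDerivAt.comp_hasDerivWithinAt s (dx s hs)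
  have dx2 : ∀ s, a ≤ s → HasDerivWithinAt (fun s => (x (τ s)).2) ((1 / (2 * s)) * (fld (x (τ s))).2) (Ici a) s :=
    fun s hs => (ContinuousLinearMap.snd ℝ ℝ ℝ).hasFDerivAt.comp_hasDerivWithinAt s (dx s hs)
  set P : ℝ → ℝ := fun s => if s ≤ a then p s else (x (τ s)).1 / (2 * s) with hP
  set Y : ℝ → ℝ := fun s => if s ≤ a then y s else ((x (τ s)).2 - 1) / s with hY
  have Pa : ∀ s, a ≤ s → P s = (x (τ s)).1 / (2 * s) := fun s hs => by
    simp only [hP]
    split_ifs with h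
    · rw [le_antisymm h hs, τa, hx0]
      field_simp
    · rfl
  have Ya : ∀ s, a ≤ s → Y s = ((x (τ s)).2 - 1) / s := fun s hs => by
    simp only [hY]
    split_ifs with h
    · rw [le_antisymm h hs, τa, hx0]
      field_simp
      ring
    · rfl
  have pos : ∀ σ, 0 ≤ σ → 0 < P σ := fun s hs => by
    rcases le_total s a with h | h
    · simp only [hP, if_pos h]; exact (he' s hs h).2.1
    · rw [Pa s h]
      exact div_pos (hx _ (τ0 s h)).1.1 (by linarith)
  have posY : ∀ σ, 0 ≤ σ → 0 < 1 + σ * Y σ := fun s hs => by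
    rcases le_total s a with h | h
    · simp only [hY, if_pos h]; exact (he' s hs h).2.2.1
    · have h1 : s ≠ 0 := by linarith
      rw [Ya s h, mul_div_cancel₀ _ h1]
      linarith [(hx _ (τ0 s h)).1.2.1]
  have dp : ∀ σ, 0 ≤ σ → HasDerivAt P (P σ * (Y σ - P σ) / 2) σ := fun s hs => by
    refine glue (by rw [τa, hx0]; field_simp) (fun h => ?_) fun h => ?_
    · simp only [hP, hY, if_pos h]
      exact (hode s hs (he' s hs h).1).1
    · have h1 : s ≠ 0 := by linarith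
      refine ((dx1 s h).fun_div ((hasDerivWithinAt_id s _).const_mul 2) (by simpa using h1)).congr_deriv ?_
      rw [Pa s h, Ya s h]
      simp only [fld, id]
      field_simp
      ring
  have dY : ∀ σ, 0 ≤ σ → HasDerivAt (fun s => 1 + s * Y s)
      ((1 + σ * Y σ) * (21 * P σ - 81 * Y σ + 2 * σ * P σ ^ 2 + 6 * σ * P σ * Y σ) / (2 * (9 + 2 * σ * P σ))) σ := by
    intro s hs
    have e : (fun s => 1 + s * Y s) = fun s => if s ≤ a then 1 + s * y s else (x (τ s)).2 := by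
      funext r
      simp only [hY]
      split_ifs with h
      · rfl
      · have h1 : r ≠ 0 := by linarith
        field_simp
        ring
    rw [e]
    refine glue (by rw [τa, hx0]) (fun h => ?_) fun h => ?_
    · simp only [hP, hY, if_pos h]
      exact (hode s hs (he' s hs h).1).2
    · have h1 : s ≠ 0 := by linarith
      refine (dx2 s h).congr_deriv ?_
      rw [Pa s h, Ya s h]
      have h2 : 9 + (x (τ s)).1 ≠ 0 := by linarith [(hx _ (τ0 s h)).1.1]
      simp only [fld]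
      rw [show 9 + 2 * s * ((x (τ s)).1 / (2 * s)) = 9 + (x (τ s)).1 by field_simp]
      field_simp
      ring
  have ev : P =ᶠ[𝓝 0] p := by
    filter_upwards [Iic_mem_nhds ha0] with r hr
    exact if_pos hr
  refine ⟨P, Y, fun s hs => ?_, ?_, pos, posY, dp, dY⟩
  · rcases hs.eq_or_lt with rfl | h
    · exact (han 0 (by simpa using hδ)).1.contDiffAt.congr_of_eventuallyEq ev
    · exact (boot (fun s h => pos s h.le) (fun s h => dp s h.le) fun s h => dY s h.le).contDiffAt (Ioi_mem_nhds h)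
  · filter_upwards [ev.eventually_nhds, e] with s h1 h2
    exact (han s h2.1).1.continuousAt.congr (EventuallyEq.symm h1)

end

end Crest.Agent.R236.Ex
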