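import Mathlib

/-!
# R236/EC: matrices `c (1 - e eᵀ) + a e eᵀ + b (e vᵀ + v eᵀ) + d v vᵀ` (helper49)
-/

set_option autoImplicit false

namespace Crest.Agent.R236.Ex

open Matrix Finset

noncomputable section

abbrev J : Type := Fin 10

def MM (e v : J → ℝ) (c a b d : ℝ) : Matrix J J ℝ := fun i j =>
  c * ((1 : Matrix J J ℝ) i j - e i * e j) + a * (e i * e j) + b * (e i * v j + v i * e j) + d * (v i * v j)

variable {e v : J → ℝ} {σ : ℝ}

theorem MM_symm (c a b d : ℝ) (i j : J) : MM e v c a b d i j = MM e v c a b d j i := by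
  simp only [MM, Matrix.one_apply, eq_comm (a := i)]
  ring

theorem MM_row (c a b d : ℝ) (i : J) (w : J → ℝ) : ∑ k, MM e v c a b d i k * w k =
    c * w i + ((a - c) * e i + b * v i) * ∑ k, e k * w k + (b * e i + d * v i) * ∑ k, v k * w k := by
  have h : c * w i = ∑ k, c * ((1 : Matrix J J ℝ) i k * w k) := by
    simp only [Matrix.one_apply, ite_mul, one_mul, zero_mul, mul_ite, mul_zero, Finset.sum_ite_eq, mem_univ, if_true]
  rw [h, mul_sum, mul_sum, ← sum_add_distrib, ← sum_add_distrib]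
  refine sum_congr rfl fun k _ => ?_
  simp only [MM]
  ring

/-- the frame conditions -/
structure Fr (e v : J → ℝ) (σ : ℝ) : Prop where
  ee : ∑ k, e k * e k = 1
  ev : ∑ k, e k * v k = 0
  vv : ∑ k, v k * v k = σ

theorem Fr.ve (h : Fr e v σ) : ∑ k, v k * e k = 0 := by
  rw [← h.ev]; exact sum_congr rfl fun k _ => mul_comm _ _

theorem Fr.col_e (h : Fr e v σ) (c a b d : ℝ) (j : J) : ∑ k, e k * MM e v c a b d k j = a * e j + b * v j := by
  have := MM_row (e := e) (v := v) c a b d j e
  rw [h.ee, h.ve] at this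
  simp only [MM_symm c a b d _ j, mul_comm (e _)]
  rw [this]; ring

theorem Fr.col_v (h : Fr e v σ) (c a b d : ℝ) (j : J) :
    ∑ k, v k * MM e v c a b d k j = b * σ * e j + (c + d * σ) * v j := by
  have := MM_row (e := e) (v := v) c a b d j v
  rw [h.ev, h.vv] at this
  simp only [MM_symm c a b d _ j, mul_comm (v _)]
  rw [this]; ring

theorem Fr.inv (h : Fr e v σ) {c a b d D : ℝ} (hc : c ≠ 0) (hD : D = a * (c + d * σ) - b ^ 2 * σ) (hD0 : D ≠ 0) :
    (MM e v c a b d)⁻¹ = MM e v c⁻¹ ((c + d * σ) / D) (-b / D) ((b ^ 2 - a * d) / (c * D)) := by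
  refine Matrix.inv_eq_right_inv ?_
  ext i j
  rw [Matrix.mul_apply, MM_row, h.col_e, h.col_v]
  simp only [MM]
  field_simp
  rw [hD]
  ring

theorem Fr.tr (h : Fr e v σ) (c a b d c' a' b' d' : ℝ) :
    ∑ i, ∑ j, MM e v c a b d i j * MM e v c' a' b' d' i j =
      8 * (c * c') + a * a' + 2 * b * b' * σ + (c + d * σ) * (c' + d' * σ) := by
  have h1 : ∀ i, ∑ j, MM e v c a b d i j * MM e v c' a' b' d' i j =
      c * c' + (c * (a' - c') + (a - c) * a' + b * b' * σ) * (e i * e i) +
        (2 * c * b' + (a - c) * b' + b * a' + b * (c' + d' * σ) + d * b' * σ) * (e i * v i) +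
        (c * d' + b * b' + d * (c' + d' * σ)) * (v i * v i) := by
    intro i
    rw [MM_row]
    simp only [MM_symm c' a' b' d' i]
    rw [h.col_e, h.col_v]
    simp only [MM, Matrix.one_apply_eq]
    ring
  simp only [h1, sum_add_distrib, ← mul_sum, h.ee, h.ev, h.vv, sum_const, card_univ, Fintype.card_fin, nsmul_eq_mul]
  push_cast
  ring

theorem Fr.det (h : Fr e v σ) {c : ℝ} (a b d : ℝ) (hc : c ≠ 0) :
    (MM e v c a b d).det = c ^ 8 * (a * (c + d * σ) - b ^ 2 * σ) := by
  set A : Matrix J (Fin 2) ℝ := Matrix.of fun i k => ![e i, v i] k with hA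
  set B : Matrix (Fin 2) J ℝ := Matrix.of fun k j =>
    ![((a - c) * e j + b * v j) / c, (b * e j + d * v j) / c] k with hB
  have h1 : MM e v c a b d = c • (1 + A * B) := by
    ext i j
    simp only [MM, hA, hB, Matrix.smul_apply, Matrix.add_apply, Matrix.mul_apply, Fin.sum_univ_two, Matrix.of_apply,
      Matrix.cons_val_zero, Matrix.cons_val_one, smul_eq_mul]
    field_simp
    ring
  have s : ∀ (α β : ℝ) (w : J → ℝ), ∑ j, (α * e j + β * v j) / c * w j =
      (α * ∑ j, e j * w j + β * ∑ j, v j * w j) / c := by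
    intro α β w
    rw [mul_sum, mul_sum, ← sum_add_distrib, sum_div]
    exact sum_congr rfl fun j _ => by ring
  rw [h1, Matrix.det_smul, Matrix.det_one_add_mul_comm, Matrix.det_fin_two]
  simp only [hA, hB, Matrix.add_apply, Matrix.mul_apply, Matrix.of_apply, Matrix.cons_val_zero, Matrix.cons_val_one,
    s, h.ee, h.ev, h.ve, h.vv, Fintype.card_fin, Matrix.one_apply_eq, Matrix.one_apply_ne (zero_ne_one (α := Fin 2)),
    Matrix.one_apply_ne (one_ne_zero (α := Fin 2))]
  field_simp
  ring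

theorem Fr.posDef (h : Fr e v σ) {c a b d : ℝ} (hc : 0 < c) (ha : 0 < a)
    (hD : 0 < a * (c + d * σ) - b ^ 2 * σ) : (MM e v c a b d).PosDef := by
  refine Matrix.PosDef.of_dotProduct_mulVec_pos ?_ fun w hw => ?_
  · ext i j
    simpa using MM_symm c a b d j i
  set s := ∑ k, e k * w k with hs
  set t := ∑ k, v k * w k with ht
  set N := ∑ k, (w k - s * e k) ^ 2 with hN
  have e1 : N = ∑ k, w k * w k - s ^ 2 := by
    have : ∀ k, (w k - s * e k) ^ 2 = w k * w k - 2 * s * (e k * w k) + s ^ 2 * (e k * e k) := fun k => by ring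
    simp only [hN, this, sum_add_distrib, sum_sub_distrib, ← mul_sum, h.ee, ← hs]
    ring
  have e2 : t = ∑ k, v k * (w k - s * e k) := by
    have : ∀ k, v k * (w k - s * e k) = v k * w k - s * (e k * v k) := fun k => by ring
    simp only [this, sum_sub_distrib, ← mul_sum, h.ev, ← ht]
    ring
  have cs : t ^ 2 ≤ σ * N := by
    have := Finset.sum_mul_sq_le_sq_mul_sq univ v fun k => w k - s * e k
    rw [← e2, ← hN] at this
    simpa only [sq (v _), h.vv] using this
  have N0 : 0 ≤ N := sum_nonneg fun k _ => sq_nonneg _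
  have q : star w ⬝ᵥ MM e v c a b d *ᵥ w = c * N + a * s ^ 2 + 2 * b * s * t + d * t ^ 2 := by
    have : ∀ i, w i * (c * w i + ((a - c) * e i + b * v i) * s + (b * e i + d * v i) * t) =
        c * (w i * w i) + ((a - c) * s + b * t) * (e i * w i) + (b * s + d * t) * (v i * w i) := fun i => by ring
    simp only [star_trivial, dotProduct, Matrix.mulVec, MM_row, ← hs, ← ht, this, sum_add_distrib, ← mul_sum, e1]
    ring
  rw [q]
  refine pos_of_mul_pos_right (b := _) (a := a) ?_ ha.le
  have e3 : a * (c * N + a * s ^ 2 + 2 * b * s * t + d * t ^ 2) =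
      (a * s + b * t) ^ 2 + a * c * N + (a * d - b ^ 2) * t ^ 2 := by ring
  rw [e3]
  rcases N0.eq_or_lt with h0 | h0
  · have t0 : t = 0 := by
      rw [← h0, mul_zero] at cs
      exact pow_eq_zero_iff two_ne_zero |>.1 (le_antisymm cs (sq_nonneg _))
    have s0 : s ≠ 0 := by
      intro s0
      refine hw (funext fun k => ?_)
      have := (sum_eq_zero_iff_of_nonneg fun k _ => sq_nonneg (w k - s * e k)).1 (hN ▸ h0.symm) k (mem_univ _)
      simpa [s0] using this
    rw [← h0, t0]
    have : 0 < (a * s) ^ 2 := by positivity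
    simpa using this
  · rcases le_total 0 (a * d - b ^ 2) with h1 | h1
    · positivity
    · have h2 : (a * d - b ^ 2) * (σ * N) ≤ (a * d - b ^ 2) * t ^ 2 := mul_le_mul_of_nonpos_left cs h1
      have h3 := mul_pos hD h0
      nlinarith [sq_nonneg (a * s + b * t)]

end

end Crest.Agent.R236.Ex
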