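import Crest.Agent.R236.EB
import Crest.Agent.R236.EC
import Crest.Prelude.Def_AffineMaximal

/-!
# R236/ED: calculus for functions of `(x₀, |x'|²)` on `ℝ¹⁰` (helper49)
-/

set_option autoImplicit false

namespace Crest.Agent.R236.Ex

open Set Filter Topology MeasureTheory
open scoped ContDiff
open Crest.GeometryTopology.CoordMetric Crest.GeometryTopology.AffineMaximal

noncomputable section

abbrev EE : Type := EuclideanSpace ℝ (Fin 10)

def e0 : J → ℝ := fun i => if i = 0 then 1 else 0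

def VL (k : J) : EE →L[ℝ] ℝ := if k = 0 then 0 else EuclideanSpace.proj k

def vv (x : EE) : J → ℝ := fun k => VL k x

def TL : EE →L[ℝ] ℝ := EuclideanSpace.proj 0

/-- `|x'|²` -/
def SS (x : EE) : ℝ := ∑ k, vv x k * vv x k

def dS (x : EE) : EE →L[ℝ] ℝ := ∑ k, (2 * vv x k) • VL k

theorem SS_nonneg (x : EE) : 0 ≤ SS x := Finset.sum_nonneg fun _ _ => mul_self_nonneg _

theorem fr (x : EE) : Fr e0 (vv x) (SS x) := by
  refine ⟨by simp [e0], ?_, rfl⟩
  simp [e0, vv, VL]

theorem VL_single (k j : J) : VL k (EuclideanSpace.single j 1) = (1 : Matrix J J ℝ) j k - e0 j * e0 k := by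
  unfold VL e0
  by_cases hk : k = 0
  · subst hk
    simp [Matrix.one_apply]
  · simp [hk, Matrix.one_apply, PiLp.single_apply, eq_comm]

theorem TL_single (j : J) : TL (EuclideanSpace.single j 1) = e0 j := by
  simp [TL, e0, PiLp.single_apply, eq_comm]

theorem dS_single (x : EE) (j : J) : dS x (EuclideanSpace.single j 1) = 2 * vv x j := by
  have h := (fr x).ev
  have : ∀ k, 2 * vv x k * ((1 : Matrix J J ℝ) j k - e0 j * e0 k) =
      (if j = k then 2 * vv x k else 0) - 2 * e0 j * (e0 k * vv x k) := fun k => by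
    rw [Matrix.one_apply]; split_ifs <;> ring
  simp only [dS, _root_.sum_apply, _root_.smul_apply, VL_single, smul_eq_mul, this, Finset.sum_sub_distrib,
    Finset.sum_ite_eq, Finset.mem_univ, if_true, ← Finset.mul_sum, h]
  ring

theorem SS_contDiff : ContDiff ℝ ∞ SS := by
  unfold SS vv
  exact ContDiff.sum fun k _ => (VL k).contDiff.mul (VL k).contDiff

/-- first order jets -/
def Dj (f : EE → ℝ) (x : EE) (a b : ℝ) : Prop := HasFDerivAt f (a • TL + b • dS x) x

theorem Dj.cg {f : EE → ℝ} {x : EE} {a b a' b' : ℝ} (h : Dj f x a b) (ha : a = a') (hb : b = b') :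
    Dj f x a' b' := by rw [← ha, ← hb]; exact h

theorem Dj.pd {f : EE → ℝ} {x : EE} {a b : ℝ} (h : Dj f x a b) (j : J) :
    pderiv j f x = a * e0 j + b * (2 * vv x j) := by
  unfold pderiv
  rw [HasFDerivAt.fderiv h]
  simp only [_root_.add_apply, _root_.smul_apply, TL_single, dS_single, smul_eq_mul]

theorem Dj_T (x : EE) : Dj TL x 1 0 := by
  unfold Dj
  simpa using TL.hasFDerivAt

theorem Dj_S (x : EE) : Dj SS x 0 1 := by
  unfold Dj
  have := HasFDerivAt.fun_sum (u := Finset.univ) fun k _ =>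
    ((VL k).hasFDerivAt (x := x)).mul ((VL k).hasFDerivAt (x := x))
  refine HasFDerivAt.congr_fderiv this ?_
  simp only [zero_smul, zero_add, one_smul, dS, vv, two_mul, add_smul]

theorem Dj.mul {f g : EE → ℝ} {x : EE} {a b a' b' : ℝ} (h : Dj f x a b) (h' : Dj g x a' b') :
    Dj (fun y => f y * g y) x (a * g x + f x * a') (b * g x + f x * b') := by
  refine HasFDerivAt.congr_fderiv (HasFDerivAt.mul h h') ?_
  ext v
  simp only [_root_.add_apply, _root_.smul_apply, smul_eq_mul]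
  ring

theorem Dj.add {f g : EE → ℝ} {x : EE} {a b a' b' : ℝ} (h : Dj f x a b) (h' : Dj g x a' b') :
    Dj (fun y => f y + g y) x (a + a') (b + b') := by
  refine HasFDerivAt.congr_fderiv (HasFDerivAt.add h h') ?_
  ext v
  simp only [_root_.add_apply, _root_.smul_apply, smul_eq_mul]
  ring

theorem Dj.comp {f : EE → ℝ} {x : EE} {a b : ℝ} (h : Dj f x a b) {g : ℝ → ℝ} {g' : ℝ}
    (hg : HasDerivAt g g' (f x)) : Dj (fun y => g (f y)) x (g' * a) (g' * b) := by
  refine HasFDerivAt.congr_fderiv (hg.comp_hasFDerivAt x h) ?_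
  ext v
  simp only [_root_.add_apply, _root_.smul_apply, smul_eq_mul]
  ring

theorem Dj_rad {x : EE} {g : ℝ → ℝ} {g' : ℝ} (hg : HasDerivAt g g' (SS x)) : Dj (fun y => g (SS y)) x 0 g' :=
  ((Dj_S x).comp hg).cg (mul_zero _) (mul_one _)

theorem hess_eq {f A B : EE → ℝ} {x : EE} {aa ab bb : ℝ} (h : ∀ y, Dj f y (A y) (B y)) (hA : Dj A x aa ab)
    (hB : Dj B x ab bb) : hessianMat f x = MM e0 (vv x) (2 * B x) aa (2 * ab) (4 * bb) := by
  ext i j
  have e : (fun y => pderiv j f y) = fun y => A y * e0 j + B y * (2 * VL j y) := funext fun y => (h y).pd j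
  have d := (HasFDerivAt.mul_const hA (e0 j)).fun_add
    (HasFDerivAt.fun_mul hB (((VL j).hasFDerivAt (x := x)).const_mul 2))
  unfold hessianMat
  rw [e]
  unfold pderiv
  rw [HasFDerivAt.fderiv d]
  simp only [_root_.add_apply, _root_.smul_apply, TL_single, dS_single, VL_single, smul_eq_mul, MM, vv]
  ring

section
variable {p y : ℝ → ℝ} (h : Ode p y)

/-- `φ` -/
def ph (p : ℝ → ℝ) (s : ℝ) : ℝ := Real.exp (∫ a in (0 : ℝ)..s, p a)

theorem ph_pos (p : ℝ → ℝ) (s : ℝ) : 0 < ph p s := Real.exp_pos _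

include h

theorem Ode.prim : ∃ δ, 0 < δ ∧ ∀ s, -δ < s → HasDerivAt (fun s => ∫ a in (0 : ℝ)..s, p a) (p s) s := by
  obtain ⟨δ, hδ, h1⟩ := Metric.eventually_nhds_iff.1 h.ev
  have hc : ∀ s, -δ < s → ContinuousAt p s := fun s hs => by
    rcases le_total 0 s with h0 | h0
    · exact (h.sm s h0).continuousAt
    · exact h1 (by rw [dist_zero_right, Real.norm_eq_abs, abs_of_nonpos h0]; linarith)
  have hc' : ContinuousOn p (Ioi (-δ)) := fun s hs => (hc s hs).continuousWithinAt
  refine ⟨δ, hδ, fun s hs => intervalIntegral.integral_hasDerivAt_right ?_ ?_ (hc s hs)⟩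
  · exact (hc'.mono (ordConnected_Ioi.uIcc_subset (by simpa using hδ) hs)).intervalIntegrable
  · exact hc'.stronglyMeasurableAtFilter isOpen_Ioi s hs

theorem Ode.dph (s : ℝ) (hs : 0 ≤ s) : HasDerivAt (ph p) (p s * ph p s) s := by
  obtain ⟨δ, hδ, h1⟩ := h.prim
  exact (h1 s (by linarith)).exp.congr_deriv (mul_comm _ _)

theorem Ode.ph_sm (s : ℝ) (hs : 0 ≤ s) : ContDiffAt ℝ ∞ (ph p) s := by
  obtain ⟨δ, hδ, h1⟩ := h.prim
  refine ContDiffAt.exp (contDiffAt_infty.2 fun m => ?_)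
  refine ContDiffAt.of_le (n := (m + 1 : ℕ)) ?_ (by exact_mod_cast Nat.le_succ m)
  push_cast
  refine contDiffAt_succ_iff_hasFDerivAt.2 ⟨fun s => (ContinuousLinearMap.id ℝ ℝ).smulRight (p s),
    ⟨Ioi (-δ), Ioi_mem_nhds (by linarith), fun r hr => (h1 r hr).hasFDerivAt⟩, ?_⟩
  exact ContDiffAt.smulRight contDiffAt_const (contDiffAt_infty.1 (h.sm s hs) m)

end

end

end Crest.Agent.R236.Ex
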