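import Crest.Agent.R236.ED

/-!
# R236/EF: the entire affine maximal graph `u = √(x₀² + φ(|x'|²))` in `ℝ¹⁰` (helper49)
-/

set_option autoImplicit false

namespace Crest.Agent.R236.Ex

open Set Filter Topology MeasureTheory
open scoped ContDiff
open Crest.GeometryTopology.CoordMetric Crest.GeometryTopology.AffineMaximal

noncomputable section

/-- the example -/
def uu (p : ℝ → ℝ) (x : EE) : ℝ := √(TL x * TL x + ph p (SS x))

theorem QQ_pos (p : ℝ → ℝ) (x : EE) : 0 < TL x * TL x + ph p (SS x) :=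
  add_pos_of_nonneg_of_pos (mul_self_nonneg _) (ph_pos _ _)

theorem uu_pos (p : ℝ → ℝ) (x : EE) : 0 < uu p x := Real.sqrt_pos.2 (QQ_pos p x)

theorem uu_sq (p : ℝ → ℝ) (x : EE) : ph p (SS x) = uu p x ^ 2 - TL x ^ 2 := by
  unfold uu
  rw [Real.sq_sqrt (QQ_pos p x).le]
  ring

def GG (p y : ℝ → ℝ) (s : ℝ) : ℝ := p s ^ 9 * ph p s ^ 10 * (1 + s * y s)

def mu (p y : ℝ → ℝ) (s : ℝ) : ℝ := p s * (4 + (1 + s * y s) + s * p s) / (9 + 2 * s * p s)

def om (p y : ℝ → ℝ) (s : ℝ) : ℝ := GG p y s ^ (-11 / 12 : ℝ)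

def dmu (p y : ℝ → ℝ) (s : ℝ) : ℝ :=
  ((p s * (y s - p s) / 2 * (4 + (1 + s * y s) + s * p s) + p s *
      ((1 + s * y s) * (21 * p s - 81 * y s + 2 * s * p s ^ 2 + 6 * s * p s * y s) / (2 * (9 + 2 * s * p s)) +
        (p s + s * (p s * (y s - p s) / 2)))) * (9 + 2 * s * p s) -
    p s * (4 + (1 + s * y s) + s * p s) * (2 * p s + 2 * s * (p s * (y s - p s) / 2))) / (9 + 2 * s * p s) ^ 2

variable {p y : ℝ → ℝ} (h : Ode p y)
include h

theorem Ode.den (s : ℝ) (hs : 0 ≤ s) : 0 < 9 + 2 * s * p s := by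
  have := h.pos s hs
  positivity

theorem Ode.GG_pos (s : ℝ) (hs : 0 ≤ s) : 0 < GG p y s := by
  have h1 := h.pos s hs
  have h2 := h.posY s hs
  have h3 := ph_pos p s
  unfold GG
  positivity

theorem Ode.dG (s : ℝ) (hs : 0 ≤ s) : HasDerivAt (GG p y) (12 * mu p y s * GG p y s) s := by
  refine ((((h.dp s hs).fun_pow 9).fun_mul ((h.dph s hs).fun_pow 10)).fun_mul (h.dY s hs)).congr_deriv ?_
  have := (h.den s hs).ne'
  have h2 := mul_inv_cancel₀ this
  simp only [GG, mu, div_eq_mul_inv, mul_inv]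
  push_cast
  linear_combination (-(p s ^ 9 * ph p s ^ 10 * (1 + s * y s) * (9 * y s + 11 * p s) / 2)) * h2

theorem Ode.dom (s : ℝ) (hs : 0 ≤ s) : HasDerivAt (om p y) (-11 * mu p y s * om p y s) s := by
  have hG := (h.GG_pos s hs).ne'
  refine ((h.dG s hs).rpow_const (p := -11 / 12) (Or.inl hG)).congr_deriv ?_
  rw [Real.rpow_sub_one hG]
  simp only [om]
  field_simp

theorem Ode.dmu' (s : ℝ) (hs : 0 ≤ s) : HasDerivAt (mu p y) (dmu p y s) s := by
  refine (((h.dp s hs).fun_mul (((h.dY s hs).const_add 4).fun_add ((hasDerivAt_id' s).fun_mul (h.dp s hs)))).fun_div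
    ((((hasDerivAt_id' s).const_mul 2).fun_mul (h.dp s hs)).const_add 9) (h.den s hs).ne').congr_deriv ?_
  simp only [dmu]
  ring

theorem Ode.uu_sm : ContDiff ℝ ∞ (uu p) := by
  refine contDiff_iff_contDiffAt.2 fun x => ContDiffAt.sqrt ?_ (QQ_pos p x).ne'
  exact (TL.contDiff.mul TL.contDiff).contDiffAt.add ((h.ph_sm _ (SS_nonneg x)).comp x SS_contDiff.contDiffAt)

theorem Ode.Du (x : EE) : Dj (uu p) x (TL x * (uu p x)⁻¹) (p (SS x) * ph p (SS x) * (uu p x)⁻¹ / 2) := by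
  have hu := (uu_pos p x).ne'
  refine ((((Dj_T x).mul (Dj_T x)).add (Dj_rad (h.dph _ (SS_nonneg x)))).comp
    (Real.hasDerivAt_sqrt (QQ_pos p x).ne')).cg ?_ ?_
  · change 1 / (2 * uu p x) * _ = _
    field_simp
    ring
  · change 1 / (2 * uu p x) * _ = _
    field_simp
    ring

theorem Ode.Dpow (k : ℕ) (x : EE) : Dj (fun z => uu p z ^ (k + 2)) x ((k + 2) * uu p x ^ k * TL x)
    ((k + 2) * uu p x ^ k * (p (SS x) * ph p (SS x)) / 2) := by
  have hu := (uu_pos p x).ne'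
  refine ((h.Du x).comp (hasDerivAt_pow (k + 2) _)).cg ?_ ?_
  · push_cast
    field_simp
    ring
  · push_cast
    field_simp
    ring

theorem Ode.hess_u (x : EE) : hessianMat (uu p) x = MM e0 (vv x) (p (SS x) * ph p (SS x) / uu p x)
    (ph p (SS x) / uu p x ^ 3) (-(TL x * p (SS x) * ph p (SS x)) / uu p x ^ 3)
    (p (SS x) * ph p (SS x) * (y (SS x) + p (SS x)) / uu p x - (p (SS x) * ph p (SS x)) ^ 2 / uu p x ^ 3) := by
  have hu := (uu_pos p x).ne'
  have hs := SS_nonneg x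
  have di := (h.Du x).comp (hasDerivAt_inv hu)
  have hA := ((Dj_T x).mul di).cg (a' := ph p (SS x) / uu p x ^ 3)
    (b' := -(TL x * p (SS x) * ph p (SS x)) / uu p x ^ 3 / 2) (by rw [uu_sq]; field_simp; ring) (by field_simp; ring)
  have hB := ((((Dj_rad (h.dp _ hs)).mul (Dj_rad (h.dph _ hs))).mul di).comp
    ((hasDerivAt_id' _).div_const 2)).cg (a' := -(TL x * p (SS x) * ph p (SS x)) / uu p x ^ 3 / 2)
    (b' := (p (SS x) * ph p (SS x) * (y (SS x) + p (SS x)) / uu p x -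
      (p (SS x) * ph p (SS x)) ^ 2 / uu p x ^ 3) / 4) (by field_simp; ring) (by field_simp; ring)
  rw [hess_eq h.Du hA hB]
  congr 1 <;> field_simp

theorem Ode.Delta (x : EE) : ph p (SS x) ^ 2 * p (SS x) * (1 + SS x * y (SS x)) / uu p x ^ 4 =
    ph p (SS x) / uu p x ^ 3 * (p (SS x) * ph p (SS x) / uu p x +
      (p (SS x) * ph p (SS x) * (y (SS x) + p (SS x)) / uu p x - (p (SS x) * ph p (SS x)) ^ 2 / uu p x ^ 3) * SS x) -
    (-(TL x * p (SS x) * ph p (SS x)) / uu p x ^ 3) ^ 2 * SS x := by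
  have hu := (uu_pos p x).ne'
  rw [uu_sq]
  field_simp
  ring

theorem Ode.posDef (x : EE) : (hessianMat (uu p) x).PosDef := by
  have hu := uu_pos p x
  have h1 := h.pos _ (SS_nonneg x)
  have h2 := h.posY _ (SS_nonneg x)
  have h3 := ph_pos p (SS x)
  rw [h.hess_u]
  refine (fr x).posDef (by positivity) (by positivity) ?_
  rw [← h.Delta]
  positivity

theorem Ode.detPower : detPower 10 (uu p) = fun x => uu p x ^ 11 * om p y (SS x) := by
  funext x
  have hu := uu_pos p x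
  have h1 := h.pos _ (SS_nonneg x)
  have h3 := ph_pos p (SS x)
  have e : (hessianMat (uu p) x).det = GG p y (SS x) / uu p x ^ 12 := by
    rw [h.hess_u, (fr x).det _ _ _ (by positivity), ← h.Delta]
    simp only [GG]
    field_simp
  unfold Crest.GeometryTopology.AffineMaximal.detPower
  rw [e, Real.div_rpow (h.GG_pos _ (SS_nonneg x)).le (by positivity), ← Real.rpow_natCast (uu p x) 12,
    ← Real.rpow_mul hu.le]
  have e1 : (-(((10 : ℕ) : ℝ) + 1) / (((10 : ℕ) : ℝ) + 2)) = -11 / 12 := by norm_num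
  have e2 : ((12 : ℕ) : ℝ) * (-11 / 12) = -((11 : ℕ) : ℝ) := by norm_num
  rw [e1, e2, Real.rpow_neg hu.le, Real.rpow_natCast]
  simp only [om]
  field_simp

theorem Ode.maximal (x : EE) : affineMaximalOp 10 (uu p) x = 0 := by
  have hu := uu_pos p x
  have hs := SS_nonneg x
  have h1 := h.pos _ hs
  have h2 := h.posY _ hs
  have h3 := ph_pos p (SS x)
  have h4 := h.den _ hs
  have dw : ∀ z, Dj (fun x => uu p x ^ 11 * om p y (SS x)) z (11 * (uu p z ^ 9 * TL z * om p y (SS z)))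
      (11 * (om p y (SS z) * (p (SS z) * ph p (SS z) * uu p z ^ 9 / 2 + -(mu p y (SS z) * uu p z ^ 11)))) :=
    fun z => ((h.Dpow 9 z).mul (Dj_rad (h.dom _ (SS_nonneg z)))).cg (by push_cast; ring) (by push_cast; ring)
  have hA := ((((h.Dpow 7 x).mul (Dj_T x)).mul (Dj_rad (h.dom _ hs))).comp ((hasDerivAt_id' _).const_mul 11))
  have hB := (((Dj_rad (h.dom _ hs)).mul
    (((((Dj_rad (h.dp _ hs)).mul (Dj_rad (h.dph _ hs))).mul (h.Dpow 7 x)).comp ((hasDerivAt_id' _).div_const 2)).add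
      (((Dj_rad (h.dmu' _ hs)).mul (h.Dpow 9 x)).comp (hasDerivAt_neg _)))).comp
        ((hasDerivAt_id' _).const_mul 11))
  have hw := hess_eq dw hA (hB.cg (by push_cast; ring) rfl)
  unfold affineMaximalOp
  simp only [mul_assoc, ← Finset.mul_sum]
  refine mul_eq_zero_of_right _ ?_
  rw [h.detPower, hw, h.hess_u, (fr x).inv (by positivity) (h.Delta x) (by positivity), (fr x).tr]
  have h5 : uu p x ^ 2 - TL x ^ 2 ≠ 0 := by rw [← uu_sq]; exact h3.ne'
  simp only [dmu, mu]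
  rw [uu_sq]
  push_cast
  generalize uu p x = u at *
  generalize TL x = t at *
  generalize om p y (SS x) = w at *
  generalize p (SS x) = q at *
  generalize y (SS x) = r at *
  generalize SS x = s at *
  have h6 := hu.ne'
  have h7 := h1.ne'
  have h8 := h2.ne'
  have h9 := h4.ne'
  field_simp
  ring

omit h in
theorem not_quad (p : ℝ → ℝ) : ¬ ∃ (A : Matrix (Fin 10) (Fin 10) ℝ) (b : EE) (c : ℝ),
    ∀ x, uu p x = (1 / 2) * (∑ i, ∑ j, A i j * x i * x j) + (∑ i, b i * x i) + c := by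
  rintro ⟨A, b, c, hq⟩
  have key : ∀ t : ℝ, √(t * t + 1) = 1 / 2 * (A 0 0 * t * t) + b 0 * t + c := by
    intro t
    have h1 := hq (EuclideanSpace.single 0 t)
    have h2 : SS (EuclideanSpace.single 0 t) = 0 := by
      refine Finset.sum_eq_zero fun k _ => ?_
      by_cases hk : k = 0 <;> simp [vv, VL, hk]
    simpa [uu, h2, ph, TL, PiLp.single_apply] using h1
  have k0 := key 0
  have k1 := key (3 / 4)
  have k2 := key (-3 / 4)
  have k3 := key (4 / 3)
  rw [show (0 : ℝ) * 0 + 1 = 1 ^ 2 by norm_num, Real.sqrt_sq (by norm_num)] at k0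
  rw [show (3 / 4 : ℝ) * (3 / 4) + 1 = (5 / 4) ^ 2 by norm_num, Real.sqrt_sq (by norm_num)] at k1
  rw [show (-3 / 4 : ℝ) * (-3 / 4) + 1 = (5 / 4) ^ 2 by norm_num, Real.sqrt_sq (by norm_num)] at k2
  rw [show (4 / 3 : ℝ) * (4 / 3) + 1 = (5 / 3) ^ 2 by norm_num, Real.sqrt_sq (by norm_num)] at k3
  linarith

end

end Crest.Agent.R236.Ex
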