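import Crest.Agent.R236.GeoLim

/-!
# R236/GeoD TASK: failure of `(D2)` gives rank 2
-/

set_option autoImplicit false

namespace Crest.Agent.R236.Geo

open Set Filter Topology Metric

variable {F : Type} [NormedAddCommGroup F] [NormedSpace ℝ F] [FiniteDimensional ℝ F]

theorem geod_apply {l : Filter ℕ} {ζs : ℕ → F →L[ℝ] ℝ} {ζ : F →L[ℝ] ℝ} {Xs : ℕ → F} {X : F}
    (h1 : Tendsto ζs l (𝓝 ζ)) (h2 : Tendsto Xs l (𝓝 X)) : Tendsto (fun k => ζs k (Xs k)) l (𝓝 (ζ X)) :=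
  (isBoundedBilinearMap_apply.continuous.tendsto (ζ, X)).comp (h1.prodMk_nhds h2)

/-- For `c_k = 1/(k+1)` get `X_k ∈ K'`, `ζ_k` supporting at `X_k` with
`ζ_k (o - X_k) < c_k h_k ζ_k (e 0)`, `h_k = ξ 0 (X_k - o)`; the left side is `≥ 0`, so `h_k > 0`, `ζ_k ≠ 0`.
Apply `limit` with `Str.scale (a = h_k)`; `o + h_k e 0` and `X_k` are in the cap, so after normalisation
`ζ̂_k (0 - X̂_k) ≤ c_k R₀ → 0`. -/
theorem step_D {K K' : Set F} {o : F} {e : Fin 1 → F} {ξ : Fin 1 → F →L[ℝ] ℝ} (hK : LL K K')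
    (hS : Str K' o e ξ)
    (hD : ∀ c, 0 < c → ∃ X ∈ K', ∃ ζ : F →L[ℝ] ℝ, (∀ Y ∈ K', 0 ≤ ζ (Y - X)) ∧
      ζ (o - X) < c * (ξ 0 (X - o) * ζ (e 0))) :
    ∃ (K'' : Set F) (e' : Fin 1 → F) (ξ' : Fin 1 → F →L[ℝ] ℝ) (X : F) (ζ : F →L[ℝ] ℝ),
      LL K K'' ∧ Str K'' 0 e' ξ' ∧ X ∈ K'' ∧ ζ ≠ 0 ∧ (∀ Y ∈ K'', 0 ≤ ζ (Y - X)) ∧ ζ X = 0 ∧
        ξ' 0 X = 1 := by
  choose X hX ζ h1 h2 using fun k : ℕ => hD (1 / ((k : ℝ) + 1)) (by positivity)
  have h3 : ∀ k, 0 < ξ 0 (X k - o) * ζ k (e 0) := fun k =>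
    (mul_pos_iff_of_pos_left (by positivity)).1 ((h1 k o hS.mem).trans_lt (h2 k))
  have hh : ∀ k, 0 < ξ 0 (X k - o) := fun k =>
    (hS.nonneg 0 _ (hX k)).lt_of_ne fun h => by simpa [← h] using h3 k
  have hζ : ∀ k, ζ k ≠ 0 := fun k h => by simpa [h] using h3 k
  obtain ⟨𝒰, T, R₀, e', ξ', hU, hR, -, hξ, hL, hS'⟩ := limit (Ks := fun _ => K') (os := fun _ => o)
    (Ls := fun k => k) (εs := fun _ => 0) (fun _ => hK)
    (fun k => (hS.scale hK.convex (a := fun _ => ξ 0 (X k - o)) fun _ => hh k).app k)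
    tendsto_natCast_atTop_atTop tendsto_const_nhds
  have hRX : ∀ k, ‖T k (X k - o)‖ ≤ R₀ := fun k => hR k _ ⟨hX k, by
    simp only [Fin.sum_univ_one, smul_apply, smul_eq_mul, inv_mul_cancel₀ (hh k).ne']
    norm_num⟩
  have hRe : ∀ k, ‖T k (ξ 0 (X k - o) • e 0)‖ ≤ R₀ := fun k => by
    have h := hR k (o + ξ 0 (X k - o) • e 0) ⟨hS.ray 0 _ (hh k).le, by
      simp only [Fin.sum_univ_one, smul_apply, smul_eq_mul, add_sub_cancel_left, map_smul,
        hS.dual 0 0, if_true, mul_one, mul_inv_cancel₀ (hh k).ne']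
      norm_num⟩
    rwa [add_sub_cancel_left] at h
  obtain ⟨Y, hY⟩ := exists_ulim_pt 𝒰 (Eventually.of_forall hRX)
  have hζ' : ∀ k, (ζ k).comp ((T k).symm : F →L[ℝ] F) ≠ 0 := fun k h => hζ k (by
    ext v
    simpa using congrArg (fun f : F →L[ℝ] ℝ => f (T k v)) h)
  obtain ⟨η, hη0, hη⟩ := exists_unit_lim 𝒰 hζ'
  refine ⟨_, e', ξ', Y, η, hL, hS', mem_ulim (Eventually.of_forall fun k => ⟨X k, hX k, ?_⟩) hY, hη0,
    ulim_nonneg hU hη hY tendsto_const_nhds (εs := fun _ => 0) ?_, ?_, ?_⟩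
  · simp only [map_sub, sub_eq_add_neg, map_add, map_neg]
  · rintro k _ ⟨Z, hZ, rfl⟩
    have e1 : T k Z + -T k o - T k (X k - o) = T k (Z - X k) := by
      simp only [map_sub]
      abel
    simp only [e1, neg_zero, smul_apply, ContinuousLinearMap.comp_apply,
      ContinuousLinearEquiv.coe_coe, ContinuousLinearEquiv.symm_apply_apply, smul_eq_mul]
    exact mul_nonneg (by positivity) (h1 k Z hZ)
  · refine tendsto_nhds_unique (geod_apply hη hY) ?_
    have h4 : Tendsto (fun k : ℕ => 1 / ((k : ℝ) + 1) * R₀) 𝒰 (𝓝 0) := by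
      simpa using (tendsto_one_div_add_atTop_nhds_zero_nat.mul_const R₀).mono_left hU
    refine squeeze_zero_norm (fun k => ?_) h4
    have hn := norm_pos_iff.2 (hζ' k)
    have h5 := ((ζ k).comp ((T k).symm : F →L[ℝ] F)).le_opNorm_of_le (hRe k)
    simp only [ContinuousLinearMap.comp_apply, ContinuousLinearEquiv.coe_coe,
      ContinuousLinearEquiv.symm_apply_apply] at h5
    rw [map_smul, smul_eq_mul, Real.norm_eq_abs, abs_of_pos (h3 k)] at h5
    simp only [smul_apply, ContinuousLinearMap.comp_apply,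
      ContinuousLinearEquiv.coe_coe, ContinuousLinearEquiv.symm_apply_apply, smul_eq_mul]
    rw [norm_mul, norm_inv, norm_norm, inv_mul_le_iff₀ hn, ← neg_sub, map_neg, norm_neg, Real.norm_eq_abs,
      abs_of_nonneg (h1 k o hS.mem)]
    exact (h2 k).le.trans ((mul_le_mul_of_nonneg_left h5 (by positivity)).trans_eq (by ring))
  · refine tendsto_nhds_unique (geod_apply (hξ 0) hY) ?_
    simp only [smul_apply, ContinuousLinearMap.comp_apply, ContinuousLinearEquiv.coe_coe,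
      ContinuousLinearEquiv.symm_apply_apply, smul_eq_mul, fun k => inv_mul_cancel₀ (hh k).ne']
    exact tendsto_const_nhds

/-- With `m = k+1`, `p ∈ interior K'`, `ζ p > 0`: base point `0`, vectors `![m⁻¹ • X, (m² ζ p)⁻¹ • p]`,
functionals `![m • ξ 0, m² • ζ]`, `L = min m (m² ζ p)`, `ε = ξ 0 p / (m ζ p)`; cap `⊆` the old cap; `limit_rk`. -/
theorem extend_D {K K' : Set F} {e : Fin 1 → F} {ξ : Fin 1 → F →L[ℝ] ℝ} {X : F} {ζ : F →L[ℝ] ℝ}
    (hK : LL K K') (hS : Str K' 0 e ξ) (hX : X ∈ K') (h0 : ζ ≠ 0) (h1 : ∀ Y ∈ K', 0 ≤ ζ (Y - X))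
    (h2 : ζ X = 0) (h3 : ξ 0 X = 1) : Rk K 2 := by
  obtain ⟨p, hp⟩ := hS.int
  have ha : 0 < ζ p := by simpa [h2] using pos_of_interior h0 h1 hp
  have hb : 0 ≤ ξ 0 p := by simpa using hS.nonneg 0 p (interior_subset hp)
  have hm : Tendsto (fun k : ℕ => (k : ℝ) + 1) atTop atTop := tendsto_atTop_add_const_right _ _ tendsto_natCast_atTop_atTop
  have key : ∀ m : ℝ, 1 ≤ m → App K' 0 ![m⁻¹ • X, (m ^ 2 * ζ p)⁻¹ • p] ![m • ξ 0, m ^ 2 • ζ] (m * min 1 (ζ p))
      (ξ 0 p / ζ p / m) := by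
    intro m hm1
    have hm0 : 0 < m := by linarith
    have hε : 0 ≤ ξ 0 p / ζ p / m := by positivity
    have hz : ∀ Y ∈ K', 0 ≤ ζ Y := fun Y hY => by simpa [h2] using h1 Y hY
    have hx : ∀ Y ∈ K', 0 ≤ ξ 0 Y := fun Y hY => by simpa using hS.nonneg 0 Y hY
    refine ⟨hS.mem, ?_, ?_, ?_, hS.bdd.subset ?_, hS.int⟩
    · intro i t ht0 ht
      fin_cases i
      · simp only [Fin.zero_eta, Matrix.cons_val_zero, zero_add, smul_smul]
        refine hK.convex.smul_mem_of_zero_mem hS.mem hX ⟨by positivity, ?_⟩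
        rw [mul_inv_le_iff₀ hm0, one_mul]
        exact ht.trans (mul_le_of_le_one_right hm0.le (min_le_left _ _))
      · simp only [Fin.mk_one, Matrix.cons_val_one, Matrix.cons_val_zero, zero_add, smul_smul]
        refine hK.convex.smul_mem_of_zero_mem hS.mem (interior_subset hp) ⟨by positivity, ?_⟩
        rw [mul_inv_le_iff₀ (by positivity), one_mul]
        exact ht.trans (mul_le_mul (by nlinarith) (min_le_right _ _) (le_min zero_le_one ha.le) (by positivity))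
    · intro i Y hY
      refine (neg_nonpos.2 hε).trans ?_
      fin_cases i
      · simpa using mul_nonneg hm0.le (hx Y hY)
      · simpa using mul_nonneg (sq_nonneg m) (hz Y hY)
    · intro i j
      fin_cases i <;> fin_cases j
      · simpa [h3, hm0.ne'] using hε
      · simp only [Fin.zero_eta, Fin.mk_one, Matrix.cons_val_zero, Matrix.cons_val_one, smul_apply,
          map_smul, smul_eq_mul, zero_ne_one, if_false, sub_zero]
        rw [abs_of_nonneg (by positivity)]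
        refine le_of_eq ?_
        field_simp
      · simpa [h2] using hε
      · simp only [Fin.mk_one, Matrix.cons_val_zero, Matrix.cons_val_one, smul_apply,
          map_smul, smul_eq_mul, if_true]
        rw [inv_mul_cancel₀ (by positivity), sub_self, abs_zero]
        exact hε
    · rintro Y ⟨hY, hY4⟩
      refine ⟨hY, ?_⟩
      simp only [Fin.sum_univ_two, Matrix.cons_val_zero, Matrix.cons_val_one, smul_apply,
        smul_eq_mul, sub_zero] at hY4
      simp only [Fin.sum_univ_one, sub_zero]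
      nlinarith [mul_nonneg (sq_nonneg m) (hz Y hY), hx Y hY]
  exact limit_rk (fun _ => hK) (fun k : ℕ => key ((k : ℝ) + 1) (by simp)) (hm.atTop_mul_const (lt_min one_pos ha))
    (tendsto_const_nhds.div_atTop hm)

end Crest.Agent.R236.Geo
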