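import Crest.Agent.R236.GeoQ1

/-!
# R236/GeoQ2 TASK: the corner configuration passes to close affine images.
Fix `R`; `lo = e^{-R}`, `hi = e^R`.  In `K'`: `C5(a,b) = K' ∩ {ξ/a+η/b ≤ 5} ⊆ closedBall 0 R₁` for all `a,b ≤ hi` (`Cor.bdd (5 hi)`),
and `C5(a,b) ⊇ ball p r` for all `a,b ≥ lo`.  So for `X,Y,Z ∈ C5`, `‖w‖ < ρ r/2`:
`X + e + (ρ/2)(Y-Z) + w ∈ K'` (`w = (ρ/2) w'`, `‖w'‖ < r`; apply `Cor.wide` to `(Y + p + w')/2` and `(Z + p)/2`).
For the box: `o + ε (e + (ρ/2)(Y-Z) + w) + recession`.  Take `A = aff T b K` `ε'`-close to `K'` on a huge ball,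
`õ ∈ A` within `ε'` of `o`.  A point of `cap2 A õ ξ η a b` has norm `≤ R₁ + 1` (else the point of the segment from `õ` with norm
`R₁ + 1` lies in the cap, is `ε'`-close to a point of `C5`, contradiction), hence is `ε'`-close to a point of `C5`.
`mem_of_close` gives `wide`, `box` with `ρ' = ε ρ / 2` and `int`; `Q.of_aff`.
-/

set_option autoImplicit false

namespace Crest.Agent.R236.Geo

open Set Filter Topology Metric

variable {F : Type} [NormedAddCommGroup F] [NormedSpace ℝ F] [FiniteDimensional ℝ F]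

omit [FiniteDimensional ℝ F] in
theorem q2_ball {K' : Set F} {ρ : ℝ} {o e₁ e₂ : F} {ξ η : F →L[ℝ] ℝ} (hv : Convex ℝ K')
    (h : Cor K' ρ o e₁ e₂ ξ η) {lo : ℝ} (hlo : 0 < lo) :
    ∃ (p : F) (r : ℝ), 0 < r ∧ ∀ X ∈ ball p r, X ∈ K' ∧ ξ (X - o) < lo ∧ η (X - o) < lo := by
  have h1 : o ∈ closure (interior K') := by
    rw [hv.closure_interior_eq_closure_of_nonempty_interior h.int]
    exact subset_closure h.mem
  have h2 : IsOpen {X : F | ξ (X - o) < lo ∧ η (X - o) < lo} :=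
    IsOpen.inter (isOpen_lt (f := fun X : F => ξ (X - o)) (g := fun _ => lo) (by fun_prop) continuous_const)
      (isOpen_lt (f := fun X : F => η (X - o)) (g := fun _ => lo) (by fun_prop) continuous_const)
  obtain ⟨p, hp1, hp2⟩ := mem_closure_iff.1 h1 _ h2 ⟨by simpa using hlo, by simpa using hlo⟩
  obtain ⟨r, hr, hb⟩ := Metric.isOpen_iff.1 (h2.inter isOpen_interior) p ⟨hp1, hp2⟩
  exact ⟨p, r, hr, fun X hX => ⟨interior_subset (hb hX).2, (hb hX).1⟩⟩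

omit [FiniteDimensional ℝ F] in
theorem q2_spare {K' : Set F} {ρ ε : ℝ} {o e₁ e₂ : F} {ξ η : F →L[ℝ] ℝ} (hv : Convex ℝ K')
    (h : Cor K' ρ o e₁ e₂ ξ η) (hρ : 0 < ρ) (hε : 0 < ε) (hε1 : ε ≤ 1) {a b : ℝ} (ha : 0 < a) (hb : 0 < b)
    {p : F} {r : ℝ} (hr : 0 < r) (hp : ∀ X ∈ ball p r, X ∈ K' ∧ ξ (X - o) / a + η (X - o) / b ≤ 5)
    {X Y Z w : F} (hX : X ∈ K' ∧ ξ (X - o) / a + η (X - o) / b ≤ 5)
    (hY : Y ∈ K' ∧ ξ (Y - o) / a + η (Y - o) / b ≤ 5) (hZ : Z ∈ K' ∧ ξ (Z - o) / a + η (Z - o) / b ≤ 5)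
    {x y : ℝ} (hx : ε * a ≤ x) (hy : ε * b ≤ y) (hw : ‖w‖ < ε * ρ / 2 * r) :
    X + (x • e₁ + y • e₂) + (ε * ρ / 2) • (Y - Z) + w ∈ K' := by
  have hc : 0 < ε * ρ / 2 := by positivity
  have mid : ∀ U V : F, (U ∈ K' ∧ ξ (U - o) / a + η (U - o) / b ≤ 5) →
      (V ∈ K' ∧ ξ (V - o) / a + η (V - o) / b ≤ 5) →
      ((1 / 2 : ℝ) • U + (1 / 2 : ℝ) • V ∈ K' ∧ ξ ((1 / 2 : ℝ) • U + (1 / 2 : ℝ) • V - o) / a +
        η ((1 / 2 : ℝ) • U + (1 / 2 : ℝ) • V - o) / b ≤ 5) := by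
    intro U V hU hV
    refine ⟨hv hU.1 hV.1 (by norm_num) (by norm_num) (by norm_num), ?_⟩
    have e : (1 / 2 : ℝ) • U + (1 / 2 : ℝ) • V - o = (1 / 2 : ℝ) • (U - o) + (1 / 2 : ℝ) • (V - o) := by module
    rw [e, map_add, map_add, map_smul, map_smul, map_smul, map_smul]
    simp only [smul_eq_mul]
    have e2 : (1 / 2 * ξ (U - o) + 1 / 2 * ξ (V - o)) / a + (1 / 2 * η (U - o) + 1 / 2 * η (V - o)) / b =
        1 / 2 * (ξ (U - o) / a + η (U - o) / b) + 1 / 2 * (ξ (V - o) / a + η (V - o) / b) := by ring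
    rw [e2]
    linarith [hU.2, hV.2]
  have hw' : p + (ε * ρ / 2)⁻¹ • w ∈ ball p r := by
    rw [mem_ball, dist_eq_norm, add_sub_cancel_left, norm_smul, norm_inv, Real.norm_eq_abs, abs_of_pos hc,
      inv_mul_lt_iff₀ hc]
    exact hw
  have hY' := mid _ _ hY (hp _ hw')
  have hZ' := mid _ _ hZ (hp _ (mem_ball_self hr))
  have h1 := h.wide a b ha hb X hX.1 hX.2 _ hY'.1 hY'.2 _ hZ'.1 hZ'.2
  have h2 := hv hX.1 h1 (a := 1 - ε) (b := ε) (by linarith) hε.le (by ring)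
  have h3 := h.recs _ h2 (x - ε * a) (y - ε * b) (by linarith) (by linarith)
  convert h3 using 1
  match_scalars <;> field_simp <;> ring

omit [FiniteDimensional ℝ F] in
theorem q2_ivt {A : Set F} (hv : Convex ℝ A) {o X : F} (ho : o ∈ A) (hX : X ∈ A) {M : ℝ} (h1 : ‖o‖ ≤ M)
    (h2 : M ≤ ‖X‖) : ∃ t : ℝ, 0 ≤ t ∧ t ≤ 1 ∧ o + t • (X - o) ∈ A ∧ ‖o + t • (X - o)‖ = M := by
  have hc : ContinuousOn (fun t : ℝ => ‖o + t • (X - o)‖) (Icc 0 1) := by fun_prop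
  obtain ⟨t, ht, he⟩ := intermediate_value_Icc zero_le_one hc (show M ∈ _ from ⟨by simpa using h1, by simpa using h2⟩)
  exact ⟨t, ht.1, ht.2, hv.add_smul_sub_mem ho hX ht, he⟩

theorem q2_small (M : ℝ) {c : ℝ} (hc : 0 < c) : ∀ᶠ t in 𝓝[>] (0 : ℝ), t * M < c := by
  have h : Tendsto (fun t : ℝ => t * M) (𝓝 0) (𝓝 (0 * M)) := tendsto_id.mul_const M
  rw [zero_mul] at h
  exact (h.eventually (gt_mem_nhds hc)).filter_mono nhdsWithin_le_nhds

set_option maxHeartbeats 1000000 in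
theorem Q_of_cor {K K' : Set F} {ρ ε : ℝ} {o e₁ e₂ : F} {ξ η : F →L[ℝ] ℝ} (hc : IsClosed K)
    (hv : Convex ℝ K) (hK : LL K K') (h : Cor K' ρ o e₁ e₂ ξ η) (hρ : 0 < ρ) (hε : 0 < ε) (hε1 : ε ≤ 1)
    (R : ℝ) : Q K ε R (ε * ρ / 2) := by
  have hlo : 0 < Real.exp (-R) := Real.exp_pos _
  have hhi : 0 < Real.exp R := Real.exp_pos _
  set lo := Real.exp (-R) with hlo'
  set hi := Real.exp R with hhi'
  obtain ⟨p, r, hr, hp⟩ := q2_ball hK.convex h hlo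
  obtain ⟨R₁, hR₁⟩ := (h.bdd (5 * hi)).exists_norm_le
  have hc0 : 0 < ε * ρ / 2 := by positivity
  set c := ε * ρ / 2 with hc'
  have hoR : ‖o‖ ≤ R₁ := hR₁ o ⟨h.mem, by simp only [sub_self, map_zero, add_zero]; positivity⟩
  have hR0 : 0 ≤ R₁ := (norm_nonneg _).trans hoR
  obtain ⟨ε', ⟨⟨⟨⟨⟨k1, k2⟩, k3⟩, k4⟩, k5⟩, k0⟩⟩ := ((((((q2_small (2 * ‖ξ‖) (c := ε * lo / 2) (by positivity)).and
    (q2_small (2 * ‖η‖) (c := ε * lo / 2) (by positivity))).and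
    (q2_small (1 + 2 * c) (c := c * r / 2) (by positivity))).and (q2_small 1 (c := r / 2) (by positivity))).and
    (q2_small 1 one_pos)).and self_mem_nhdsWithin).exists
  have k0 : 0 < ε' := k0
  rw [mul_one] at k4 k5
  have k6 : ε' < c * r / 2 := by nlinarith
  obtain ⟨T, β, hcl⟩ := hK.approx ((R₁ + 1) * (1 + 2 * c) + 4 * hi * (‖e₁‖ + ‖e₂‖) + c * r + (‖p‖ + r)) ε' k0
  have hAc := aff_closed hc T β
  have hAv := aff_convex hv T β
  refine Q.of_aff (T := T) (b := β) ?_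
  generalize aff T β K = A at hcl hAc hAv
  have p1 : 0 ≤ (R₁ + 1) * (2 * c) := by positivity
  have p2 : 0 ≤ 4 * hi * (‖e₁‖ + ‖e₂‖) := by positivity
  have p3 : 0 ≤ c * r := by positivity
  have p4 : 0 ≤ ‖p‖ := norm_nonneg _
  obtain ⟨o', ho', hoo⟩ := hcl.2 o h.mem (by nlinarith)
  refine ⟨o', e₁, e₂, ξ, η, ho', h.d11, h.d12, h.d21, h.d22, fun a b ha1 ha2 hb1 hb2 => ?_⟩
  have ha : 0 < a := hlo.trans_le ha1
  have hb : 0 < b := hlo.trans_le hb1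
  -- the functionals change little
  have hfun : ∀ (ζ : F →L[ℝ] ℝ), ε' * (2 * ‖ζ‖) < ε * lo / 2 → ∀ X X' : F, ‖X - X'‖ ≤ ε' →
      |ζ (X - o') - ζ (X' - o)| ≤ ε * lo / 2 := by
    intro ζ hζ X X' hXX
    have e : X - o' - (X' - o) = (X - X') - (o' - o) := by abel
    rw [← map_sub, e, ← Real.norm_eq_abs]
    refine (ζ.le_opNorm _).trans ?_
    have := (norm_sub_le (X - X') (o' - o)).trans (add_le_add hXX hoo)
    nlinarith [norm_nonneg ζ]
  have hlev : ∀ X X' : F, ‖X - X'‖ ≤ ε' →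
      |(ξ (X - o') / a + η (X - o') / b) - (ξ (X' - o) / a + η (X' - o) / b)| ≤ 1 := by
    intro X X' hXX
    have e : (ξ (X - o') / a + η (X - o') / b) - (ξ (X' - o) / a + η (X' - o) / b) =
      (ξ (X - o') - ξ (X' - o)) / a + (η (X - o') - η (X' - o)) / b := by ring
    have q1 : |(ξ (X - o') - ξ (X' - o)) / a| ≤ 1 / 2 := by
      rw [abs_div, abs_of_pos ha, div_le_iff₀ ha]
      nlinarith [hfun ξ k1 X X' hXX]
    have q2 : |(η (X - o') - η (X' - o)) / b| ≤ 1 / 2 := by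
      rw [abs_div, abs_of_pos hb, div_le_iff₀ hb]
      nlinarith [hfun η k2 X X' hXX]
    rw [e]
    linarith [abs_add_le ((ξ (X - o') - ξ (X' - o)) / a) ((η (X - o') - η (X' - o)) / b)]
  have hC5 : ∀ X, (X ∈ K' ∧ ξ (X - o) / a + η (X - o) / b ≤ 5) → ‖X‖ ≤ R₁ := by
    intro X hX
    refine hR₁ X ⟨hX.1, ?_⟩
    have q1 : ξ (X - o) / hi ≤ ξ (X - o) / a := div_le_div_of_nonneg_left (h.nnξ X hX.1) ha ha2
    have q2 : η (X - o) / hi ≤ η (X - o) / b := div_le_div_of_nonneg_left (h.nnη X hX.1) hb hb2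
    rw [← div_le_iff₀ hhi, add_div]
    linarith [hX.2]
  have hnear0 : ∀ X ∈ cap2 A o' ξ η a b, ‖X‖ ≤ R₁ + 1 →
      ∃ X', (X' ∈ K' ∧ ξ (X' - o) / a + η (X' - o) / b ≤ 5) ∧ ‖X - X'‖ ≤ ε' := by
    intro X hX hn
    obtain ⟨X', hX', hXX⟩ := hcl.1 X hX.1 (by nlinarith)
    exact ⟨X', ⟨hX', by linarith [(abs_le.1 (hlev X X' hXX)).1, hX.2]⟩, hXX⟩
  have hnorm : ∀ X X', (X' ∈ K' ∧ ξ (X' - o) / a + η (X' - o) / b ≤ 5) → ‖X - X'‖ ≤ ε' → ‖X‖ < R₁ + 1 := by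
    intro X X' hX' hXX
    linarith [hC5 X' hX', norm_le_norm_add_norm_sub' X X']
  have ho5 : o ∈ K' ∧ ξ (o - o) / a + η (o - o) / b ≤ 5 := ⟨h.mem, by simp⟩
  have hbd : ∀ X ∈ cap2 A o' ξ η a b, ‖X‖ ≤ R₁ + 1 := by
    intro X hX
    by_contra hn
    obtain ⟨t, ht0, ht1, htA, hte⟩ := q2_ivt hAv ho' hX.1 (hnorm o' o ho5 hoo).le (not_le.1 hn).le
    have hm : o' + t • (X - o') ∈ cap2 A o' ξ η a b := by
      refine ⟨htA, ?_⟩
      rw [add_sub_cancel_left, map_smul, map_smul, smul_eq_mul, smul_eq_mul, mul_div_assoc, mul_div_assoc,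
        ← mul_add]
      nlinarith [hX.2]
    obtain ⟨X', hX', hXX⟩ := hnear0 _ hm hte.le
    exact (hnorm _ _ hX' hXX).ne hte
  have hnear := fun X hX => hnear0 X hX (hbd X hX)
  have hp2 : ∀ X ∈ ball p r, X ∈ K' ∧ ξ (X - o) / a + η (X - o) / b ≤ 2 := by
    intro X hX
    obtain ⟨q0, q1, q2⟩ := hp X hX
    have q3 : ξ (X - o) / a ≤ 1 := (div_le_one ha).2 (by linarith)
    have q4 : η (X - o) / b ≤ 1 := (div_le_one hb).2 (by linarith)
    exact ⟨q0, by linarith⟩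
  have main : ∀ X ∈ cap2 A o' ξ η a b, ∀ Y ∈ cap2 A o' ξ η a b, ∀ Z ∈ cap2 A o' ξ η a b, ∀ x y : ℝ,
      ε * a ≤ x → x ≤ 4 * a → ε * b ≤ y → y ≤ 4 * b → X + (x • e₁ + y • e₂) + c • (Y - Z) ∈ A := by
    intro X hX Y hY Z hZ x y x1 x2 y1 y2
    obtain ⟨X', hX', hXX⟩ := hnear X hX
    obtain ⟨Y', hY', hYY⟩ := hnear Y hY
    obtain ⟨Z', hZ', hZZ⟩ := hnear Z hZ
    have hx : 0 ≤ x := le_trans (by positivity) x1
    have hy : 0 ≤ y := le_trans (by positivity) y1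
    refine mem_of_close hAc hAv hcl k0.le k6 (fun V hV => ?_) ?_
    · rw [mem_ball, dist_eq_norm] at hV
      have q := q2_spare hK.convex h hρ hε hε1 ha hb hr (fun X hX => ⟨(hp2 X hX).1, by linarith [(hp2 X hX).2]⟩)
        hX' hY' hZ' x1 y1 (w := (V - (X + (x • e₁ + y • e₂) + c • (Y - Z))) +
          ((X - X') + c • ((Y - Y') - (Z - Z')))) (by
            have q1 : ‖c • ((Y - Y') - (Z - Z'))‖ ≤ c * (ε' + ε') := by
              rw [norm_smul, Real.norm_eq_abs, abs_of_pos hc0]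
              exact mul_le_mul_of_nonneg_left ((norm_sub_le _ _).trans (add_le_add hYY hZZ)) hc0.le
            have q2 := (norm_add_le _ _).trans (add_le_add hXX q1)
            refine (norm_add_le _ _).trans_lt ?_
            rw [← hc']
            linarith)
      convert q using 1
      rw [← hc']
      module
    · have q1 : ‖c • (Y - Z)‖ ≤ c * ((R₁ + 1) + (R₁ + 1)) := by
        rw [norm_smul, Real.norm_eq_abs, abs_of_pos hc0]
        exact mul_le_mul_of_nonneg_left ((norm_sub_le _ _).trans (add_le_add (hbd Y hY) (hbd Z hZ))) hc0.le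
      have q2 : ‖x • e₁‖ ≤ 4 * hi * ‖e₁‖ := by
        rw [norm_smul, Real.norm_eq_abs, abs_of_nonneg hx]
        exact mul_le_mul_of_nonneg_right (by linarith) (norm_nonneg _)
      have q3 : ‖y • e₂‖ ≤ 4 * hi * ‖e₂‖ := by
        rw [norm_smul, Real.norm_eq_abs, abs_of_nonneg hy]
        exact mul_le_mul_of_nonneg_right (by linarith) (norm_nonneg _)
      have q4 := (norm_add_le _ _).trans (add_le_add ((norm_add_le _ _).trans (add_le_add (hbd X hX)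
        ((norm_add_le _ _).trans (add_le_add q2 q3)))) q1)
      linarith
  have ho4 : o' ∈ cap2 A o' ξ η a b := ⟨ho', by simp⟩
  refine ⟨?_, ?_, fun X hX Y hY Z hZ => main X hX Y hY Z hZ a b (by nlinarith) (by linarith) (by nlinarith)
    (by linarith), fun X hX => ?_, fun X hX => ?_,
    fun x y x1 x2 y1 y2 Y hY Z hZ => main o' ho4 Y hY Z hZ x y x1 x2 y1 y2⟩
  · refine Metric.isCompact_of_isClosed_isBounded (hAc.inter (isClosed_le
      (f := fun X : F => ξ (X - o') / a + η (X - o') / b) (g := fun _ => 4) (by fun_prop) continuous_const)) ?_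
    exact isBounded_iff_forall_norm_le.2 ⟨_, hbd⟩
  · refine ⟨p, mem_interior.2 ⟨ball p (r / 2), fun X hX => ⟨?_, ?_⟩, isOpen_ball, mem_ball_self (by positivity)⟩⟩
    · refine mem_of_close hAc hAv hcl k0.le k4 (fun V hV => (hp V ?_).1) ?_
      · rw [mem_ball] at hX hV ⊢
        linarith [dist_triangle V X p]
      · rw [mem_ball, dist_eq_norm] at hX
        nlinarith [norm_le_norm_add_norm_sub' X p]
    · have q1 := (hp2 X (ball_subset_ball (by linarith) hX)).2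
      have q2 := (abs_le.1 (hlev X X (by simpa using k0.le))).2
      linarith
  · obtain ⟨X', hX', hXX⟩ := hnear X hX
    have q1 := (abs_le.1 (hfun ξ k1 X X' hXX)).1
    have q2 := h.nnξ X' hX'.1
    nlinarith
  · obtain ⟨X', hX', hXX⟩ := hnear X hX
    have q1 := (abs_le.1 (hfun η k2 X X' hXX)).1
    have q2 := h.nnη X' hX'.1
    nlinarith

end Crest.Agent.R236.Geo
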