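import Crest.Agent.R236.GeoW
import Crest.Agent.R236.GeoD
import Crest.Agent.R236.GeoQ2

/-!
# R236/Geo: the geometric theorem (helper97)
-/

set_option autoImplicit false

namespace Crest.Agent.R236.Geo

open Set Filter Topology Metric

variable {F : Type} [NormedAddCommGroup F] [NormedSpace ℝ F] [FiniteDimensional ℝ F]

theorem not_rk_two {K : Set F} {ε : ℝ} (hc : IsClosed K) (hv : Convex ℝ K) (hε : 0 < ε) (hε1 : ε ≤ 1)
    (noQ : ∀ ρ, 0 < ρ → ∃ R, ¬Q K ε R ρ) : ¬Rk K 2 := by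
  have key : ∀ m, Rk K (m + 2) → Rk K (m + 3) := by
    rintro m ⟨K', o, e, ξ, hK, hS⟩
    rcases wide_or_rk hK hS with ⟨ρ, hρ, hW⟩ | h
    · obtain ⟨ρ', e₁, e₂, ξ', η', hρ', hC⟩ := cor_of_wide hK.closed hK.convex hS hρ hW
      obtain ⟨R, hR⟩ := noQ (ε * ρ' / 2) (by positivity)
      exact absurd (Q_of_cor hc hv hK hC hρ' hε hε1 R) hR
    · exact h
  intro h2
  have all : ∀ m, Rk K (m + 2) := fun m => by
    induction m with
    | zero => exact h2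
    | succ m ih => exact key m ih
  obtain ⟨K', o, e, ξ, -, hS⟩ := all (Module.finrank ℝ F)
  have := hS.le_finrank
  omega

/-- THE GEOMETRIC THEOREM: `(W)` at all scales and `(D2)` -/
theorem geometry {K : Set F} {ε : ℝ} (hc : IsClosed K) (hv : Convex ℝ K) (hε : 0 < ε) (hε1 : ε ≤ 1)
    (noQ : ∀ ρ, 0 < ρ → ∃ R, ¬Q K ε R ρ) {o e : F} {ξ : F →L[ℝ] ℝ}
    (hS : Str K o (fun _ : Fin 1 => e) (fun _ => ξ)) :
    (∃ ρ : ℝ, 0 < ρ ∧ ∀ h : ℝ, 0 < h → ∀ X ∈ K, ξ (X - o) ≤ 4 * h → ∀ Y ∈ K, ξ (Y - o) ≤ 4 * h →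
      ∀ Z ∈ K, ξ (Z - o) ≤ 4 * h → X + h • e + ρ • (Y - Z) ∈ K) ∧
    ∃ c : ℝ, 0 < c ∧ ∀ X ∈ K, ∀ ζ : F →L[ℝ] ℝ, (∀ Y ∈ K, 0 ≤ ζ (Y - X)) →
      c * (ξ (X - o) * ζ e) ≤ ζ (o - X) := by
  have h2 := not_rk_two hc hv hε hε1 noQ
  have hK := LL.refl hc hv
  constructor
  · rcases wide_or_rk hK hS with ⟨ρ, hρ, hW⟩ | h
    · refine ⟨ρ, hρ, fun h hh X hX h1 Y hY h3 Z hZ h4 => ?_⟩
      have m : ∀ W ∈ K, ξ (W - o) ≤ 4 * h →
          W ∈ cap K o (fun i : Fin 1 => ((fun _ => h) i)⁻¹ • (fun _ => ξ) i) := fun W hW' h5 => by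
        refine ⟨hW', ?_⟩
        simp only [Finset.univ_unique, Finset.sum_singleton, smul_apply, smul_eq_mul]
        rw [inv_mul_le_iff₀ hh]
        linarith
      simpa using hW (fun _ => h) (fun _ => hh) X (m X hX h1) Y (m Y hY h3) Z (m Z hZ h4)
    · exact absurd h h2
  · by_contra hcon
    push Not at hcon
    obtain ⟨K'', e', ξ', X, ζ, a1, a2, a3, a4, a5, a6, a7⟩ := step_D hK hS fun c hc0 => by
      obtain ⟨X, hX, ζ, b1, b2⟩ := hcon c hc0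
      exact ⟨X, hX, ζ, b1, b2⟩
    exact h2 (extend_D a1 a2 a3 a4 a5 a6 a7)

end Crest.Agent.R236.Geo
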