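import Crest.Agent.R236.GeoDefs

/-!
# R236/GeoLL TASK: the class `LL`, ultralimits (`FiniteDimensional.proper_real F` gives compact closed balls)
-/

set_option autoImplicit false

namespace Crest.Agent.R236.Geo

open Set Filter Topology Metric

variable {F : Type} [NormedAddCommGroup F] [NormedSpace ℝ F] [FiniteDimensional ℝ F]

theorem mem_aff {T : F ≃L[ℝ] F} {b : F} {K : Set F} {Y : F} : Y ∈ aff T b K ↔ T.symm (Y - b) ∈ K := by
  constructor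
  · rintro ⟨X, hX, rfl⟩
    simpa using hX
  · intro h
    exact ⟨_, h, by simp⟩

theorem aff_closed {K : Set F} (h : IsClosed K) (T : F ≃L[ℝ] F) (b : F) : IsClosed (aff T b K) := by
  have e : aff T b K = (fun Y => T.symm (Y - b)) ⁻¹' K := Set.ext fun _ => mem_aff
  rw [e]
  exact h.preimage (by fun_prop)

theorem aff_convex {K : Set F} (h : Convex ℝ K) (T : F ≃L[ℝ] F) (b : F) : Convex ℝ (aff T b K) := by
  rintro _ ⟨X, hX, rfl⟩ _ ⟨Y, hY, rfl⟩ a c ha hc hac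
  refine ⟨a • X + c • Y, h hX hY ha hc hac, ?_⟩
  have : b = a • b + c • b := by rw [← add_smul, hac, one_smul]
  simp only [map_add, map_smul, smul_add]
  conv_lhs => rw [this]
  abel

theorem aff_aff (T S : F ≃L[ℝ] F) (b c : F) (K : Set F) :
    aff S c (aff T b K) = aff (T.trans S) (S b + c) K := by
  simp only [aff, Set.image_image, map_add, ContinuousLinearEquiv.trans_apply, add_assoc]

theorem aff_interior {K : Set F} (h : (interior K).Nonempty) (T : F ≃L[ℝ] F) (b : F) :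
    (interior (aff T b K)).Nonempty := by
  obtain ⟨X, hX⟩ := h
  have e : aff T b K = (T.toHomeomorph.trans (Homeomorph.addRight b)) '' K := rfl
  rw [e, ← Homeomorph.image_interior]
  exact ⟨_, X, hX, rfl⟩

theorem LL.refl {K : Set F} (hc : IsClosed K) (hv : Convex ℝ K) : LL K K := by
  refine ⟨hc, hv, fun R ε hε => ⟨ContinuousLinearEquiv.refl ℝ F, 0, ?_⟩⟩
  have e : Geo.aff (ContinuousLinearEquiv.refl ℝ F) 0 K = K := by simp [Geo.aff]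
  rw [e]
  exact ⟨fun x hx _ => ⟨x, hx, by simpa using hε.le⟩, fun x hx _ => ⟨x, hx, by simpa using hε.le⟩⟩

/-- use `R' = ‖T.symm‖ (R + ‖b‖)`, `ε' = ε / (‖T‖ + 1)` and `aff_aff` -/
theorem LL.aff {K K' : Set F} (h : LL K K') (T : F ≃L[ℝ] F) (b : F) : LL K (aff T b K') := by
  refine ⟨aff_closed h.closed T b, aff_convex h.convex T b, fun R ε hε => ?_⟩
  have hT : 0 < ‖(T : F →L[ℝ] F)‖ + 1 := by positivity
  obtain ⟨T₀, b₀, h1, h2⟩ := h.approx (‖(T.symm : F →L[ℝ] F)‖ * (R + ‖b‖))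
    (ε / (‖(T : F →L[ℝ] F)‖ + 1)) (by positivity)
  have k1 : ∀ a : F, ‖T a + b‖ ≤ R → ‖a‖ ≤ ‖(T.symm : F →L[ℝ] F)‖ * (R + ‖b‖) := fun a ha => by
    have e : a = (T.symm : F →L[ℝ] F) (T a + b - b) := by simp
    conv_lhs => rw [e]
    exact ((T.symm : F →L[ℝ] F).le_opNorm _).trans
      (mul_le_mul_of_nonneg_left ((norm_sub_le _ _).trans (by linarith)) (norm_nonneg _))
  have k2 : ∀ a c : F, ‖a - c‖ ≤ ε / (‖(T : F →L[ℝ] F)‖ + 1) → ‖T a + b - (T c + b)‖ ≤ ε := fun a c hac => by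
    have e : T a + b - (T c + b) = (T : F →L[ℝ] F) (a - c) := by simp
    rw [e]
    refine ((T : F →L[ℝ] F).le_opNorm _).trans ?_
    rw [le_div_iff₀ hT] at hac
    nlinarith [norm_nonneg (a - c)]
  refine ⟨T₀.trans T, T b₀ + b, ?_⟩
  rw [← aff_aff]
  constructor
  · rintro _ ⟨a, ha, rfl⟩ hR
    obtain ⟨c, hc, hac⟩ := h1 a ha (k1 a hR)
    exact ⟨_, ⟨c, hc, rfl⟩, k2 a c hac⟩
  · rintro _ ⟨c, hc, rfl⟩ hR
    obtain ⟨a, ha, hac⟩ := h2 c hc (k1 c hR)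
    exact ⟨_, ⟨a, ha, rfl⟩, k2 a c hac⟩

theorem ulim_closed (𝒰 : Ultrafilter ℕ) (Ks : ℕ → Set F) : IsClosed (ulim 𝒰 Ks) := by
  refine isClosed_of_closure_subset fun X hX ε hε => ?_
  obtain ⟨X', hX', hd⟩ := Metric.mem_closure_iff.1 hX (ε / 2) (half_pos hε)
  filter_upwards [hX' (ε / 2) (half_pos hε)] with k ⟨Y, hY, h⟩
  rw [dist_eq_norm] at hd
  exact ⟨Y, hY, by linarith [norm_sub_le_norm_sub_add_norm_sub X X' Y]⟩

theorem ulim_convex (𝒰 : Ultrafilter ℕ) {Ks : ℕ → Set F} (h : ∀ k, Convex ℝ (Ks k)) :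
    Convex ℝ (ulim 𝒰 Ks) := by
  intro X hX X' hX' a c ha hc hac ε hε
  filter_upwards [hX ε hε, hX' ε hε] with k ⟨Y, hY, h1⟩ ⟨Y', hY', h2⟩
  refine ⟨a • Y + c • Y', h k hY hY' ha hc hac, ?_⟩
  have e : a • X + c • X' - (a • Y + c • Y') = a • (X - Y) + c • (X' - Y') := by
    simp only [smul_sub]
    abel
  rw [e]
  refine (norm_add_le _ _).trans ?_
  rw [norm_smul, norm_smul, Real.norm_of_nonneg ha, Real.norm_of_nonneg hc]
  calc a * ‖X - Y‖ + c * ‖X' - Y'‖ ≤ a * ε + c * ε :=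
        add_le_add (mul_le_mul_of_nonneg_left h1 ha) (mul_le_mul_of_nonneg_left h2 hc)
    _ = ε := by rw [← add_mul, hac, one_mul]

theorem mem_ulim {𝒰 : Ultrafilter ℕ} {Ks : ℕ → Set F} {Xs : ℕ → F} {X : F}
    (h : ∀ᶠ k in (𝒰 : Filter ℕ), Xs k ∈ Ks k) (ht : Tendsto Xs 𝒰 (𝓝 X)) : X ∈ ulim 𝒰 Ks := by
  intro ε hε
  filter_upwards [h, Metric.tendsto_nhds.1 ht ε hε] with k h1 h2
  rw [dist_comm, dist_eq_norm] at h2
  exact ⟨_, h1, h2.le⟩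

/-- choose `Xs k ∈ Ks k` almost realising `infDist X (Ks k)` (within `1/(k+1)`) when `Ks k ≠ ∅` -/
theorem exists_seq_of_mem_ulim {𝒰 : Ultrafilter ℕ} (hU : (𝒰 : Filter ℕ) ≤ atTop) {Ks : ℕ → Set F} {X : F}
    (h : X ∈ ulim 𝒰 Ks) :
    ∃ Xs : ℕ → F, (∀ᶠ k in (𝒰 : Filter ℕ), Xs k ∈ Ks k) ∧ Tendsto Xs 𝒰 (𝓝 X) := by
  have hc : ∀ k : ℕ, ∃ Y, (Ks k).Nonempty → Y ∈ Ks k ∧ dist X Y < infDist X (Ks k) + 1 / ((k : ℝ) + 1) := by
    intro k
    by_cases hk : (Ks k).Nonempty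
    · obtain ⟨Y, hY, hd⟩ := (infDist_lt_iff hk).1
        (lt_add_of_pos_right (infDist X (Ks k)) (Nat.one_div_pos_of_nat (n := k)))
      exact ⟨Y, fun _ => ⟨hY, hd⟩⟩
    · exact ⟨X, fun h => absurd h hk⟩
  choose Xs hXs using hc
  refine ⟨Xs, ?_, Metric.tendsto_nhds.2 fun ε hε => ?_⟩
  · filter_upwards [h 1 one_pos] with k ⟨Y, hY, _⟩
    exact (hXs k ⟨Y, hY⟩).1
  · have h1 : ∀ᶠ k : ℕ in atTop, 1 / ((k : ℝ) + 1) < ε / 2 :=
      tendsto_one_div_add_atTop_nhds_zero_nat.eventually (gt_mem_nhds (half_pos hε))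
    filter_upwards [h (ε / 2) (half_pos hε), hU h1] with k ⟨Y, hY, h2⟩ h3
    have h4 := (hXs k ⟨Y, hY⟩).2
    have h5 := infDist_le_dist_of_mem (x := X) hY
    rw [dist_eq_norm] at h5
    rw [dist_comm]
    have h6 : 1 / ((k : ℝ) + 1) < ε / 2 := h3
    linarith

/-- bounded sequences have ultralimits -/
theorem exists_ulim_pt {G : Type} [NormedAddCommGroup G] [NormedSpace ℝ G] [FiniteDimensional ℝ G]
    (𝒰 : Ultrafilter ℕ) {Xs : ℕ → G} {R : ℝ} (h : ∀ᶠ k in (𝒰 : Filter ℕ), ‖Xs k‖ ≤ R) :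
    ∃ X, Tendsto Xs 𝒰 (𝓝 X) := by
  have := FiniteDimensional.proper_real G
  obtain ⟨X, -, hX⟩ := (isCompact_closedBall (0 : G) R).ultrafilter_le_nhds (𝒰.map Xs)
    (le_principal_iff.2 (by
      rw [Ultrafilter.coe_map, Filter.mem_map]
      filter_upwards [h] with k hk
      simpa using hk))
  exact ⟨X, hX⟩

/-- both halves by contradiction (`Ultrafilter.eventually_not`, choice, `exists_ulim_pt`) -/
theorem close_ulim (𝒰 : Ultrafilter ℕ) (Ks : ℕ → Set F) (R : ℝ) {ε : ℝ} (hε : 0 < ε) :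
    ∀ᶠ k in (𝒰 : Filter ℕ), Close R ε (Ks k) (ulim 𝒰 Ks) := by
  refine Eventually.and ?_ ?_
  · by_contra hn
    have h1 := Ultrafilter.eventually_not.2 hn
    push Not at h1
    obtain ⟨Xs, hXs⟩ := h1.choice
    obtain ⟨X, hX⟩ := exists_ulim_pt 𝒰 (hXs.mono fun k hk => hk.2.1)
    have h2 := mem_ulim (hXs.mono fun k hk => hk.1) hX
    obtain ⟨k, h3, h4⟩ := (hXs.and (Metric.tendsto_nhds.1 hX ε hε)).exists
    rw [dist_eq_norm] at h4
    exact lt_asymm h4 (h3.2.2 X h2)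
  · by_contra hn
    have h1 := Ultrafilter.eventually_not.2 hn
    push Not at h1
    obtain ⟨Xs, hXs⟩ := h1.choice
    obtain ⟨X, hX⟩ := exists_ulim_pt 𝒰 (hXs.mono fun k hk => hk.2.1)
    have h2 : X ∈ ulim 𝒰 Ks := (ulim_closed 𝒰 Ks).mem_of_tendsto hX (hXs.mono fun k hk => hk.1)
    obtain ⟨k, h3, h4, Y, hY, h5⟩ := (hXs.and ((Metric.tendsto_nhds.1 hX _ (half_pos hε)).and
      (h2 _ (half_pos hε)))).exists
    rw [dist_comm, dist_eq_norm] at h4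
    have h6 := h3.2.2 Y hY
    have h7 := norm_sub_le_norm_sub_add_norm_sub Y X (Xs k)
    rw [norm_sub_rev] at h5
    linarith

theorem Close.trans {R ε ε' : ℝ} {A B C : Set F} (h1 : Close (R + ε') ε A B)
    (h2 : Close (R + ε) ε' B C) (hε : 0 ≤ ε) (hε' : 0 ≤ ε') : Close R (ε + ε') A C := by
  constructor
  · intro x hx hR
    obtain ⟨y, hy, h3⟩ := h1.1 x hx (by linarith)
    have h4 : ‖y‖ ≤ R + ε := by linarith [norm_le_norm_add_norm_sub x y]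
    obtain ⟨z, hz, h5⟩ := h2.1 y hy h4
    exact ⟨z, hz, by linarith [norm_sub_le_norm_sub_add_norm_sub x y z]⟩
  · intro z hz hR
    obtain ⟨y, hy, h3⟩ := h2.2 z hz (by linarith)
    have h4 : ‖y‖ ≤ R + ε' := by linarith [norm_le_norm_add_norm_sub' y z]
    obtain ⟨x, hx, h5⟩ := h1.2 y hy h4
    exact ⟨x, hx, by linarith [norm_sub_le_norm_sub_add_norm_sub x y z]⟩

theorem LL.ulim {K : Set F} (𝒰 : Ultrafilter ℕ) {Ks : ℕ → Set F} (h : ∀ k, LL K (Ks k)) :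
    LL K (ulim 𝒰 Ks) := by
  refine ⟨ulim_closed 𝒰 Ks, ulim_convex 𝒰 fun k => (h k).convex, fun R ε hε => ?_⟩
  obtain ⟨k, hk⟩ := (close_ulim 𝒰 Ks (R + ε / 2) (half_pos hε)).exists
  obtain ⟨T, b, h1⟩ := (h k).approx (R + ε / 2) (ε / 2) (half_pos hε)
  have := h1.trans hk (half_pos hε).le (half_pos hε).le
  rw [add_halves] at this
  exact ⟨T, b, this⟩

/-- one-sided inequalities pass to the ultralimit -/
theorem ulim_nonneg {𝒰 : Ultrafilter ℕ} (hU : (𝒰 : Filter ℕ) ≤ atTop) {Ks : ℕ → Set F}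
    {ζs : ℕ → F →L[ℝ] ℝ} {ζ : F →L[ℝ] ℝ} {Ps : ℕ → F} {P : F} {εs : ℕ → ℝ}
    (hζ : Tendsto ζs 𝒰 (𝓝 ζ)) (hP : Tendsto Ps 𝒰 (𝓝 P)) (hε : Tendsto εs 𝒰 (𝓝 0))
    (h : ∀ k, ∀ X ∈ Ks k, -εs k ≤ ζs k (X - Ps k)) : ∀ X ∈ ulim 𝒰 Ks, 0 ≤ ζ (X - P) := by
  intro X hX
  obtain ⟨Xs, h1, h2⟩ := exists_seq_of_mem_ulim hU hX
  have h3 : Tendsto (fun k => ζs k (Xs k - Ps k)) 𝒰 (𝓝 (ζ (X - P))) :=
    (isBoundedBilinearMap_apply.continuous.tendsto (ζ, X - P)).comp (hζ.prodMk_nhds (h2.sub hP))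
  have h4 := h3.add hε
  rw [add_zero] at h4
  refine ge_of_tendsto h4 ?_
  filter_upwards [h1] with k hk
  linarith [h k _ hk]

end Crest.Agent.R236.Geo
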