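import Crest.Agent.R236.GeoNorm

/-!
# R236/GeoLim TASK: the limit lemma
-/

set_option autoImplicit false

namespace Crest.Agent.R236.Geo

open Set Filter Topology Metric

variable {F : Type} [NormedAddCommGroup F] [NormedSpace ℝ F] [FiniteDimensional ℝ F]

/-- a functional bounded above and below on a ball has bounded norm -/
theorem norm_le_of_ball {ζ : F →L[ℝ] ℝ} {c₀ : F} {r₀ M : ℝ} (hr : 0 < r₀)
    (h : ∀ X ∈ ball c₀ r₀, |ζ X| ≤ M) : ‖ζ‖ ≤ 2 * M / r₀ := by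
  have hM : 0 ≤ M := (abs_nonneg _).trans (h c₀ (mem_ball_self hr))
  have key : ∀ w : F, ‖w‖ < r₀ → |ζ w| ≤ M := by
    intro w hw
    have h1 := abs_le.1 (h (c₀ + w) (by simpa [mem_ball, dist_eq_norm] using hw))
    have h2 := abs_le.1 (h (c₀ - w) (by simpa [mem_ball, dist_eq_norm] using hw))
    rw [map_add] at h1
    rw [map_sub] at h2
    rw [abs_le]
    constructor <;> linarith [h1.1, h1.2, h2.1, h2.2]
  refine ζ.opNorm_le_bound (by positivity) fun v => ?_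
  rcases eq_or_ne v 0 with rfl | hv
  · simp
  have hn : 0 < ‖v‖ := norm_pos_iff.2 hv
  have h1 := key ((r₀ / (2 * ‖v‖)) • v) (by
    rw [norm_smul, Real.norm_of_nonneg (by positivity)]
    have : r₀ / (2 * ‖v‖) * ‖v‖ = r₀ / 2 := by field_simp
    rw [this]; linarith)
  rw [map_smul, smul_eq_mul, abs_mul, abs_of_nonneg (by positivity : 0 ≤ r₀ / (2 * ‖v‖)),
    div_mul_eq_mul_div, div_le_iff₀ (by positivity)] at h1
  rw [Real.norm_eq_abs, div_mul_eq_mul_div, le_div_iff₀ hr]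
  linarith

/-- Normalised sequences.  Eventually `L ≥ 1`, `ε ≤ 1/(r+1)`: then `e i ∈ cap` (value `≤ 1 + rε`) is bounded by `R₀`,
`-ε ≤ ξ i ≤ 4 + r ε` on the ball.  `exists_ulim_pt` for `e i` and `ξ i` (`F →L[ℝ] ℝ` is finite-dimensional).
Cap of the limit: a point `X` with `∑ ξ ≤ 4`; `X/2` is the limit of `X_k/2 ∈ Ks k` with `∑ ξ_k (X_k/2) ≤ 4`
eventually, so `‖X/2‖ ≤ R₀`. -/
theorem limit_norm {r : ℕ} {𝒰 : Ultrafilter ℕ} (hU : (𝒰 : Filter ℕ) ≤ atTop) {Ks : ℕ → Set F}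
    {es : ℕ → Fin r → F} {ξs : ℕ → Fin r → F →L[ℝ] ℝ} {Ls εs : ℕ → ℝ} {c₀ : F} {r₀ R₀ : ℝ}
    (hr : 0 < r₀) (hv : ∀ k, Convex ℝ (Ks k)) (hA : ∀ k, App (Ks k) 0 (es k) (ξs k) (Ls k) (εs k))
    (hL : Tendsto Ls atTop atTop) (hε : Tendsto εs atTop (𝓝 0))
    (h1 : ∀ k, ball c₀ r₀ ⊆ cap (Ks k) 0 (ξs k)) (h2 : ∀ k, cap (Ks k) 0 (ξs k) ⊆ closedBall 0 R₀) :
    ∃ (e : Fin r → F) (ξ : Fin r → F →L[ℝ] ℝ), (∀ i, Tendsto (fun k => es k i) 𝒰 (𝓝 (e i))) ∧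
      (∀ i, Tendsto (fun k => ξs k i) 𝒰 (𝓝 (ξ i))) ∧ Str (ulim 𝒰 Ks) 0 e ξ := by
  have hr1 : (0 : ℝ) < (r + 1 : ℝ)⁻¹ := by positivity
  have hεs : ∀ᶠ k in (𝒰 : Filter ℕ), εs k ≤ (r + 1 : ℝ)⁻¹ :=
    (hε.eventually (ge_mem_nhds hr1)).filter_mono hU
  have hLt : ∀ t : ℝ, ∀ᶠ k in (𝒰 : Filter ℕ), t ≤ Ls k := fun t =>
    (hL.eventually_ge_atTop t).filter_mono hU
  have hrε : ∀ x : ℝ, x ≤ (r + 1 : ℝ)⁻¹ → r * x ≤ 1 := by
    intro x hx
    have h1 : (r : ℝ) * x ≤ r * (r + 1 : ℝ)⁻¹ := mul_le_mul_of_nonneg_left hx (Nat.cast_nonneg r)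
    have h2 : (r : ℝ) * (r + 1 : ℝ)⁻¹ ≤ 1 := by
      rw [← div_eq_mul_inv, div_le_one (by positivity)]; linarith
    linarith
  have he : ∀ i, ∃ x, Tendsto (fun k => es k i) 𝒰 (𝓝 x) := by
    intro i
    refine exists_ulim_pt 𝒰 (R := R₀) ?_
    filter_upwards [hεs, hLt 1] with k h1 h3
    have hm : es k i ∈ cap (Ks k) 0 (ξs k) := by
      refine ⟨by simpa using (hA k).ray i 1 zero_le_one h3, ?_⟩
      have : ∑ j, ξs k j (es k i - 0) ≤ ∑ j : Fin r, ((if j = i then (1 : ℝ) else 0) + εs k) :=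
        Finset.sum_le_sum fun j _ => by
          have := (abs_le.1 ((hA k).dual j i)).2
          rw [sub_zero]; linarith
      rw [Finset.sum_add_distrib] at this
      simp only [Finset.sum_ite_eq', Finset.mem_univ, if_true, Finset.sum_const, Finset.card_univ,
        Fintype.card_fin, nsmul_eq_mul] at this
      linarith [hrε _ h1]
    simpa using h2 k hm
  have hξ : ∀ i, ∃ x, Tendsto (fun k => ξs k i) 𝒰 (𝓝 x) := by
    intro i
    refine exists_ulim_pt 𝒰 (R := 2 * 5 / r₀) ?_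
    filter_upwards [hεs] with k h3
    refine norm_le_of_ball (c₀ := c₀) hr fun X hX => ?_
    obtain ⟨hXK, hX4⟩ := h1 k hX
    have hε0 : 0 ≤ εs k := (abs_nonneg _).trans ((hA k).dual i i)
    have hnn : ∀ j, 0 ≤ ξs k j (X - 0) + εs k := fun j => by linarith [(hA k).nonneg j X hXK]
    have h4 : ξs k i (X - 0) + εs k ≤ ∑ j, (ξs k j (X - 0) + εs k) :=
      Finset.single_le_sum (f := fun j => ξs k j (X - 0) + εs k) (fun j _ => hnn j) (Finset.mem_univ i)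
    rw [Finset.sum_add_distrib] at h4
    simp only [Finset.sum_const, Finset.card_univ, Fintype.card_fin, nsmul_eq_mul] at h4
    have h5 := hnn i
    have h6 : εs k ≤ 1 := h3.trans (inv_le_one_of_one_le₀ (by linarith [(Nat.cast_nonneg r : (0 : ℝ) ≤ r)]))
    have h7 := hrε _ h3
    rw [sub_zero] at h4 h5 hX4
    rw [abs_le]
    constructor <;> linarith
  choose e he using he
  choose ξ hξ using hξ
  have hε' : Tendsto εs 𝒰 (𝓝 0) := hε.mono_left hU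
  have happ : ∀ i {Xs : ℕ → F} {X : F}, Tendsto Xs 𝒰 (𝓝 X) →
      Tendsto (fun k => ξs k i (Xs k)) 𝒰 (𝓝 (ξ i X)) := fun i Xs X hX =>
    (isBoundedBilinearMap_apply.continuous.tendsto (ξ i, X)).comp ((hξ i).prodMk_nhds hX)
  refine ⟨e, ξ, he, hξ, ?_, ?_, ?_, ?_, ?_, ?_⟩
  · exact mem_ulim (Xs := fun _ => 0) (Eventually.of_forall fun k => (hA k).mem) tendsto_const_nhds
  · intro i t ht
    refine mem_ulim (Xs := fun k => 0 + t • es k i) ?_ (tendsto_const_nhds.add ((he i).const_smul t))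
    filter_upwards [hLt t] with k hk
    exact (hA k).ray i t ht hk
  · intro i
    exact ulim_nonneg hU (hξ i) (Ps := fun _ => 0) tendsto_const_nhds hε' fun k => (hA k).nonneg i
  · intro i j
    have h3 : Tendsto (fun k => |ξs k i (es k j) - if i = j then (1 : ℝ) else 0|) 𝒰
        (𝓝 |ξ i (e j) - if i = j then (1 : ℝ) else 0|) := ((happ i (he j)).sub_const _).abs
    have h4 := le_of_tendsto_of_tendsto' h3 hε' fun k => (hA k).dual i j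
    exact sub_eq_zero.1 (abs_nonpos_iff.1 h4)
  · refine (isBounded_closedBall (x := (0 : F)) (r := 2 * R₀)).subset ?_
    rintro X ⟨hX, hX4⟩
    obtain ⟨Xs, hXs, hXt⟩ := exists_seq_of_mem_ulim hU hX
    have hh : Tendsto (fun k => (1 / 2 : ℝ) • Xs k) 𝒰 (𝓝 ((1 / 2 : ℝ) • X)) := hXt.const_smul _
    have h3 : Tendsto (fun k => ∑ i, ξs k i ((1 / 2 : ℝ) • Xs k)) 𝒰 (𝓝 (∑ i, ξ i ((1 / 2 : ℝ) • X))) :=
      tendsto_finset_sum _ fun i _ => happ i hh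
    have h4 : ∑ i, ξ i ((1 / 2 : ℝ) • X) < 4 := by
      simp only [map_smul, smul_eq_mul, ← Finset.mul_sum]
      rw [sub_zero] at hX4
      linarith
    have h5 : ∀ᶠ k in (𝒰 : Filter ℕ), ‖(1 / 2 : ℝ) • Xs k‖ ≤ R₀ := by
      filter_upwards [hXs, h3.eventually (ge_mem_nhds h4)] with k hk hk4
      have hm : (1 / 2 : ℝ) • Xs k ∈ cap (Ks k) 0 (ξs k) :=
        ⟨(hv k).smul_mem_of_zero_mem (hA k).mem hk ⟨by norm_num, by norm_num⟩, by rwa [sub_zero]⟩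
      simpa using h2 k hm
    have h6 := le_of_tendsto hh.norm h5
    rw [norm_smul, Real.norm_of_nonneg (by norm_num)] at h6
    rw [mem_closedBall_zero_iff]
    linarith
  · refine ⟨c₀, mem_interior.2 ⟨ball c₀ r₀, fun X hX => ?_, isOpen_ball, mem_ball_self hr⟩⟩
    exact mem_ulim (Xs := fun _ => X) (Eventually.of_forall fun k => (h1 k hX).1) tendsto_const_nhds

/-- THE LIMIT LEMMA with three extra points of the caps and one extra nonzero functional carried along.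
`exists_norm` on each cap (compact by `cap_closed`, `App.bdd`), `App.aff`, `cap_aff`, `LL.aff`, `limit_norm`
with `𝒰 = hyperfilter ℕ` (`Nat.hyperfilter_le_atTop`), `LL.ulim`. -/
theorem limit {r : ℕ} {K : Set F} {Ks : ℕ → Set F} {os : ℕ → F} {es : ℕ → Fin r → F}
    {ξs : ℕ → Fin r → F →L[ℝ] ℝ} {Ls εs : ℕ → ℝ} (hK : ∀ k, LL K (Ks k))
    (hA : ∀ k, App (Ks k) (os k) (es k) (ξs k) (Ls k) (εs k))
    (hL : Tendsto Ls atTop atTop) (hε : Tendsto εs atTop (𝓝 0)) :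
    ∃ (𝒰 : Ultrafilter ℕ) (T : ℕ → F ≃L[ℝ] F) (R₀ : ℝ) (e : Fin r → F) (ξ : Fin r → F →L[ℝ] ℝ),
      (𝒰 : Filter ℕ) ≤ atTop ∧
      (∀ k, ∀ X ∈ cap (Ks k) (os k) (ξs k), ‖T k (X - os k)‖ ≤ R₀) ∧
      (∀ i, Tendsto (fun k => T k (es k i)) 𝒰 (𝓝 (e i))) ∧
      (∀ i, Tendsto (fun k => (ξs k i).comp ((T k).symm : F →L[ℝ] F)) 𝒰 (𝓝 (ξ i))) ∧
      LL K (ulim 𝒰 fun k => aff (T k) (-T k (os k)) (Ks k)) ∧
      Str (ulim 𝒰 fun k => aff (T k) (-T k (os k)) (Ks k)) 0 e ξ := by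
  obtain ⟨c₀, r₀, R₀, hr, hN⟩ := exists_norm (F := F)
  have hT : ∀ k, ∃ T : F ≃L[ℝ] F, ball c₀ r₀ ⊆ aff T (-T (os k)) (cap (Ks k) (os k) (ξs k)) ∧
      aff T (-T (os k)) (cap (Ks k) (os k) (ξs k)) ⊆ closedBall 0 R₀ := fun k =>
    haveI := FiniteDimensional.proper_real F
    hN _ _ (Metric.isCompact_of_isClosed_isBounded (cap_closed (hK k).closed _ _) (hA k).bdd)
      (cap_convex (hK k).convex _ _) (cap_interior (hK k).convex (hA k).mem (hA k).int _)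
      ⟨(hA k).mem, by simp⟩
  choose T hT1 hT2 using hT
  have hU : ((hyperfilter ℕ : Ultrafilter ℕ) : Filter ℕ) ≤ atTop := Nat.hyperfilter_le_atTop
  obtain ⟨e, ξ, he, hξ, hS⟩ := limit_norm hU (Ks := fun k => aff (T k) (-T k (os k)) (Ks k))
    (c₀ := c₀) (R₀ := R₀) hr (fun k => aff_convex (hK k).convex _ _) (fun k => (hA k).aff (T k)) hL hε
    (fun k => by rw [cap_aff]; exact hT1 k) (fun k => by rw [cap_aff]; exact hT2 k)
  refine ⟨hyperfilter ℕ, T, R₀, e, ξ, hU, fun k X hX => ?_, he, hξ,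
    LL.ulim _ fun k => (hK k).aff _ _, hS⟩
  have := hT2 k ⟨X, hX, rfl⟩
  rw [mem_closedBall_zero_iff] at this
  rwa [map_sub, sub_eq_add_neg]

theorem limit_rk {r : ℕ} {K : Set F} {Ks : ℕ → Set F} {os : ℕ → F} {es : ℕ → Fin r → F}
    {ξs : ℕ → Fin r → F →L[ℝ] ℝ} {Ls εs : ℕ → ℝ} (hK : ∀ k, LL K (Ks k))
    (hA : ∀ k, App (Ks k) (os k) (es k) (ξs k) (Ls k) (εs k))
    (hL : Tendsto Ls atTop atTop) (hε : Tendsto εs atTop (𝓝 0)) : Rk K r := by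
  obtain ⟨𝒰, T, R₀, e, ξ, -, -, -, -, h1, h2⟩ := limit hK hA hL hε
  exact ⟨_, 0, e, ξ, h1, h2⟩

/-- unit normalisation and ultralimit of nonzero functionals -/
theorem exists_unit_lim (𝒰 : Ultrafilter ℕ) {ζs : ℕ → F →L[ℝ] ℝ} (h : ∀ k, ζs k ≠ 0) :
    ∃ ζ : F →L[ℝ] ℝ, ζ ≠ 0 ∧ Tendsto (fun k => ‖ζs k‖⁻¹ • ζs k) 𝒰 (𝓝 ζ) := by
  have h1 : ∀ k, ‖‖ζs k‖⁻¹ • ζs k‖ = 1 := fun k => by
    rw [norm_smul, norm_inv, norm_norm, inv_mul_cancel₀ (norm_ne_zero_iff.2 (h k))]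
  obtain ⟨ζ, hζ⟩ := exists_ulim_pt 𝒰 (Xs := fun k => ‖ζs k‖⁻¹ • ζs k) (R := 1)
    (Eventually.of_forall fun k => (h1 k).le)
  refine ⟨ζ, fun h0 => ?_, hζ⟩
  have h2 := hζ.norm
  simp only [h1, h0, norm_zero] at h2
  exact one_ne_zero (tendsto_nhds_unique tendsto_const_nhds h2)

/-- a nonzero functional that is `≥ 0` on `K - X` is positive at interior points -/
theorem pos_of_interior {K : Set F} {X p : F} {ζ : F →L[ℝ] ℝ} (h0 : ζ ≠ 0)
    (h : ∀ Y ∈ K, 0 ≤ ζ (Y - X)) (hp : p ∈ interior K) : 0 < ζ (p - X) := by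
  obtain ⟨v, hv⟩ : ∃ v, ζ v ≠ 0 := by
    by_contra hc
    push Not at hc
    exact h0 (ContinuousLinearMap.ext hc)
  obtain ⟨w, hw⟩ : ∃ w, ζ w = 1 := ⟨(ζ v)⁻¹ • v, by rw [map_smul, smul_eq_mul, inv_mul_cancel₀ hv]⟩
  have hc : Tendsto (fun s : ℝ => p - s • w) (𝓝[>] 0) (𝓝 p) := by
    have : Continuous fun s : ℝ => p - s • w := by fun_prop
    simpa using (this.tendsto 0).mono_left nhdsWithin_le_nhds
  obtain ⟨s, hs, hs0⟩ := ((hc.eventually (mem_interior_iff_mem_nhds.1 hp)).and self_mem_nhdsWithin).exists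
  have h1 := h _ hs
  have e : p - s • w - X = (p - X) - s • w := by abel
  rw [e, map_sub, map_smul, hw, smul_eq_mul, mul_one] at h1
  have : (0 : ℝ) < s := hs0
  linarith

end Crest.Agent.R236.Geo
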