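import Crest.Agent.R236.GeoNorm

/-!
# R236/GeoQ1 TASK: exact corner configuration in the limit set; affine invariance of `Q`
-/

set_option autoImplicit false

namespace Crest.Agent.R236.Geo

open Set Filter Topology Metric

variable {F : Type} [NormedAddCommGroup F] [NormedSpace ℝ F] [FiniteDimensional ℝ F]

/-- the exact two-functional structure in `K'` (level `5`, with a ball of radius `δ` to spare) -/
structure Cor (K : Set F) (ρ : ℝ) (o e₁ e₂ : F) (ξ η : F →L[ℝ] ℝ) : Prop where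
  mem : o ∈ K
  d11 : ξ e₁ = 1
  d12 : ξ e₂ = 0
  d21 : η e₁ = 0
  d22 : η e₂ = 1
  nnξ : ∀ X ∈ K, 0 ≤ ξ (X - o)
  nnη : ∀ X ∈ K, 0 ≤ η (X - o)
  recs : ∀ X ∈ K, ∀ x y : ℝ, 0 ≤ x → 0 ≤ y → X + (x • e₁ + y • e₂) ∈ K
  bdd : ∀ M : ℝ, Bornology.IsBounded {X | X ∈ K ∧ ξ (X - o) + η (X - o) ≤ M}
  int : (interior K).Nonempty
  wide : ∀ a b : ℝ, 0 < a → 0 < b → ∀ X ∈ K, ξ (X - o) / a + η (X - o) / b ≤ 5 →
    ∀ Y ∈ K, ξ (Y - o) / a + η (Y - o) / b ≤ 5 → ∀ Z ∈ K, ξ (Z - o) / a + η (Z - o) / b ≤ 5 →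
      X + (a • e₁ + b • e₂) + ρ • (Y - Z) ∈ K

/-- `ξ' = ξ 0`, `η' = ∑ i, ξ i.succ`, `e₁ = e 0`, `e₂ = (m+1)⁻¹ • ∑ e i.succ`.  Use `Wide` with
`a' = Fin.cons (5a/4) (fun _ => 5b/4)`, take the convex combination with `X` of weight `θ = 4/(5(m+1))`, add
`(a - θ 5a/4) e 0` (`Str.recession`). -/
theorem cor_of_wide {m : ℕ} {K : Set F} {o : F} {e : Fin (m + 2) → F} {ξ : Fin (m + 2) → F →L[ℝ] ℝ}
    {ρ : ℝ} (hc : IsClosed K) (hv : Convex ℝ K) (hS : Str K o e ξ) (hρ : 0 < ρ) (hW : Wide K o e ξ ρ) :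
    ∃ (ρ' : ℝ) (e₁ e₂ : F) (ξ' η' : F →L[ℝ] ℝ), 0 < ρ' ∧ Cor K ρ' o e₁ e₂ ξ' η' := by
  have hm : (0 : ℝ) < (m : ℝ) + 1 := by positivity
  have hrec : ∀ X ∈ K, ∀ x y : ℝ, 0 ≤ x → 0 ≤ y →
      X + (x • e 0 + y • (((m : ℝ) + 1)⁻¹ • ∑ i : Fin (m + 1), e i.succ)) ∈ K := by
    intro X hX x y hx hy
    have h1 := hS.recession hc hv hX (Fin.cons x fun _ => y * ((m : ℝ) + 1)⁻¹) fun i => by
      refine Fin.cases ?_ (fun j => ?_) i
      · simpa using hx
      · simp only [Fin.cons_succ]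
        positivity
    rw [Fin.sum_univ_succ] at h1
    simp only [Fin.cons_zero, Fin.cons_succ, ← Finset.smul_sum] at h1
    rwa [smul_smul]
  refine ⟨4 / (5 * ((m : ℝ) + 1)) * ρ, e 0, ((m : ℝ) + 1)⁻¹ • ∑ i : Fin (m + 1), e i.succ, ξ 0,
    ∑ i : Fin (m + 1), ξ i.succ, by positivity, hS.mem, ?_, ?_, ?_, ?_, hS.nonneg 0, ?_, hrec, ?_, hS.int, ?_⟩
  · simp [hS.dual]
  · simp [hS.dual, (Fin.succ_ne_zero _).symm]
  · simp [hS.dual, Fin.succ_ne_zero]
  · simp only [map_smul, map_sum, ContinuousLinearMap.sum_apply, hS.dual, Fin.succ_inj, Finset.sum_ite_eq',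
      Finset.mem_univ, if_true, Finset.sum_const, Finset.card_univ, Fintype.card_fin, nsmul_eq_mul, mul_one,
      smul_eq_mul]
    push_cast
    exact inv_mul_cancel₀ hm.ne'
  · intro X hX
    rw [ContinuousLinearMap.sum_apply]
    exact Finset.sum_nonneg fun i _ => hS.nonneg _ X hX
  · intro M
    have h1 := hS.bdd_level hv M
    simpa only [Fin.sum_univ_succ (n := m + 1), ContinuousLinearMap.sum_apply] using h1
  · intro a b ha hb X hX hX5 Y hY hY5 Z hZ hZ5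
    have hcap : ∀ U ∈ K, ξ 0 (U - o) / a + (∑ i : Fin (m + 1), ξ i.succ) (U - o) / b ≤ 5 →
        U ∈ cap K o (fun i => ((Fin.cons (5 * a / 4) fun _ => 5 * b / 4 : Fin (m + 2) → ℝ) i)⁻¹ • ξ i) := by
      intro U hU h5
      refine ⟨hU, ?_⟩
      rw [Fin.sum_univ_succ]
      simp only [Fin.cons_zero, Fin.cons_succ, ContinuousLinearMap.smul_apply, smul_eq_mul, ← Finset.mul_sum]
      rw [ContinuousLinearMap.sum_apply] at h5
      have e1 : (5 * a / 4)⁻¹ * ξ 0 (U - o) + (5 * b / 4)⁻¹ * ∑ i : Fin (m + 1), ξ i.succ (U - o) =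
          4 / 5 * (ξ 0 (U - o) / a + (∑ i : Fin (m + 1), ξ i.succ (U - o)) / b) := by
        field_simp
      rw [e1]
      linarith
    have h1 := hW (Fin.cons (5 * a / 4) fun _ => 5 * b / 4) (fun i => by
      refine Fin.cases ?_ (fun j => ?_) i
      · simp only [Fin.cons_zero]
        positivity
      · simp only [Fin.cons_succ]
        positivity) X (hcap X hX hX5) Y (hcap Y hY hY5) Z (hcap Z hZ hZ5)
    rw [Fin.sum_univ_succ] at h1
    simp only [Fin.cons_zero, Fin.cons_succ, ← Finset.smul_sum] at h1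
    have hθ : 4 / (5 * ((m : ℝ) + 1)) ≤ 1 := by
      rw [div_le_one (by positivity)]
      have : (0 : ℝ) ≤ m := Nat.cast_nonneg m
      linarith
    have h2 := hv hX h1 (a := 1 - 4 / (5 * ((m : ℝ) + 1))) (b := 4 / (5 * ((m : ℝ) + 1))) (by linarith)
      (by positivity) (by ring)
    have h3 := hrec _ h2 (a - a / ((m : ℝ) + 1)) 0 (by
      rw [sub_nonneg, div_le_iff₀ hm]
      have : (0 : ℝ) ≤ m := Nat.cast_nonneg m
      nlinarith) le_rfl
    convert h3 using 1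
    generalize (∑ i : Fin (m + 1), e i.succ) = s
    match_scalars <;> field_simp <;> ring

/-- pull back the data through `X ↦ T X + b` -/
theorem Q.of_aff {K : Set F} {T : F ≃L[ℝ] F} {b : F} {ε R ρ : ℝ} (h : Q (aff T b K) ε R ρ) :
    Q K ε R ρ := by
  obtain ⟨o', e₁, e₂, ξ, η, ⟨o, ho, rfl⟩, h11, h12, h21, h22, H⟩ := h
  let A : F ≃ₜ F := T.toHomeomorph.trans (Homeomorph.addRight b)
  have hA : ∀ X, A X = T X + b := fun X => rfl
  have hK : ∀ X, T X + b ∈ aff T b K → X ∈ K := by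
    rintro X ⟨Y, hY, hXY⟩
    have : Y = X := T.injective (add_right_cancel hXY)
    exact this ▸ hY
  have hd : ∀ X, T X + b - (T o + b) = T (X - o) := fun X => by
    rw [map_sub]
    abel
  have hcap : ∀ a c : ℝ, cap2 K o (ξ.comp (T : F →L[ℝ] F)) (η.comp (T : F →L[ℝ] F)) a c =
      A ⁻¹' cap2 (aff T b K) (T o + b) ξ η a c := by
    intro a c
    ext X
    simp only [cap2, mem_setOf_eq, mem_preimage, hA, hd, ContinuousLinearMap.comp_apply,
      ContinuousLinearEquiv.coe_coe]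
    exact ⟨fun h => ⟨⟨X, h.1, rfl⟩, h.2⟩, fun h => ⟨hK X h.1, h.2⟩⟩
  refine ⟨o, T.symm e₁, T.symm e₂, ξ.comp (T : F →L[ℝ] F), η.comp (T : F →L[ℝ] F), ho, by simpa using h11,
    by simpa using h12, by simpa using h21, by simpa using h22, fun a c h1 h2 h3 h4 => ?_⟩
  have q := H a c h1 h2 h3 h4
  refine ⟨?_, ?_, ?_, ?_, ?_, ?_⟩
  · rw [hcap]
    exact A.isCompact_preimage.2 q.cpt
  · rw [hcap, ← A.preimage_interior]
    exact q.int.preimage A.surjective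
  · rw [hcap]
    intro X hX Y hY Z hZ
    refine hK _ ?_
    convert q.wide _ hX _ hY _ hZ using 1
    simp only [hA, map_add, map_smul, map_sub, ContinuousLinearEquiv.apply_symm_apply]
    module
  · rw [hcap]
    intro X hX
    have := q.lowξ _ hX
    rwa [hA, hd] at this
  · rw [hcap]
    intro X hX
    have := q.lowη _ hX
    rwa [hA, hd] at this
  · rw [hcap]
    intro x y k1 k2 k3 k4 Y hY Z hZ
    refine hK _ ?_
    convert q.box x y k1 k2 k3 k4 _ hY _ hZ using 1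
    simp only [hA, map_add, map_smul, map_sub, ContinuousLinearEquiv.apply_symm_apply]
    module

/-- separation: if `Z ∉ A` there is `ζ`, `‖ζ‖ = 1`, with `ζ Z < ζ Y` on `A`; take `w`, `‖w‖ < δ`, `ζ w > ε`
(`ContinuousLinearMap.exists_lt_apply_of_lt_opNorm`); the point `Z - w ∈ B` has a point of `A` within `ε`. -/
theorem mem_of_close {A B : Set F} {R ε δ : ℝ} {Z : F} (hc : IsClosed A) (hv : Convex ℝ A)
    (h : Close R ε A B) (hε : 0 ≤ ε) (hεδ : ε < δ) (hZ : ball Z δ ⊆ B) (hR : ‖Z‖ + δ ≤ R) : Z ∈ A := by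
  by_contra hZA
  have hδ : 0 < δ := hε.trans_lt hεδ
  obtain ⟨f, u, hf1, hf2⟩ := geometric_hahn_banach_point_closed hv hc hZA
  obtain ⟨x₀, hx₀, -⟩ := h.2 Z (hZ (mem_ball_self hδ)) (by linarith)
  have hf0 : 0 < ‖f‖ := by
    refine norm_pos_iff.2 fun h0 => ?_
    have := hf2 x₀ hx₀
    rw [h0] at this hf1
    simp only [ContinuousLinearMap.zero_apply] at this hf1
    linarith
  obtain ⟨w, hw1, hw2⟩ : ∃ w : F, ‖w‖ < δ ∧ ε * ‖f‖ < f w := by
    obtain ⟨x, hx1, hx2⟩ := f.exists_lt_apply_of_lt_opNorm (r := ε / δ * ‖f‖)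
      (mul_lt_of_lt_one_left hf0 ((div_lt_one hδ).2 hεδ))
    rw [div_mul_eq_mul_div, div_lt_iff₀ hδ, Real.norm_eq_abs] at hx2
    have hn : ‖δ • x‖ < δ := by
      rw [norm_smul, Real.norm_eq_abs, abs_of_pos hδ]
      exact mul_lt_of_lt_one_right hδ hx1
    rcases le_total 0 (f x) with h0 | h0
    · rw [abs_of_nonneg h0] at hx2
      exact ⟨δ • x, hn, by rw [map_smul, smul_eq_mul]; linarith⟩
    · rw [abs_of_nonpos h0] at hx2
      exact ⟨-(δ • x), by rwa [norm_neg], by rw [map_neg, map_smul, smul_eq_mul]; linarith⟩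
  obtain ⟨x, hx, hxe⟩ := h.2 (Z - w) (hZ (by rwa [mem_ball, dist_eq_norm, sub_sub_cancel_left, norm_neg]))
    ((norm_sub_le _ _).trans (by linarith))
  have h1 := (le_abs_self _).trans ((Real.norm_eq_abs _).symm.le.trans (f.le_opNorm (x - (Z - w))))
  have h2 := mul_le_mul_of_nonneg_left hxe hf0.le
  have h3 := hf2 x hx
  rw [map_sub, map_sub] at h1
  linarith

end Crest.Agent.R236.Geo
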