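import Crest.Agent.R236.Geo
import Crest.Agent.R236.GeoC

/-!
# R236/GeoU (helper97): the geometric theorem for the epigraph of `u`
-/

set_option autoImplicit false

namespace Crest.Agent.R236.Geo

open Set Filter Topology Metric
open Crest.GeometryTopology.CoordMetric Crest.GeometryTopology.AffineMaximal
open scoped ContDiff

variable {n : ℕ} {Ω : Set (EuclideanSpace ℝ (Fin n))} {u : EuclideanSpace ℝ (Fin n) → ℝ}

/-- height over the tangent plane at `x₀` -/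
noncomputable def hgt (u : EuclideanSpace ℝ (Fin n) → ℝ) (x₀ x : EuclideanSpace ℝ (Fin n)) : ℝ :=
  u x - u x₀ - fderiv ℝ u x₀ (x - x₀)

theorem hgt_nonneg (hΩ : IsOpen Ω) (hΩc : Convex ℝ Ω) (hu : ContDiffOn ℝ ∞ u Ω)
    (hconv : ∀ x ∈ Ω, (hessianMat u x).PosDef) {x₀ x : EuclideanSpace ℝ (Fin n)} (hx₀ : x₀ ∈ Ω)
    (hx : x ∈ Ω) : 0 ≤ hgt u x₀ x := by
  have := tangent_le hΩ hΩc hu hconv hx₀ hx
  unfold hgt
  linarith

theorem hgt_pos (hΩ : IsOpen Ω) (hΩc : Convex ℝ Ω) (hu : ContDiffOn ℝ ∞ u Ω)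
    (hconv : ∀ x ∈ Ω, (hessianMat u x).PosDef) {x₀ x : EuclideanSpace ℝ (Fin n)} (hx₀ : x₀ ∈ Ω)
    (hx : x ∈ Ω) (hne : x ≠ x₀) : 0 < hgt u x₀ x := by
  have := tangent_lt hΩ hΩc hu hconv hx₀ hx hne
  unfold hgt
  linarith

theorem hgt_contOn (hu : ContDiffOn ℝ ∞ u Ω) (x₀ : EuclideanSpace ℝ (Fin n)) :
    ContinuousOn (hgt u x₀) Ω := by
  unfold hgt
  exact (hu.continuousOn.sub continuousOn_const).sub (by fun_prop)

/-- star-shaped convexity at `x₀` -/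
theorem hgt_smul (hΩ : IsOpen Ω) (hΩc : Convex ℝ Ω) (hu : ContDiffOn ℝ ∞ u Ω)
    (hconv : ∀ x ∈ Ω, (hessianMat u x).PosDef) {x₀ x : EuclideanSpace ℝ (Fin n)} (hx₀ : x₀ ∈ Ω)
    (hx : x ∈ Ω) {s : ℝ} (h0 : 0 ≤ s) (h1 : s ≤ 1) :
    hgt u x₀ (x₀ + s • (x - x₀)) ≤ s * hgt u x₀ x := by
  have h := (convexOn_u hΩ hΩc hu hconv).2 hx₀ hx (sub_nonneg.2 h1) h0 (by ring)
  have e : (1 - s) • x₀ + s • x = x₀ + s • (x - x₀) := by module
  rw [e] at h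
  simp only [hgt, add_sub_cancel_left, map_smul, smul_eq_mul] at h ⊢
  linarith

/-- linear growth of the height -/
theorem hgt_growth (hΩ : IsOpen Ω) (hΩc : Convex ℝ Ω) (hu : ContDiffOn ℝ ∞ u Ω)
    (hconv : ∀ x ∈ Ω, (hessianMat u x).PosDef) {x₀ : EuclideanSpace ℝ (Fin n)} (hx₀ : x₀ ∈ Ω)
    (h : ℝ) : ∃ R, ∀ x ∈ Ω, hgt u x₀ x ≤ h → ‖x - x₀‖ ≤ R := by
  obtain ⟨δ, hδ, hb⟩ := Metric.isOpen_iff.1 hΩ x₀ hx₀
  have hs : sphere x₀ (δ / 2) ⊆ Ω := fun y hy => hb (by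
    rw [mem_sphere] at hy
    rw [mem_ball, hy]
    linarith)
  obtain ⟨m, hm, hm'⟩ : ∃ m : ℝ, 0 < m ∧ ∀ y ∈ sphere x₀ (δ / 2), m ≤ hgt u x₀ y := by
    rcases (sphere x₀ (δ / 2)).eq_empty_or_nonempty with he | hne
    · exact ⟨1, one_pos, fun y hy => by simp [he] at hy⟩
    · obtain ⟨y, hy, hmin⟩ := (isCompact_sphere x₀ (δ / 2)).exists_isMinOn hne
        ((hgt_contOn hu x₀).mono hs)
      refine ⟨_, hgt_pos hΩ hΩc hu hconv hx₀ (hs hy) fun e => ?_, fun z hz => hmin hz⟩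
      rw [e, mem_sphere, dist_self] at hy
      linarith
  refine ⟨max (δ / 2) (δ / 2 * h / m), fun x hx hh => ?_⟩
  rcases le_or_gt ‖x - x₀‖ (δ / 2) with h1 | h1
  · exact h1.trans (le_max_left _ _)
  · refine le_trans ?_ (le_max_right _ _)
    have hN : 0 < ‖x - x₀‖ := by linarith
    have h2 := hgt_smul hΩ hΩc hu hconv hx₀ hx (s := δ / 2 / ‖x - x₀‖) (by positivity)
      ((div_le_one hN).2 h1.le)
    have h3 := hm' (x₀ + (δ / 2 / ‖x - x₀‖) • (x - x₀)) (by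
      rw [mem_sphere, dist_eq_norm, add_sub_cancel_left, norm_smul, Real.norm_of_nonneg (by positivity)]
      field_simp)
    have h4 : m ≤ δ / 2 / ‖x - x₀‖ * h :=
      h3.trans (h2.trans (mul_le_mul_of_nonneg_left hh (by positivity)))
    rw [le_div_iff₀ hm]
    rw [div_mul_eq_mul_div, le_div_iff₀ hN] at h4
    linarith

/-- sublevel sets of the height are compact -/
theorem isCompact_sublevel (hΩ : IsOpen Ω) (hΩc : Convex ℝ Ω) (hu : ContDiffOn ℝ ∞ u Ω)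
    (hconv : ∀ x ∈ Ω, (hessianMat u x).PosDef) (hcl : IsClosed (epi Ω u))
    {x₀ : EuclideanSpace ℝ (Fin n)} (hx₀ : x₀ ∈ Ω) (h : ℝ) :
    IsCompact {x | x ∈ Ω ∧ hgt u x₀ x ≤ h} := by
  obtain ⟨R, hR⟩ := hgt_growth hΩ hΩc hu hconv hx₀ h
  refine Metric.isCompact_of_isClosed_isBounded ?_ ?_
  · have e : {x | x ∈ Ω ∧ hgt u x₀ x ≤ h} =
        (fun x => (x, h + u x₀ + fderiv ℝ u x₀ (x - x₀))) ⁻¹' epi Ω u := by
      ext x
      simp only [epi, hgt, mem_setOf_eq, mem_preimage]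
      exact and_congr_right fun _ => ⟨fun h => by linarith, fun h => by linarith⟩
    rw [e]
    exact hcl.preimage (by fun_prop)
  · refine (isBounded_closedBall (x := x₀) (r := R)).subset fun x hx => ?_
    rw [mem_closedBall, dist_eq_norm]
    exact hR x hx.1 hx.2

/-- the height functional of the tangent plane at `x` -/
noncomputable def tfun (u : EuclideanSpace ℝ (Fin n) → ℝ) (x : EuclideanSpace ℝ (Fin n)) :
    EuclideanSpace ℝ (Fin n) × ℝ →L[ℝ] ℝ :=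
  ContinuousLinearMap.snd ℝ _ _ - (fderiv ℝ u x).comp (ContinuousLinearMap.fst ℝ _ _)

theorem tfun_apply (u : EuclideanSpace ℝ (Fin n) → ℝ) (x : EuclideanSpace ℝ (Fin n))
    (Y : EuclideanSpace ℝ (Fin n) × ℝ) : tfun u x Y = Y.2 - fderiv ℝ u x Y.1 := rfl

theorem tfun_nonneg (hΩ : IsOpen Ω) (hΩc : Convex ℝ Ω) (hu : ContDiffOn ℝ ∞ u Ω)
    (hconv : ∀ x ∈ Ω, (hessianMat u x).PosDef) {x : EuclideanSpace ℝ (Fin n)} (hx : x ∈ Ω) :
    ∀ Y ∈ epi Ω u, 0 ≤ tfun u x (Y - (x, u x)) := fun Y hY => by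
  have := tangent_le hΩ hΩc hu hconv hx hY.1
  have h2 := hY.2
  simp only [tfun_apply, Prod.snd_sub, Prod.fst_sub]
  linarith

theorem str_one (hΩ : IsOpen Ω) (hΩc : Convex ℝ Ω) (hu : ContDiffOn ℝ ∞ u Ω)
    (hconv : ∀ x ∈ Ω, (hessianMat u x).PosDef) {x₀ : EuclideanSpace ℝ (Fin n)} (hx₀ : x₀ ∈ Ω) :
    Str (epi Ω u) (x₀, u x₀) (fun _ : Fin 1 => ((0 : EuclideanSpace ℝ (Fin n)), (1 : ℝ)))
      (fun _ => tfun u x₀) := by
  refine ⟨⟨hx₀, le_rfl⟩, fun _ t ht => ?_, fun _ => tfun_nonneg hΩ hΩc hu hconv hx₀,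
    fun i j => ?_, ?_, ?_⟩
  · simp [epi, hx₀, ht]
  · simp [tfun_apply, Subsingleton.elim i j]
  · obtain ⟨R, hR⟩ := hgt_growth hΩ hΩc hu hconv hx₀ 4
    refine (isBounded_closedBall (x := (x₀, u x₀)) (r := max R (4 + ‖fderiv ℝ u x₀‖ * R))).subset
      fun X hX => ?_
    obtain ⟨⟨h1, h2⟩, h3⟩ := hX
    simp only [Finset.univ_unique, Finset.sum_singleton, tfun_apply, Prod.snd_sub,
      Prod.fst_sub] at h3
    have h4 : ‖X.1 - x₀‖ ≤ R := hR _ h1 (by unfold hgt; linarith)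
    have h5 := hgt_nonneg hΩ hΩc hu hconv hx₀ h1
    have h6 : |fderiv ℝ u x₀ (X.1 - x₀)| ≤ ‖fderiv ℝ u x₀‖ * R :=
      ((fderiv ℝ u x₀).le_opNorm _).trans (mul_le_mul_of_nonneg_left h4 (norm_nonneg _))
    rw [mem_closedBall, Prod.dist_eq, dist_eq_norm, Real.dist_eq]
    refine max_le_max h4 (abs_le.2 ⟨?_, ?_⟩)
    · unfold hgt at h5
      linarith [(abs_le.1 h6).1]
    · linarith [(abs_le.1 h6).2]
  · refine ⟨(x₀, u x₀ + 1), mem_interior_iff_mem_nhds.2 ?_⟩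
    have hc : ContinuousAt u x₀ := hu.continuousOn.continuousAt (hΩ.mem_nhds hx₀)
    have h1 : ∀ᶠ X : EuclideanSpace ℝ (Fin n) × ℝ in 𝓝 (x₀, u x₀ + 1), X.1 ∈ Ω :=
      continuous_fst.continuousAt.eventually (hΩ.mem_nhds hx₀)
    have h2 : ∀ᶠ X : EuclideanSpace ℝ (Fin n) × ℝ in 𝓝 (x₀, u x₀ + 1), u X.1 < X.2 := by
      have h3 : ContinuousAt (fun X : EuclideanSpace ℝ (Fin n) × ℝ => u X.1) (x₀, u x₀ + 1) :=
        ContinuousAt.comp (f := Prod.fst) hc continuous_fst.continuousAt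
      exact h3.eventually_lt continuous_snd.continuousAt (by simp)
    filter_upwards [h1, h2] with X a b using ⟨a, b.le⟩

/-- parts 5 and 9 of the plan -/
theorem geo_u (hΩ : IsOpen Ω) (hΩc : Convex ℝ Ω) (hu : ContDiffOn ℝ ∞ u Ω)
    (hconv : ∀ x ∈ Ω, (hessianMat u x).PosDef) (hcl : IsClosed (epi Ω u)) {ε : ℝ} (hε : 0 < ε)
    (hε1 : ε ≤ 1) (noQ : ∀ ρ, 0 < ρ → ∃ R, ¬Q (epi Ω u) ε R ρ)
    {x₀ : EuclideanSpace ℝ (Fin n)} (hx₀ : x₀ ∈ Ω) :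
    Ω = univ ∧ ∃ ρ c : ℝ, 0 < ρ ∧ 0 < c ∧
      (∀ h : ℝ, 0 < h → ∀ x y z, hgt u x₀ x ≤ 4 * h → hgt u x₀ y ≤ 4 * h → hgt u x₀ z ≤ 4 * h →
        hgt u x₀ (x + ρ • (y - z)) ≤ hgt u x₀ x + h) ∧
      ∀ x, c * hgt u x₀ x ≤ fderiv ℝ u x (x - x₀) - u x + u x₀ := by
  obtain ⟨⟨ρ, hρ, hW⟩, c, hc, hD⟩ := geometry hcl (epi_convex hΩ hΩc hu hconv) hε hε1 noQ
    (str_one hΩ hΩc hu hconv hx₀)
  -- the point of the epigraph at height `s` over the tangent plane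
  let pt : EuclideanSpace ℝ (Fin n) → ℝ → EuclideanSpace ℝ (Fin n) × ℝ := fun x s =>
    (x, s + u x₀ + fderiv ℝ u x₀ (x - x₀))
  have pt1 : ∀ x ∈ Ω, ∀ s, hgt u x₀ x ≤ s → pt x s ∈ epi Ω u := fun x hx s hs =>
    ⟨hx, by simp only [pt, hgt] at hs ⊢; linarith⟩
  have pt2 : ∀ x s, tfun u x₀ (pt x s - (x₀, u x₀)) = s := fun x s => by
    simp only [pt, tfun_apply, Prod.snd_sub, Prod.fst_sub]
    ring
  have W : ∀ h : ℝ, 0 < h → ∀ x ∈ Ω, ∀ y ∈ Ω, ∀ z ∈ Ω, hgt u x₀ x ≤ 4 * h → hgt u x₀ y ≤ 4 * h →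
      hgt u x₀ z ≤ 4 * h → x + ρ • (y - z) ∈ Ω ∧ hgt u x₀ (x + ρ • (y - z)) ≤ hgt u x₀ x + h := by
    intro h hh x hx y hy z hz h1 h2 h3
    have := hW h hh (pt x (hgt u x₀ x)) (pt1 x hx _ le_rfl) (by rw [pt2]; exact h1)
      (pt y (4 * h)) (pt1 y hy _ h2) (by rw [pt2]) (pt z (4 * h)) (pt1 z hz _ h3) (by rw [pt2])
    obtain ⟨a1, a2⟩ := this
    simp only [pt, Prod.fst_add, Prod.smul_fst, Prod.fst_sub, smul_zero, add_zero, Prod.snd_add,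
      Prod.smul_snd, Prod.snd_sub, smul_eq_mul, mul_one] at a1 a2
    refine ⟨a1, ?_⟩
    have e : x + ρ • (y - z) - x₀ = (x - x₀) + ρ • ((y - x₀) - (z - x₀)) := by module
    simp only [hgt] at a2 ⊢
    rw [e]
    simp only [map_add, map_smul, map_sub, smul_eq_mul] at a2 ⊢
    linarith
  have h00 : hgt u x₀ x₀ = 0 := by simp [hgt]
  have dil : ∀ y ∈ Ω, y + ρ • (y - x₀) ∈ Ω := fun y hy => by
    have h0 := hgt_nonneg hΩ hΩc hu hconv hx₀ hy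
    exact (W (hgt u x₀ y + 1) (by linarith) y hy y hy x₀ hx₀ (by linarith) (by linarith)
      (by rw [h00]; linarith)).1
  have univΩ : Ω = univ := by
    have it : ∀ (k : ℕ) (w : EuclideanSpace ℝ (Fin n)), x₀ + w ∈ Ω → x₀ + (1 + ρ) ^ k • w ∈ Ω := by
      intro k w hw
      induction k with
      | zero => simpa using hw
      | succ k ih =>
        have e : x₀ + (1 + ρ) ^ (k + 1) • w =
            x₀ + (1 + ρ) ^ k • w + ρ • (x₀ + (1 + ρ) ^ k • w - x₀) := by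
          rw [pow_succ]
          module
        rw [e]
        exact dil _ ih
    obtain ⟨δ, hδ, hb⟩ := Metric.isOpen_iff.1 hΩ x₀ hx₀
    refine eq_univ_of_forall fun x => ?_
    obtain ⟨k, hk⟩ := pow_unbounded_of_one_lt (‖x - x₀‖ / δ) (show (1 : ℝ) < 1 + ρ by linarith)
    have hp : (0 : ℝ) < (1 + ρ) ^ k := by positivity
    have := it k (((1 + ρ) ^ k)⁻¹ • (x - x₀)) (hb (by
      rw [mem_ball, dist_eq_norm, add_sub_cancel_left, norm_smul, Real.norm_of_nonneg (by positivity),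
        inv_mul_lt_iff₀ hp]
      rwa [div_lt_iff₀ hδ] at hk))
    rwa [smul_smul, mul_inv_cancel₀ hp.ne', one_smul, add_sub_cancel] at this
  have all : ∀ x, x ∈ Ω := fun x => univΩ ▸ mem_univ x
  refine ⟨univΩ, ρ, c, hρ, hc, fun h hh x y z h1 h2 h3 =>
    (W h hh x (all x) y (all y) z (all z) h1 h2 h3).2, fun x => ?_⟩
  have := hD (x, u x) ⟨all x, le_rfl⟩ (tfun u x) (tfun_nonneg hΩ hΩc hu hconv (all x))
  simp only [tfun_apply, Prod.snd_sub, Prod.fst_sub, map_zero, sub_zero, mul_one] at this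
  have e : fderiv ℝ u x (x₀ - x) = -fderiv ℝ u x (x - x₀) := by
    rw [← map_neg, neg_sub]
  rw [e] at this
  unfold hgt
  linarith

end Crest.Agent.R236.Geo
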