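import Crest.Agent.R236.GeoLim

/-!
# R236/GeoW TASK: failure of `(W)` raises the rank
-/

set_option autoImplicit false

namespace Crest.Agent.R236.Geo

open Set Filter Topology Metric

variable {F : Type} [NormedAddCommGroup F] [NormedSpace ℝ F] [FiniteDimensional ℝ F]

/-- For `ρ_k = 1/(k+1)` get `a_k, X_k, Y_k, Z_k` with `P_k = X_k + ∑ a e + ρ_k (Y_k - Z_k) ∉ K'`; separate
(`geometric_hahn_banach_point_closed`): `ζ_k ≠ 0`, `ζ_k (· - P_k) ≥ 0` on `K'`.  Apply `limit` to the constant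
sequence `K'` with `Str.scale`, `Str.app` (`L = k`, `ε = 0`); `exists_ulim_pt` for `T_k (X_k - o)`,
`exists_unit_lim` for `ζ_k ∘ T_k⁻¹`, `ulim_nonneg` with the points `T_k (P_k - o) → X + ∑ e`.
Finally `ζ (e i) ≥ 0` (`Str.recession`, unbounded rays) and `ζ (X - (X + ∑ e)) ≥ 0` force `ζ (e i) = 0`. -/
theorem step_W {r : ℕ} {K K' : Set F} {o : F} {e : Fin r → F} {ξ : Fin r → F →L[ℝ] ℝ} (hK : LL K K')
    (hS : Str K' o e ξ) (hW : ∀ ρ, 0 < ρ → ¬Wide K' o e ξ ρ) :
    ∃ (K'' : Set F) (e' : Fin r → F) (ξ' : Fin r → F →L[ℝ] ℝ) (X : F) (ζ : F →L[ℝ] ℝ),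
      LL K K'' ∧ Str K'' 0 e' ξ' ∧ X ∈ K'' ∧ ζ ≠ 0 ∧ (∀ Y ∈ K'', 0 ≤ ζ (Y - X)) ∧ ∀ i, ζ (e' i) = 0 := by
  classical
  have hch : ∀ k : ℕ, ∃ (a : Fin r → ℝ) (X Y Z : F) (ζ : F →L[ℝ] ℝ), (∀ i, 0 < a i) ∧
      X ∈ cap K' o (fun i => (a i)⁻¹ • ξ i) ∧ Y ∈ cap K' o (fun i => (a i)⁻¹ • ξ i) ∧
      Z ∈ cap K' o (fun i => (a i)⁻¹ • ξ i) ∧ ζ ≠ 0 ∧
      ∀ W ∈ K', 0 ≤ ζ (W - (X + ∑ i, a i • e i + (1 / ((k : ℝ) + 1)) • (Y - Z))) := by
    intro k
    have h := hW (1 / ((k : ℝ) + 1)) (by positivity)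
    unfold Wide at h
    push Not at h
    obtain ⟨a, ha, X, hX, Y, hY, Z, hZ, hP⟩ := h
    obtain ⟨f, u, hfu, hu⟩ := geometric_hahn_banach_point_closed hK.convex hK.closed hP
    refine ⟨a, X, Y, Z, f, ha, hX, hY, hZ, ?_, fun W hW' => ?_⟩
    · rintro rfl
      have := hu o hS.mem
      simp only [ContinuousLinearMap.zero_apply] at hfu this
      linarith
    · have := hu W hW'
      rw [map_sub]
      linarith
  choose a X Y Z ζ ha hX hY hZ hζ hsep using hch
  obtain ⟨𝒰, T, R₀, e', ξ', hU, hbd, he, -, hLL, hStr⟩ := limit (K := K) (Ks := fun _ => K')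
    (os := fun _ => o) (es := fun k i => a k i • e i) (ξs := fun k i => (a k i)⁻¹ • ξ i)
    (Ls := fun k => (k : ℝ)) (εs := fun _ => 0) (fun _ => hK)
    (fun k => (hS.scale hK.convex (ha k)).app k) tendsto_natCast_atTop_atTop tendsto_const_nhds
  obtain ⟨X', hX'⟩ := exists_ulim_pt 𝒰 (Xs := fun k => T k (X k - o)) (R := R₀)
    (Eventually.of_forall fun k => hbd k _ (hX k))
  obtain ⟨ζ', hζ'0, hζ'⟩ := exists_unit_lim 𝒰
    (ζs := fun k => (ζ k).comp ((T k).symm : F →L[ℝ] F)) (fun k h => hζ k (by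
      ext v
      have := congrArg (fun f : F →L[ℝ] ℝ => f (T k v)) h
      simpa using this))
  have hP : Tendsto (fun k => T k (X k + ∑ i, a k i • e i + (1 / ((k : ℝ) + 1)) • (Y k - Z k) - o)) 𝒰
      (𝓝 (X' + ∑ i, e' i)) := by
    have h1 : Tendsto (fun k : ℕ => (1 / ((k : ℝ) + 1)) • T k (Y k - Z k)) 𝒰 (𝓝 0) := by
      refine squeeze_zero_norm (a := fun k : ℕ => (1 / ((k : ℝ) + 1)) * (2 * R₀)) (fun k => ?_) ?_
      · rw [norm_smul, Real.norm_of_nonneg (by positivity)]
        refine mul_le_mul_of_nonneg_left ?_ (by positivity)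
        have : T k (Y k - Z k) = T k (Y k - o) - T k (Z k - o) := by
          rw [← map_sub]
          congr 1
          abel
        rw [this]
        exact (norm_sub_le _ _).trans (by linarith [hbd k _ (hY k), hbd k _ (hZ k)])
      · simpa using ((tendsto_one_div_add_atTop_nhds_zero_nat (𝕜 := ℝ)).mono_left hU).mul_const (2 * R₀)
    have h2 := (hX'.add (tendsto_finset_sum Finset.univ fun i _ => he i)).add h1
    rw [add_zero] at h2
    refine h2.congr fun k => ?_
    simp only [map_add, map_sub, map_sum, map_smul]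
    abel
  have hnn := ulim_nonneg hU (Ks := fun k => aff (T k) (-T k o) K') hζ' hP (εs := fun _ => 0)
    tendsto_const_nhds (fun k W hW' => by
      obtain ⟨W₀, hW₀, rfl⟩ := hW'
      have h3 := hsep k W₀ hW₀
      have h4 : T k W₀ + -T k o - T k (X k + ∑ i, a k i • e i + (1 / ((k : ℝ) + 1)) • (Y k - Z k) - o) =
          T k (W₀ - (X k + ∑ i, a k i • e i + (1 / ((k : ℝ) + 1)) • (Y k - Z k))) := by
        rw [map_sub (T k) _ o, map_sub (T k) W₀]
        abel
      rw [h4, neg_zero, ContinuousLinearMap.smul_apply, ContinuousLinearMap.comp_apply,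
        ContinuousLinearEquiv.coe_coe, ContinuousLinearEquiv.symm_apply_apply, smul_eq_mul]
      exact mul_nonneg (inv_nonneg.2 (norm_nonneg _)) h3)
  have hXm : X' ∈ ulim 𝒰 fun k => aff (T k) (-T k o) K' :=
    mem_ulim (Eventually.of_forall fun k => ⟨X k, (hX k).1, by
      simp only [map_sub]
      abel⟩) hX'
  have hge : ∀ i, 0 ≤ ζ' (e' i) := by
    intro i
    have h5 := hStr.recession hLL.closed hLL.convex hXm (fun j => 1 + if j = i then 1 else 0)
      (fun j => by split_ifs <;> norm_num)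
    have h6 := hnn _ h5
    have h7 : X' + ∑ j, (1 + if j = i then (1 : ℝ) else 0) • e' j - (X' + ∑ j, e' j) = e' i := by
      simp only [add_smul, one_smul, ite_smul, zero_smul, Finset.sum_add_distrib, Finset.sum_ite_eq',
        Finset.mem_univ, if_true]
      abel
    rwa [h7] at h6
  have hle : ∑ i, ζ' (e' i) ≤ 0 := by
    have h6 := hnn _ hXm
    rw [sub_add_cancel_left, map_neg, map_sum] at h6
    linarith
  have hz : ∀ i, ζ' (e' i) = 0 := fun i =>
    le_antisymm ((Finset.single_le_sum (fun j _ => hge j) (Finset.mem_univ i)).trans hle) (hge i)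
  refine ⟨_, e', ξ', X', ζ', hLL, hStr, hXm, hζ'0, fun W hW' => ?_, hz⟩
  have h6 := hnn W hW'
  rw [← sub_sub, map_sub, map_sum] at h6
  simpa [hz] using h6

/-- With `m = k+1`, `p ∈ interior K'`, `v = p - X`, `ζ v > 0`: base point `X`, vectors
`Fin.cons ((m ζ v)⁻¹ • v) (m • e i)`, functionals `Fin.cons (m • ζ) (m⁻¹ • ξ i)`, `L = m ζ v`,
`ε = C/m`; boundedness by `Str.bdd_level`; `limit_rk`. -/
theorem extend_W {r : ℕ} {K K' : Set F} {o : F} {e : Fin r → F} {ξ : Fin r → F →L[ℝ] ℝ} {X : F}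
    {ζ : F →L[ℝ] ℝ} (hK : LL K K') (hS : Str K' o e ξ) (hX : X ∈ K') (h0 : ζ ≠ 0)
    (h1 : ∀ Y ∈ K', 0 ≤ ζ (Y - X)) (h2 : ∀ i, ζ (e i) = 0) : Rk K (r + 1) := by
  classical
  obtain ⟨p, hp⟩ := hS.int
  have hc : 0 < ζ (p - X) := pos_of_interior h0 h1 hp
  set v := p - X with hv
  set c := ζ v with hcdef
  set C : ℝ := ∑ i, (|ξ i (X - o)| + |ξ i v| / c) with hC
  have hC1 : ∀ i, |ξ i (X - o)| + |ξ i v| / c ≤ C := fun i =>
    Finset.single_le_sum (f := fun i => |ξ i (X - o)| + |ξ i v| / c)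
      (fun j _ => by positivity) (Finset.mem_univ i)
  have hC0 : 0 ≤ C := Finset.sum_nonneg fun j _ => by positivity
  refine limit_rk (K := K) (Ks := fun _ => K') (os := fun _ => X)
    (es := fun k => Fin.cons ((((k : ℝ) + 1) * c)⁻¹ • v) fun i => ((k : ℝ) + 1) • e i)
    (ξs := fun k => Fin.cons (((k : ℝ) + 1) • ζ) fun i => ((k : ℝ) + 1)⁻¹ • ξ i)
    (Ls := fun k => ((k : ℝ) + 1) * c) (εs := fun k => (1 / ((k : ℝ) + 1)) * C) (fun _ => hK)
    (fun k => ?_) ?_ ?_
  · have hm1 : (1 : ℝ) ≤ (k : ℝ) + 1 := by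
      have : (0 : ℝ) ≤ k := Nat.cast_nonneg k
      linarith
    generalize (k : ℝ) + 1 = m at hm1 ⊢
    have hm : 0 < m := by linarith
    have hε : 0 ≤ 1 / m * C := by positivity
    refine ⟨hX, fun i t ht0 ht1 => ?_, fun i Y hY => ?_, fun i j => ?_, ?_, hS.int⟩
    · refine Fin.cases ?_ (fun i => ?_) i
      · simp only [Fin.cons_zero, smul_smul]
        exact hK.convex.add_smul_sub_mem hX (interior_subset hp)
          ⟨by positivity, by rw [← div_eq_mul_inv]; exact div_le_one_of_le₀ ht1 (by positivity)⟩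
      · simp only [Fin.cons_succ, smul_smul]
        have h3 := hS.recession hK.closed hK.convex hX (fun j => if j = i then t * m else 0)
          (fun j => by split_ifs <;> positivity)
        simpa using h3
    · refine Fin.cases ?_ (fun i => ?_) i
      · simp only [Fin.cons_zero, ContinuousLinearMap.smul_apply, smul_eq_mul]
        have := mul_nonneg hm.le (h1 Y hY)
        linarith
      · simp only [Fin.cons_succ, ContinuousLinearMap.smul_apply, smul_eq_mul]
        have h3 := hS.nonneg i Y hY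
        have h4 : ξ i (Y - X) = ξ i (Y - o) - ξ i (X - o) := by
          rw [← map_sub]
          congr 1
          abel
        have h5 : -C ≤ ξ i (Y - X) := by
          have h6 := hC1 i
          have h7 := le_abs_self (ξ i (X - o))
          have h8 : 0 ≤ |ξ i v| / c := by positivity
          linarith
        have h9 := mul_le_mul_of_nonneg_left h5 (inv_pos.2 hm).le
        rw [one_div]
        linarith
    · refine Fin.cases ?_ (fun i => ?_) i <;> refine Fin.cases ?_ (fun j => ?_) j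
      · simp only [Fin.cons_zero, ContinuousLinearMap.smul_apply, map_smul, smul_eq_mul, if_true,
          ← hcdef]
        have : (m * c)⁻¹ * (m * c) - 1 = 0 := by
          field_simp
          ring
        rw [this, abs_zero]
        exact hε
      · simp only [Fin.cons_zero, Fin.cons_succ, ContinuousLinearMap.smul_apply, map_smul, smul_eq_mul,
          h2, mul_zero, (Fin.succ_ne_zero j).symm, if_false, sub_zero, abs_zero]
        exact hε
      · simp only [Fin.cons_zero, Fin.cons_succ, ContinuousLinearMap.smul_apply, map_smul, smul_eq_mul,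
          Fin.succ_ne_zero i, if_false, sub_zero]
        have h3 : |(m * c)⁻¹ * (m⁻¹ * ξ i v)| = 1 / m * (m⁻¹ * (|ξ i v| / c)) := by
          rw [abs_mul, abs_mul, abs_of_pos (inv_pos.2 hm), abs_of_pos (inv_pos.2 (mul_pos hm hc))]
          field_simp
        rw [h3]
        refine mul_le_mul_of_nonneg_left ?_ (by positivity)
        have h4 : m⁻¹ ≤ 1 := inv_le_one_of_one_le₀ hm1
        have h5 : 0 ≤ |ξ i v| / c := by positivity
        have h6 := hC1 i
        have h7 := abs_nonneg (ξ i (X - o))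
        nlinarith
      · simp only [Fin.cons_succ, ContinuousLinearMap.smul_apply, map_smul, smul_eq_mul, hS.dual,
          Fin.succ_inj]
        have : m * (m⁻¹ * if i = j then (1 : ℝ) else 0) - (if i = j then (1 : ℝ) else 0) = 0 := by
          field_simp
          ring
        rw [this, abs_zero]
        exact hε
    · refine (hS.bdd_level hK.convex (4 * m + ∑ i, ξ i (X - o))).subset fun Y hY => ⟨hY.1, ?_⟩
      have h3 := hY.2
      rw [Fin.sum_univ_succ] at h3
      simp only [Fin.cons_zero, Fin.cons_succ, ContinuousLinearMap.smul_apply, smul_eq_mul,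
        ← Finset.mul_sum] at h3
      have h4 := mul_nonneg hm.le (h1 Y hY.1)
      have h5 : m⁻¹ * ∑ i, ξ i (Y - X) ≤ 4 := by linarith
      rw [inv_mul_le_iff₀ hm] at h5
      have h6 : ∑ i, ξ i (Y - o) = ∑ i, ξ i (Y - X) + ∑ i, ξ i (X - o) := by
        rw [← Finset.sum_add_distrib]
        refine Finset.sum_congr rfl fun i _ => ?_
        rw [← map_add]
        congr 1
        abel
      linarith
  · exact (tendsto_atTop_add_const_right _ _ tendsto_natCast_atTop_atTop).atTop_mul_const hc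
  · simpa using (tendsto_one_div_add_atTop_nhds_zero_nat (𝕜 := ℝ)).mul_const C

theorem wide_or_rk {r : ℕ} {K K' : Set F} {o : F} {e : Fin r → F} {ξ : Fin r → F →L[ℝ] ℝ}
    (hK : LL K K') (hS : Str K' o e ξ) : (∃ ρ, 0 < ρ ∧ Wide K' o e ξ ρ) ∨ Rk K (r + 1) := by
  by_cases h : ∃ ρ, 0 < ρ ∧ Wide K' o e ξ ρ
  · exact Or.inl h
  · push Not at h
    obtain ⟨K'', e', ξ', X, ζ, h1, h2, h3, h4, h5, h6⟩ := step_W hK hS h
    exact Or.inr (extend_W h1 h2 h3 h4 h5 h6)

end Crest.Agent.R236.Geo
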