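import Crest.Agent.R236.Jcp3
import Crest.Prelude.Def_AffineMaximal

/-!
# The Jörgens–Calabi–Pogorelov theorem

An entire smooth strictly convex solution of `det D²u = const` is a quadratic polynomial.
-/

set_option autoImplicit false
set_option maxSynthPendingDepth 3

noncomputable section

open scoped ContDiff
open Set Filter Topology Matrix
open Crest.GeometryTopology.CoordMetric Crest.GeometryTopology.AffineMaximal

namespace Crest.Agent.R236

open Crest.Agent.R238.AP

namespace Jcp

variable {E : Type*} [NormedAddCommGroup E] [NormedSpace ℝ E]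
variable {ι : Type*} [Fintype ι] [DecidableEq ι]

omit [DecidableEq ι] in
theorem D2_pos_of_hess {b : Module.Basis ι ℝ E} {u : E → ℝ} (hu : Sm u) {y : E}
    (h : (hess b u y).PosDef) {z : E} (hz : z ≠ 0) : 0 < D2 u y z z := by
  have hξ : (fun k => b.repr z k) ≠ 0 := by
    intro h0
    refine hz (b.repr.injective ?_)
    ext k
    simpa using congrFun h0 k
  have h1 := h.dotProduct_mulVec_pos hξ
  conv_rhs => rw [← b.sum_repr z]
  rw [bilin_comb]
  refine lt_of_lt_of_eq h1 ?_
  simp only [dotProduct, Matrix.mulVec, hess, Matrix.of_apply, dd_dd hu, star_trivial,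
    Finset.mul_sum]
  exact Finset.sum_congr rfl fun k _ => Finset.sum_congr rfl fun l _ => by ring

/-- Taylor's formula for a function with vanishing third derivative -/
theorem taylor_of_D3 {u : E → ℝ} (hu : Sm u) (h : ∀ y, D3 u y = 0) (x : E) :
    u x = 1 / 2 * D2 u 0 x x + dd x u 0 + u 0 := by
  have h2 : ∀ y, D2 u y = D2 u 0 := fun y =>
    is_const_of_fderiv_eq_zero (hu.cd2.differentiable (by simp)) h y 0
  have h3 : ∀ t : ℝ, dd x u (0 + t • x) - t * D2 u 0 x x = dd x u 0 := by
    intro t
    have hd : ∀ s : ℝ, HasDerivAt (fun s : ℝ => dd x u (0 + s • x) - s * D2 u 0 x x) 0 s := by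
      intro s
      have := (hasDerivAt_line (hu.dd x) 0 x s).sub ((hasDerivAt_id s).mul_const (D2 u 0 x x))
      rw [dd_dd hu, h2 (0 + s • x), one_mul, sub_self] at this
      exact this
    have := is_const_of_deriv_eq_zero (fun s => (hd s).differentiableAt) (fun s => (hd s).deriv) t 0
    simpa using this
  have hd : ∀ s : ℝ, HasDerivAt
      (fun s : ℝ => u (0 + s • x) - (s * s * (1 / 2 * D2 u 0 x x) + s * dd x u 0)) 0 s := by
    intro s
    have := (hasDerivAt_line hu 0 x s).sub
      ((((hasDerivAt_id s).mul (hasDerivAt_id s)).mul_const (1 / 2 * D2 u 0 x x)).add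
        ((hasDerivAt_id s).mul_const (dd x u 0)))
    refine HasDerivAt.congr_deriv this ?_
    have h4 := h3 s
    simp only [id]
    linarith
  have := is_const_of_deriv_eq_zero (fun s => (hd s).differentiableAt) (fun s => (hd s).deriv) 1 0
  simp only [one_smul, zero_add, one_mul, zero_smul, add_zero, zero_mul, sub_zero] at this
  linarith

/-- coordinate free form of the theorem -/
theorem D3_zero [FiniteDimensional ℝ E] {b : Module.Basis ι ℝ E} {u : E → ℝ} (hu : Sm u)
    (hpos : ∀ x, (hess b u x).PosDef) {k : ℝ} (hma : ∀ x, (hess b u x).det = k) (y : E) :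
    D3 u y = 0 := by
  set l : E → ℝ := fun x => fderiv ℝ u 0 x + u 0 with hl
  have hls : Sm l := (fderiv ℝ u 0).contDiff.add contDiff_const
  have hdl : ∀ z, dd z l = fun _ => dd z u 0 := by
    intro z
    funext x
    have : HasFDerivAt l (fderiv ℝ u 0) x := (fderiv ℝ u 0).hasFDerivAt.add_const _
    show fderiv ℝ l x z = _
    rw [this.fderiv]
    rfl
  set w : E → ℝ := fun x => u x - l x with hw
  have hws : Sm w := hu.sub hls
  have hd1 : ∀ z, dd z w = fun x => dd z u x - dd z u 0 := by
    intro z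
    rw [hw, dd_sub hu hls, hdl]
  have hd2 : ∀ z z', dd z (dd z' w) = dd z (dd z' u) := by
    intro z z'
    rw [hd1, dd_sub (hu.dd z') contDiff_const, dd_const]
    funext x
    simp
  have hH : ∀ x, hess b w x = hess b u x := fun x => by
    ext i j
    simp only [hess, Matrix.of_apply, hd2]
  have h := D3_eq_zero (ι := ι) hws
    (fun y z hz => D2_pos_of_hess (b := b) hws (by rw [hH]; exact hpos y) hz)
    (exists_fr (b := b) (k := k) hws (fun x => by rw [hH]; exact hpos x)
      (fun x => by rw [hH]; exact hma x))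
    (by simp [hw, hl]) (fun z => by rw [hd1]; simp) y
  ext p q r
  have := congrArg (fun L : E →L[ℝ] E →L[ℝ] E →L[ℝ] ℝ => L p q r) h
  simp only [← dd_dd_dd hws, hd2] at this
  rw [← dd_dd_dd hu]
  exact this

end Jcp

/-- **Jörgens–Calabi–Pogorelov** -/
theorem jcp {n : ℕ} (u : EuclideanSpace ℝ (Fin n) → ℝ) (hu : ContDiff ℝ ∞ u)
    (hpos : ∀ x, (hessianMat u x).PosDef) (k : ℝ) (hdet : ∀ x, (hessianMat u x).det = k) :
    ∃ (A : Matrix (Fin n) (Fin n) ℝ) (b : EuclideanSpace ℝ (Fin n)) (c : ℝ), A.PosDef ∧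
      ∀ x, u x = (1 / 2) * (∑ i, ∑ j, A i j * x i * x j) + (∑ i, b i * x i) + c := by
  set B := (EuclideanSpace.basisFun (Fin n) ℝ).toBasis with hB
  have hBi : ∀ i, B i = EuclideanSpace.single i 1 := fun i => by simp [hB]
  have hH : ∀ x, hess B u x = hessianMat u x := fun x => by
    ext i j
    simp only [hess, Matrix.of_apply, hBi]
    rfl
  have h3 := Jcp.D3_zero (b := B) (k := k) hu (fun x => by rw [hH]; exact hpos x)
    (fun x => by rw [hH]; exact hdet x)
  refine ⟨hessianMat u 0, WithLp.toLp 2 fun i => dd (B i) u 0, u 0, hpos 0, fun x => ?_⟩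
  rw [Jcp.taylor_of_D3 hu h3 x]
  have hx : ∑ k, x k • B k = x := by
    have := B.sum_repr x
    simpa [hB] using this
  have e1 : D2 u 0 x x = ∑ i, ∑ j, hessianMat u 0 i j * x i * x j := by
    conv_lhs => rw [← hx]
    rw [bilin_comb, ← hH]
    simp only [hess, Matrix.of_apply, dd_dd hu]
    exact Finset.sum_congr rfl fun k _ => Finset.sum_congr rfl fun l _ => by ring
  have e2 : dd x u 0 = ∑ i, dd (B i) u 0 * x i := by
    conv_lhs => rw [← hx]
    rw [Jcp.dd_comb]
    exact Finset.sum_congr rfl fun k _ => mul_comm _ _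
  rw [e1, e2]

end Crest.Agent.R236
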