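import Crest.Agent.R238.AP5

/-!
# Jörgens–Calabi–Pogorelov, part 1: frames, local second derivative test, maxima, coercivity
-/

set_option autoImplicit false
set_option maxSynthPendingDepth 3

noncomputable section

open scoped ContDiff
open Set Filter Topology Matrix

namespace Crest.Agent.R236.Jcp

open Crest.Agent.R238.AP

variable {E : Type*} [NormedAddCommGroup E] [NormedSpace ℝ E]
variable {ι : Type*} [Fintype ι] [DecidableEq ι]

section jet

variable {p : ℝ → ℝ} {a0 a1 a2 : ℝ}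

/-- local second derivative test -/
theorem jet_lmax (h : Jet p a0 a1 a2) (hm : ∀ᶠ s in 𝓝 (0 : ℝ), p s ≤ p 0) : a1 = 0 ∧ a2 ≤ 0 := by
  obtain ⟨-, p1, hp, h1, h2⟩ := h
  have hmax : IsLocalMax p 0 := hm
  have e1 : p1 0 = 0 := hmax.hasDerivAt_eq_zero (hp 0)
  refine ⟨h1 ▸ e1, ?_⟩
  by_contra hneg
  push Not at hneg
  have hd : deriv p = p1 := funext fun s => (hp s).deriv
  have hmin : IsLocalMin p 0 := by
    refine isLocalMin_of_deriv_deriv_pos ?_ ?_ (hp 0).continuousAt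
    · rw [hd, h2.deriv]
      exact hneg
    · rw [hd, e1]
  have hev : p =ᶠ[𝓝 0] fun _ => p 0 := by
    filter_upwards [hmin, hm] with s hs hs' using le_antisymm hs' hs
  have hev2 : p1 =ᶠ[𝓝 0] fun _ => 0 := by
    filter_upwards [hev.eventuallyEq_nhds] with s hs
    exact (hp s).unique ((hasDerivAt_const s (p 0)).congr_of_eventuallyEq hs)
  have := h2.unique ((hasDerivAt_const (0 : ℝ) (0 : ℝ)).congr_of_eventuallyEq hev2)
  exact hneg.ne' this

theorem jet_pow (h : Jet p 1 a1 a2) (k : ℕ) :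
    Jet (fun s => p s ^ k) 1 (k * a1) (k * a2 + k * (k - 1) * a1 ^ 2) := by
  induction k with
  | zero => simpa using Jet.const 1
  | succ k ih =>
    refine ((ih.mul h).congr_fun fun s => pow_succ _ _).congr (by ring) ?_ ?_
    · push_cast; ring
    · push_cast; ring

end jet

/-- an adapted frame at `x` for a solution of `det D²u = const` -/
structure Fr (ι : Type*) [Fintype ι] [DecidableEq ι] (u : E → ℝ) (x : E) where
  v : ι → E
  orth : ∀ i j, D2 u x (v i) (v j) = if i = j then 1 else 0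
  span : ∀ z, ∑ i, D2 u x z (v i) • v i = z
  e1 : ∀ e, ∑ i, D3 u x (v i) (v i) e = 0
  e2 : ∀ e, ∑ i, D2 (dd e (dd e u)) x (v i) (v i) = ∑ i, ∑ j, D3 u x (v i) (v j) e ^ 2
  e3 : ∀ e, ∑ i, D2 (dd e (dd e (dd e u))) x (v i) (v i) -
      3 * ∑ i, ∑ j, D3 u x (v i) (v j) e * D2 (dd e (dd e u)) x (v i) (v j) +
      2 * ∑ i, ∑ j, ∑ k, D3 u x (v i) (v j) e * D3 u x (v j) (v k) e * D3 u x (v k) (v i) e = 0

theorem Fr.D2_comb {u : E → ℝ} {x : E} (F : Fr ι u x) (ξ η : ι → ℝ) :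
    D2 u x (∑ k, ξ k • F.v k) (∑ k, η k • F.v k) = ∑ k, ξ k * η k := by
  rw [bilin_comb]
  simp [F.orth]

theorem exists_fr {b : Module.Basis ι ℝ E} {u : E → ℝ} (hu : Sm u)
    (hpos : ∀ x, (hess b u x).PosDef) {k : ℝ} (hma : ∀ x, (hess b u x).det = k) (x : E) :
    Nonempty (Fr ι u x) := by
  obtain ⟨P, lam, hl, hP, hPP, hdet, hinv⟩ := exists_frame_matrix _ (hpos x)
  set v : ι → E := fun i => ∑ k, P k i • b k with hv
  have hH : ∀ y, hess v u y = Pᵀ * hess b u y * P := by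
    intro y
    ext i j
    simp only [hess, Matrix.of_apply, dd_dd hu, hv, bilin_comb, Matrix.mul_apply,
      Matrix.transpose_apply, Finset.sum_mul]
    rw [Finset.sum_comm]
    exact Finset.sum_congr rfl fun k _ => Finset.sum_congr rfl fun l _ => by ring
  have hI : hess v u x = 1 := by rw [hH, hP]
  have hdv : ∀ y, (hess v u y).det = 1 := by
    intro y
    have h1 : ∀ y, (hess v u y).det = k * (P.det * P.det) := by
      intro y
      rw [hH, Matrix.det_mul, Matrix.det_mul, Matrix.det_transpose, hma]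
      ring
    rw [h1 y, ← h1 x, hI, Matrix.det_one]
  have key : ∀ e : E, (0 : ℝ) = ∑ i, D3 u x (v i) (v i) e ∧
      (0 : ℝ) = ∑ i, D2 (dd e (dd e u)) x (v i) (v i) -
        ∑ i, ∑ j, D3 u x (v i) (v j) e ^ 2 ∧
      (0 : ℝ) = ∑ i, D2 (dd e (dd e (dd e u))) x (v i) (v i) -
      3 * ∑ i, ∑ j, D3 u x (v i) (v j) e * D2 (dd e (dd e u)) x (v i) (v j) +
      2 * ∑ i, ∑ j, ∑ k, D3 u x (v i) (v j) e * D3 u x (v j) (v k) e * D3 u x (v k) (v i) e := by
    intro e
    have hM : ∀ (f : E → ℝ), Sm f → ∀ s, MD (fun t : ℝ => hess v f (x + t • e))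
        (hess v (dd e f) (x + s • e)) s := by
      intro f hf s i j
      have := hasDerivAt_line ((hf.dd (v j)).dd (v i)) x e s
      rw [dd_comm3 hf] at this
      exact this
    have h := logdet3 (M0 := fun t : ℝ => hess v u (x + t • e))
      (M1 := fun t : ℝ => hess v (dd e u) (x + t • e))
      (M2 := fun t : ℝ => hess v (dd e (dd e u)) (x + t • e))
      (M3 := fun t : ℝ => hess v (dd e (dd e (dd e u))) (x + t • e))
      (r0 := fun _ : ℝ => 0) (r1 := fun _ : ℝ => 0) (r2 := fun _ : ℝ => 0) (r3 := fun _ : ℝ => 0)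
      (hM u hu) (hM _ (hu.dd e)) (hM _ ((hu.dd e).dd e))
      (fun s => by rw [hdv]; exact one_ne_zero)
      (fun s => by rw [hdv, Real.log_one]) (fun s => hasDerivAt_const s 0)
      (fun s => hasDerivAt_const s 0) (fun s => hasDerivAt_const s 0) (by simpa using hI)
    simp only [zero_smul, add_zero, Matrix.trace, Matrix.diag_apply, Matrix.mul_apply, hess,
      Matrix.of_apply, dd_dd_dd hu, dd_dd ((hu.dd e).dd e), dd_dd (((hu.dd e).dd e).dd e),
      Finset.sum_mul] at h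
    obtain ⟨h1, h2, h3⟩ := h
    refine ⟨h1, ?_, ?_⟩
    · rw [h2]
      congr 1
      refine Finset.sum_congr rfl fun i _ => Finset.sum_congr rfl fun j _ => ?_
      rw [D3_symm12 hu x (v j) (v i), sq]
    · rw [h3]
      congr 2
      · congr 1
        refine Finset.sum_congr rfl fun i _ => Finset.sum_congr rfl fun j _ => ?_
        rw [D2_symm ((hu.dd e).dd e) x (v j) (v i)]
      · exact Finset.sum_congr rfl fun i _ => Finset.sum_comm
  refine ⟨⟨v, fun i j => ?_, fun z => ?_, fun e => (key e).1.symm, fun e => ?_,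
    fun e => (key e).2.2.symm⟩⟩
  · have := congrFun (congrFun hI i) j
    rw [← dd_dd hu]
    simpa [hess, Matrix.one_apply] using this
  · have h1 : ∀ i, D2 u x z (v i) = ∑ k, ∑ l, b.repr z k * P l i * hess b u x k l := by
      intro i
      conv_lhs => rw [← b.sum_repr z]
      rw [hv, bilin_comb]
      simp only [hess, Matrix.of_apply, dd_dd hu]
    have hs : ∀ k l, hess b u x k l = hess b u x l k := fun k l => by
      simp only [hess, Matrix.of_apply, dd_dd hu, D2_symm hu x (b k) (b l)]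
    conv_rhs => rw [← b.sum_repr z]
    simp only [h1]
    simp only [hv, Finset.smul_sum, smul_smul]
    rw [Finset.sum_comm]
    refine Finset.sum_congr rfl fun m _ => ?_
    rw [← Finset.sum_smul]
    congr 1
    have h2 : ∀ k, ∑ l, (∑ i, P m i * P l i) * hess b u x l k = if m = k then 1 else 0 := by
      intro k
      have := congrFun (congrFun hinv m) k
      simpa [Matrix.mul_apply, Matrix.one_apply] using this
    calc ∑ i, (∑ k, ∑ l, b.repr z k * P l i * hess b u x k l) * P m i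
        = ∑ k, b.repr z k * ∑ l, (∑ i, P m i * P l i) * hess b u x l k := by
          simp only [Finset.sum_mul, Finset.mul_sum]
          rw [Finset.sum_comm]
          refine Finset.sum_congr rfl fun k _ => ?_
          rw [Finset.sum_comm]
          refine Finset.sum_congr rfl fun l _ => Finset.sum_congr rfl fun i _ => ?_
          rw [hs k l]
          ring
      _ = b.repr z m := by simp [h2]
  · have := (key e).2.1
    linarith

/-- existence of a maximum of `a(y,z)² c(y) / D²u(y)(z,z)^m` -/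
theorem exists_max [FiniteDimensional ℝ E] {u : E → ℝ} (hu : Sm u)
    (hD2 : ∀ y z, z ≠ 0 → 0 < D2 u y z z) {K : Set E} (hK : IsCompact K) (hne : K.Nonempty)
    {a : E → E → ℝ} (ha : Continuous fun p : E × E => a p.1 p.2) {m : ℕ} (hm : Odd m)
    (hom : ∀ y z (s : ℝ), a y (s • z) = s ^ m * a y z) {c : E → ℝ} (hc : Continuous c)
    {z1 : E} (hz1 : z1 ≠ 0) :
    ∃ x ∈ K, ∃ e, D2 u x e e = 1 ∧ 0 ≤ a x e ∧
      ∀ y ∈ K, ∀ z, a y z ^ 2 * c y ≤ a x e ^ 2 * c x * D2 u y z z ^ m := by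
  have : ProperSpace E := FiniteDimensional.proper_real E
  set G : E × E → ℝ := fun p => a p.1 p.2 ^ 2 * c p.1 / D2 u p.1 p.2 p.2 ^ m with hG
  have hne' : ∀ z ∈ Metric.sphere (0 : E) 1, z ≠ 0 := fun z hz h => by simp [h] at hz
  have hz2s : ‖z1‖⁻¹ • z1 ∈ Metric.sphere (0 : E) 1 := by
    simp [norm_smul, inv_mul_cancel₀ (norm_ne_zero_iff.mpr hz1)]
  have hcomp : IsCompact (K ×ˢ Metric.sphere (0 : E) 1) := hK.prod (isCompact_sphere 0 1)
  have hcont : ContinuousOn G (K ×ˢ Metric.sphere (0 : E) 1) := by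
    have c2 : Continuous fun p : E × E => D2 u p.1 p.2 p.2 :=
      ((hu.cd2.continuous.comp continuous_fst).clm_apply continuous_snd).clm_apply continuous_snd
    exact ((ha.pow 2).mul (hc.comp continuous_fst)).continuousOn.div (c2.pow m).continuousOn
      fun p hp => (pow_pos (hD2 _ _ (hne' _ hp.2)) m).ne'
  obtain ⟨y0, hy0⟩ := hne
  obtain ⟨⟨x0, z0⟩, hp0, hmax⟩ := hcomp.exists_isMaxOn ⟨(y0, _), hy0, hz2s⟩ hcont
  have hz0 := hD2 x0 z0 (hne' _ hp0.2)
  set s := (Real.sqrt (D2 u x0 z0 z0))⁻¹ with hs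
  have hs2 : s ^ 2 * D2 u x0 z0 z0 = 1 := by
    rw [hs, inv_pow, Real.sq_sqrt hz0.le, inv_mul_cancel₀ hz0.ne']
  have hs6 : (s ^ m * a x0 z0) ^ 2 * c x0 = a x0 z0 ^ 2 * c x0 / D2 u x0 z0 z0 ^ m := by
    rw [eq_div_iff (pow_pos hz0 m).ne']
    calc _ = a x0 z0 ^ 2 * c x0 * (s ^ 2 * D2 u x0 z0 z0) ^ m := by ring
      _ = _ := by rw [hs2]; ring
  have fin : ∀ y ∈ K, ∀ z, a y z ^ 2 * c y ≤
      (s ^ m * a x0 z0) ^ 2 * c x0 * D2 u y z z ^ m := by
    intro y hy z
    by_cases hz : z = 0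
    · have h0 : a y 0 = 0 := by
        have := hom y 0 0
        rw [zero_smul, zero_pow hm.pos.ne', zero_mul] at this
        exact this
      simp [hz, h0, zero_pow hm.pos.ne']
    have hn : 0 < ‖z‖ := norm_pos_iff.mpr hz
    have h1 : G (y, ‖z‖⁻¹ • z) ≤ G (x0, z0) :=
      hmax (show (y, ‖z‖⁻¹ • z) ∈ K ×ˢ Metric.sphere (0 : E) 1 from
        ⟨hy, by simp [norm_smul, inv_mul_cancel₀ hn.ne']⟩)
    simp only [hG, hom, D2_smul] at h1
    have h2 : (‖z‖⁻¹ ^ m * a y z) ^ 2 * c y / (‖z‖⁻¹ ^ 2 * D2 u y z z) ^ m =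
        a y z ^ 2 * c y / D2 u y z z ^ m := by
      have := (hD2 y z hz).ne'
      have h3 : (‖z‖⁻¹ ^ m) ^ 2 ≠ 0 := by positivity
      rw [mul_pow, mul_pow, ← pow_mul ‖z‖⁻¹ 2 m, mul_comm 2 m, pow_mul, mul_assoc,
        mul_div_mul_left _ _ h3]
    rw [h2] at h1
    rw [hs6, ← div_le_iff₀ (pow_pos (hD2 y z hz) m)]
    exact h1
  by_cases hsign : 0 ≤ s ^ m * a x0 z0
  · refine ⟨x0, hp0.1, s • z0, by rw [D2_smul, hs2], by rwa [hom], fun y hy z => ?_⟩
    rw [hom]
    exact fin y hy z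
  · refine ⟨x0, hp0.1, (-s) • z0, by rw [D2_smul, neg_sq, hs2], ?_, fun y hy z => ?_⟩
    · rw [hom, hm.neg_pow]
      linarith
    · rw [hom, hm.neg_pow, neg_mul, neg_sq]
      exact fin y hy z

/-- the radial derivative is monotone -/
theorem radial_mono {u : E → ℝ} (hu : Sm u) (hD2 : ∀ y z, z ≠ 0 → 0 < D2 u y z z) {z : E}
    (hz : z ≠ 0) : StrictMono fun t : ℝ => dd z u (0 + t • z) := by
  refine strictMono_of_deriv_pos fun t => ?_
  rw [(hasDerivAt_line (hu.dd z) 0 z t).deriv, dd_dd hu]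
  exact hD2 _ _ hz

theorem radial_ge {u : E → ℝ} (hu : Sm u) (hD2 : ∀ y z, z ≠ 0 → 0 < D2 u y z z) {z : E}
    (hz : z ≠ 0) {s t : ℝ} (hst : s ≤ t) :
    dd z u (s • z) * (t - s) ≤ u (t • z) - u (s • z) := by
  have h := (convex_Ici s).mul_sub_le_image_sub_of_le_deriv (f := fun t : ℝ => u (0 + t • z))
    (C := dd z u (s • z))
    (fun t _ => (hasDerivAt_line hu 0 z t).continuousAt.continuousWithinAt)
    (fun t _ => (hasDerivAt_line hu 0 z t).differentiableAt.differentiableWithinAt)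
    (fun t ht => by
      rw [(hasDerivAt_line hu 0 z t).deriv]
      have := (radial_mono hu hD2 hz).monotone (interior_subset ht : s ≤ t)
      simpa using this) s (mem_Ici.mpr le_rfl) t (mem_Ici.mpr hst) hst
  simpa using h

theorem nonneg_of_crit {u : E → ℝ} (hu : Sm u) (hD2 : ∀ y z, z ≠ 0 → 0 < D2 u y z z)
    (h0 : u 0 = 0) (h1 : ∀ z, dd z u 0 = 0) (x : E) : 0 ≤ u x := by
  by_cases hx : x = 0
  · rw [hx, h0]
  have := radial_ge hu hD2 hx (zero_le_one)
  simp only [zero_smul, one_smul, h1, h0] at this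
  linarith

theorem compact_sub [FiniteDimensional ℝ E] {u : E → ℝ} (hu : Sm u)
    (hD2 : ∀ y z, z ≠ 0 → 0 < D2 u y z z) (h0 : u 0 = 0) (h1 : ∀ z, dd z u 0 = 0) (h : ℝ) :
    IsCompact {x | u x ≤ h} := by
  have : ProperSpace E := FiniteDimensional.proper_real E
  have hne' : ∀ z ∈ Metric.sphere (0 : E) 1, z ≠ 0 := fun z hz h => by simp [h] at hz
  obtain ⟨m, hm, hmle⟩ : ∃ m : ℝ, 0 < m ∧ ∀ z ∈ Metric.sphere (0 : E) 1, m ≤ eu u z := by
    refine (isCompact_sphere (0 : E) 1).exists_forall_le' hu.eu.continuous.continuousOn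
      fun z hz => ?_
    have := radial_mono hu hD2 (hne' z hz) zero_lt_one
    simp only [zero_smul, add_zero, one_smul, zero_add, h1] at this
    exact this
  refine Metric.isCompact_of_isClosed_isBounded (isClosed_le hu.continuous continuous_const) ?_
  refine (Metric.isBounded_closedBall (x := (0 : E)) (r := 1 + |h| / m)).subset fun x hx => ?_
  rw [mem_closedBall_zero_iff]
  by_contra hlt
  push Not at hlt
  have hd : 0 ≤ |h| / m := by positivity
  have hn : 0 < ‖x‖ := by linarith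
  have hz : ‖x‖⁻¹ • x ∈ Metric.sphere (0 : E) 1 := by
    simp [norm_smul, inv_mul_cancel₀ hn.ne']
  have h2 := radial_ge hu hD2 (hne' _ hz) (show (1 : ℝ) ≤ ‖x‖ by linarith)
  rw [one_smul, smul_smul, mul_inv_cancel₀ hn.ne', one_smul, ← eu_eq] at h2
  have h3 := hmle _ hz
  have h4 := nonneg_of_crit hu hD2 h0 h1 (‖x‖⁻¹ • x)
  have h5 : |h| < m * (‖x‖ - 1) := by
    have : |h| / m < ‖x‖ - 1 := by linarith
    rw [div_lt_iff₀ hm] at this
    linarith
  have h6 : m * (‖x‖ - 1) ≤ eu u (‖x‖⁻¹ • x) * (‖x‖ - 1) :=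
    mul_le_mul_of_nonneg_right h3 (by linarith)
  have h7 : u x ≤ h := hx
  linarith [le_abs_self h]

end Crest.Agent.R236.Jcp
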