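import Crest.Agent.R236.Jcp1

/-!
# Jörgens–Calabi–Pogorelov, part 2: the gradient estimate `u^{ij} u_i u_j ≤ C h` on `{u < h}`

We maximise `u_e² (h - u)^n / u_ee` over `x` and `e`.
-/

set_option autoImplicit false
set_option maxSynthPendingDepth 3

noncomputable section

open scoped ContDiff
open Set Filter Topology Matrix

namespace Crest.Agent.R236.Jcp

open Crest.Agent.R238.AP

variable {E : Type*} [NormedAddCommGroup E] [NormedSpace ℝ E]
variable {ι : Type*} [Fintype ι] [DecidableEq ι]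
variable {u : E → ℝ} {x : E}

theorem dd_add_smul (f : E → ℝ) (y e w : E) (s : ℝ) :
    dd (e + s • w) f y = dd e f y + s * dd w f y := by
  simp [dd]

omit [DecidableEq ι] in
theorem dd_comb (f : E → ℝ) (y : E) (v : ι → E) (ξ : ι → ℝ) :
    dd (∑ k, ξ k • v k) f y = ∑ k, ξ k * dd (v k) f y := by
  simp [dd]

/-- jet of `s ↦ Du(x + s v)(e + s w)` -/
theorem jet_g (hu : Sm u) (x e v w : E) :
    Jet (fun s => dd (e + s • w) u (x + s • v)) (dd e u x) (D2 u x v e + dd w u x)
      (D3 u x v v e + 2 * D2 u x v w) := by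
  have h0 := Jet.line (hu.dd e) x v
  have h1 := Jet.line (hu.dd w) x v
  have h := h0.add (Jet.id.mul h1)
  refine (h.congr_fun fun s => dd_add_smul _ _ _ _ _).congr ?_ ?_ ?_
  · simp
  · simp [dd_dd hu]
  · simp only [dd_dd hu, dd_dd_dd hu]
    ring

/-- jet of the normalised cutoff `(h - u)/(h - u x)` -/
theorem jet_c (hu : Sm u) {h : ℝ} (hx : u x < h) (v : E) :
    Jet (fun s => (h - u x)⁻¹ * (h - u (x + s • v))) 1 (-(dd v u x / (h - u x)))
      (-(D2 u x v v / (h - u x))) := by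
  have h0 := (Jet.const (h - u x)⁻¹).mul ((Jet.const h).sub (Jet.line hu x v))
  have : h - u x ≠ 0 := by linarith
  refine h0.congr (by field_simp) ?_ ?_
  · field_simp
    ring
  · rw [dd_dd hu]
    field_simp
    ring

theorem ev_line (hu : Sm u) {h : ℝ} (hx : u x < h) (v : E) :
    ∀ᶠ s in 𝓝 (0 : ℝ), u (x + s • v) ≤ h := by
  have hc : ContinuousAt (fun s : ℝ => u (x + s • v)) 0 := (hasDerivAt_line hu x v 0).continuousAt
  have := hc.eventually (gt_mem_nhds (show u (x + (0 : ℝ) • v) < h by simpa using hx))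
  exact this.mono fun s hs => le_of_lt hs

theorem grad_line (hu : Sm u) {h : ℝ} (hx : u x < h) {e : E} (he : D2 u x e e = 1) (k : ℕ)
    (hmax : ∀ y, u y ≤ h → ∀ z, dd z u y ^ 2 * (h - u y) ^ k ≤
      dd e u x ^ 2 * (h - u x) ^ k * D2 u y z z ^ 1) (v w : E)
    {a a1 a2 b1 b2 g1 g2 : ℝ} (ha : a = dd e u x)
    (ha1 : a1 = D2 u x v e + dd w u x) (ha2 : a2 = D3 u x v v e + 2 * D2 u x v w)
    (hb1 : b1 = D3 u x v e e + 2 * D2 u x w e)
    (hb2 : b2 = D2 (dd e (dd e u)) x v v + 4 * D3 u x v w e + 2 * D2 u x w w)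
    (hg1 : g1 = -(dd v u x / (h - u x))) (hg2 : g2 = -(D2 u x v v / (h - u x))) :
    2 * a * a1 + a ^ 2 * (k * g1) - a ^ 2 * b1 = 0 ∧
      2 * a1 ^ 2 + 2 * a * a2 + 4 * a * a1 * (k * g1) +
        a ^ 2 * (k * g2 + k * (k - 1) * g1 ^ 2) - a ^ 2 * b2 ≤ 0 := by
  have ja := jet_g hu x e v w
  have jb := jet_b hu x e v w
  have jc := jet_pow (jet_c hu hx v) k
  rw [← ha, ← ha1, ← ha2] at ja
  rw [← hb1, ← hb2, he] at jb
  rw [← hg1, ← hg2] at jc
  have hc : 0 < h - u x := by linarith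
  have h := jet_lmax (((ja.mul ja).mul jc).sub ((Jet.const (a ^ 2)).mul jb)) (by
    filter_upwards [ev_line hu hx v] with s hs
    have h1 := hmax _ hs (e + s • w)
    simp only [zero_smul, add_zero, he, ← ha, inv_mul_cancel₀ hc.ne', one_pow, pow_one] at h1 ⊢
    have h2 : 0 < (h - u x)⁻¹ ^ k := by positivity
    have h3 := mul_le_mul_of_nonneg_left h1 h2.le
    have h4 : (h - u x)⁻¹ ^ k * (h - u x) ^ k = 1 := by
      rw [← mul_pow, inv_mul_cancel₀ hc.ne', one_pow]
    rw [mul_pow]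
    have h5 : (h - u x)⁻¹ ^ k * (a ^ 2 * (h - u x) ^ k * D2 u (x + s • v) (e + s • w) (e + s • w))
        = a ^ 2 * D2 u (x + s • v) (e + s • w) (e + s • w) := by
      linear_combination (a ^ 2 * D2 u (x + s • v) (e + s • w) (e + s • w)) * h4
    rw [h5] at h3
    nlinarith)
  obtain ⟨h1, h2⟩ := h
  constructor <;> nlinarith

/-- a traceless matrix: `n t(η,η)² ≤ (n-1) |t|²` -/
theorem traceless_cs (t : ι → ι → ℝ) (η : ι → ℝ) (htr : ∑ i, t i i = 0)
    (hη : ∑ i, η i * η i = 1) :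
    (Fintype.card ι : ℝ) * (∑ i, ∑ k, t i k * η k * η i) ^ 2 ≤
      ((Fintype.card ι : ℝ) - 1) * ∑ i, ∑ k, t i k ^ 2 := by
  set n : ℝ := ((Fintype.card ι : ℕ) : ℝ) with hn
  have hn0 : 0 < n := by
    rcases isEmpty_or_nonempty ι with h | h
    · simp at hη
    · rw [hn]; exact_mod_cast Fintype.card_pos
  set Q : ι × ι → ℝ := fun p => n * (η p.2 * η p.1) - if p.1 = p.2 then 1 else 0 with hQ
  have h1 := Finset.sum_mul_sq_le_sq_mul_sq Finset.univ (fun p : ι × ι => t p.1 p.2) Q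
  simp only [Fintype.sum_prod_type] at h1
  have h2 : ∑ i, ∑ k, t i k * Q (i, k) = n * ∑ i, ∑ k, t i k * η k * η i := by
    simp only [hQ, mul_sub, Finset.sum_sub_distrib, mul_ite, mul_one, mul_zero,
      Finset.sum_ite_eq, Finset.mem_univ, if_true, htr, sub_zero, Finset.mul_sum]
    exact Finset.sum_congr rfl fun i _ => Finset.sum_congr rfl fun k _ => by ring
  have h3 : ∑ i, ∑ k, Q (i, k) ^ 2 = n * (n - 1) := by
    have e1 : ∀ i k, Q (i, k) ^ 2 = n ^ 2 * ((η i * η i) * (η k * η k)) +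
        if i = k then 1 - 2 * n * (η i * η i) else 0 := by
      intro i k
      by_cases hik : i = k
      · subst hik
        simp only [hQ, if_true]
        ring
      · simp only [hQ, hik, if_false]
        ring
    simp only [e1, Finset.sum_add_distrib, Finset.sum_ite_eq, Finset.mem_univ, if_true,
      ← Finset.mul_sum, hη, mul_one, Finset.sum_sub_distrib, Finset.sum_const, Finset.card_univ,
      nsmul_eq_mul, ← hn]
    ring
  rw [h2, h3] at h1
  have h4 : n * (n * (∑ i, ∑ k, t i k * η k * η i) ^ 2) ≤ n * ((n - 1) * ∑ i, ∑ k, t i k ^ 2) := by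
    nlinarith
  exact le_of_mul_le_mul_left h4 hn0

/-- the estimate at the maximum point -/
theorem grad_point (hu : Sm u) (F : Fr ι u x) {h : ℝ} (hx : u x < h) {e : E}
    (he : D2 u x e e = 1) (hpos : 0 < dd e u x)
    (hmax : ∀ y, u y ≤ h → ∀ z, dd z u y ^ 2 * (h - u y) ^ Fintype.card ι ≤
      dd e u x ^ 2 * (h - u x) ^ Fintype.card ι * D2 u y z z ^ 1) :
    dd e u x ^ 2 ≤ (Fintype.card ι : ℝ) * (Fintype.card ι + 3) * (h - u x) := by
  set a := dd e u x with ha
  set n : ℝ := ((Fintype.card ι : ℕ) : ℝ) with hn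
  set c := h - u x with hc
  have hc0 : 0 < c := by linarith
  have hl := fun v w => grad_line hu hx he (Fintype.card ι) hmax v w ha rfl rfl rfl rfl rfl rfl
  rw [← hn, ← hc] at hl
  have hdir : ∀ w, dd w u x = a * D2 u x w e := by
    intro w
    have h1 := (hl 0 w).1
    simp only [dd_zero, map_zero, _root_.zero_apply, zero_add, mul_zero, zero_div, neg_zero,
      add_zero] at h1
    have : a * (dd w u x - a * D2 u x w e) = 0 := by linarith
    rcases mul_eq_zero.mp this with h | h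
    · exact absurd h hpos.ne'
    · linarith
  set η : ι → ℝ := fun k => D2 u x e (F.v k) with hη
  set t : ι → ι → ℝ := fun i k => D3 u x (F.v i) (F.v k) e with ht
  have hes : ∑ k, η k • F.v k = e := F.span e
  have hηη : ∑ k, η k * η k = 1 := by rw [← F.D2_comb, hes, he]
  have hve : ∀ i, D2 u x (F.v i) e = η i := fun i => D2_symm hu x _ _
  have hD2e : ∀ y : ι → ℝ, D2 u x (∑ k, y k • F.v k) e = ∑ k, y k * η k := by
    intro y
    conv_lhs => rw [← hes]
    rw [F.D2_comb]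
  set τ : ι → ℝ := fun i => D3 u x (F.v i) e e with hτ
  have hte : ∀ i, ∑ k, t i k * η k = τ i := by
    intro i
    simp only [hτ]
    rw [← congrArg (fun y => D3 u x (F.v i) y e) hes]
    simp only [map_sum, map_smul, _root_.sum_apply, _root_.smul_apply, smul_eq_mul]
    exact Finset.sum_congr rfl fun k _ => mul_comm _ _
  set w0 : ι → E := fun i => ∑ k, t i k • F.v k with hw0
  set w : ι → E := fun i => a⁻¹ • F.v i - w0 i with hw
  have v1 : ∀ i, D2 u x (w0 i) e = τ i := fun i => by rw [hw0, hD2e, hte]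
  have v2 : ∀ i, D2 u x (F.v i) (w0 i) = t i i := by
    intro i
    simp [hw0, F.orth]
  have v3 : ∀ i, D2 u x (w0 i) (w0 i) = ∑ k, t i k ^ 2 := by
    intro i
    rw [hw0, F.D2_comb]
    exact Finset.sum_congr rfl fun k _ => by ring
  have v4 : ∀ i, D3 u x (F.v i) (w0 i) e = ∑ k, t i k ^ 2 := by
    intro i
    simp only [hw0, map_sum, map_smul, _root_.sum_apply, _root_.smul_apply, smul_eq_mul]
    exact Finset.sum_congr rfl fun k _ => by simp only [ht]; ring
  have hvv : ∀ i, D2 u x (F.v i) (F.v i) = 1 := fun i => by rw [F.orth, if_pos rfl]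
  have w1 : ∀ i, D2 u x (w i) e = a⁻¹ * η i - τ i := by
    intro i
    simp only [hw, map_sub, map_smul, _root_.sub_apply, _root_.smul_apply, smul_eq_mul, v1, hve]
  have w2 : ∀ i, D2 u x (F.v i) (w i) = a⁻¹ - t i i := by
    intro i
    simp only [hw, map_sub, map_smul, smul_eq_mul, v2, hvv, mul_one]
  have w3 : ∀ i, D2 u x (w i) (w i) = a⁻¹ ^ 2 - 2 * a⁻¹ * t i i + ∑ k, t i k ^ 2 := by
    intro i
    simp only [hw, map_sub, map_smul, _root_.sub_apply, _root_.smul_apply, smul_eq_mul, v2, v3,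
      hvv, D2_symm hu x (w0 i) (F.v i)]
    ring
  have w4 : ∀ i, D3 u x (F.v i) (w i) e = a⁻¹ * t i i - ∑ k, t i k ^ 2 := by
    intro i
    simp only [hw, map_sub, map_smul, _root_.sub_apply, _root_.smul_apply, smul_eq_mul, v4]
    rfl
  set σ := a ^ 2 / c with hσ
  have hai : a * a⁻¹ = 1 := mul_inv_cancel₀ hpos.ne'
  have hi1 : ∀ i, a * τ i = (2 - n * σ) * η i := by
    intro i
    have h1 := (hl (F.v i) (w i)).1
    rw [hdir (w i), hdir (F.v i), w1, hve] at h1
    have h2 : a * (a * τ i - (2 - n * σ) * η i) = 0 := by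
      simp only [hσ]
      have e : D3 u x (F.v i) e e = τ i := rfl
      rw [e] at h1
      have : a ^ 2 * a⁻¹ = a := by rw [sq, mul_assoc, hai, mul_one]
      linear_combination (-1 : ℝ) * h1 + (2 * η i - 2 * η i) * this
    rcases mul_eq_zero.mp h2 with h | h
    · exact absurd h hpos.ne'
    · linarith
  have hi2 : ∀ i, -(n ^ 2 + n) * σ ^ 2 * (η i * η i) + 2 - 2 * a * t i i - n * σ -
      a ^ 2 * (D2 (dd e (dd e u)) x (F.v i) (F.v i) - 2 * ∑ k, t i k ^ 2) ≤ 0 := by
    intro i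
    have h1 := (hl (F.v i) (w i)).2
    rw [hdir (w i), hdir (F.v i), w1, w2, w3, w4, hve, hvv] at h1
    have e : D3 u x (F.v i) (F.v i) e = t i i := rfl
    rw [e] at h1
    have e1 : η i + a * (a⁻¹ * η i - τ i) = n * σ * η i := by
      linear_combination (η i) * hai - hi1 i
    rw [e1] at h1
    refine le_of_eq_of_le ?_ h1
    simp only [hσ]
    field_simp
    ring
  have s1 := Finset.sum_le_sum fun i (_ : i ∈ Finset.univ) => hi2 i
  have htr : ∑ i, t i i = 0 := F.e1 e
  simp only [Finset.sum_sub_distrib, Finset.sum_add_distrib, ← Finset.mul_sum, hηη, htr,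
    Finset.sum_const, Finset.card_univ, nsmul_eq_mul, ← hn, F.e2 e] at s1
  have s2 := traceless_cs t η htr hηη
  rw [← hn] at s2
  have s3 : a * ∑ i, ∑ k, t i k * η k * η i = 2 - n * σ := by
    simp only [← Finset.sum_mul, hte]
    rw [Finset.mul_sum, ← mul_one (2 - n * σ), ← hηη, Finset.mul_sum]
    exact Finset.sum_congr rfl fun i _ => by linear_combination η i * hi1 i
  set S2 := ∑ i, ∑ k, t i k ^ 2 with hS2
  have hn1 : 1 ≤ n := by
    rcases isEmpty_or_nonempty ι with h | h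
    · simp at hηη
    · rw [hn]; exact_mod_cast Fintype.card_pos
  have hσ0 : 0 < σ := by positivity
  have s4 : n * (2 - n * σ) ^ 2 ≤ (n - 1) * (a ^ 2 * S2) := by
    rw [← s3]
    nlinarith [mul_le_mul_of_nonneg_left s2 (sq_nonneg a)]
  have s5 : a ^ 2 * S2 ≤ n * ((n + 1) * σ ^ 2 + n * σ) := by nlinarith
  have s6 : n * (2 - n * σ) ^ 2 ≤ n * ((n - 1) * ((n + 1) * σ ^ 2 + n * σ)) := by
    nlinarith [mul_le_mul_of_nonneg_left s5 (show 0 ≤ n - 1 by linarith)]
  have s7 := le_of_mul_le_mul_left s6 (show 0 < n by linarith)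
  have s8 : σ * σ ≤ σ * (n * (n + 3)) := by nlinarith
  have s9 := le_of_mul_le_mul_left s8 hσ0
  rw [hσ, div_le_iff₀ hc0] at s9
  exact s9

/-- the gradient estimate -/
theorem grad_est [FiniteDimensional ℝ E] (hu : Sm u) (hD2 : ∀ y z, z ≠ 0 → 0 < D2 u y z z)
    (hF : ∀ x, Nonempty (Fr ι u x)) (h0 : u 0 = 0) (h1 : ∀ z, dd z u 0 = 0) {h : ℝ} (hh : 0 < h)
    {y : E} (hy : u y ≤ h) (z : E) :
    dd z u y ^ 2 ≤ (Fintype.card ι : ℝ) * (Fintype.card ι + 3) * 2 ^ (Fintype.card ι + 1) * h *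
      D2 u y z z := by
  by_cases hz : z = 0
  · simp [hz, dd_zero]
  set k := Fintype.card ι with hk
  obtain ⟨x, hx, e, he, hpos, hmax⟩ := exists_max hu hD2 (compact_sub hu hD2 h0 h1 (2 * h))
    ⟨0, by simp [h0, hh.le]⟩ (a := fun y z => dd z u y)
    ((hu.cd1.continuous.comp continuous_fst).clm_apply continuous_snd) odd_one
    (fun y z s => by simp [dd]) (c := fun y => (2 * h - u y) ^ k)
    ((continuous_const.sub hu.continuous).pow k) hz
  have hx' : u x ≤ 2 * h := hx
  have hux := nonneg_of_crit hu hD2 h0 h1 x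
  have hD := (hD2 y z hz).le
  have hM : dd e u x ^ 2 * (2 * h - u x) ^ k ≤ (k : ℝ) * (k + 3) * (2 * h) ^ (k + 1) := by
    rcases hpos.eq_or_lt with hp | hp
    · rw [← hp]
      simp only [ne_eq, OfNat.ofNat_ne_zero, not_false_eq_true, zero_pow, zero_mul]
      positivity
    rcases hx'.eq_or_lt with hx2 | hx2
    · have hk0 : k ≠ 0 := by
        intro hk0
        obtain ⟨F⟩ := hF x
        have : IsEmpty ι := Fintype.card_eq_zero_iff.mp hk0
        have h3 := F.span z
        simp at h3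
        exact hz h3.symm
      rw [hx2, sub_self, zero_pow hk0, mul_zero]
      positivity
    obtain ⟨F⟩ := hF x
    have h3 := grad_point hu F hx2 he hp fun y hy z => hmax y hy z
    have h4 : 0 ≤ 2 * h - u x := by linarith
    calc _ ≤ (k : ℝ) * (k + 3) * (2 * h - u x) * (2 * h - u x) ^ k :=
          mul_le_mul_of_nonneg_right h3 (pow_nonneg h4 k)
      _ = (k : ℝ) * (k + 3) * (2 * h - u x) ^ (k + 1) := by ring
      _ ≤ _ := mul_le_mul_of_nonneg_left (pow_le_pow_left₀ h4 (by linarith) _) (by positivity)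
  have h5 := hmax y (show u y ≤ 2 * h by linarith) z
  simp only [pow_one] at h5
  have h6 : h ^ k ≤ (2 * h - u y) ^ k := pow_le_pow_left₀ hh.le (by linarith) k
  have h7 : h ^ k * dd z u y ^ 2 ≤
      h ^ k * ((k : ℝ) * (k + 3) * 2 ^ (k + 1) * h * D2 u y z z) := by
    calc _ ≤ (2 * h - u y) ^ k * dd z u y ^ 2 := mul_le_mul_of_nonneg_right h6 (sq_nonneg _)
      _ ≤ dd e u x ^ 2 * (2 * h - u x) ^ k * D2 u y z z := by linarith
      _ ≤ (k : ℝ) * (k + 3) * (2 * h) ^ (k + 1) * D2 u y z z := mul_le_mul_of_nonneg_right hM hD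
      _ = _ := by ring
  exact le_of_mul_le_mul_left h7 (pow_pos hh k)

end Crest.Agent.R236.Jcp
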