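import Crest.Agent.R236.Jcp2

/-!
# Jörgens–Calabi–Pogorelov, part 3: Calabi's estimate with the cutoff `(h - u)²`

We maximise `u_eee² (h - u)² / u_ee³` over `x` and `e`.
-/

set_option autoImplicit false
set_option maxSynthPendingDepth 3

noncomputable section

open scoped ContDiff
open Set Filter Topology Matrix

namespace Crest.Agent.R236.Jcp

open Crest.Agent.R238.AP

variable {E : Type*} [NormedAddCommGroup E] [NormedSpace ℝ E]
variable {ι : Type*} [Fintype ι] [DecidableEq ι]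
variable {u : E → ℝ} {x : E}

theorem cal_line' (hu : Sm u) {h : ℝ} (hx : u x < h) {e : E} (he : D2 u x e e = 1)
    (hmax : ∀ y, u y ≤ h → ∀ z, D3 u y z z z ^ 2 * (h - u y) ^ 2 ≤
      D3 u x e e e ^ 2 * (h - u x) ^ 2 * D2 u y z z ^ 3) (v w : E)
    {a a1 a2 b1 b2 g1 g2 : ℝ} (ha : a = D3 u x e e e)
    (ha1 : a1 = dd v (dd e (dd e (dd e u))) x + 3 * D3 u x w e e)
    (ha2 : a2 = D2 (dd e (dd e (dd e u))) x v v + 6 * D2 (dd e (dd e u)) x v w +
      6 * D3 u x w w e)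
    (hb1 : b1 = D3 u x v e e + 2 * D2 u x w e)
    (hb2 : b2 = D2 (dd e (dd e u)) x v v + 4 * D3 u x v w e + 2 * D2 u x w w)
    (hg1 : g1 = -(dd v u x / (h - u x))) (hg2 : g2 = -(D2 u x v v / (h - u x))) :
    2 * a * a1 + 2 * a ^ 2 * g1 - 3 * a ^ 2 * b1 = 0 ∧
      2 * a1 ^ 2 + 2 * a * a2 + 8 * a * a1 * g1 + a ^ 2 * (2 * g2 + 2 * g1 ^ 2) -
        a ^ 2 * (3 * b2 + 6 * b1 ^ 2) ≤ 0 := by
  have ja := jet_a hu x e v w
  have jb := jet_b hu x e v w
  have jc := jet_c hu hx v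
  rw [← ha, ← ha1, ← ha2] at ja
  rw [← hb1, ← hb2, he] at jb
  rw [← hg1, ← hg2] at jc
  have hc : 0 < h - u x := by linarith
  have h := jet_lmax (((ja.mul ja).mul (jc.mul jc)).sub
    ((Jet.const (a ^ 2)).mul ((jb.mul jb).mul jb))) (by
    filter_upwards [ev_line hu hx v] with s hs
    have h1 := hmax _ hs (e + s • w)
    simp only [zero_smul, add_zero, he, ← ha, inv_mul_cancel₀ hc.ne'] at h1 ⊢
    have h2 : 0 < (h - u x)⁻¹ ^ 2 := by positivity
    have h3 := mul_le_mul_of_nonneg_left h1 h2.le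
    have h4 : (h - u x)⁻¹ ^ 2 * (h - u x) ^ 2 = 1 := by
      rw [← mul_pow, inv_mul_cancel₀ hc.ne', one_pow]
    have h5 : (h - u x)⁻¹ ^ 2 *
        (a ^ 2 * (h - u x) ^ 2 * D2 u (x + s • v) (e + s • w) (e + s • w) ^ 3)
        = a ^ 2 * D2 u (x + s • v) (e + s • w) (e + s • w) ^ 3 := by
      linear_combination (a ^ 2 * D2 u (x + s • v) (e + s • w) (e + s • w) ^ 3) * h4
    rw [h5] at h3
    nlinarith)
  obtain ⟨h1, h2⟩ := h
  constructor <;> nlinarith

/-- the estimate at the maximum point -/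
theorem cal_point' (hu : Sm u) (F : Fr ι u x) {h : ℝ} (hx : u x < h) {e : E}
    (he : D2 u x e e = 1) (hapos : 0 < D3 u x e e e)
    (hmax : ∀ y, u y ≤ h → ∀ z, D3 u y z z z ^ 2 * (h - u y) ^ 2 ≤
      D3 u x e e e ^ 2 * (h - u x) ^ 2 * D2 u y z z ^ 3) :
    D3 u x e e e ^ 2 * (h - u x) ^ 2 ≤
      8 * ∑ i, dd (F.v i) u x ^ 2 + 4 * (Fintype.card ι : ℝ) * (h - u x) := by
  set a := D3 u x e e e with ha
  set c := h - u x with hc
  have hc0 : 0 < c := by linarith
  have hl := fun v w => cal_line' hu hx he hmax v w ha rfl rfl rfl rfl rfl rfl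
  rw [← hc] at hl
  have hdir : ∀ w, D3 u x w e e = a * D2 u x w e ∧
      12 * a * D3 u x w w e ≤ 6 * a ^ 2 * D2 u x w w + 6 * a ^ 2 * D2 u x w e ^ 2 := by
    intro w
    obtain ⟨h1, h2⟩ := hl 0 w
    simp only [dd_zero, map_zero, _root_.zero_apply, zero_add, mul_zero, zero_div, neg_zero,
      add_zero] at h1 h2
    have h3 : D3 u x w e e = a * D2 u x w e := by
      have : a * (D3 u x w e e - a * D2 u x w e) = 0 := by linarith
      rcases mul_eq_zero.mp this with h | h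
      · exact absurd h hapos.ne'
      · linarith
    refine ⟨h3, ?_⟩
    rw [h3] at h2
    nlinarith
  set η : ι → ℝ := fun k => D2 u x e (F.v k) with hη
  set t : ι → ι → ℝ := fun i k => D3 u x (F.v i) (F.v k) e with ht
  set B : ι → ι → ℝ := fun i k => D2 (dd e (dd e u)) x (F.v i) (F.v k) with hB
  have tsymm : ∀ i k, t i k = t k i := fun i k => D3_symm12 hu x _ _ _
  have hes : ∑ k, η k • F.v k = e := F.span e
  have hηη : ∑ k, η k * η k = 1 := by rw [← F.D2_comb, hes, he]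
  have hve : ∀ i, D2 u x (F.v i) e = η i := fun i => D2_symm hu x _ _
  have hvee : ∀ i, D3 u x (F.v i) e e = a * η i := fun i => by rw [(hdir _).1, hve]
  have hD3 : ∀ y z : ι → ℝ, D3 u x (∑ k, y k • F.v k) (∑ k, z k • F.v k) e =
      ∑ k, ∑ l, y k * z l * t k l := by
    intro y z
    rw [D3_eq_D2 hu, bilin_comb]
    simp only [← D3_eq_D2 hu, ht]
  have hD2e : ∀ y : ι → ℝ, D2 u x (∑ k, y k • F.v k) e = ∑ k, y k * η k := by
    intro y
    conv_lhs => rw [← hes]
    rw [F.D2_comb]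
  have hquad : ∀ y : ι → ℝ, ∑ k, ∑ l, y k * y l * t k l ≤ a * ∑ k, y k * y k := by
    intro y
    have h1 := (hdir (∑ k, y k • F.v k)).2
    rw [hD3, F.D2_comb, hD2e] at h1
    have h2 : (∑ k, y k * η k) ^ 2 ≤ (∑ k, y k ^ 2) * ∑ k, η k ^ 2 :=
      Finset.sum_mul_sq_le_sq_mul_sq _ _ _
    simp only [sq] at h2
    rw [hηη, mul_one, ← sq] at h2
    have h3 : a * (∑ k, ∑ l, y k * y l * t k l) ≤ a * (a * ∑ k, y k * y k) := by nlinarith
    exact le_of_mul_le_mul_left h3 hapos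
  have hte : ∀ i, ∑ k, t i k * η k = a * η i := by
    intro i
    rw [← hvee, ← congrArg (fun y => D3 u x (F.v i) y e) hes]
    simp only [map_sum, map_smul, _root_.sum_apply, _root_.smul_apply, smul_eq_mul]
    exact Finset.sum_congr rfl fun k _ => mul_comm _ _
  -- parallel variations
  set w : ι → E := fun i => ∑ k, (-(1 / 2) * t i k) • F.v k with hw
  have w1 : ∀ i, D2 u x (w i) e = -(1 / 2) * (a * η i) := by
    intro i
    rw [hw, hD2e, ← hte, Finset.mul_sum]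
    exact Finset.sum_congr rfl fun k _ => by ring
  have w3 : ∀ i, D2 (dd e (dd e u)) x (F.v i) (w i) = -(1 / 2) * ∑ k, t i k * B i k := by
    intro i
    simp only [hw, map_sum, map_smul, smul_eq_mul, Finset.mul_sum, hB]
    exact Finset.sum_congr rfl fun k _ => by ring
  have w4 : ∀ i, D3 u x (w i) (w i) e = 1 / 4 * ∑ k, ∑ l, t i k * t k l * t l i := by
    intro i
    rw [hw, hD3]
    simp only [Finset.mul_sum]
    refine Finset.sum_congr rfl fun k _ => Finset.sum_congr rfl fun l _ => ?_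
    rw [tsymm l i]
    ring
  have w5 : ∀ i, D3 u x (F.v i) (w i) e = -(1 / 2) * ∑ k, t i k ^ 2 := by
    intro i
    simp only [hw, map_sum, map_smul, _root_.sum_apply, _root_.smul_apply, smul_eq_mul,
      Finset.mul_sum]
    exact Finset.sum_congr rfl fun k _ => by simp only [ht]; ring
  have w6 : ∀ i, D2 u x (w i) (w i) = 1 / 4 * ∑ k, t i k ^ 2 := by
    intro i
    rw [hw, F.D2_comb, Finset.mul_sum]
    exact Finset.sum_congr rfl fun k _ => by ring
  have hvv : ∀ i, D2 u x (F.v i) (F.v i) = 1 := fun i => by rw [F.orth, if_pos rfl]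
  have hi2 : ∀ i, 2 * a * (D2 (dd e (dd e (dd e u))) x (F.v i) (F.v i) -
      3 * ∑ k, t i k * B i k + 3 / 2 * ∑ k, ∑ l, t i k * t k l * t l i) -
      3 * a ^ 2 * (B i i - 3 / 2 * ∑ k, t i k ^ 2) ≤
      a ^ 2 * (4 * c⁻¹ ^ 2 * dd (F.v i) u x ^ 2 + 2 * c⁻¹) := by
    intro i
    obtain ⟨h1, h2⟩ := hl (F.v i) (w i)
    rw [w1, hvee] at h1
    rw [w1, w3, w4, w5, w6, hvee, hvv] at h2
    set a1 := dd (F.v i) (dd e (dd e (dd e u))) x + 3 * D3 u x (w i) e e with ha1
    set g1 := -(dd (F.v i) u x / c) with hg1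
    have h3 : a1 = -(a * g1) := by
      have : a * (a1 + a * g1) = 0 := by linarith
      rcases mul_eq_zero.mp this with h | h
      · exact absurd h hapos.ne'
      · linarith
    rw [h3] at h2
    have h4 : c⁻¹ ^ 2 * dd (F.v i) u x ^ 2 = g1 ^ 2 := by rw [hg1]; ring
    simp only [hB] at h2 ⊢
    rw [mul_assoc 4, h4, one_div c] at *
    nlinarith
  have s3 := Finset.sum_le_sum fun i (_ : i ∈ Finset.univ) => hi2 i
  simp only [Finset.sum_sub_distrib, Finset.sum_add_distrib, ← Finset.mul_sum, Finset.sum_const,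
    Finset.card_univ, nsmul_eq_mul] at s3
  have s4 : ∑ i, ∑ k, ∑ l, t i k * t k l * t l i ≤ a * ∑ i, ∑ k, t i k ^ 2 := by
    rw [Finset.mul_sum]
    refine Finset.sum_le_sum fun i _ => ?_
    have := hquad (t i)
    simp only [← sq] at this
    refine le_trans (le_of_eq ?_) this
    refine Finset.sum_congr rfl fun k _ => Finset.sum_congr rfl fun l _ => ?_
    rw [tsymm l i]
    ring
  have s5 : a ^ 2 ≤ ∑ i, ∑ k, t i k ^ 2 := by
    calc a ^ 2 = ∑ i, (a * η i) ^ 2 := by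
          simp only [mul_pow, ← Finset.mul_sum]
          simp only [sq (η _), hηη, mul_one]
      _ ≤ _ := by
          refine Finset.sum_le_sum fun i _ => ?_
          have h2 := Finset.sum_mul_sq_le_sq_mul_sq Finset.univ (t i) η
          simp only [sq (η _), hηη, mul_one] at h2
          rwa [hte] at h2
  have e2 := F.e2 e
  have e3 := F.e3 e
  set S2 := ∑ i, ∑ k, t i k ^ 2
  set S3 := ∑ i, ∑ k, ∑ l, t i k * t k l * t l i
  have e2' : ∑ i, B i i = S2 := e2
  have e3' : ∑ i, D2 (dd e (dd e (dd e u))) x (F.v i) (F.v i) - 3 * ∑ i, ∑ k, t i k * B i k =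
      - 2 * S3 := by linarith
  rw [e2', e3'] at s3
  set q := ∑ i, dd (F.v i) u x ^ 2
  set n : ℝ := ((Fintype.card ι : ℕ) : ℝ)
  have f1 : a * S3 ≤ a * (a * S2) := mul_le_mul_of_nonneg_left s4 hapos.le
  have f2 : a ^ 2 * a ^ 2 ≤ a ^ 2 * S2 := mul_le_mul_of_nonneg_left s5 (sq_nonneg _)
  have f3 : a ^ 2 * a ^ 2 ≤ a ^ 2 * (8 * c⁻¹ ^ 2 * q + 4 * n * c⁻¹) := by nlinarith
  have f4 := le_of_mul_le_mul_left f3 (pow_pos hapos 2)
  have f5 := mul_le_mul_of_nonneg_right f4 (sq_nonneg c)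
  have f6 : (8 * c⁻¹ ^ 2 * q + 4 * n * c⁻¹) * c ^ 2 = 8 * q + 4 * n * c := by field_simp
  rwa [f6] at f5

/-- Calabi's estimate -/
theorem cal_est [FiniteDimensional ℝ E] (hu : Sm u) (hD2 : ∀ y z, z ≠ 0 → 0 < D2 u y z z)
    (hF : ∀ x, Nonempty (Fr ι u x)) (h0 : u 0 = 0) (h1 : ∀ z, dd z u 0 = 0) :
    ∃ C : ℝ, 0 ≤ C ∧ ∀ h : ℝ, 0 < h → ∀ y, u y ≤ h → ∀ z,
      D3 u y z z z ^ 2 * (h - u y) ^ 2 ≤ C * h * D2 u y z z ^ 3 := by
  set n : ℝ := ((Fintype.card ι : ℕ) : ℝ) with hn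
  set C1 : ℝ := n * (n + 3) * 2 ^ (Fintype.card ι + 1) with hC1
  have hn0 : 0 ≤ n := by positivity
  have hC0 : 0 ≤ C1 := by positivity
  refine ⟨8 * (n * C1) + 4 * n, by positivity, fun h hh y hy z => ?_⟩
  by_cases hz : z = 0
  · simp [hz]
  obtain ⟨x, hx, e, he, hpos, hmax⟩ := exists_max hu hD2 (compact_sub hu hD2 h0 h1 h)
    ⟨0, by simp [h0, hh.le]⟩ (a := fun y z => D3 u y z z z)
    ((((hu.cd3.continuous.comp continuous_fst).clm_apply continuous_snd).clm_apply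
        continuous_snd).clm_apply continuous_snd) (m := 3) (by decide)
    (fun y z s => D3_smul u y z s) (c := fun y => (h - u y) ^ 2)
    ((continuous_const.sub hu.continuous).pow 2) hz
  have hx' : u x ≤ h := hx
  have hux := nonneg_of_crit hu hD2 h0 h1 x
  have hD := (hD2 y z hz).le
  refine (hmax y hy z).trans (mul_le_mul_of_nonneg_right ?_ (pow_nonneg hD 3))
  rcases hpos.eq_or_lt with hp | hp
  · rw [← hp]
    simp only [ne_eq, OfNat.ofNat_ne_zero, not_false_eq_true, zero_pow, zero_mul]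
    positivity
  rcases hx'.eq_or_lt with hx2 | hx2
  · rw [hx2, sub_self, zero_pow two_ne_zero, mul_zero]
    positivity
  obtain ⟨F⟩ := hF x
  refine (cal_point' hu F hx2 he hp fun y hy z => hmax y hy z).trans ?_
  have h3 : ∑ i, dd (F.v i) u x ^ 2 ≤ n * (C1 * h) := by
    refine (Finset.sum_le_sum fun i _ => grad_est hu hD2 hF h0 h1 hh hx' (F.v i)).trans ?_
    simp only [F.orth, if_true, mul_one, Finset.sum_const, Finset.card_univ, nsmul_eq_mul]
    exact le_rfl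
  have h4 : n * (h - u x) ≤ n * h := mul_le_mul_of_nonneg_left (by linarith) hn0
  nlinarith

/-- the third derivative vanishes -/
theorem D3_eq_zero [FiniteDimensional ℝ E] (hu : Sm u) (hD2 : ∀ y z, z ≠ 0 → 0 < D2 u y z z)
    (hF : ∀ x, Nonempty (Fr ι u x)) (h0 : u 0 = 0) (h1 : ∀ z, dd z u 0 = 0) (y : E) :
    D3 u y = 0 := by
  obtain ⟨C, hC, hest⟩ := cal_est hu hD2 hF h0 h1
  have hdiag : ∀ z, D3 u y z z z = 0 := by
    intro z
    by_contra hne
    have hp : 0 < D3 u y z z z ^ 2 := by positivity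
    have huy := nonneg_of_crit hu hD2 h0 h1 y
    set M := C * D2 u y z z ^ 3 with hM
    set h := 2 * u y + 1 + 4 * |M| / D3 u y z z z ^ 2 with hh
    have hd : 0 ≤ 4 * |M| / D3 u y z z z ^ 2 := by positivity
    have hh0 : 0 < h := by linarith
    have h2 := hest h hh0 y (by linarith) z
    have h3 : (h / 2) ^ 2 ≤ (h - u y) ^ 2 := pow_le_pow_left₀ (by linarith) (by linarith) 2
    have h4 : h * (D3 u y z z z ^ 2 * h) ≤ h * (4 * M) := by nlinarith
    have h5 := le_of_mul_le_mul_left h4 hh0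
    have h6 : 4 * |M| / D3 u y z z z ^ 2 < h := by linarith
    rw [div_lt_iff₀ hp] at h6
    linarith [le_abs_self M]
  ext p q r
  have := D3_polar hu y p q r
  simp only [hdiag] at this
  simp only [_root_.zero_apply]
  linarith

end Crest.Agent.R236.Jcp
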