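import Crest.Agent.R238.AnInv

/-!
# R236/LiA (helper53): Liouville theorem, standing hypotheses and geometry of the sections
-/

set_option autoImplicit false

noncomputable section

open scoped ContDiff Pointwise
open Set MeasureTheory

namespace Crest.Agent.R236.Li

open Crest.Agent.R238.An

variable {n : ℕ}

/-- standing hypotheses on the height function `η` over the tangent plane at `x₀` -/
structure St (η : E n → ℝ) (x₀ : E n) (ρ c lam Lam : ℝ) : Prop where
  sm : ContDiff ℝ ∞ η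
  pos : ∀ x, (hess η x).PosDef
  hρ : 0 < ρ
  hc : 0 < c
  hlam : 0 < lam
  lo : ∀ x, lam ≤ (hess η x).det
  hi : ∀ x, (hess η x).det ≤ Lam
  zero : η x₀ = 0
  nn : ∀ x, 0 ≤ η x
  cpt : ∀ t : ℝ, IsCompact {x | η x ≤ t}
  tan : ∀ x y, y ≠ x → η x + fderiv ℝ η x (y - x) < η y
  W : ∀ h : ℝ, 0 < h → ∀ x y z, η x ≤ 4 * h → η y ≤ 4 * h → η z ≤ 4 * h →
    η (x + ρ • (y - z)) ≤ η x + h
  D : ∀ x, c * η x ≤ fderiv ℝ η x (x - x₀) - η x

variable {η : E n → ℝ} {x₀ : E n} {ρ c lam Lam : ℝ}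

theorem St.tan_le (S : St η x₀ ρ c lam Lam) (x y : E n) : η x + fderiv ℝ η x (y - x) ≤ η y := by
  rcases eq_or_ne y x with rfl | h
  · simp
  · exact (S.tan x y h).le

theorem St.cvx (S : St η x₀ ρ c lam Lam) (x y : E n) {s : ℝ} (h0 : 0 ≤ s) (h1 : s ≤ 1) :
    η (x + s • (y - x)) ≤ (1 - s) * η x + s * η y := by
  have a := S.tan_le (x + s • (y - x)) x
  have b := S.tan_le (x + s • (y - x)) y
  have e1 : x - (x + s • (y - x)) = (-s) • (y - x) := by module
  have e2 : y - (x + s • (y - x)) = (1 - s) • (y - x) := by module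
  rw [e1, map_smul, smul_eq_mul] at a
  rw [e2, map_smul, smul_eq_mul] at b
  have h2 : 0 ≤ 1 - s := by linarith
  nlinarith [mul_le_mul_of_nonneg_left a h2, mul_le_mul_of_nonneg_left b h0]

theorem St.convex (S : St η x₀ ρ c lam Lam) (t : ℝ) : Convex ℝ {x | η x ≤ t} := by
  intro x hx y hy a b ha hb hab
  have h := S.cvx x y hb (by linarith)
  have e : x + b • (y - x) = a • x + b • y := by
    rw [show a = 1 - b by linarith]
    module
  rw [e] at h
  have hx' : η x ≤ t := hx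
  have hy' : η y ≤ t := hy
  show η _ ≤ t
  have h1 : (1 - b) * η x ≤ (1 - b) * t := mul_le_mul_of_nonneg_left hx' (by linarith)
  have h2 : b * η y ≤ b * t := mul_le_mul_of_nonneg_left hy' hb
  linarith

/-- the gradient is bounded on the difference body of a section -/
theorem St.grad (S : St η x₀ ρ c lam Lam) {h : ℝ} (hh : 0 < h) {y a b : E n} (hy : η y ≤ 4 * h)
    (ha : η a ≤ 4 * h) (hb : η b ≤ 4 * h) : fderiv ℝ η y (a - b) ≤ h / ρ := by
  have h1 := S.W h hh y a b hy ha hb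
  have h2 := S.tan_le y (y + ρ • (a - b))
  rw [add_sub_cancel_left, map_smul, smul_eq_mul] at h2
  rw [le_div_iff₀ S.hρ]
  linarith

/-- superlinear growth along rays -/
theorem St.dbl (S : St η x₀ ρ c lam Lam) (k : ℕ) (w : E n) :
    (2 + c) ^ k * η (x₀ + w) ≤ η (x₀ + (2 : ℝ) ^ k • w) := by
  induction k with
  | zero => simp
  | succ k ih =>
    have h1 := S.D (x₀ + (2 : ℝ) ^ k • w)
    have h2 := S.tan_le (x₀ + (2 : ℝ) ^ k • w) (x₀ + (2 : ℝ) ^ (k + 1) • w)
    have e : x₀ + (2 : ℝ) ^ (k + 1) • w - (x₀ + (2 : ℝ) ^ k • w) =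
        x₀ + (2 : ℝ) ^ k • w - x₀ := by
      rw [pow_succ]
      module
    rw [e] at h2
    have h3 : (2 + c) * ((2 + c) ^ k * η (x₀ + w)) ≤ (2 + c) * η (x₀ + (2 : ℝ) ^ k • w) :=
      mul_le_mul_of_nonneg_left ih (by linarith [S.hc])
    rw [pow_succ]
    linarith

/-- engulfing: sections based at points of `S_h` lie in `S_{K h}` -/
theorem St.engulf (S : St η x₀ ρ c lam Lam) (C : ℝ) :
    ∃ K : ℝ, 1 ≤ K ∧ ∀ h : ℝ, 0 < h → ∀ x y, η y ≤ h →
      η x - η y - fderiv ℝ η y (x - y) ≤ C * h → η x ≤ K * h := by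
  have hρ := S.hρ
  have hc := S.hc
  obtain ⟨k, hk⟩ := pow_unbounded_of_one_lt (2 / ρ) (show (1 : ℝ) < 1 + c / 2 by linarith)
  have hP : (1 : ℝ) ≤ (2 + c) ^ k := one_le_pow₀ (by linarith)
  refine ⟨max ((2 + c) ^ k) (2 * C), le_max_of_le_left hP, fun h hh x y hy hx => ?_⟩
  rcases le_or_gt (η x) ((2 + c) ^ k * h) with h1 | h1
  · exact h1.trans (mul_le_mul_of_nonneg_right (le_max_left _ _) hh.le)
  refine le_trans ?_ (mul_le_mul_of_nonneg_right (le_max_right _ _) hh.le)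
  have h2p : (0 : ℝ) < 2 ^ k := by positivity
  have hP0 : (0 : ℝ) < (2 + c) ^ k := by positivity
  set w : E n := ((2 : ℝ) ^ k)⁻¹ • (x - x₀) with hw
  have e1 : x₀ + (2 : ℝ) ^ k • w = x := by
    rw [hw, smul_smul, mul_inv_cancel₀ h2p.ne', one_smul, add_sub_cancel]
  have h2 := S.dbl k w
  rw [e1] at h2
  set t : ℝ := η x / (2 + c) ^ k with ht
  have ht1 : h < t := by
    rw [ht, lt_div_iff₀ hP0]
    linarith
  have ht2 : η (x₀ + w) ≤ t := by
    rw [ht, le_div_iff₀ hP0]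
    linarith
  have h3 := S.grad (h := t) (by linarith) (y := y) (a := x₀ + w) (b := x₀) (by linarith)
    (by linarith) (by rw [S.zero]; linarith)
  rw [add_sub_cancel_left] at h3
  have e2 : x - y = (2 : ℝ) ^ k • w + (x₀ - y) := by
    rw [← e1]
    module
  have h4 := S.tan_le y x₀
  rw [S.zero] at h4
  rw [e2, map_add, map_smul, smul_eq_mul] at hx
  have h5 : (2 : ℝ) ^ k * (t / ρ) ≤ η x / 2 := by
    have e3 : (2 + c) ^ k = 2 ^ k * (1 + c / 2) ^ k := by
      rw [← mul_pow]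
      congr 1
      ring
    have e4 : η x = 2 ^ k * (1 + c / 2) ^ k * t := by
      rw [← e3, ht]
      field_simp
    have h6 : 1 / ρ ≤ (1 + c / 2) ^ k / 2 := by
      have : 2 / ρ = 2 * (1 / ρ) := by ring
      linarith
    have h7 : (2 : ℝ) ^ k * t * (1 / ρ) ≤ 2 ^ k * t * ((1 + c / 2) ^ k / 2) :=
      mul_le_mul_of_nonneg_left h6 (mul_pos h2p (by linarith)).le
    calc (2 : ℝ) ^ k * (t / ρ) = 2 ^ k * t * (1 / ρ) := by ring
      _ ≤ _ := h7
      _ = η x / 2 := by rw [e4]; ring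
  have h8 := mul_le_mul_of_nonneg_left h3 h2p.le
  linarith

theorem vol_homo (x₀ : E n) {r : ℝ} (hr : 0 < r) (A : Set (E n)) :
    volume.real {e : E n | x₀ + r • e ∈ A} = (r ^ n)⁻¹ * volume.real A := by
  have e : {e : E n | x₀ + r • e ∈ A} = (fun e => r • e) ⁻¹' ((fun y => x₀ + y) ⁻¹' A) := rfl
  rw [e, Measure.real, Measure.addHaar_preimage_smul _ hr.ne', measure_preimage_add,
    ENNReal.toReal_mul, ENNReal.toReal_ofReal (abs_nonneg _), finrank_euclideanSpace_fin,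
    abs_of_pos (by positivity)]
  rfl

/-- doubling -/
theorem St.vol_scale (S : St η x₀ ρ c lam Lam) {K : ℝ} (hK : 1 ≤ K) (h : ℝ) :
    volume.real {x | η x ≤ K * h} ≤ K ^ n * volume.real {x | η x ≤ h} := by
  have hK0 : 0 < K := by linarith
  have h1 := vol_homo x₀ one_pos {x | η x ≤ K * h}
  have h2 := vol_homo x₀ (inv_pos.2 hK0) {x | η x ≤ h}
  rw [one_pow, inv_one, one_mul] at h1
  rw [inv_pow, inv_inv] at h2
  rw [← h1, ← h2]
  refine measureReal_mono (fun e he => ?_) ?_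
  · have h3 := S.cvx x₀ (x₀ + (1 : ℝ) • e) (inv_pos.2 hK0).le (inv_le_one_of_one_le₀ hK)
    have he' : η (x₀ + (1 : ℝ) • e) ≤ K * h := he
    rw [S.zero, add_sub_cancel_left, one_smul] at h3
    rw [one_smul] at he'
    have h4 := mul_le_mul_of_nonneg_left he' (inv_pos.2 hK0).le
    rw [← mul_assoc, inv_mul_cancel₀ hK0.ne', one_mul] at h4
    show η (x₀ + K⁻¹ • e) ≤ h
    linarith
  · have e : {e : E n | x₀ + K⁻¹ • e ∈ {x | η x ≤ h}} =
        (fun e => K⁻¹ • e) ⁻¹' ((fun y => x₀ + y) ⁻¹' {x | η x ≤ h}) := rfl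
    rw [e, Measure.addHaar_preimage_smul _ (inv_pos.2 hK0).ne', measure_preimage_add]
    exact ENNReal.mul_ne_top ENNReal.ofReal_ne_top (S.cpt h).measure_lt_top.ne

theorem St.vol_pos (S : St η x₀ ρ c lam Lam) {h : ℝ} (hh : 0 < h) :
    0 < volume.real {x | η x ≤ h} := by
  refine ENNReal.toReal_pos ?_ (S.cpt h).measure_lt_top.ne
  have ho : IsOpen {x | η x < h} := isOpen_lt S.sm.continuous continuous_const
  refine ((ho.measure_pos volume ⟨x₀, by simp [S.zero, hh]⟩).trans_le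
    (measure_mono fun x hx => ?_)).ne'
  exact le_of_lt (show η x < h from hx)

end Crest.Agent.R236.Li
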