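import Crest.Agent.R236.LiA
import Crest.Agent.R236.AreaM
import Crest.Agent.R238.AP0

/-!
# R236/LiB: Liouville theorem, the ABP measure estimate

Proof.  `C = 2 + 1/ρ`, `K` from `St.engulf C`, `a = ε/h`.  For `y ∈ S_h` let
`η_y(x) = η x - η y - Dη(y)(x - y) ≥ 0` (`St.tan_le`) and `g_y = v + a η_y`.
`g_y(x₁) ≤ ε + a (h + h/ρ) = C ε` (`St.grad` with `a := y, b := x₁`, `St.nn`).  Minimise `g_y` on the
compact set `S_{Kh} ∋ x₁`; the minimiser `x` is a GLOBAL minimiser (outside `S_{Kh}`, `η_y > C h` by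
`engulf`), `v x ≤ C ε`, `D(η + v/a)(x) = Dη(y)`, `N = hess (η + v/a) x` is positive semidefinite and
`∑ H⁻¹ i j * N i j ≤ n`, so `0 ≤ det N ≤ det H ≤ Lam` (AM-GM: `R236/AreaM.area_concave` or
`areaM_amgm`).  Hence `∇η(S_h) ⊆ Φ(A)`, `Φ = ∇(η + v/a)`, for the closed set
`A = {η ≤ K h, v ≤ C ε, |det hess (η + v/a)| ≤ Lam}`.  `∇η` is injective (`St.tan`), so
`lam |S_h| ≤ ∫_{S_h} det = |∇η(S_h)| ≤ |Φ(A)| ≤ Lam |A|`
(`lintegral_abs_det_fderiv_eq_addHaar_image`, `addHaar_image_le_lintegral_abs_det_fderiv`;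
the gradient map and its determinant: see `R236/AreaB.areaB_grd_deriv`).
-/

set_option autoImplicit false

noncomputable section

open scoped ContDiff
open Set MeasureTheory

namespace Crest.Agent.R236.Li

open Crest.Agent.R238.An

variable {n : ℕ} {η : E n → ℝ} {x₀ : E n} {ρ c lam Lam : ℝ}

/-- the gradient in coordinates -/
def lbGrd (w : E n → ℝ) (x : E n) : E n := WithLp.toLp 2 fun i => pd i w x

theorem lb_grd_deriv {w : E n → ℝ} (hw : ContDiff ℝ ∞ w) (x : E n) :
    HasFDerivAt (lbGrd w) (fderiv ℝ (lbGrd w) x) x ∧ (fderiv ℝ (lbGrd w) x).det = (hess w x).det := by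
  have hd : ∀ i, DifferentiableAt ℝ (pd i w) x := fun i => (smooth_pd i hw).differentiable (by simp) x
  have hg : DifferentiableAt ℝ (lbGrd w) x := differentiableAt_euclidean.2 fun i => hd i
  refine ⟨hg.hasFDerivAt, ?_⟩
  have hb : LinearMap.toMatrix (EuclideanSpace.basisFun (Fin n) ℝ).toBasis
      (EuclideanSpace.basisFun (Fin n) ℝ).toBasis
      (fderiv ℝ (lbGrd w) x : E n →ₗ[ℝ] E n) = (hess w x).transpose := by
    ext i j
    rw [LinearMap.toMatrix_apply, Matrix.transpose_apply]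
    have h1 : HasFDerivAt (fun y => lbGrd w y i)
        ((EuclideanSpace.proj i : E n →L[ℝ] ℝ).comp (fderiv ℝ (lbGrd w) x)) x :=
      (EuclideanSpace.proj i : E n →L[ℝ] ℝ).hasFDerivAt.comp x hg.hasFDerivAt
    have h2 : hess w x j i = fderiv ℝ (fun y => lbGrd w y i) x (EuclideanSpace.single j 1) := rfl
    rw [h2, h1.fderiv]
    simp
  rw [ContinuousLinearMap.det, ← LinearMap.det_toMatrix (EuclideanSpace.basisFun (Fin n) ℝ).toBasis, hb,
    Matrix.det_transpose]

theorem lb_grd_eq {w w' : E n → ℝ} {x y : E n} :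
    lbGrd w x = lbGrd w' y ↔ fderiv ℝ w x = fderiv ℝ w' y := by
  constructor
  · intro h
    ext v
    rw [fderiv_eq_sum, fderiv_eq_sum]
    refine Finset.sum_congr rfl fun i _ => ?_
    have : lbGrd w x i = lbGrd w' y i := by rw [h]
    exact congrArg _ this
  · intro h
    ext i
    show fderiv ℝ w x _ = fderiv ℝ w' y _
    rw [h]

/-- first and second order conditions at a global minimum of `w - L` -/
theorem lb_min {w : E n → ℝ} (hw : ContDiff ℝ ∞ w) (L : E n →L[ℝ] ℝ) {x : E n}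
    (hm : ∀ z, w x - L x ≤ w z - L z) : fderiv ℝ w x = L ∧ (hess w x).PosSemidef := by
  have hd := hw.differentiable (by simp)
  have key : ∀ ξ : E n, L ξ - ∑ i, ξ i * pd i w x = 0 ∧ -∑ i, ξ i * ∑ j, ξ j * pd j (pd i w) x ≤ 0 := by
    intro ξ
    have hJ : R238.AP.Jet (fun t : ℝ => L x + t * L ξ - w (x + t • ξ)) (L x - w x)
        (L ξ - ∑ i, ξ i * pd i w x) (-∑ i, ξ i * ∑ j, ξ j * pd j (pd i w) x) := by
      refine ⟨by simp, fun t => L ξ - ∑ i, ξ i * pd i w (x + t • ξ), fun t => ?_, by simp, ?_⟩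
      · have h1 : HasDerivAt (fun t : ℝ => L x + t * L ξ) (L ξ) t := by
          simpa using ((hasDerivAt_id t).mul_const (L ξ)).const_add (L x)
        exact h1.sub (hasDerivAt_line hd x ξ t)
      · refine HasDerivAt.const_sub _ (HasDerivAt.fun_sum fun i _ => HasDerivAt.const_mul _ ?_)
        simpa using hasDerivAt_line ((smooth_pd i hw).differentiable (by simp)) x ξ 0
    refine hJ.max fun s => ?_
    have := hm (x + s • ξ)
    simp only [map_add, map_smul, smul_eq_mul, zero_mul, zero_smul, add_zero] at this ⊢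
    linarith
  refine ⟨?_, Matrix.PosSemidef.of_dotProduct_mulVec_nonneg ?_ fun ξ => ?_⟩
  · ext ξ
    rw [fderiv_eq_sum]
    linarith [(key ξ).1]
  · have := hess_isSymm (hw.of_le (WithTop.coe_le_coe.mpr (le_top : (2 : ℕ∞) ≤ ⊤))) x
    exact (Matrix.conjTranspose_eq_transpose_of_trivial _).trans this
  · have h1 := (key (WithLp.toLp 2 ξ)).2
    rw [neg_nonpos] at h1
    refine h1.trans_eq ?_
    simp only [dotProduct, Matrix.mulVec, hess, Matrix.of_apply, star_trivial, Finset.mul_sum]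
    rw [Finset.sum_comm]
    exact Finset.sum_congr rfl fun i _ => Finset.sum_congr rfl fun j _ => by ring

theorem lb_det {A Q : Mat n} (hA : A.PosDef) (hQ : Q.PosSemidef) (h : ∑ i, ∑ j, A⁻¹ i j * Q i j ≤ n) :
    Q.det ≤ A.det := by
  have hn : ((n + 2 : ℕ) : ℝ) ≠ 0 := by positivity
  have e : ∀ t : ℝ, 0 ≤ t → (t ^ ((n + 2 : ℕ) : ℝ)⁻¹) ^ (n + 2) = t := fun t ht =>
    Real.rpow_inv_natCast_pow ht (by omega)
  have hG : 0 < A.det ^ ((n + 2 : ℕ) : ℝ)⁻¹ := Real.rpow_pos_of_pos hA.det_pos _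
  have hδ : 0 ≤ Q.det ^ ((n + 2 : ℕ) : ℝ)⁻¹ := Real.rpow_nonneg hQ.det_nonneg _
  have h1 := area_concave hA hQ hG (e _ hA.det_pos.le) hδ (e _ hQ.det_nonneg).le
  have h2 : Q.det ^ ((n + 2 : ℕ) : ℝ)⁻¹ ≤ A.det ^ ((n + 2 : ℕ) : ℝ)⁻¹ := by
    have h3 := mul_le_mul_of_nonneg_left (add_le_add_left h 2) hG.le
    have h4 : (0 : ℝ) < n + 2 := by positivity
    nlinarith
  rw [← e _ hA.det_pos.le, ← e _ hQ.det_nonneg]
  exact pow_le_pow_left₀ hδ h2 _

theorem lb_hess_add {f g : E n → ℝ} (hf : ContDiff ℝ ∞ f) (hg : ContDiff ℝ ∞ g) (b : ℝ) (x : E n)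
    (i j : Fin n) : hess (fun y => f y + b * g y) x i j = hess f x i j + b * hess g x i j := by
  have hd : ∀ {k : E n → ℝ}, ContDiff ℝ ∞ k → Differentiable ℝ k := fun hk => hk.differentiable (by simp)
  simp only [hess, Matrix.of_apply]
  rw [pd_add j (hd hf) ((hd hg).const_mul b), pd_const_mul,
    pd_add i (hd (smooth_pd j hf)) ((hd (smooth_pd j hg)).const_mul b), pd_const_mul]

/-- ABP measure estimate for nonnegative supersolutions -/
theorem St.abp (S : St η x₀ ρ c lam Lam) :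
    ∃ K C : ℝ, 1 ≤ K ∧ 0 < C ∧ ∀ v : E n → ℝ, ContDiff ℝ ∞ v → (∀ x, 0 ≤ v x) →
      (∀ x, ∑ i, ∑ j, (hess η x)⁻¹ i j * hess v x i j ≤ 0) →
      ∀ h ε : ℝ, 0 < h → 0 < ε → ∀ x₁, η x₁ ≤ h → v x₁ ≤ ε →
        lam * volume.real {x | η x ≤ h} ≤ Lam * volume.real {x | η x ≤ K * h ∧ v x ≤ C * ε} := by
  have hρ := S.hρ
  obtain ⟨K, hK, hKe⟩ := S.engulf (2 + 1 / ρ)
  refine ⟨K, 2 + 1 / ρ, hK, by positivity, fun v hv hv0 hsup h ε hh hε x₁ hx₁ hvx₁ => ?_⟩
  set C := 2 + 1 / ρ with hC
  set w : E n → ℝ := fun x => η x + h / ε * v x with hw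
  have hws : ContDiff ℝ ∞ w := S.sm.add (contDiff_const.mul hv)
  have hb : 0 < h / ε := by positivity
  set B : Set (E n) := {x | η x ≤ K * h ∧ v x ≤ C * ε} with hB
  set A : Set (E n) := B ∩ {x | |(hess w x).det| ≤ Lam} with hA
  have hdc : Continuous fun x => (hess w x).det :=
    (contDiff_det (m := ∞) fun i j => smooth_pd i (smooth_pd j hws)).continuous
  have hBc : IsClosed B :=
    (isClosed_le S.sm.continuous continuous_const).inter (isClosed_le hv.continuous continuous_const)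
  have hAc : IsClosed A := hBc.inter (isClosed_le hdc.abs continuous_const)
  have hsub : lbGrd η '' {x | η x ≤ h} ⊆ lbGrd w '' A := by
    rintro _ ⟨y, hy, rfl⟩
    have hy' : η y ≤ h := hy
    set L := fderiv ℝ η y with hL
    have hKh : h ≤ K * h := by nlinarith
    obtain ⟨x, hx, hmin⟩ := (S.cpt (K * h)).exists_isMinOn ⟨x₁, hx₁.trans hKh⟩
      (f := fun z => w z - L z) (hws.continuous.sub L.continuous).continuousOn
    have h1 : w x - L x ≤ w x₁ - L x₁ := hmin (hx₁.trans hKh)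
    have h2 : L (y - x₁) ≤ h / ρ := S.grad hh (by linarith) (by linarith) (by linarith)
    have h3 : h / ε * v x₁ ≤ h := by
      calc h / ε * v x₁ ≤ h / ε * ε := mul_le_mul_of_nonneg_left hvx₁ hb.le
        _ = h := by field_simp
    have h4 : C * h = 2 * h + h / ρ := by
      rw [hC]
      ring
    have h5 : w x - L x ≤ C * h + η y - L y := by
      rw [map_sub] at h2
      have := S.nn y
      have e : w x₁ = η x₁ + h / ε * v x₁ := rfl
      linarith
    have hglob : ∀ z, w x - L x ≤ w z - L z := by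
      intro z
      by_cases hz : η z ≤ K * h
      · exact hmin hz
      · have h6 := mt (hKe h hh z y hy') hz
        rw [not_le, map_sub] at h6
        have e : w z = η z + h / ε * v z := rfl
        have := mul_nonneg hb.le (hv0 z)
        linarith
    obtain ⟨hD, hP⟩ := lb_min hws L hglob
    have hvx : v x ≤ C * ε := by
      have h6 := S.tan_le y x
      rw [map_sub] at h6
      have e : w x = η x + h / ε * v x := rfl
      have h7 : h / ε * v x ≤ h / ε * (C * ε) := by
        have : h / ε * (C * ε) = C * h := by field_simp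
        linarith
      exact le_of_mul_le_mul_left h7 hb
    have hdet : (hess w x).det ≤ (hess η x).det := by
      refine lb_det (S.pos x) hP ?_
      have e : ∑ i, ∑ j, (hess η x)⁻¹ i j * hess η x i j = n := by
        have h8 := congrArg Matrix.trace
          (Matrix.nonsing_inv_mul (hess η x) (S.pos x).det_pos.ne'.isUnit)
        rw [Matrix.trace_one, Fintype.card_fin] at h8
        rw [← h8]
        simp only [Matrix.trace, Matrix.diag_apply, Matrix.mul_apply]
        refine Finset.sum_congr rfl fun i _ => Finset.sum_congr rfl fun j _ => ?_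
        have := (S.pos x).isHermitian.apply i j
        rw [star_trivial] at this
        rw [this]
      have e2 : ∑ i, ∑ j, (hess η x)⁻¹ i j * hess w x i j =
          ∑ i, ∑ j, (hess η x)⁻¹ i j * hess η x i j + h / ε * ∑ i, ∑ j, (hess η x)⁻¹ i j * hess v x i j := by
        simp only [hw, lb_hess_add S.sm hv, Finset.mul_sum, ← Finset.sum_add_distrib]
        exact Finset.sum_congr rfl fun i _ => Finset.sum_congr rfl fun j _ => by ring
      rw [e2, e]
      have := mul_nonneg hb.le (neg_nonneg.2 (hsup x))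
      linarith
    refine ⟨x, ⟨⟨hx, hvx⟩, ?_⟩, lb_grd_eq.2 hD⟩
    show |(hess w x).det| ≤ Lam
    rw [abs_of_nonneg hP.det_nonneg]
    exact hdet.trans (S.hi x)
  have hinj : InjOn (lbGrd η) {x | η x ≤ h} := by
    intro x _ y _ hxy
    by_contra hne
    have h1 := S.tan x y (Ne.symm hne)
    have h2 := S.tan y x hne
    rw [← lb_grd_eq.1 hxy, ← neg_sub y x, map_neg] at h2
    linarith
  have hSm : MeasurableSet {x | η x ≤ h} := (S.cpt h).measurableSet
  have h1 := lintegral_abs_det_fderiv_eq_addHaar_image volume hSm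
    (fun x _ => (lb_grd_deriv S.sm x).1.hasFDerivWithinAt) hinj
  have h2 := addHaar_image_le_lintegral_abs_det_fderiv volume hAc.measurableSet
    (fun x _ => (lb_grd_deriv hws x).1.hasFDerivWithinAt)
  have h3 : ENNReal.ofReal lam * volume {x | η x ≤ h} ≤ volume (lbGrd η '' {x | η x ≤ h}) := by
    rw [← h1, ← setLIntegral_const]
    refine setLIntegral_mono' hSm fun x _ => ENNReal.ofReal_le_ofReal ?_
    rw [(lb_grd_deriv S.sm x).2]
    exact (S.lo x).trans (le_abs_self _)
  have h4 : volume (lbGrd w '' A) ≤ ENNReal.ofReal Lam * volume B := by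
    refine h2.trans (le_trans ?_ (mul_le_mul_right (measure_mono (inter_subset_left : A ⊆ B)) _))
    rw [← setLIntegral_const]
    refine setLIntegral_mono' hAc.measurableSet fun x hx => ENNReal.ofReal_le_ofReal ?_
    rw [(lb_grd_deriv hws x).2]
    exact hx.2
  have h5 := h3.trans ((measure_mono hsub).trans h4)
  have hBf : volume B ≠ ⊤ :=
    ((measure_mono fun x hx => hx.1).trans_lt (S.cpt (K * h)).measure_lt_top).ne
  have hL : 0 ≤ Lam := (S.hlam.le.trans (S.lo x₀)).trans (S.hi x₀)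
  have h6 := ENNReal.toReal_mono (ENNReal.mul_ne_top ENNReal.ofReal_ne_top hBf) h5
  rwa [ENNReal.toReal_mul, ENNReal.toReal_mul, ENNReal.toReal_ofReal S.hlam.le,
    ENNReal.toReal_ofReal hL] at h6

end Crest.Agent.R236.Li
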