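import Crest.Agent.R236.LiA

/-!
# R236/LiC (helper53): Liouville theorem, the logarithmic Caccioppoli estimate
-/

set_option autoImplicit false

noncomputable section

open scoped ContDiff
open Set MeasureTheory Matrix Filter Topology

namespace Crest.Agent.R236.Li

open Crest.Agent.R238.An

variable {n : ℕ} {η : E n → ℝ} {x₀ : E n} {ρ c lam Lam : ℝ}

/-- gradient as a vector -/
def gd (f : E n → ℝ) (x : E n) : Fin n → ℝ := fun i => pd i f x

theorem fderiv_eq_dot (f : E n → ℝ) (x e : E n) : fderiv ℝ f x e = e.ofLp ⬝ᵥ gd f x :=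
  fderiv_eq_sum f x e

theorem int_pd {F : E n → ℝ} (hF : ContDiff ℝ 1 F) (hc : HasCompactSupport F) (i : Fin n) :
    Integrable (pd i F) ∧ ∫ x, pd i F x = 0 := by
  have h1 : Integrable (pd i F) :=
    (cont_pd i hF).integrable_of_hasCompactSupport (hc.fderiv_apply ℝ (ev i))
  refine ⟨h1, ?_⟩
  have h2 := integral_mul_fderiv_eq_neg_fderiv_mul_of_integrable (μ := volume)
    (f := fun _ : E n => (1 : ℝ)) (g := F) (v := ev i) (by simp)
    (by simp only [one_mul]; exact h1)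
    (by simp only [one_mul]; exact hF.continuous.integrable_of_hasCompactSupport hc)
    (fun x _ => differentiableAt_const _) (fun x _ => hF.differentiable (by simp) x)
  simpa [pd] using h2

/-- integration by parts against a divergence free matrix field -/
theorem ibp {M : E n → Mat n} (hM : ∀ i j, ContDiff ℝ 1 fun x => M x i j)
    (hdiv : ∀ j x, ∑ i, pd i (fun y => M y i j) x = 0) {ψ g : E n → ℝ} (hψ : ContDiff ℝ 1 ψ)
    (hc : HasCompactSupport ψ) (hg : ContDiff ℝ 2 g) {A : E n → ℝ}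
    (hA : ∀ x, A x = ψ x * (∑ i, ∑ j, M x i j * hess g x i j) + gd ψ x ⬝ᵥ M x *ᵥ gd g x) :
    Integrable A ∧ ∫ x, A x = 0 := by
  have h1 : ∀ i, ContDiff ℝ 1 fun x => ∑ j, M x i j * pd j g x := fun i =>
    ContDiff.sum fun j _ => (hM i j).mul (c1_pd j hg)
  have h2 := fun i => int_pd (hψ.mul (h1 i)) hc.mul_right i
  have d : ∀ {f : E n → ℝ}, ContDiff ℝ 1 f → Differentiable ℝ f := fun h =>
    h.differentiable (by simp)
  have e : A = fun x => ∑ i, pd i (fun x => ψ x * ∑ j, M x i j * pd j g x) x := by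
    funext x
    have e1 : ∀ i, pd i (fun x => ψ x * ∑ j, M x i j * pd j g x) x =
        pd i ψ x * ∑ j, M x i j * pd j g x +
          ψ x * ∑ j, (pd i (fun y => M y i j) x * pd j g x + M x i j * hess g x i j) := fun i => by
      rw [pd_mul i (d hψ) (d (h1 i)), pd_sum _ i fun j _ => d ((hM i j).mul (c1_pd j hg))]
      simp only [pd_mul i (d (hM i _)) (d (c1_pd _ hg))]
      rfl
    have e2 : ∑ i, ∑ j, pd i (fun y => M y i j) x * pd j g x = 0 := by
      rw [Finset.sum_comm]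
      simp only [← Finset.sum_mul, hdiv, zero_mul, Finset.sum_const_zero]
    simp only [e1, Finset.sum_add_distrib, ← Finset.mul_sum, e2, zero_add]
    rw [hA, add_comm]
    rfl
  rw [e]
  refine ⟨integrable_finsetSum _ fun i _ => (h2 i).1, ?_⟩
  rw [integral_finsetSum _ fun i _ => (h2 i).1]
  exact Finset.sum_eq_zero fun i _ => (h2 i).2

/-- the cofactor matrix of the Hessian -/
def cof (η : E n → ℝ) (x : E n) : Mat n := (hess η x).det • (hess η x)⁻¹

theorem St.c_hess (S : St η x₀ ρ c lam Lam) (i j : Fin n) : ContDiff ℝ 1 fun x => hess η x i j :=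
  (smooth_pd i (smooth_pd j S.sm)).of_le (by norm_cast)

theorem St.c_cof (S : St η x₀ ρ c lam Lam) (i j : Fin n) : ContDiff ℝ 1 fun x => cof η x i j :=
  (contDiff_det S.c_hess).mul (contDiff_inv S.c_hess (fun x => (S.pos x).det_pos.ne') i j)

theorem St.div_cof (S : St η x₀ ρ c lam Lam) (j : Fin n) (x : E n) :
    ∑ i, pd i (fun y => cof η y i j) x = 0 := by
  have hd : ∀ x, (hess η x).det ≠ 0 := fun x => (S.pos x).det_pos.ne'
  have d : ∀ {f : E n → ℝ}, ContDiff ℝ 1 f → Differentiable ℝ f := fun h =>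
    h.differentiable (by simp)
  have c2 : ContDiff ℝ 2 η := S.sm.of_le (by norm_cast)
  have c2' : ∀ b, ContDiff ℝ 2 (pd b η) := fun b => (smooth_pd b S.sm).of_le (by norm_cast)
  have e1 : ∀ i, pd i (fun y => (hess η y).det) x =
      (hess η x).det * ∑ a, ∑ b, (hess η x)⁻¹ a b * pd a (pd b (pd i η)) x := fun i => by
    have e : (fun y => (hess η y).det) = fun y => Real.exp (Real.log (hess η y).det) :=
      funext fun y => (Real.exp_log (S.pos y).det_pos).symm
    rw [e, pd_comp i (d (contDiff_logdet S.c_hess hd) x) (Real.hasDerivAt_exp _),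
      Real.exp_log (S.pos x).det_pos, pd_logdet S.c_hess hd]
    congr 1
    refine Finset.sum_congr rfl fun a _ => Finset.sum_congr rfl fun b _ => ?_
    congr 1
    show pd i (pd b (pd a η)) x = _
    rw [pd_comm c2 b a, pd_comm (c2' b) i a, pd_comm c2 i b]
  have e2 : ∀ i, pd i (fun y => cof η y i j) x =
      (hess η x).det * ((∑ a, ∑ b, (hess η x)⁻¹ a b * pd a (pd b (pd i η)) x * (hess η x)⁻¹ i j) -
        ∑ a, ∑ b, (hess η x)⁻¹ i a * pd i (pd a (pd b η)) x * (hess η x)⁻¹ b j) := fun i => by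
    have := pd_mul_at i (d (contDiff_det S.c_hess) x) (d (contDiff_inv S.c_hess hd i j) x)
    rw [e1, pd_inv S.c_hess hd] at this
    refine this.trans ?_
    simp only [← Finset.sum_mul]
    show _ + _ * -∑ a, (∑ b, _ * pd i (pd a (pd b η)) x * _) = _
    ring
  simp only [e2, ← Finset.mul_sum, Finset.sum_sub_distrib]
  rw [Finset.sum_comm, sub_eq_zero.2, mul_zero]
  exact Finset.sum_congr rfl fun a _ => Finset.sum_comm

theorem hasDerivAt_pp (k : ℕ) (s : ℝ) :
    HasDerivAt (fun s : ℝ => max s 0 ^ (k + 2)) ((k + 2) * max s 0 ^ (k + 1)) s := by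
  rcases lt_trichotomy s 0 with h | rfl | h
  · rw [max_eq_right h.le, zero_pow (by omega), mul_zero]
    refine (hasDerivAt_const s (0 : ℝ)).congr_of_eventuallyEq ?_
    filter_upwards [gt_mem_nhds h] with r hr
    rw [max_eq_right hr.le, zero_pow (by omega)]
  · rw [max_self, zero_pow (by omega), mul_zero, hasDerivAt_iff_tendsto_slope_zero]
    have h1 : Tendsto (fun t : ℝ => max t 0 ^ (k + 1)) (𝓝[≠] 0) (𝓝 0) := by
      have h2 : Continuous fun t : ℝ => max t 0 ^ (k + 1) := by fun_prop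
      have h3 := h2.tendsto 0
      rw [max_self, zero_pow (by omega)] at h3
      exact h3.mono_left nhdsWithin_le_nhds
    refine h1.congr' ?_
    filter_upwards [self_mem_nhdsWithin] with t ht
    have ht' : t ≠ 0 := ht
    rw [zero_add, max_self, zero_pow (by omega), sub_zero, smul_eq_mul]
    rcases le_total t 0 with h | h
    · simp [max_eq_right h]
    · rw [max_eq_left h]
      field_simp
      ring
  · rw [max_eq_left h.le]
    have h1 := hasDerivAt_pow (k + 2) s
    rw [Nat.cast_add, Nat.cast_ofNat] at h1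
    refine h1.congr_of_eventuallyEq ?_
    filter_upwards [lt_mem_nhds h] with r hr
    rw [max_eq_left hr.le]

theorem contDiff_pp (k : ℕ) : ContDiff ℝ 1 fun s : ℝ => max s 0 ^ (k + 2) := by
  rw [contDiff_one_iff_deriv]
  refine ⟨fun s => (hasDerivAt_pp k s).differentiableAt, ?_⟩
  rw [show deriv (fun s : ℝ => max s 0 ^ (k + 2)) =
      fun s : ℝ => ((k : ℝ) + 2) * max s 0 ^ (k + 1) from
    funext fun s => (hasDerivAt_pp k s).deriv]
  fun_prop

/-- the cut-off function -/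
def pc (η : E n → ℝ) (t : ℝ) (x : E n) : ℝ := max (2 - η x / t) 0

theorem St.c_pc (S : St η x₀ ρ c lam Lam) (t : ℝ) (k : ℕ) :
    ContDiff ℝ 1 fun x => pc η t x ^ (k + 2) :=
  (contDiff_pp k).comp (contDiff_const.sub ((S.sm.of_le (by norm_cast)).div_const t))

theorem pc_zero {t : ℝ} (ht : 0 < t) {x : E n} (hx : 2 * t < η x) : pc η t x = 0 := by
  refine max_eq_right ?_
  rw [sub_nonpos, le_div_iff₀ ht]
  exact hx.le

theorem St.s_pc (S : St η x₀ ρ c lam Lam) {t : ℝ} (ht : 0 < t) (k : ℕ) :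
    HasCompactSupport fun x => pc η t x ^ (k + 2) :=
  HasCompactSupport.intro (S.cpt (2 * t)) fun x hx => by
    rw [pc_zero ht (not_le.1 hx), zero_pow (by omega)]

theorem St.gd_pc (S : St η x₀ ρ c lam Lam) (t : ℝ) (k : ℕ) (x : E n) :
    gd (fun x => pc η t x ^ (k + 2)) x = (-((k + 2) * pc η t x ^ (k + 1) / t)) • gd η x := by
  funext i
  have hd : DifferentiableAt ℝ η x := S.sm.differentiable (by simp) x
  have h1 : HasDerivAt (fun s : ℝ => 2 - s / t) (-(1 / t)) (η x) :=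
    ((hasDerivAt_id _).div_const t).const_sub 2
  have h2 := (hasDerivAt_pp k (2 - η x / t)).comp (η x) h1
  have h3 := pd_comp i hd h2
  refine h3.trans ?_
  simp only [Pi.smul_apply, smul_eq_mul, gd, pc]
  ring

theorem herm_symm {U : Mat n} (hU : U.IsHermitian) : U.IsSymm :=
  (conjTranspose_eq_transpose_of_trivial U).symm.trans hU

theorem psd_cross {U : Mat n} (hU : U.PosSemidef) (a b : Fin n → ℝ) (r s : ℝ) :
    0 ≤ r ^ 2 * (a ⬝ᵥ U *ᵥ a) + 2 * r * s * (b ⬝ᵥ U *ᵥ a) + s ^ 2 * (b ⬝ᵥ U *ᵥ b) := by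
  have h := hU.dotProduct_mulVec_nonneg (r • a + s • b)
  have h2 : a ⬝ᵥ U *ᵥ b = b ⬝ᵥ U *ᵥ a := amat_symm (herm_symm hU.isHermitian) b a
  simp only [star_trivial, mulVec_add, mulVec_smul, add_dotProduct, dotProduct_add,
    smul_dotProduct, dotProduct_smul, smul_eq_mul, h2] at h
  linarith

theorem dual_cs {H : Mat n} (hH : H.PosDef) (a e : Fin n → ℝ) (s : ℝ) :
    2 * s * |e ⬝ᵥ a| ≤ s ^ 2 * (a ⬝ᵥ H⁻¹ *ᵥ a) + e ⬝ᵥ H *ᵥ e := by
  have hu : IsUnit H.det := hH.det_pos.ne'.isUnit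
  have h1 : H⁻¹ *ᵥ H *ᵥ e = e := by rw [mulVec_mulVec, nonsing_inv_mul _ hu, one_mulVec]
  have h2 : (H *ᵥ e) ⬝ᵥ H⁻¹ *ᵥ a = e ⬝ᵥ a := by
    rw [amat_symm (herm_symm hH.inv.isHermitian), h1, dotProduct_comm]
  have h3 := psd_cross hH.inv.posSemidef a (H *ᵥ e) s 1
  have h4 := psd_cross hH.inv.posSemidef a (H *ᵥ e) s (-1)
  rw [h1, h2, dotProduct_comm (H *ᵥ e)] at h3 h4
  rcases abs_cases (e ⬝ᵥ a) with h | h <;> rw [h.1] <;> linarith

theorem int_comb {A1 A2 A3 g : E n → ℝ} {r1 r2 r3 C : ℝ} {T T' : Set (E n)}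
    (k1 : Integrable A1 ∧ ∫ x, A1 x = 0) (k2 : Integrable A2 ∧ ∫ x, A2 x = 0)
    (k3 : Integrable A3 ∧ ∫ x, A3 x = 0) (hg : Continuous g) (hT : IsCompact T)
    (hT' : IsCompact T')
    (h : ∀ x, T.indicator g x ≤ r1 * A1 x + r2 * A2 x + r3 * A3 x + T'.indicator (fun _ => C) x) :
    ∫ x in T, g x ≤ C * volume.real T' := by
  have k4 : Integrable (T'.indicator fun _ => C) :=
    (integrable_indicator_iff hT'.measurableSet).2 (continuousOn_const.integrableOn_compact hT')
  have j1 : Integrable fun x => r1 * A1 x := k1.1.const_mul _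
  have j2 : Integrable fun x => r2 * A2 x := k2.1.const_mul _
  have j3 : Integrable fun x => r3 * A3 x := k3.1.const_mul _
  have j12 : Integrable fun x => r1 * A1 x + r2 * A2 x := j1.add j2
  have j123 : Integrable fun x => r1 * A1 x + r2 * A2 x + r3 * A3 x := j12.add j3
  rw [← integral_indicator hT.measurableSet]
  refine (integral_mono ((integrable_indicator_iff hT.measurableSet).2
    (hg.continuousOn.integrableOn_compact hT)) (j123.add k4) h).trans (le_of_eq ?_)
  show ∫ x, (r1 * A1 x + r2 * A2 x + r3 * A3 x + T'.indicator (fun _ => C) x) = _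
  rw [integral_add j123 k4, integral_add j12 j3, integral_add j1 j2, integral_const_mul,
    integral_const_mul, integral_const_mul, k1.2, k2.2, k3.2, integral_indicator hT'.measurableSet,
    setIntegral_const, smul_eq_mul]
  ring

theorem cacc_alg {p W d L α β γ ee g m N t lam : ℝ} (hp : 0 ≤ p) (hW : 0 < W) (ht : 0 < t)
    (hlam : 0 < lam) (hd : lam ≤ d) (hL : L ≤ 0) (hee : 0 ≤ ee)
    (h1 : 2 * (t * d * W) * m ≤ (t * d * W) ^ 2 * α + ee)
    (h2 : 0 ≤ (p ^ 2 * W) ^ 2 * α + 2 * (p ^ 2 * W) * (4 * p / t) * β + (4 * p / t) ^ 2 * γ) :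
    p ^ 4 * (W * m) ≤ -t * (p ^ 4 * W * (d * L) + d * (-(4 * p ^ 3 / t) * W * β - p ^ 4 * W ^ 2 * α)) +
      -8 / 3 * (p ^ 3 * (d * N) - 3 * p ^ 2 / t * (d * γ)) +
      1 / (2 * t * lam) * (p ^ 4 * ee - 4 * p ^ 3 / t * g ^ 2) +
      p ^ 3 * (8 / 3 * d * N + 2 * (g / t) ^ 2 / lam) := by
  have hd0 : 0 < d := hlam.trans_le hd
  have a1 : W * m ≤ t * d * W ^ 2 * α / 2 + ee / (2 * t * lam) := by
    have b1 : W * m ≤ t * d * W ^ 2 * α / 2 + ee / (2 * t * d) := by
      have b2 : W * m = 2 * (t * d * W) * m / (2 * t * d) := by field_simp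
      have b3 : t * d * W ^ 2 * α / 2 + ee / (2 * t * d) =
          ((t * d * W) ^ 2 * α + ee) / (2 * t * d) := by field_simp
      rw [b2, b3]
      exact div_le_div_of_nonneg_right h1 (by positivity)
    have b4 : ee / (2 * t * d) ≤ ee / (2 * t * lam) := by gcongr
    linarith
  have a2 := mul_le_mul_of_nonneg_left a1 (pow_nonneg hp 4)
  have a3 := mul_nonneg (by positivity : 0 ≤ t * d / 2) h2
  have a4 : 0 ≤ t * (p ^ 4 * W * (d * -L)) :=
    mul_nonneg ht.le (mul_nonneg (by positivity) (mul_nonneg hd0.le (by linarith)))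
  have e : -t * (p ^ 4 * W * (d * L) + d * (-(4 * p ^ 3 / t) * W * β - p ^ 4 * W ^ 2 * α)) +
      -8 / 3 * (p ^ 3 * (d * N) - 3 * p ^ 2 / t * (d * γ)) +
      1 / (2 * t * lam) * (p ^ 4 * ee - 4 * p ^ 3 / t * g ^ 2) +
      p ^ 3 * (8 / 3 * d * N + 2 * (g / t) ^ 2 / lam) =
      t * (p ^ 4 * W * (d * -L)) + t * d / 2 * ((p ^ 2 * W) ^ 2 * α +
        2 * (p ^ 2 * W) * (4 * p / t) * β + (4 * p / t) ^ 2 * γ) +
        p ^ 4 * (t * d * W ^ 2 * α / 2 + ee / (2 * t * lam)) := by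
    field_simp
    ring
  rw [e]
  linarith

/-- logarithmic Caccioppoli estimate -/
theorem St.cacc (S : St η x₀ ρ c lam Lam) {V : E n → ℝ} (hV : ContDiff ℝ ∞ V) (hV0 : ∀ x, 0 < V x)
    (hL : ∀ x, ∑ i, ∑ j, (hess η x)⁻¹ i j * hess V x i j ≤ 0) {t : ℝ} (ht : 0 < t) {a b : E n}
    (ha : η a ≤ 2 * t) (hb : η b ≤ 2 * t) :
    ∫ z in {x | η x ≤ t}, |fderiv ℝ (fun x => Real.log (V x)) z (a - b)| ≤
      (22 * n * Lam + 16 / (ρ ^ 2 * lam)) * volume.real {x | η x ≤ 2 * t} := by
  have hρ := S.hρ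
  have hlam := S.hlam
  have c2 : ContDiff ℝ 2 η := S.sm.of_le (by norm_cast)
  have V2 : ContDiff ℝ 2 V := hV.of_le (by norm_cast)
  have V1 : ContDiff ℝ 1 V := hV.of_le (by norm_cast)
  have f1 : ContDiff ℝ 1 fun x => Real.log (V x) := V1.log fun x => (hV0 x).ne'
  have i1 : ContDiff ℝ 1 fun x => (V x)⁻¹ := V1.inv fun x => (hV0 x).ne'
  have d : ∀ {f : E n → ℝ}, ContDiff ℝ 1 f → Differentiable ℝ f := fun h =>
    h.differentiable (by simp)
  set e : Fin n → ℝ := (a - b).ofLp with he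
  have cs : ∀ (x : E n) (N : Mat n), ∑ i, ∑ j, cof η x i j * N i j =
      (hess η x).det * ∑ i, ∑ j, (hess η x)⁻¹ i j * N i j := fun x N => by
    simp only [cof, Matrix.smul_apply, smul_eq_mul, Finset.mul_sum, mul_assoc]
  have k1 := ibp S.c_cof S.div_cof ((S.c_pc t 2).mul i1) (S.s_pc ht 2).mul_right V2
    (A := fun x => pc η t x ^ 4 * (V x)⁻¹ * ((hess η x).det * ∑ i, ∑ j, (hess η x)⁻¹ i j *
      hess V x i j) + (hess η x).det * (-(4 * pc η t x ^ 3 / t) * (V x)⁻¹ *
        (gd η x ⬝ᵥ (hess η x)⁻¹ *ᵥ gd V x) - pc η t x ^ 4 * (V x)⁻¹ ^ 2 *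
          (gd V x ⬝ᵥ (hess η x)⁻¹ *ᵥ gd V x))) fun x => by
      have e1 : gd (fun x => pc η t x ^ (2 + 2) * (V x)⁻¹) x =
          (V x)⁻¹ • gd (fun x => pc η t x ^ (2 + 2)) x -
            (pc η t x ^ 4 * (V x)⁻¹ ^ 2) • gd V x := by
        funext i
        have h1 := pd_mul_at i (d (S.c_pc t 2) x) (d i1 x)
        rw [pd_comp (σ := fun s => s⁻¹) i (d V1 x) (hasDerivAt_inv (hV0 x).ne')] at h1
        refine h1.trans ?_
        simp only [Pi.sub_apply, Pi.smul_apply, smul_eq_mul, gd]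
        ring
      rw [cs, e1, S.gd_pc, cof, smul_mulVec]
      simp only [sub_dotProduct, smul_dotProduct, dotProduct_smul, smul_eq_mul]
      push_cast
      ring
  have k2 := ibp S.c_cof S.div_cof (S.c_pc t 1) (S.s_pc ht 1) c2
    (A := fun x => pc η t x ^ 3 * ((hess η x).det * n) - 3 * pc η t x ^ 2 / t *
      ((hess η x).det * (gd η x ⬝ᵥ (hess η x)⁻¹ *ᵥ gd η x))) fun x => by
      have e1 : ∑ i, ∑ j, (hess η x)⁻¹ i j * hess η x i j = n := by
        have h1 : ((hess η x)⁻¹ * hess η x).trace = n := by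
          rw [nonsing_inv_mul _ (S.pos x).det_pos.ne'.isUnit, trace_one, Fintype.card_fin]
        rw [← h1]
        refine Finset.sum_congr rfl fun i _ => Finset.sum_congr rfl fun j _ => ?_
        rw [(hess_isSymm c2 x).apply]
      rw [cs, e1, S.gd_pc, cof, smul_mulVec]
      simp only [smul_dotProduct, dotProduct_smul, smul_eq_mul]
      push_cast
      ring
  have k3 := ibp (M := fun _ => vecMulVec e e) (fun _ _ => contDiff_const)
    (fun j x => by simp [pd_const]) (S.c_pc t 2) (S.s_pc ht 2) c2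
    (A := fun x => pc η t x ^ 4 * (e ⬝ᵥ hess η x *ᵥ e) - 4 * pc η t x ^ 3 / t *
      (e ⬝ᵥ gd η x) ^ 2) fun x => by
      have e1 : ∑ i, ∑ j, vecMulVec e e i j * hess η x i j = e ⬝ᵥ hess η x *ᵥ e := by
        simp only [vecMulVec_apply, dotProduct, mulVec, Finset.mul_sum]
        exact Finset.sum_congr rfl fun i _ => Finset.sum_congr rfl fun j _ => by ring
      rw [e1, S.gd_pc, vecMulVec_mulVec]
      simp only [smul_dotProduct, dotProduct_smul, smul_eq_mul, op_smul_eq_smul,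
        dotProduct_comm (gd η x) e]
      push_cast
      ring
  have hc : Continuous fun z => |fderiv ℝ (fun x => Real.log (V x)) z (a - b)| :=
    ((f1.continuous_fderiv (by simp)).clm_apply continuous_const).abs
  refine int_comb (r1 := -t) (r2 := -8 / 3) (r3 := 1 / (2 * t * lam)) k1 k2 k3 hc (S.cpt _)
    (S.cpt _) fun x => ?_
  have hp : 0 ≤ pc η t x := le_max_right _ _
  have hW : 0 < (V x)⁻¹ := inv_pos.2 (hV0 x)
  have h1 := cacc_alg (g := e ⬝ᵥ gd η x) (N := n) hp hW ht hlam (S.lo x) (hL x)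
    ((S.pos x).posSemidef.dotProduct_mulVec_nonneg e) (dual_cs (S.pos x) (gd V x) e _)
    (psd_cross (S.pos x).inv.posSemidef (gd V x) (gd η x) _ _)
  have e1 : |fderiv ℝ (fun x => Real.log (V x)) x (a - b)| = (V x)⁻¹ * |e ⬝ᵥ gd V x| := by
    have e2 : gd (fun x => Real.log (V x)) x = (V x)⁻¹ • gd V x :=
      funext fun i => pd_comp i (d V1 x) (Real.hasDerivAt_log (hV0 x).ne')
    rw [fderiv_eq_dot, e2, dotProduct_smul, smul_eq_mul, abs_mul, abs_of_pos hW]
  have h0 : 0 ≤ (V x)⁻¹ * |e ⬝ᵥ gd V x| := by positivity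
  refine le_trans ?_ (h1.trans (add_le_add le_rfl ?_))
  · by_cases hx : x ∈ {x | η x ≤ t}
    · rw [indicator_of_mem hx, e1]
      refine le_mul_of_one_le_left h0 (one_le_pow₀ (le_max_of_le_left ?_))
      have := (div_le_one ht).2 (show η x ≤ t from hx)
      linarith
    · rw [indicator_of_notMem hx]
      positivity
  · by_cases hx : x ∈ {x | η x ≤ 2 * t}
    · rw [indicator_of_mem hx]
      have hx' : η x ≤ 2 * t := hx
      have g1 := S.grad ht (y := x) (a := a) (b := b) (by linarith) (by linarith) (by linarith)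
      have g2 := S.grad ht (y := x) (a := b) (b := a) (by linarith) (by linarith) (by linarith)
      rw [← neg_sub a b, map_neg] at g2
      rw [fderiv_eq_dot, ← he] at g1 g2
      have g3 : (e ⬝ᵥ gd η x / t) ^ 2 ≤ (1 / ρ) ^ 2 := by
        have e3 : t / ρ = 1 / ρ * t := by ring
        refine sq_le_sq' ?_ ?_
        · rw [le_div_iff₀ ht]
          linarith
        · rw [div_le_iff₀ ht]
          linarith
      have g4 : pc η t x ^ 3 ≤ 2 ^ 3 := pow_le_pow_left₀ hp (max_le
        (by linarith [div_nonneg (S.nn x) ht.le]) (by norm_num)) 3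
      have g5 := (S.pos x).det_pos
      have g6 := S.hi x
      calc _ ≤ 2 ^ 3 * (8 / 3 * Lam * n + 2 * (1 / ρ) ^ 2 / lam) := by gcongr
        _ = 64 / 3 * (n * Lam) + 16 / (ρ ^ 2 * lam) := by
          field_simp
          ring
        _ ≤ _ := by
          have : 0 ≤ n * Lam := mul_nonneg n.cast_nonneg (by linarith)
          linarith
    · rw [indicator_of_notMem hx, pc_zero ht (not_le.1 hx)]
      simp

end Crest.Agent.R236.Li
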