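import Crest.Agent.R238.AnCalc

/-!
# R236/LiD (helper53): Liouville theorem, an `L¹` Poincaré inequality on convex sets
-/

set_option autoImplicit false

noncomputable section

open scoped ContDiff ENNReal
open Set MeasureTheory

namespace Crest.Agent.R236.Li

open Crest.Agent.R238.An

variable {n : ℕ}

theorem seg_le {f : E n → ℝ} (hf : ContDiff ℝ 1 f) (x e : E n) :
    ENNReal.ofReal (f (x + e) - f x) ≤
      ∫⁻ t in Ioc (0 : ℝ) 1, ENNReal.ofReal |fderiv ℝ f (x + t • e) e| := by
  have hd : Differentiable ℝ f := hf.differentiable (by simp)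
  have hc : Continuous fun t : ℝ => fderiv ℝ f (x + t • e) e :=
    ((hf.continuous_fderiv (by simp)).comp (by fun_prop)).clm_apply continuous_const
  have h1 : ∀ t : ℝ, HasDerivAt (fun t : ℝ => f (x + t • e)) (fderiv ℝ f (x + t • e) e) t := by
    intro t
    have h2 : HasDerivAt (fun t : ℝ => x + t • e) e t := by
      simpa using ((hasDerivAt_id t).smul_const e).const_add x
    exact (hd _).hasFDerivAt.comp_hasDerivAt t h2
  have h3 := intervalIntegral.integral_eq_sub_of_hasDerivAt (a := 0) (b := 1)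
    (fun t _ => h1 t) (hc.intervalIntegrable _ _)
  simp only [one_smul, zero_smul, add_zero] at h3
  rw [← h3, ← ofReal_integral_eq_lintegral_ofReal (hc.abs.integrableOn_Icc.mono_set Ioc_subset_Icc_self)
    (ae_of_all _ fun _ => abs_nonneg _), ← intervalIntegral.integral_of_le zero_le_one]
  exact ENNReal.ofReal_le_ofReal (intervalIntegral.integral_mono_on zero_le_one
    (hc.intervalIntegrable _ _) (hc.abs.intervalIntegrable _ _) fun t _ => le_abs_self _)

theorem slice_le {S T : Set (E n)} (hS : Convex ℝ S) (hSc : IsCompact S) (hT : MeasurableSet T)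
    {f : E n → ℝ} (hf : ContDiff ℝ 1 f) {e : E n} {g : ℝ}
    (h : ∀ x ∈ T, x ∈ S ∧ x + e ∈ S ∧ g ≤ f (x + e) - f x) :
    ENNReal.ofReal g * volume T ≤ ENNReal.ofReal (∫ z in S, |fderiv ℝ f z e|) := by
  have hc : Continuous fun z => |fderiv ℝ f z e| :=
    ((hf.continuous_fderiv (by simp)).clm_apply continuous_const).abs
  set G : E n → ℝ≥0∞ := S.indicator fun z => ENNReal.ofReal |fderiv ℝ f z e| with hG
  have hGm : Measurable G :=
    (ENNReal.measurable_ofReal.comp hc.measurable).indicator hSc.measurableSet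
  have h1 : ENNReal.ofReal g * volume T ≤ ∫⁻ x, ∫⁻ t in Ioc (0 : ℝ) 1, G (x + t • e) := by
    rw [← lintegral_indicator_const hT]
    refine lintegral_mono fun x => ?_
    by_cases hx : x ∈ T
    · rw [indicator_of_mem hx]
      obtain ⟨a, b, c⟩ := h x hx
      refine (ENNReal.ofReal_le_ofReal c).trans ((seg_le hf x e).trans (le_of_eq ?_))
      refine setLIntegral_congr_fun measurableSet_Ioc fun t ht => ?_
      have : x + t • e ∈ S := hS.add_smul_mem a b ⟨ht.1.le, ht.2⟩
      simp only [hG, indicator_of_mem this]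
    · simp [indicator_of_notMem hx]
  have hm : Measurable (Function.uncurry fun (x : E n) (t : ℝ) => G (x + t • e)) :=
    hGm.comp (by fun_prop)
  rw [lintegral_lintegral_swap hm.aemeasurable] at h1
  simp only [lintegral_add_right_eq_self G] at h1
  rw [setLIntegral_const, Real.volume_Ioc, sub_zero, ENNReal.ofReal_one, mul_one, hG,
    lintegral_indicator hSc.measurableSet] at h1
  rwa [ofReal_integral_eq_lintegral_ofReal (hc.continuousOn.integrableOn_compact hSc)
    (ae_of_all _ fun _ => abs_nonneg _)]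

/-- `L¹` Poincaré inequality -/
theorem poincare {S A B D : Set (E n)} (hS : Convex ℝ S) (hSc : IsCompact S) (hA : MeasurableSet A)
    (hB : MeasurableSet B) (hAS : A ⊆ S) (hBS : B ⊆ S) (hD : MeasurableSet D)
    (hDf : volume D ≠ ⊤) (hSD : ∀ x ∈ S, ∀ y ∈ S, y - x ∈ D) {f : E n → ℝ} (hf : ContDiff ℝ 1 f)
    {a b N : ℝ} (hab : a ≤ b) (ha : ∀ x ∈ A, f x ≤ a) (hb : ∀ y ∈ B, b ≤ f y) (hN0 : 0 ≤ N)
    (hN : ∀ x ∈ S, ∀ y ∈ S, ∫ z in S, |fderiv ℝ f z (y - x)| ≤ N) :
    (b - a) * (volume.real A * volume.real B) ≤ N * volume.real D := by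
  have hT : MeasurableSet {p : E n × E n | p.2 ∈ A ∧ p.2 + p.1 ∈ B} :=
    (measurable_snd hA).inter ((measurable_snd.add measurable_fst) hB)
  have hT' : ∀ e : E n, MeasurableSet {x | x ∈ A ∧ x + e ∈ B} := fun e =>
    hA.inter ((measurable_add_const e) hB)
  have h1 : ∫⁻ e : E n, volume {x | x ∈ A ∧ x + e ∈ B} = volume A * volume B := by
    have e1 : ∀ e : E n, volume {x | x ∈ A ∧ x + e ∈ B} =
        ∫⁻ x, {p : E n × E n | p.2 ∈ A ∧ p.2 + p.1 ∈ B}.indicator 1 (e, x) := fun e => by
      rw [← lintegral_indicator_one (hT' e)]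
      rfl
    simp only [e1]
    have hm : Measurable (Function.uncurry fun e x : E n =>
        {p : E n × E n | p.2 ∈ A ∧ p.2 + p.1 ∈ B}.indicator (1 : E n × E n → ℝ≥0∞) (e, x)) :=
      measurable_one.indicator hT
    rw [lintegral_lintegral_swap hm.aemeasurable, mul_comm, ← lintegral_indicator_const hA]
    refine lintegral_congr fun x => ?_
    by_cases hx : x ∈ A
    · rw [indicator_of_mem hx, ← measure_preimage_add volume x B,
        ← lintegral_indicator_one ((measurable_const_add x) hB)]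
      refine lintegral_congr fun e => ?_
      by_cases he : x + e ∈ B <;> simp [indicator, hx, he]
    · simp [indicator, hx]
  have h2 : ENNReal.ofReal (b - a) * (volume A * volume B) ≤ ENNReal.ofReal N * volume D := by
    rw [← h1, ← lintegral_const_mul' _ _ ENNReal.ofReal_ne_top, ← lintegral_indicator_const hD]
    refine lintegral_mono fun e => ?_
    rcases {x | x ∈ A ∧ x + e ∈ B}.eq_empty_or_nonempty with h0 | ⟨x, hx, hx'⟩
    · simp [h0]
    · have e2 : x + e - x = e := add_sub_cancel_left x e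
      have h3 := hSD x (hAS hx) _ (hBS hx')
      have h4 := hN x (hAS hx) _ (hBS hx')
      rw [e2] at h3 h4
      simp only [indicator_of_mem h3]
      refine (slice_le hS hSc (hT' e) hf fun y hy => ⟨hAS hy.1, hBS hy.2, ?_⟩).trans
        (ENNReal.ofReal_le_ofReal h4)
      linarith [ha y hy.1, hb _ hy.2]
  have h3 := ENNReal.toReal_mono (ENNReal.mul_ne_top ENNReal.ofReal_ne_top hDf) h2
  rwa [ENNReal.toReal_mul, ENNReal.toReal_mul, ENNReal.toReal_mul,
    ENNReal.toReal_ofReal (sub_nonneg.2 hab), ENNReal.toReal_ofReal hN0] at h3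

end Crest.Agent.R236.Li
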