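import Crest.Agent.R236.LiB
import Crest.Agent.R236.LiC
import Crest.Agent.R236.LiD

/-!
# R236/LiE (helper53): bounded solutions of the linearised Monge–Ampère equation are constant
-/

set_option autoImplicit false

noncomputable section

open scoped ContDiff
open Set MeasureTheory

namespace Crest.Agent.R236.Li

open Crest.Agent.R238.An

variable {n : ℕ} {η : E n → ℝ} {x₀ : E n} {ρ c lam Lam : ℝ}

theorem hess_add_const (w : E n → ℝ) (a : ℝ) (x : E n) : hess (fun y => w y + a) x = hess w x := by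
  ext i j
  simp only [hess, Matrix.of_apply, pd_add_const]

theorem hess_neg (w : E n → ℝ) (x : E n) (i j : Fin n) :
    hess (fun y => -w y) x i j = -hess w x i j := by
  simp only [hess, Matrix.of_apply, pd_neg]

theorem St.const (S : St η x₀ ρ c lam Lam) {w : E n → ℝ} (hw : ContDiff ℝ ∞ w)
    (hL : ∀ x, ∑ i, ∑ j, (hess η x)⁻¹ i j * hess w x i j = 0) (hb : BddBelow (range w))
    (ha : BddAbove (range w)) (x y : E n) : w x = w y := by
  have hρ := S.hρ
  have hlam := S.hlam
  have hLam : 0 < Lam := hlam.trans_le ((S.lo x).trans (S.hi x))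
  set m := ⨅ z, w z with hm
  set M := ⨆ z, w z with hM
  have h1 : ∀ z, m ≤ w z := fun z => ciInf_le hb z
  have h2 : ∀ z, w z ≤ M := fun z => le_ciSup ha z
  rcases le_or_gt M m with h3 | h3
  · linarith [h1 x, h1 y, h2 x, h2 y]
  exfalso
  obtain ⟨K, C, hK, hC, abp⟩ := S.abp
  set N : ℝ := 22 * n * Lam + 16 / (ρ ^ 2 * lam) with hN
  have hN0 : 0 ≤ N := by positivity
  set G : ℝ := N * (2 * K) ^ n * ((ρ ^ n)⁻¹ * K ^ n) * (Lam / lam) ^ 2 with hG
  have hG0 : 0 ≤ G := by positivity
  set δ : ℝ := (M - m) / 2 with hδ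
  have hδ0 : 0 < δ := by linarith
  set ε : ℝ := δ * Real.exp (-(G + 1)) / (C + 1) with hε
  have hε0 : 0 < ε := by positivity
  have hε1 : (C + 1) * ε = δ * Real.exp (-(G + 1)) := by
    rw [hε]
    field_simp
  have hε2 : (C + 1) * ε ≤ δ := by
    rw [hε1]
    exact mul_le_of_le_one_right hδ0.le (Real.exp_le_one_iff.2 (by linarith))
  obtain ⟨x₁, hx₁⟩ := exists_lt_of_ciInf_lt (show ⨅ z, w z < m + ε by linarith)
  obtain ⟨x₂, hx₂⟩ := exists_lt_of_lt_ciSup (show M - ε < ⨆ z, w z by linarith)
  set h : ℝ := η x₁ + η x₂ + 1 with hh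
  have n1 := S.nn x₁
  have n2 := S.nn x₂
  have hh0 : 0 < h := by linarith
  have ht : 0 < K * h := by positivity
  have a1 := abp (fun z => w z + -m) (hw.add contDiff_const) (fun z => by linarith [h1 z])
    (fun z => by rw [hess_add_const, hL]) h ε hh0 hε0 x₁ (by linarith) (by linarith)
  have a2 := abp (fun z => -w z + M) (hw.neg.add contDiff_const) (fun z => by linarith [h2 z])
    (fun z => by
      rw [hess_add_const (fun z => -w z)]
      simp only [hess_neg, mul_neg, Finset.sum_neg_distrib, hL, neg_zero, le_refl])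
    h ε hh0 hε0 x₂ (by linarith) (by linarith)
  have hV : ContDiff ℝ ∞ fun z => w z + (-m + ε) := hw.add contDiff_const
  have hV0 : ∀ z, 0 < w z + (-m + ε) := fun z => by linarith [h1 z]
  have hf : ContDiff ℝ 1 fun z => Real.log (w z + (-m + ε)) :=
    (hV.of_le (by norm_cast)).log fun z => (hV0 z).ne'
  have cη := S.sm.continuous
  have cw := hw.continuous
  have v0 := S.vol_pos hh0
  have v1 : volume.real {z | η z ≤ 2 * (K * h)} ≤ (2 * K) ^ n * volume.real {z | η z ≤ h} := by
    rw [← mul_assoc]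
    exact S.vol_scale (by linarith) h
  have v2 := S.vol_scale hK h
  have v3 := vol_homo x₀ hρ {z | η z ≤ K * h}
  have p := poincare (A := {z | η z ≤ K * h ∧ w z + -m ≤ C * ε})
    (B := {z | η z ≤ K * h ∧ -w z + M ≤ C * ε}) (D := {e | x₀ + ρ • e ∈ {z | η z ≤ K * h}})
    (S.convex (K * h)) (S.cpt (K * h))
    ((measurableSet_le cη.measurable measurable_const).inter
      (measurableSet_le (f := fun z => w z + -m) (by fun_prop) measurable_const))
    ((measurableSet_le cη.measurable measurable_const).inter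
      (measurableSet_le (f := fun z => -w z + M) (by fun_prop) measurable_const))
    (fun z hz => hz.1) (fun z hz => hz.1)
    (measurableSet_le (f := fun e => η (x₀ + ρ • e)) (by fun_prop) measurable_const)
    (by
      have e : {e : E n | x₀ + ρ • e ∈ {z | η z ≤ K * h}} =
          (fun e => ρ • e) ⁻¹' ((fun y => x₀ + y) ⁻¹' {z | η z ≤ K * h}) := rfl
      rw [e, Measure.addHaar_preimage_smul _ hρ.ne', measure_preimage_add]
      exact ENNReal.mul_ne_top ENNReal.ofReal_ne_top (S.cpt _).measure_lt_top.ne)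
    (fun a ha b hb => by
      have ha' : η a ≤ K * h := ha
      have hb' : η b ≤ K * h := hb
      have := S.W _ ht x₀ b a (by rw [S.zero]; linarith) (by linarith) (by linarith)
      rwa [S.zero, zero_add] at this)
    hf (a := Real.log δ - (G + 1)) (b := Real.log δ)
    (N := N * ((2 * K) ^ n * volume.real {z | η z ≤ h})) (by linarith)
    (fun z hz => by
      have e : Real.log δ - (G + 1) = Real.log ((C + 1) * ε) := by
        rw [hε1, Real.log_mul hδ0.ne' (Real.exp_pos _).ne', Real.log_exp]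
        ring
      rw [e]
      exact Real.log_le_log (hV0 z) (by linarith [hz.2]))
    (fun z hz => Real.log_le_log hδ0 (by linarith [hz.2]))
    (by positivity)
    (fun a ha b hb => by
      have ha' : η a ≤ K * h := ha
      have hb' : η b ≤ K * h := hb
      exact (S.cacc hV hV0 (fun z => by rw [hess_add_const, hL]) ht (by linarith)
        (by linarith)).trans (mul_le_mul_of_nonneg_left v1 hN0))
  rw [v3, sub_sub_cancel] at p
  set s := volume.real {z | η z ≤ h}
  set A := volume.real {z | η z ≤ K * h ∧ w z + -m ≤ C * ε}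
  set B := volume.real {z | η z ≤ K * h ∧ -w z + M ≤ C * ε}
  have hA : 0 ≤ A := measureReal_nonneg
  have b1 : s ≤ Lam / lam * A := by
    rw [div_mul_eq_mul_div, le_div_iff₀ hlam]
    linarith
  have b2 : s ≤ Lam / lam * B := by
    rw [div_mul_eq_mul_div, le_div_iff₀ hlam]
    linarith
  have b3 : s * s ≤ Lam / lam * A * (Lam / lam * B) := mul_le_mul b1 b2 v0.le (by positivity)
  have b4 : N * ((2 * K) ^ n * s) * ((ρ ^ n)⁻¹ * volume.real {z | η z ≤ K * h}) ≤
      N * ((2 * K) ^ n * s) * ((ρ ^ n)⁻¹ * (K ^ n * s)) := by gcongr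
  have b5 := mul_le_mul_of_nonneg_left (p.trans b4) (sq_nonneg (Lam / lam))
  have b6 := mul_le_mul_of_nonneg_left b3 (show 0 ≤ G + 1 by linarith)
  have b7 : (Lam / lam) ^ 2 * (N * ((2 * K) ^ n * s) * ((ρ ^ n)⁻¹ * (K ^ n * s))) = G * (s * s) := by
    rw [hG]
    ring
  have b8 := mul_pos v0 v0
  rw [b7] at b5
  linarith

end Crest.Agent.R236.Li
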