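import Crest.Agent.R236.Defs
import Crest.Agent.R236.GeoU
import Crest.Agent.R236.LiE

/-!
# R236/Liou (helper53): part 7 of idea 1100, the Liouville theorem

If `det D²u` is pinched on `ℝⁿ` and `u` is affine maximal then `det D²u` is constant.
-/

set_option autoImplicit false
open scoped ContDiff
open Crest.GeometryTopology.CoordMetric Crest.GeometryTopology.AffineMaximal MeasureTheory

namespace Crest.Agent.R236

theorem liouville {n : ℕ} {u : E n → ℝ} (hu : ContDiff ℝ ∞ u)
    (hpos : ∀ x, (hessianMat u x).PosDef) (hmax : ∀ x, affineMaximalOp n u x = 0) {x₀ : E n}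
    {ρ c : ℝ} (hρ : 0 < ρ) (hc : 0 < c)
    (hW : ∀ h : ℝ, 0 < h → ∀ x y z, Geo.hgt u x₀ x ≤ 4 * h → Geo.hgt u x₀ y ≤ 4 * h →
      Geo.hgt u x₀ z ≤ 4 * h → Geo.hgt u x₀ (x + ρ • (y - z)) ≤ Geo.hgt u x₀ x + h)
    (hD : ∀ x, c * Geo.hgt u x₀ x ≤ fderiv ℝ u x (x - x₀) - u x + u x₀)
    {M : ℝ} (hM : ∀ x y, (hessianMat u x).det ≤ M * (hessianMat u y).det) :
    ∃ k, ∀ x, (hessianMat u x).det = k := by
  have hu' : ContDiffOn ℝ ∞ u Set.univ := hu.contDiffOn
  have hp' : ∀ x ∈ Set.univ, (hessianMat u x).PosDef := fun x _ => hpos x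
  have hd : ∀ x, 0 < (hessianMat u x).det := fun x => (hpos x).det_pos
  have hM0 : 0 < M := (pos_iff_pos_of_mul_pos ((hd x₀).trans_le (hM x₀ x₀))).2 (hd x₀)
  have hf : ∀ x, fderiv ℝ (Geo.hgt u x₀) x = fderiv ℝ u x - fderiv ℝ u x₀ := fun x => by
    have h1 : HasFDerivAt (fun y => fderiv ℝ u x₀ (y - x₀)) (fderiv ℝ u x₀) x := by
      simp only [map_sub]
      exact (fderiv ℝ u x₀).hasFDerivAt.sub_const _
    exact (((hu.differentiable (by simp) x).hasFDerivAt.sub_const _).sub h1).fderiv
  have hh : ∀ x, R238.An.hess (Geo.hgt u x₀) x = hessianMat u x := fun x => by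
    ext i j
    have e : R238.An.pd j (Geo.hgt u x₀) =
        fun y => R238.An.pd j u y + -fderiv ℝ u x₀ (R238.An.ev j) := by
      funext y
      simp only [R238.An.pd, hf, sub_apply]
      exact sub_eq_add_neg _ _
    show R238.An.pd i (R238.An.pd j (Geo.hgt u x₀)) x = _
    rw [e, R238.An.pd_add_const]
    rfl
  have S : Li.St (Geo.hgt u x₀) x₀ ρ c ((hessianMat u x₀).det / M) (M * (hessianMat u x₀).det) :=
    { sm := (hu.sub contDiff_const).sub
        ((fderiv ℝ u x₀).contDiff.comp (contDiff_id.sub contDiff_const))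
      pos := fun x => hh x ▸ hpos x
      hρ := hρ
      hc := hc
      hlam := div_pos (hd x₀) hM0
      lo := fun x => by
        rw [hh, div_le_iff₀ hM0, mul_comm]
        exact hM x₀ x
      hi := fun x => hh x ▸ hM x x₀
      zero := by simp [Geo.hgt]
      nn := fun x => Geo.hgt_nonneg isOpen_univ convex_univ hu' hp' trivial trivial
      cpt := fun t => by
        have hcl : IsClosed (Geo.epi Set.univ u) := by
          simp only [Geo.epi, Set.mem_univ, true_and]
          exact isClosed_le (hu.continuous.comp continuous_fst) continuous_snd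
        simpa using Geo.isCompact_sublevel isOpen_univ convex_univ hu' hp' hcl (x₀ := x₀) trivial t
      tan := fun x y hne => by
        have h1 := Geo.tangent_lt isOpen_univ convex_univ hu' hp' trivial trivial hne
        rw [hf]
        simp only [Geo.hgt, sub_apply, map_sub] at h1 ⊢
        linarith
      W := hW
      D := fun x => by
        have h1 := hD x
        rw [hf]
        simp only [Geo.hgt, sub_apply] at h1 ⊢
        linarith }
  have hq : -((n : ℝ) + 1) / ((n : ℝ) + 2) < 0 :=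
    div_neg_of_neg_of_pos (by linarith [n.cast_nonneg (α := ℝ)]) (by positivity)
  have hw : ContDiff ℝ ∞ (detPower n u) :=
    (R238.An.contDiff_det (g := hessianMat u) fun i j =>
      R238.An.smooth_pd i (R238.An.smooth_pd j hu)).rpow_const_of_ne fun x => (hd x).ne'
  refine ⟨(hessianMat u x₀).det, fun x => ?_⟩
  have key := S.const hw (fun y => ?_) ⟨0, ?_⟩
    ⟨((hessianMat u x₀).det / M) ^ (-((n : ℝ) + 1) / ((n : ℝ) + 2)), ?_⟩ x x₀
  · exact Real.rpow_left_injOn hq.ne (hd x).le (hd x₀).le key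
  · have h1 := hmax y
    simp only [affineMaximalOp, mul_assoc, ← Finset.mul_sum] at h1
    rw [hh]
    exact (mul_eq_zero.1 h1).resolve_left (hd y).ne'
  · rintro _ ⟨y, rfl⟩
    exact Real.rpow_nonneg (hd y).le _
  · rintro _ ⟨y, rfl⟩
    exact Real.rpow_le_rpow_of_nonpos S.hlam (hh y ▸ S.lo y) hq.le

end Crest.Agent.R236
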