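import Mathlib

/-!
Part 4 of the proof of S0365 (idea 1100): counting boxes (pure measure theory).
`qBox ξ η S r i j` is the part of `S` where `ξ ∈ [r^(i-1), r^i]`, `η ∈ [r^(j-1), r^j]` (written with `i+1`).
-/

set_option autoImplicit false
open MeasureTheory Set

namespace Crest.Agent.R236

variable {X : Type*} [MeasurableSpace X]

/-- The box with indices `i, j`. -/
def qBox {X : Type*} (ξ η : X → ℝ) (S : Set X) (r : ℝ) (i j : ℕ) : Set X :=
  {x | x ∈ S ∧ r ^ i ≤ ξ x ∧ ξ x ≤ r ^ (i + 1) ∧ r ^ j ≤ η x ∧ η x ≤ r ^ (j + 1)}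

theorem qcount_exists {r τ : ℝ} (h1 : 1 ≤ τ) : ∀ m : ℕ, 1 ≤ m → τ ≤ r ^ m →
    ∃ i < m, r ^ i ≤ τ ∧ τ ≤ r ^ (i + 1) := by
  intro m hm
  induction m, hm using Nat.le_induction with
  | base => intro h; exact ⟨0, one_pos, by simpa using h1, by simpa using h⟩
  | succ m _ ih =>
    intro h
    rcases le_total τ (r ^ m) with h2 | h2
    · obtain ⟨i, hi, H⟩ := ih h2
      exact ⟨i, Nat.lt_succ_of_lt hi, H⟩
    · exact ⟨m, Nat.lt_succ_self m, h2, h⟩

theorem qcount_int (μ : Measure X) {f : X → ℝ} {S B : Set X} (hB : MeasurableSet B) (hBS : B ⊆ S) :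
    ∫ x in S, B.indicator f x ∂μ = ∫ x in B, f x ∂μ := by
  rw [setIntegral_indicator hB, inter_eq_self_of_subset_right hBS]

theorem qcount_sum (μ : Measure X) {f : X → ℝ} {S : Set X} (hf : IntegrableOn f S μ) (m : ℕ)
    (B : ℕ → ℕ → Set X) (hB : ∀ i j, MeasurableSet (B i j)) (hBS : ∀ i j, B i j ⊆ S) :
    IntegrableOn (fun x => ∑ i ∈ Finset.range m, ∑ j ∈ Finset.range m, (B i j).indicator f x) S μ ∧
    ∫ x in S, ∑ i ∈ Finset.range m, ∑ j ∈ Finset.range m, (B i j).indicator f x ∂μ =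
      ∑ i ∈ Finset.range m, ∑ j ∈ Finset.range m, ∫ x in B i j, f x ∂μ := by
  have h1 : ∀ i j, Integrable ((B i j).indicator f) (μ.restrict S) :=
    fun i j => Integrable.indicator hf (hB i j)
  have h2 : ∀ i, Integrable (fun x => ∑ j ∈ Finset.range m, (B i j).indicator f x) (μ.restrict S) :=
    fun i => integrable_finsetSum _ fun j _ => h1 i j
  refine ⟨integrable_finsetSum _ fun i _ => h2 i, ?_⟩
  rw [integral_finsetSum _ fun i _ => h2 i]
  refine Finset.sum_congr rfl fun i _ => ?_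
  rw [integral_finsetSum _ fun j _ => h1 i j]
  exact Finset.sum_congr rfl fun j _ => qcount_int μ (hB i j) (hBS i j)

theorem qcount_uniq {r τ : ℝ} (hr : 1 < r) {a k k' : ℕ} (h1 : r ^ (a + 2 * k) ≤ τ)
    (h2 : τ ≤ r ^ (a + 2 * k + 1)) (h3 : r ^ (a + 2 * k') ≤ τ) (h4 : τ ≤ r ^ (a + 2 * k' + 1)) :
    k = k' := by
  have e1 := (pow_le_pow_iff_right₀ hr).1 (h1.trans h4)
  have e2 := (pow_le_pow_iff_right₀ hr).1 (h3.trans h2)
  omega

/-- Upper count: `S` is covered by the `m²` boxes `i, j < m` (for `1 ≤ τ ≤ r^m`, `m ≥ 1`, there is `i < m` with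
`r^i ≤ τ ≤ r^(i+1)`: induction on `m`).  Pointwise on `S`: `G ≤ ∑ i<m, ∑ j<m, indicator (box i j) G`. -/
theorem q_count_upper (μ : Measure X) {ξ η G : X → ℝ} {S : Set X} {r C : ℝ} {m : ℕ} (hr : 1 < r) (hm : 1 ≤ m)
    (hB : ∀ i j, MeasurableSet (qBox ξ η S r i j)) (hS : MeasurableSet S)
    (hG : IntegrableOn G S μ) (hG0 : ∀ x ∈ S, 0 ≤ G x)
    (hrange : ∀ x ∈ S, 1 ≤ ξ x ∧ ξ x ≤ r ^ m ∧ 1 ≤ η x ∧ η x ≤ r ^ m)
    (hC : ∀ i < m, ∀ j < m, ∫ x in qBox ξ η S r i j, G x ∂μ ≤ C) :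
    ∫ x in S, G x ∂μ ≤ (m : ℝ) ^ 2 * C := by
  obtain ⟨hI, hE⟩ := qcount_sum μ hG m (qBox ξ η S r) hB (fun i j x hx => hx.1)
  have hn : ∀ x ∈ S, ∀ i j, 0 ≤ (qBox ξ η S r i j).indicator G x := fun x hx i j =>
    indicator_apply_nonneg fun _ => hG0 x hx
  calc ∫ x in S, G x ∂μ ≤ ∫ x in S, ∑ i ∈ Finset.range m, ∑ j ∈ Finset.range m,
        (qBox ξ η S r i j).indicator G x ∂μ := by
        refine setIntegral_mono_on hG hI hS fun x hx => ?_
        obtain ⟨a1, a2, a3, a4⟩ := hrange x hx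
        obtain ⟨i, hi, b1, b2⟩ := qcount_exists a1 m hm a2
        obtain ⟨j, hj, b3, b4⟩ := qcount_exists a3 m hm a4
        have hx' : x ∈ qBox ξ η S r i j := ⟨hx, b1, b2, b3, b4⟩
        calc G x = (qBox ξ η S r i j).indicator G x := (indicator_of_mem hx' G).symm
          _ ≤ ∑ j ∈ Finset.range m, (qBox ξ η S r i j).indicator G x :=
            Finset.single_le_sum (f := fun j => (qBox ξ η S r i j).indicator G x)
              (fun j _ => hn x hx i j) (Finset.mem_range.2 hj)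
          _ ≤ _ := Finset.single_le_sum
              (f := fun i => ∑ j ∈ Finset.range m, (qBox ξ η S r i j).indicator G x)
              (fun i _ => Finset.sum_nonneg fun j _ => hn x hx i j) (Finset.mem_range.2 hi)
    _ = _ := hE
    _ ≤ ∑ i ∈ Finset.range m, ∑ j ∈ Finset.range m, C :=
        Finset.sum_le_sum fun i hi => Finset.sum_le_sum fun j hj =>
          hC i (Finset.mem_range.1 hi) j (Finset.mem_range.1 hj)
    _ = _ := by simp; ring

/-- Lower count: the `M²` boxes with indices `(2M + 2k, 2M + 2k')`, `k, k' < M`, are pairwise disjoint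
(`r^(i+1) < r^(i+2)`) and `H = σ` on them.  Pointwise on `S`: `∑ k<M, ∑ k'<M, indicator (box ..) σ ≤ H`. -/
theorem q_count_lower (μ : Measure X) {ξ η σ H : X → ℝ} {S : Set X} {r c : ℝ} {M : ℕ} (hr : 1 < r)
    (hB : ∀ i j, MeasurableSet (qBox ξ η S r i j)) (hS : MeasurableSet S)
    (hσ : IntegrableOn σ S μ) (hH : IntegrableOn H S μ) (hH0 : ∀ x ∈ S, 0 ≤ H x)
    (hHσ : ∀ x ∈ S, r ^ (2 * M) ≤ ξ x → ξ x ≤ r ^ (4 * M) → r ^ (2 * M) ≤ η x → η x ≤ r ^ (4 * M) →
      σ x ≤ H x)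
    (hc : ∀ i < 4 * M, ∀ j < 4 * M, c ≤ ∫ x in qBox ξ η S r i j, σ x ∂μ) :
    (M : ℝ) ^ 2 * c ≤ ∫ x in S, H x ∂μ := by
  obtain ⟨hI, hE⟩ := qcount_sum μ hσ M (fun k k' => qBox ξ η S r (2 * M + 2 * k) (2 * M + 2 * k'))
    (fun _ _ => hB _ _) (fun i j x hx => hx.1)
  calc (M : ℝ) ^ 2 * c = ∑ i ∈ Finset.range M, ∑ j ∈ Finset.range M, c := by simp; ring
    _ ≤ ∑ k ∈ Finset.range M, ∑ k' ∈ Finset.range M,
          ∫ x in qBox ξ η S r (2 * M + 2 * k) (2 * M + 2 * k'), σ x ∂μ :=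
        Finset.sum_le_sum fun i hi => Finset.sum_le_sum fun j hj =>
          hc _ (by have := Finset.mem_range.1 hi; omega) _ (by have := Finset.mem_range.1 hj; omega)
    _ = _ := hE.symm
    _ ≤ _ := by
        refine setIntegral_mono_on hI hH hS fun x hx => ?_
        by_cases h : ∃ k < M, ∃ k' < M, x ∈ qBox ξ η S r (2 * M + 2 * k) (2 * M + 2 * k')
        · obtain ⟨k, hk, k', hk', hx'⟩ := h
          have hp : ∀ a b : ℕ, a ≤ b → r ^ a ≤ r ^ b := fun a b => pow_le_pow_right₀ hr.le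
          rw [Finset.sum_eq_single k, Finset.sum_eq_single k', indicator_of_mem hx']
          · exact hHσ x hx ((hp _ _ (by omega)).trans hx'.2.1) (hx'.2.2.1.trans (hp _ _ (by omega)))
              ((hp _ _ (by omega)).trans hx'.2.2.2.1) (hx'.2.2.2.2.trans (hp _ _ (by omega)))
          · intro j _ hj
            exact indicator_of_notMem (fun hy => hj
              (qcount_uniq hr hy.2.2.2.1 hy.2.2.2.2 hx'.2.2.2.1 hx'.2.2.2.2)) _
          · intro h'
            exact absurd (Finset.mem_range.2 hk') h'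
          · intro i _ hi
            exact Finset.sum_eq_zero fun j _ => indicator_of_notMem (fun hy => hi
              (qcount_uniq hr hy.2.1 hy.2.2.1 hx'.2.1 hx'.2.2.1)) _
          · intro h'
            exact absurd (Finset.mem_range.2 hk) h'
        · rw [Finset.sum_eq_zero]
          · exact hH0 x hx
          · intro k hk
            exact Finset.sum_eq_zero fun k' hk' => indicator_of_notMem (fun hy => h
              ⟨k, Finset.mem_range.1 hk, k', Finset.mem_range.1 hk', hy⟩) _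

end Crest.Agent.R236
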