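import Mathlib

/-!
Part 4 of the proof of S0365 (idea 1100): a logarithmic cut-off function.
-/

set_option autoImplicit false
open Set
open scoped ContDiff

namespace Crest.Agent.R236

/-- the basic bump -/
noncomputable def qcut_chi (s : ℝ) : ℝ :=
  Real.smoothTransition (2 * s - 1) * Real.smoothTransition (5 - 2 * s)

theorem qcut_chi_smooth : ContDiff ℝ ∞ qcut_chi := by
  unfold qcut_chi
  exact (Real.smoothTransition.contDiff.comp (by fun_prop)).mul
    (Real.smoothTransition.contDiff.comp (by fun_prop))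

theorem qcut_chi_nonneg (s : ℝ) : 0 ≤ qcut_chi s :=
  mul_nonneg (Real.smoothTransition.nonneg _) (Real.smoothTransition.nonneg _)

theorem qcut_chi_le_one (s : ℝ) : qcut_chi s ≤ 1 :=
  mul_le_one₀ (Real.smoothTransition.le_one _) (Real.smoothTransition.nonneg _)
    (Real.smoothTransition.le_one _)

theorem qcut_chi_one {s : ℝ} (h1 : 1 ≤ s) (h2 : s ≤ 2) : qcut_chi s = 1 := by
  unfold qcut_chi
  rw [Real.smoothTransition.one_of_one_le (by linarith),
    Real.smoothTransition.one_of_one_le (by linarith), mul_one]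

theorem qcut_chi_zero_left {s : ℝ} (h : s ≤ 1 / 2) : qcut_chi s = 0 := by
  unfold qcut_chi
  rw [Real.smoothTransition.zero_of_nonpos (by linarith), zero_mul]

theorem qcut_chi_zero_right {s : ℝ} (h : 5 / 2 ≤ s) : qcut_chi s = 0 := by
  unfold qcut_chi
  rw [Real.smoothTransition.zero_of_nonpos (x := 5 - 2 * s) (by linarith), mul_zero]

theorem qcut_chi_supp : HasCompactSupport qcut_chi := by
  refine HasCompactSupport.intro (isCompact_Icc (a := (1 / 2 : ℝ)) (b := 5 / 2)) ?_
  intro x hx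
  rcases lt_or_ge x (1 / 2) with h | h
  · exact qcut_chi_zero_left h.le
  · rcases lt_or_ge (5 / 2) x with h' | h'
    · exact qcut_chi_zero_right h'.le
    · exact absurd ⟨h, h'⟩ hx

theorem qcut_deriv_bdd : ∃ B : ℝ, 0 ≤ B ∧ ∀ s, |deriv qcut_chi s| ≤ B := by
  have hc : Continuous (deriv qcut_chi) := qcut_chi_smooth.continuous_deriv (by simp)
  obtain ⟨B, hB⟩ := hc.bounded_above_of_compact_support qcut_chi_supp.deriv
  exact ⟨B, le_trans (norm_nonneg _) (hB 0), fun s => by simpa [Real.norm_eq_abs] using hB s⟩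

/-- Logarithmic cut-off.  Proof: `χ s = smoothTransition (2 s - 1) * smoothTransition (5 - 2 s)` (smooth,
values in `[0,1]`, `= 1` on `[1,2]`, `= 0` for `s ≤ 1/2` and for `s ≥ 5/2`; its derivative is continuous with compact
support, hence bounded by some `B`); `h τ = if 0 < τ then χ (log τ / (N log r)) else 0`; `h` vanishes on the open set
`(-∞, 1)` [even on a neighbourhood of `1`] and is smooth on the open set `(0, ∞)`;
`τ h'(τ) = χ'(..) / (N log r)` for `τ > 0`, `C0 = B / log r`. -/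
theorem q_cutoff {r : ℝ} (hr : 1 < r) :
    ∃ C0 : ℝ, 0 ≤ C0 ∧ ∀ N : ℕ, 1 ≤ N → ∃ h : ℝ → ℝ, ContDiff ℝ ∞ h ∧ (∀ τ, 0 ≤ h τ ∧ h τ ≤ 1) ∧
      (∀ τ, r ^ N ≤ τ → τ ≤ r ^ (2 * N) → h τ = 1) ∧
      (∀ τ, τ ≤ 1 ∨ r ^ (3 * N) ≤ τ → h τ = 0) ∧
      (∀ τ, |τ * deriv h τ| ≤ C0 / N) := by
  obtain ⟨B, hB0, hB⟩ := qcut_deriv_bdd
  have hL : 0 < Real.log r := Real.log_pos hr
  have hr0 : 0 < r := by linarith
  refine ⟨B / Real.log r, div_nonneg hB0 hL.le, fun N hN => ?_⟩
  have hN' : (1 : ℝ) ≤ N := by exact_mod_cast hN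
  have hN0 : (0 : ℝ) < N := by linarith
  set c : ℝ := N * Real.log r with hc
  have hc0 : 0 < c := mul_pos hN0 hL
  set h : ℝ → ℝ := fun τ => if 0 < τ then qcut_chi (Real.log τ / c) else 0 with hh
  have hz : ∀ τ, τ ≤ 1 → h τ = 0 := by
    intro τ hτ
    simp only [hh]
    split_ifs with h0
    · apply qcut_chi_zero_left
      have : Real.log τ ≤ 0 := Real.log_nonpos h0.le hτ
      have : Real.log τ / c ≤ 0 := div_nonpos_of_nonpos_of_nonneg this hc0.le
      linarith
    · rfl
  have hev0 : ∀ τ, τ < 1 → h =ᶠ[nhds τ] fun _ => 0 := by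
    intro τ hτ
    filter_upwards [Iio_mem_nhds hτ] with x hx
    exact hz x (le_of_lt hx)
  have hev1 : ∀ τ, 0 < τ → h =ᶠ[nhds τ] fun x => qcut_chi (Real.log x / c) := by
    intro τ hτ
    filter_upwards [Ioi_mem_nhds hτ] with x hx
    simp only [hh]
    rw [if_pos (show 0 < x from hx)]
  refine ⟨h, ?_, ?_, ?_, ?_, ?_⟩
  · rw [contDiff_iff_contDiffAt]
    intro τ
    rcases lt_or_ge 0 τ with h0 | h0
    · refine ContDiffAt.congr_of_eventuallyEq ?_ (hev1 τ h0)
      exact qcut_chi_smooth.contDiffAt.comp τ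
        ((Real.contDiffAt_log.2 h0.ne').div_const c)
    · exact ContDiffAt.congr_of_eventuallyEq contDiffAt_const (hev0 τ (by linarith))
  · intro τ
    simp only [hh]
    split_ifs
    · exact ⟨qcut_chi_nonneg _, qcut_chi_le_one _⟩
    · exact ⟨le_rfl, zero_le_one⟩
  · intro τ h1 h2
    have hτ : 0 < τ := lt_of_lt_of_le (pow_pos hr0 N) h1
    simp only [hh]
    rw [if_pos hτ]
    have l1 : Real.log (r ^ N) ≤ Real.log τ := Real.log_le_log (pow_pos hr0 N) h1
    have l2 : Real.log τ ≤ Real.log (r ^ (2 * N)) := Real.log_le_log hτ h2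
    rw [Real.log_pow] at l1 l2
    push_cast at l2
    apply qcut_chi_one
    · rw [le_div_iff₀ hc0]; linarith
    · rw [div_le_iff₀ hc0]; nlinarith
  · intro τ hτ
    rcases hτ with hτ | hτ
    · exact hz τ hτ
    · have hτ0 : 0 < τ := lt_of_lt_of_le (pow_pos hr0 _) hτ
      simp only [hh]
      rw [if_pos hτ0]
      have l1 : Real.log (r ^ (3 * N)) ≤ Real.log τ := Real.log_le_log (pow_pos hr0 _) hτ
      rw [Real.log_pow] at l1
      push_cast at l1
      apply qcut_chi_zero_right
      rw [le_div_iff₀ hc0]; nlinarith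
  · intro τ
    rcases lt_or_ge 0 τ with h0 | h0
    · have hd : HasDerivAt (fun x => qcut_chi (Real.log x / c))
          (deriv qcut_chi (Real.log τ / c) * (τ⁻¹ / c)) τ := by
        have h1 : HasDerivAt qcut_chi (deriv qcut_chi (Real.log τ / c)) (Real.log τ / c) :=
          ((qcut_chi_smooth.differentiable (by simp)) _).hasDerivAt
        exact h1.comp τ ((Real.hasDerivAt_log h0.ne').div_const c)
      rw [(hev1 τ h0).deriv_eq, hd.deriv]
      have e : τ * (deriv qcut_chi (Real.log τ / c) * (τ⁻¹ / c))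
          = deriv qcut_chi (Real.log τ / c) / c := by
        field_simp
      rw [e, abs_div, abs_of_pos hc0, div_div, mul_comm (Real.log r), ← hc]
      exact div_le_div_of_nonneg_right (hB _) hc0.le
    · rw [(hev0 τ (by linarith)).deriv_eq]
      simp only [deriv_const, mul_zero, abs_zero]
      positivity

end Crest.Agent.R236
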