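import Crest.Agent.R236.Cal1
import Crest.Agent.R236.Ibp

/-!
# R236/P2a: the vector field of the a priori estimate

`V = 50 (f^d φ'(l) dl - m f^(d-1) φ(l) df) + ζ φ(l) f^d dζ`, `φ = (4 - l)₊³`, `d = 1 - n/2`, `m = d + n`.
-/

set_option autoImplicit false
open scoped ContDiff
open Crest.GeometryTopology.CoordMetric Crest.GeometryTopology.AffineMaximal MeasureTheory Set
open Filter Topology

noncomputable section

namespace Crest.Agent.R236

namespace P2a

/-- `t₊` -/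
def tp (τ : ℝ) : ℝ := max (4 - τ) 0

theorem tp_nonneg (τ : ℝ) : 0 ≤ tp τ := le_max_right _ _

theorem tp_cont : Continuous tp := (continuous_const.sub continuous_id).max continuous_const

theorem hasDerivAt_max_sq (t : ℝ) : HasDerivAt (fun s : ℝ => max s 0 ^ 2) (2 * max t 0) t := by
  rcases lt_trichotomy t 0 with ht | ht | ht
  · have e : (fun s : ℝ => max s 0 ^ 2) =ᶠ[𝓝 t] fun _ => 0 := by
      filter_upwards [gt_mem_nhds ht] with s hs
      rw [max_eq_right hs.le]; simp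
    rw [max_eq_right ht.le, mul_zero]
    exact (hasDerivAt_const t 0).congr_of_eventuallyEq e
  · subst ht
    rw [hasDerivAt_iff_isLittleO_nhds_zero]
    simp only [zero_add, max_self, mul_zero, smul_zero, sub_zero, ne_eq, OfNat.ofNat_ne_zero,
      not_false_eq_true, zero_pow]
    refine Asymptotics.IsBigO.trans_isLittleO (g := fun s : ℝ => s ^ 2) ?_
      (Asymptotics.isLittleO_pow_id (by norm_num))
    refine Asymptotics.IsBigO.of_bound 1 (Eventually.of_forall fun s => ?_)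
    rw [one_mul, Real.norm_of_nonneg (sq_nonneg _), Real.norm_of_nonneg (sq_nonneg _)]
    rcases le_total s 0 with hs | hs
    · rw [max_eq_right hs]; nlinarith [sq_nonneg s]
    · rw [max_eq_left hs]
  · have e : (fun s : ℝ => max s 0 ^ 2) =ᶠ[𝓝 t] fun s => s ^ 2 := by
      filter_upwards [lt_mem_nhds ht] with s hs
      rw [max_eq_left hs.le]
    rw [max_eq_left ht.le]
    have := (hasDerivAt_pow 2 t).congr_of_eventuallyEq e
    simpa using this

theorem hasDerivAt_sq (τ : ℝ) : HasDerivAt (fun s => tp s ^ 2) (-2 * tp τ) τ := by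
  have := (hasDerivAt_max_sq (4 - τ)).comp τ ((hasDerivAt_id τ).const_sub 4)
  refine HasDerivAt.congr_deriv this ?_
  simp [tp]

theorem tp_cube (τ : ℝ) : tp τ ^ 3 = (4 - τ) * tp τ ^ 2 := by
  unfold tp
  rcases le_total (4 - τ) 0 with h | h
  · rw [max_eq_right h]; simp
  · rw [max_eq_left h]; ring

theorem tp_sq (τ : ℝ) : tp τ ^ 2 = (4 - τ) * tp τ := by
  unfold tp
  rcases le_total (4 - τ) 0 with h | h
  · rw [max_eq_right h]; simp
  · rw [max_eq_left h]; ring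

theorem hasDerivAt_cube (τ : ℝ) : HasDerivAt (fun s => tp s ^ 3) (-3 * tp τ ^ 2) τ := by
  have e : (fun s => tp s ^ 3) = fun s => (4 - s) * tp s ^ 2 := funext tp_cube
  rw [e]
  refine HasDerivAt.congr_deriv (((hasDerivAt_id τ).const_sub 4).mul (hasDerivAt_sq τ)) ?_
  have := tp_sq τ
  simp only [id]
  linear_combination (2 : ℝ) * this

theorem contDiff_sq : ContDiff ℝ 1 fun s => tp s ^ 2 := by
  rw [contDiff_one_iff_deriv]
  refine ⟨fun τ => (hasDerivAt_sq τ).differentiableAt, ?_⟩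
  have : deriv (fun s => tp s ^ 2) = fun τ => -2 * tp τ := funext fun τ => (hasDerivAt_sq τ).deriv
  rw [this]
  exact continuous_const.mul tp_cont

theorem contDiff_cube : ContDiff ℝ 1 fun s => tp s ^ 3 := by
  have e : (fun s => tp s ^ 3) = fun s => (4 - s) * tp s ^ 2 := funext tp_cube
  rw [e]
  exact (contDiff_const.sub contDiff_id).mul contDiff_sq

theorem quad_nonneg {a b c : ℝ} (ha : 0 ≤ a) (hc : 0 ≤ c) (hb : b ^ 2 ≤ a * c) (s r : ℝ) :
    0 ≤ s ^ 2 * a + 2 * s * r * b + r ^ 2 * c := by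
  rcases ha.eq_or_lt with h0 | h0
  · subst h0
    have : b = 0 := by nlinarith [sq_nonneg b]
    subst this
    have := mul_nonneg (sq_nonneg r) hc
    linarith
  · have : 0 ≤ a * (s ^ 2 * a + 2 * s * r * b + r ^ 2 * c) := by
      nlinarith [sq_nonneg (s * a + r * b), mul_le_mul_of_nonneg_left hb (sq_nonneg r)]
    exact (mul_nonneg_iff_of_pos_left h0).mp this

/-- the real inequality behind the estimate -/
theorem alg {n p f t Z ze gLL gZZ gff gLZ gfZ : ℝ} (hn : 3 ≤ n) (hp : 0 < p) (hf : 0 < f)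
    (ht : 0 ≤ t) (ht6 : t ≤ 6) (hZ : |Z| ≤ 5) (hze : |ze| ≤ 5) (hLL : 0 ≤ gLL) (hZZ : 0 ≤ gZZ)
    (hff : 0 ≤ gff) (h1 : gLZ ^ 2 ≤ gZZ * gLL) (h2 : gfZ ^ 2 ≤ gZZ * gff) :
    1 / 2 * t ^ 3 * (p * f ^ 2 * gZZ + p * gff) - 16200 * n * (p * f) ≤
      50 * (6 * t * (p * f ^ 2) * gLL - 3 * t ^ 2 * n * 2 * (p * f) +
        (1 + n / 2) * (n / 2) * t ^ 3 * p * gff) +
      (t ^ 3 * (p * f ^ 2) * gZZ + (1 + n / 2) * Z * t ^ 3 * (p * f) * gfZ -
        3 * Z * t ^ 2 * (p * f ^ 2) * gLZ + n * ze * Z * t ^ 3 * (p * f)) := by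
  set m := 1 + n / 2 with hm
  have hZ2 : Z ^ 2 ≤ 25 := by nlinarith [abs_nonneg Z, sq_abs Z]
  have q1 := mul_nonneg (mul_nonneg ht (mul_pos hp (pow_pos hf 2)).le)
    (quad_nonneg hZZ hLL h1 (t / 2) (-3 * Z))
  have q2 := mul_nonneg (mul_nonneg (pow_nonneg ht 3) hp.le)
    (quad_nonneg hZZ hff h2 (f / 2) (m * Z))
  have a1 : 0 ≤ t * (p * f ^ 2) * gLL * (300 - 9 * Z ^ 2) :=
    mul_nonneg (by positivity) (by linarith)
  have hm0 : 5 / 2 ≤ m := by linarith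
  have a2 : 0 ≤ t ^ 3 * p * gff * (50 * m * (n / 2) - m ^ 2 * Z ^ 2 - 1 / 2) := by
    refine mul_nonneg (by positivity) ?_
    have : m ^ 2 * Z ^ 2 ≤ m ^ 2 * 25 := mul_le_mul_of_nonneg_left hZ2 (sq_nonneg m)
    have h3 : 25 * m * (1 / 2) ≤ 25 * m * (n - m) :=
      mul_le_mul_of_nonneg_left (by linarith) (by linarith)
    nlinarith
  have ht2 : t ^ 2 ≤ 36 := by nlinarith
  have ht3 : t ^ 3 ≤ 216 := by nlinarith
  have hzz : -25 ≤ ze * Z := by
    have := abs_mul ze Z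
    have h4 : |ze| * |Z| ≤ 5 * 5 := mul_le_mul hze hZ (abs_nonneg _) (by norm_num)
    linarith [neg_abs_le (ze * Z)]
  have a3 : 0 ≤ n * (p * f) * (16200 - 300 * t ^ 2 + ze * Z * t ^ 3) := by
    refine mul_nonneg (by positivity) ?_
    have : -25 * t ^ 3 ≤ ze * Z * t ^ 3 := mul_le_mul_of_nonneg_right hzz (pow_nonneg ht 3)
    linarith
  nlinarith

variable {n : ℕ} {Ω : Set (E n)} {u : E n → ℝ}

/-- the three coefficients -/
def g1 (u : E n → ℝ) (o e : F n) (l : F n →L[ℝ] ℝ) (x : E n) : ℝ :=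
  -150 * (nu u e x ^ (1 - (n : ℝ) / 2) * tp (af u l o x) ^ 2)

def g2 (u : E n → ℝ) (o e : F n) (l : F n →L[ℝ] ℝ) (x : E n) : ℝ :=
  -50 * (1 + (n : ℝ) / 2) * (nu u e x ^ (-(n : ℝ) / 2) * tp (af u l o x) ^ 3)

def g3 (u : E n → ℝ) (o e : F n) (l ζ : F n →L[ℝ] ℝ) (x : E n) : ℝ :=
  af u ζ o x * (nu u e x ^ (1 - (n : ℝ) / 2) * tp (af u l o x) ^ 3)

/-- the vector field -/
def VV (u : E n → ℝ) (o e : F n) (l ζ : F n →L[ℝ] ℝ) (x : E n) : Fin n → ℝ :=
  g1 u o e l x • dd (af u l o) x + g2 u o e l x • dd (nu u e) x + g3 u o e l ζ x • dd (af u ζ o) x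

/-- the open set where `ν_e > 0` -/
def UU (Ω : Set (E n)) (u : E n → ℝ) (e : F n) : Set (E n) := Ω ∩ nu u e ⁻¹' Ioi 0

theorem isOpen_UU (h : AM Ω u) (e : F n) : IsOpen (UU Ω u e) :=
  (h.nu_contDiffOn e).continuousOn.isOpen_inter_preimage h.isOpen isOpen_Ioi

theorem cd_pow (h : AM Ω u) (e : F n) (q : ℝ) :
    ContDiffOn ℝ ∞ (fun x => nu u e x ^ q) (UU Ω u e) :=
  ((h.nu_contDiffOn e).mono inter_subset_left).rpow_const_of_ne fun _ hx => ne_of_gt hx.2

theorem cd_g1 (h : AM Ω u) (o e : F n) (l : F n →L[ℝ] ℝ) :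
    ContDiffOn ℝ 1 (g1 u o e l) (UU Ω u e) :=
  contDiffOn_const.mul (((cd_pow h e _).of_le (by simp)).mul (contDiff_sq.comp_contDiffOn
    (((h.af_contDiffOn l o).mono inter_subset_left).of_le (by simp))))

theorem cd_g2 (h : AM Ω u) (o e : F n) (l : F n →L[ℝ] ℝ) :
    ContDiffOn ℝ 1 (g2 u o e l) (UU Ω u e) :=
  contDiffOn_const.mul (((cd_pow h e _).of_le (by simp)).mul (contDiff_cube.comp_contDiffOn
    (((h.af_contDiffOn l o).mono inter_subset_left).of_le (by simp))))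

theorem cd_g3 (h : AM Ω u) (o e : F n) (l ζ : F n →L[ℝ] ℝ) :
    ContDiffOn ℝ 1 (g3 u o e l ζ) (UU Ω u e) :=
  (((h.af_contDiffOn ζ o).mono inter_subset_left).of_le (by simp)).mul
    (((cd_pow h e _).of_le (by simp)).mul (contDiff_cube.comp_contDiffOn
      (((h.af_contDiffOn l o).mono inter_subset_left).of_le (by simp))))

theorem cd_dd (h : AM Ω u) (e : F n) {f : E n → ℝ} (hf : ContDiffOn ℝ ∞ f Ω) (i : Fin n) :
    ContDiffOn ℝ 1 (fun x => dd f x i) (UU Ω u e) :=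
  ((contDiffOn_dd h.isOpen hf i).mono inter_subset_left).of_le (by simp)

theorem cd_VV (h : AM Ω u) (o e : F n) (l ζ : F n →L[ℝ] ℝ) (i : Fin n) :
    ContDiffOn ℝ 1 (fun x => VV u o e l ζ x i) (UU Ω u e) :=
  (((cd_g1 h o e l).mul (cd_dd h e (h.af_contDiffOn l o) i)).add
    ((cd_g2 h o e l).mul (cd_dd h e (h.nu_contDiffOn e) i))).add
    ((cd_g3 h o e l ζ).mul (cd_dd h e (h.af_contDiffOn ζ o) i))

theorem dv_VV (h : AM Ω u) (o e : F n) (l ζ : F n →L[ℝ] ℝ) {x : E n} (hx : x ∈ UU Ω u e) :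
    dv u (VV u o e l ζ) x =
      g1 u o e l x * Lap u (af u l o) x + ip u x (dd (g1 u o e l) x) (dd (af u l o) x) +
      (g2 u o e l x * Lap u (nu u e) x + ip u x (dd (g2 u o e l) x) (dd (nu u e) x)) +
      (g3 u o e l ζ x * Lap u (af u ζ o) x + ip u x (dd (g3 u o e l ζ) x) (dd (af u ζ o) x)) := by
  have hN := (isOpen_UU h e).mem_nhds hx
  have da : ∀ {g : E n → ℝ}, ContDiffOn ℝ 1 g (UU Ω u e) → DifferentiableAt ℝ g x :=
    fun hg => (hg.contDiffAt hN).differentiableAt one_ne_zero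
  have d1 := fun i => da (cd_dd h e (h.af_contDiffOn l o) i)
  have d2 := fun i => da (cd_dd h e (h.nu_contDiffOn e) i)
  have d3 := fun i => da (cd_dd h e (h.af_contDiffOn ζ o) i)
  have c1 := da (cd_g1 h o e l)
  have c2 := da (cd_g2 h o e l)
  have c3 := da (cd_g3 h o e l ζ)
  have e1 := h.dv_add hx.1
    (V := fun y => g1 u o e l y • dd (af u l o) y + g2 u o e l y • dd (nu u e) y)
    (W := fun y => g3 u o e l ζ y • dd (af u ζ o) y)
    (fun i => (c1.mul (d1 i)).add (c2.mul (d2 i))) (fun i => c3.mul (d3 i))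
  have e2 := h.dv_add hx.1 (V := fun y => g1 u o e l y • dd (af u l o) y)
    (W := fun y => g2 u o e l y • dd (nu u e) y) (fun i => c1.mul (d1 i)) (fun i => c2.mul (d2 i))
  rw [e2, h.dv_smul hx.1 c1 d1, h.dv_smul hx.1 c2 d2, h.dv_smul hx.1 c3 d3] at e1
  exact e1

/-- the pointwise inequality -/
theorem dv_VV_ge (h : AM Ω u) (hn : 3 ≤ n) (o e : F n) (l ζ : F n →L[ℝ] ℝ) (hle : l e = 2)
    (hζ : |ζ e| ≤ 5) {x : E n} (hx : x ∈ UU Ω u e) (hl : -2 ≤ af u l o x) (hz : |af u ζ o x| ≤ 5) :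
    1 / 2 * tp (af u l o x) ^ 3 *
        (nu u e x ^ (1 - (n : ℝ) / 2) * Gam u (af u ζ o) (af u ζ o) x +
          nu u e x ^ (-1 - (n : ℝ) / 2) * Gam u (nu u e) (nu u e) x) -
      16200 * n * nu u e x ^ (-(n : ℝ) / 2) ≤ dv u (VV u o e l ζ) x := by
  have hN := h.isOpen.mem_nhds hx.1
  have hf : 0 < nu u e x := hx.2
  have da : ∀ {g : E n → ℝ}, ContDiffOn ℝ ∞ g Ω → DifferentiableAt ℝ g x :=
    fun hg => (hg.contDiffAt hN).differentiableAt (by simp)
  have dL := da (h.af_contDiffOn l o)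
  have dZ := da (h.af_contDiffOn ζ o)
  have df := da (h.nu_contDiffOn e)
  set f := nu u e x with hfd
  set p := f ^ (-1 - (n : ℝ) / 2) with hp
  have hp0 : 0 < p := Real.rpow_pos_of_pos hf _
  have p1 : f ^ (-(n : ℝ) / 2) = p * f := by
    rw [hp, ← Real.rpow_add_one hf.ne']; congr 1; ring
  have p2 : f ^ (1 - (n : ℝ) / 2) = p * f ^ 2 := by
    rw [sq, ← mul_assoc, ← p1, ← Real.rpow_add_one hf.ne']; congr 1; ring
  have r1 : HasDerivAt (fun s : ℝ => s ^ (1 - (n : ℝ) / 2)) ((1 - (n : ℝ) / 2) * (p * f)) f := by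
    refine HasDerivAt.congr_deriv (Real.hasDerivAt_rpow_const (Or.inl hf.ne')) ?_
    rw [← p1]; congr 2; ring
  have r2 : HasDerivAt (fun s : ℝ => s ^ (-(n : ℝ) / 2)) ((-(n : ℝ) / 2) * p) f := by
    refine HasDerivAt.congr_deriv (Real.hasDerivAt_rpow_const (Or.inl hf.ne')) ?_
    rw [hp]; congr 2; ring
  have dr1 : DifferentiableAt ℝ (fun y => nu u e y ^ (1 - (n : ℝ) / 2)) x :=
    df.rpow_const (Or.inl hf.ne')
  have dr2 : DifferentiableAt ℝ (fun y => nu u e y ^ (-(n : ℝ) / 2)) x :=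
    df.rpow_const (Or.inl hf.ne')
  have dt2 : DifferentiableAt ℝ (fun y => tp (af u l o y) ^ 2) x :=
    (hasDerivAt_sq _).differentiableAt.comp x dL
  have dt3 : DifferentiableAt ℝ (fun y => tp (af u l o y) ^ 3) x :=
    (hasDerivAt_cube _).differentiableAt.comp x dL
  have er1 := dd_comp df r1
  have er2 := dd_comp df r2
  have et2 := dd_comp dL (hasDerivAt_sq (af u l o x))
  have et3 := dd_comp dL (hasDerivAt_cube (af u l o x))
  have hc : ∀ c : ℝ, dd (fun _ : E n => c) x = 0 := fun c => by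
    funext i
    simp [dd, pderiv]
  have e1 : dd (g1 u o e l) x = _ := dd_mul (differentiableAt_const _) (dr1.mul dt2)
  have e2 : dd (g2 u o e l) x = _ := dd_mul (differentiableAt_const _) (dr2.mul dt3)
  have e3 : dd (g3 u o e l ζ) x = _ := dd_mul dZ (dr1.mul dt3)
  have m1 := dd_mul dr1 dt2
  have m2 := dd_mul dr2 dt3
  have m3 := dd_mul dr1 dt3
  rw [er1, et2] at m1
  rw [er2, et3] at m2
  rw [er1, et3] at m3
  erw [m1] at e1
  erw [m2] at e2
  erw [m3] at e3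
  rw [hc, smul_zero, add_zero] at e1 e2
  rw [dv_VV h o e l ζ hx, e1, e2, e3, h.Lap_nu hx.1, h.Lap_af hx.1, h.Lap_af hx.1]
  have yl := h.Gam_nu_af' hx.1 e l o
  have yz := h.Gam_nu_af' hx.1 e ζ o
  have hL0 := h.Gam_nonneg (af u l o) hx.1
  have hZ0 := h.Gam_nonneg (af u ζ o) hx.1
  have hf0 := h.Gam_nonneg (nu u e) hx.1
  have s1 := h.Gam_sq_le (af u ζ o) (af u l o) hx.1
  have s2 := h.Gam_sq_le (af u ζ o) (nu u e) hx.1
  have y1 := h.Gam_symm (af u l o) (nu u e) hx.1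
  have y2 := h.Gam_symm (af u l o) (af u ζ o) hx.1
  have y3 := h.Gam_symm (af u ζ o) (nu u e) hx.1
  simp only [ip_add_left, ip_smul_left, g1, g2, g3, ← hfd, p1, p2]
  simp only [Gam] at *
  have ht6 : tp (af u l o x) ≤ 6 := max_le (by linarith) (by norm_num)
  have key := alg (n := n) (by exact_mod_cast hn) hp0 hf (tp_nonneg _) ht6 hz hζ hL0 hZ0 hf0 s1 s2
  refine key.trans (le_of_eq ?_)
  rw [y1, y2, y3]
  rw [← hfd, hle] at yl
  rw [← hfd] at yz
  set t := tp (af u l o x)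
  set Z := af u ζ o x
  linear_combination (-150 * n * p * f * t ^ 2) * yl + (Z * n * p * f * t ^ 3) * yz

end P2a

end Crest.Agent.R236

end
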