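import Crest.Agent.R236.P1
import Crest.Agent.R236.P2a

/-!
# R236/P2 (helper90): part 2 of idea 1100 (a priori estimate on a cap), in the form used by part 4
-/

set_option autoImplicit false

namespace Crest.Agent.R236

open Set MeasureTheory
open Crest.GeometryTopology.CoordMetric Crest.GeometryTopology.AffineMaximal
open scoped ContDiff

variable {n : ℕ} {Ω : Set (E n)} {u : E n → ℝ}

/-- `f = ν_e`, `φ = (4 - l)₊³ ≥ 8` on `{l ≤ 2}`, `(4 - l)² ≤ 36` on the cap. -/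
theorem p2 (n : ℕ) (hn : 3 ≤ n) : ∃ C₂ : ℝ, 0 ≤ C₂ ∧ ∀ (Ω : Set (E n)) (u : E n → ℝ), AM Ω u →
    ∀ (o e : F n) (l ζ : F n →L[ℝ] ℝ), IsCompact (capH Ω u l o 4) →
      (∀ Z ∈ capH Ω u l o 4, -2 ≤ l (Z - o) ∧ |ζ (Z - o)| ≤ 5) → l e = 2 → |ζ e| ≤ 5 →
      (∀ x ∈ piece Ω u (capH Ω u l o 4), 0 < nu u e x) →
      ∫ x in piece Ω u (capH Ω u l o 2),
          (nu u e x ^ (1 - (n : ℝ) / 2) * Gam u (af u ζ o) (af u ζ o) x +
            nu u e x ^ (-1 - (n : ℝ) / 2) * Gam u (nu u e) (nu u e) x) * (rho u x)⁻¹ ≤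
        C₂ * ∫ x in piece Ω u (capH Ω u l o 4), nu u e x ^ (-(n : ℝ) / 2) * (rho u x)⁻¹ := by
  refine ⟨16200 * n, by positivity, fun Ω u h o e l ζ hC hb hle hζ hf => ?_⟩
  set K := piece Ω u (capH Ω u l o 4) with hK
  set K2 := piece Ω u (capH Ω u l o 2) with hK2
  have hKc : IsCompact K := h.piece_isCompact hC fun _ hZ => hZ.1
  have hKU : K ⊆ P2a.UU Ω u e := fun x hx => ⟨hx.1, hf x hx⟩
  have hKΩ : K ⊆ Ω := fun x hx => hx.1
  have hK2K : K2 ⊆ K := fun x hx => ⟨hx.1, hx.2.1, le_trans hx.2.2 (by norm_num)⟩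
  have hLc : ContinuousOn (af u l o) K := (h.af_contDiffOn l o).continuousOn.mono hKΩ
  have hK2e : K2 = K ∩ af u l o ⁻¹' Iic 2 := by
    ext x
    exact ⟨fun hx => ⟨hK2K hx, hx.2.2⟩, fun hx => ⟨hx.1.1, hx.1.2.1, hx.2⟩⟩
  have hK2m : MeasurableSet K2 := by
    rw [hK2e]
    exact (hLc.preimage_isClosed_of_isClosed hKc.isClosed isClosed_Iic).measurableSet
  have hibp := h.ibp (P2a.isOpen_UU h e) inter_subset_left hKc hKU (P2a.cd_VV h o e l ζ) (by
    intro x hx hxK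
    have h4 : P2a.tp (af u l o x) = 0 := by
      refine max_eq_right ?_
      by_contra hlt
      exact hxK ⟨hx.1, gr_mem_epi hx.1, show af u l o x ≤ 4 by linarith⟩
    simp [P2a.VV, P2a.g1, P2a.g2, P2a.g3, h4])
  set G : E n → ℝ := fun x => (nu u e x ^ (1 - (n : ℝ) / 2) * Gam u (af u ζ o) (af u ζ o) x +
    nu u e x ^ (-1 - (n : ℝ) / 2) * Gam u (nu u e) (nu u e) x) * (rho u x)⁻¹ with hG
  have hρ : ContinuousOn (fun x => (rho u x)⁻¹) K := h.contDiffOn_rho_inv.continuousOn.mono hKΩ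
  have hpw : ∀ q : ℝ, ContinuousOn (fun x => nu u e x ^ q) K := fun q =>
    (P2a.cd_pow h e q).continuousOn.mono hKU
  have hGc : ContinuousOn G K :=
    (((hpw _).mul ((h.Gam_contDiffOn (h.af_contDiffOn ζ o)
      (h.af_contDiffOn ζ o)).continuousOn.mono hKΩ)).add ((hpw _).mul
      ((h.Gam_contDiffOn (h.nu_contDiffOn e) (h.nu_contDiffOn e)).continuousOn.mono hKΩ))).mul hρ
  have hG0 : ∀ x ∈ K, 0 ≤ G x := fun x hx =>
    mul_nonneg (add_nonneg (mul_nonneg (Real.rpow_nonneg (hf x hx).le _) (h.Gam_nonneg _ hx.1))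
      (mul_nonneg (Real.rpow_nonneg (hf x hx).le _) (h.Gam_nonneg _ hx.1)))
      (inv_nonneg.mpr (h.rho_pos hx.1).le)
  have hφc : ContinuousOn (fun x => 1 / 2 * P2a.tp (af u l o x) ^ 3 * G x) K :=
    (continuousOn_const.mul ((P2a.tp_cont.comp_continuousOn hLc).pow 3)).mul hGc
  have i1 : IntegrableOn (fun x => 1 / 2 * P2a.tp (af u l o x) ^ 3 * G x) K :=
    hφc.integrableOn_compact hKc
  have i2 : IntegrableOn (fun x => nu u e x ^ (-(n : ℝ) / 2) * (rho u x)⁻¹) K :=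
    ((hpw _).mul hρ).integrableOn_compact hKc
  have i3 : IntegrableOn (fun x => dv u (P2a.VV u o e l ζ) x * (rho u x)⁻¹) K :=
    (((h.continuousOn_dv (P2a.isOpen_UU h e) inter_subset_left
      (P2a.cd_VV h o e l ζ)).mono hKU).mul hρ).integrableOn_compact hKc
  have s1 : ∫ x in K2, G x ≤ ∫ x in K2, 1 / 2 * P2a.tp (af u l o x) ^ 3 * G x := by
    refine setIntegral_mono_on ((hGc.integrableOn_compact hKc).mono_set hK2K) (i1.mono_set hK2K)
      hK2m fun x hx => ?_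
    have h2 : 2 ≤ P2a.tp (af u l o x) := by
      have : af u l o x ≤ 2 := hx.2.2
      exact le_trans (by linarith) (le_max_left _ _)
    have h3 : (2 : ℝ) ^ 3 ≤ P2a.tp (af u l o x) ^ 3 := pow_le_pow_left₀ (by norm_num) h2 3
    nlinarith [hG0 x (hK2K hx)]
  have s2 : ∫ x in K2, 1 / 2 * P2a.tp (af u l o x) ^ 3 * G x ≤
      ∫ x in K, 1 / 2 * P2a.tp (af u l o x) ^ 3 * G x := by
    refine setIntegral_mono_set i1 ?_ hK2K.eventuallyLE
    refine (ae_restrict_iff' hKc.measurableSet).mpr (Filter.Eventually.of_forall fun x hx => ?_)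
    have := P2a.tp_nonneg (af u l o x)
    have := hG0 x hx
    show 0 ≤ 1 / 2 * P2a.tp (af u l o x) ^ 3 * G x
    positivity
  have s3 : ∫ x in K, (1 / 2 * P2a.tp (af u l o x) ^ 3 * G x -
      16200 * n * (nu u e x ^ (-(n : ℝ) / 2) * (rho u x)⁻¹)) ≤
      ∫ x in K, dv u (P2a.VV u o e l ζ) x * (rho u x)⁻¹ := by
    refine setIntegral_mono_on (i1.sub (i2.const_mul _)) i3 hKc.measurableSet fun x hx => ?_
    have := mul_le_mul_of_nonneg_right (P2a.dv_VV_ge h hn o e l ζ hle hζ (hKU hx)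
      (hb _ hx.2).1 (hb _ hx.2).2) (inv_nonneg.mpr (h.rho_pos hx.1).le)
    refine le_of_eq_of_le ?_ this
    simp only [hG]
    ring
  rw [integral_sub i1 (i2.const_mul _), integral_const_mul, hibp] at s3
  linarith

end Crest.Agent.R236
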