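import Crest.Agent.R236.QPt
import Crest.Agent.R236.P2
import Crest.Agent.R236.Area

/-!
# R236/QUp: part 4 of idea 1100, the upper bound on a box

`e = a e₁ + b e₂`, `f = nu u e`, `ζ₁ = a⁻¹ • ξ`, `ζ₂ = b⁻¹ • η`, `A₁ = Γ(ζ₁,ζ₁)`, `A₂ = Γ(ζ₂,ζ₂)`, `B = Γ(f,f)`.
-/

set_option autoImplicit false

namespace Crest.Agent.R236

open Set MeasureTheory
open Crest.GeometryTopology.CoordMetric Crest.GeometryTopology.AffineMaximal
open scoped ContDiff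

variable {n : ℕ} {Ω : Set (E n)} {u : E n → ℝ}

/-- the integrand of the boundary term -/
noncomputable def qG (u : E n → ℝ) (o e₁ e₂ : F n) (ξ η : F n →L[ℝ] ℝ) (x : E n) : ℝ :=
  sP u o e₁ e₂ ξ η x ^ (-(n : ℝ) / 2) *
    (|wq u o e₁ e₂ ξ η ξ x| / af u ξ o x + |wq u o e₁ e₂ ξ η η x| / af u η o x) * (rho u x)⁻¹

theorem qup_one {t ρ s f A A' G p p' y g B ε a X : ℝ} (ht : 0 ≤ t) (hρ : 0 < ρ) (hs : 0 < s) (hf : 0 < f) (hA : 0 ≤ A)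
    (hA' : 0 ≤ A') (hB : 0 ≤ B) (hε : 0 < ε) (ha : 0 < a) (hX : ε * a ≤ X) (hG : G ^ 2 ≤ A * A') (hp : ρ * |p| ≤ s)
    (hp' : ρ * |p'| ≤ s) (hy : g = f * y - 1) (hg : g ^ 2 ≤ B * A) :
    |a * (t * (p * A + p' * G) + s * y)| / X ≤ s / ε * (t / ρ * (A + (A + A') / 2) + (B / f ^ 2 + A) / 2 + 1 / f) := by
  have a1 : |G| ≤ (A + A') / 2 := abs_le_of_sq_le_sq (by nlinarith [sq_nonneg (A - A')]) (by positivity)
  have a2 : |p| ≤ s / ρ := by rwa [le_div_iff₀' hρ]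
  have a3 : |p'| ≤ s / ρ := by rwa [le_div_iff₀' hρ]
  have a4 : |g / f| ≤ (B / f ^ 2 + A) / 2 := by
    refine abs_le_of_sq_le_sq ?_ (by positivity)
    have b1 : (g / f) ^ 2 ≤ B / f ^ 2 * A := by
      rw [div_pow, div_mul_eq_mul_div]
      gcongr
    nlinarith [sq_nonneg (B / f ^ 2 - A)]
  have a5 : |y| ≤ (B / f ^ 2 + A) / 2 + 1 / f := by
    have e : y = g / f + 1 / f := by
      rw [hy]
      field_simp
      ring
    rw [e]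
    exact (abs_add_le _ _).trans (add_le_add a4 (abs_of_pos (by positivity)).le)
  have a6 : |t * (p * A + p' * G) + s * y| ≤ t * (s / ρ * A + s / ρ * ((A + A') / 2)) + s * ((B / f ^ 2 + A) / 2 + 1 / f) := by
    refine (abs_add_le _ _).trans ?_
    rw [abs_mul, abs_mul, abs_of_nonneg ht, abs_of_pos hs]
    gcongr
    refine (abs_add_le _ _).trans ?_
    rw [abs_mul, abs_mul, abs_of_nonneg hA]
    gcongr
  rw [abs_mul, abs_of_pos ha]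
  calc a * |t * (p * A + p' * G) + s * y| / X
      ≤ a * (t * (s / ρ * A + s / ρ * ((A + A') / 2)) + s * ((B / f ^ 2 + A) / 2 + 1 / f)) / (ε * a) := by gcongr
    _ = _ := by
      field_simp
      ring

/-- Pointwise bound on the box.  Write `ξ = a • ζ₁`, `η = b • ζ₂` (`Gam_af_smul_left/right`): `Γ(ξ,ξ) = a² A₁`,
`|Γ(η,ξ)| = a b |Γ(ζ₂,ζ₁)| ≤ a b (A₁ + A₂)/2` (`AM.Gam_sq_le`), `ρ |a ν₁|, ρ |b ν₂| ≤ s` (`QD.nu1_le`, `QD.nu2_le`),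
`ξ ≥ ε a`; `f ζ₁(Y) = Γ(f,ζ₁) + 1` (`AM.Gam_nu_af`, `QD.xi_e`), `|Γ(f,ζ₁)| ≤ (B/f + f A₁)/2`.  Hence
`|wq ξ| / ξ + |wq η| / η ≤ (s/ε) ((2 t/ρ + 1/2) (A₁ + A₂) + 2/f + B/f²)`, and
`s^(-n/2) s = s^(1-n/2) ≤ (ρ f)^(1-n/2)` since `s ≥ ρ f > 0` (`QD.f_le_s`), `1 - n/2 ≤ 0`. -/
theorem QD.qG_le {ε ρ a b : ℝ} {o e₁ e₂ : F n} {ξ η : F n →L[ℝ] ℝ} (h : QD Ω u ε ρ o e₁ e₂ ξ η a b)
    (hn : 3 ≤ n) {x : E n} (hx : x ∈ bx Ω u o ξ η ε a b) :
    qG u o e₁ e₂ ξ η x ≤ ρ ^ (1 - (n : ℝ) / 2) / ε * (2 * tc n / ρ + 2) *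
      ((nu u (a • e₁ + b • e₂) x ^ (1 - (n : ℝ) / 2) * Gam u (af u (a⁻¹ • ξ) o) (af u (a⁻¹ • ξ) o) x +
          nu u (a • e₁ + b • e₂) x ^ (-1 - (n : ℝ) / 2) *
            Gam u (nu u (a • e₁ + b • e₂)) (nu u (a • e₁ + b • e₂)) x) * (rho u x)⁻¹ +
        (nu u (a • e₁ + b • e₂) x ^ (1 - (n : ℝ) / 2) * Gam u (af u (b⁻¹ • η) o) (af u (b⁻¹ • η) o) x +
          nu u (a • e₁ + b • e₂) x ^ (-1 - (n : ℝ) / 2) *
            Gam u (nu u (a • e₁ + b • e₂)) (nu u (a • e₁ + b • e₂)) x) * (rho u x)⁻¹ +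
        nu u (a • e₁ + b • e₂) x ^ (-(n : ℝ) / 2) * (rho u x)⁻¹) := by
  have hΩ : x ∈ Ω := hx.1
  have hs := h.s_pos hx
  have hf := h.f_pos (h.bx_subset' hx)
  have hρ := h.ρ0
  have hε := h.ε0
  have hr := h.am.rho_pos hΩ
  have hn' : (3 : ℝ) ≤ n := by exact_mod_cast hn
  have ht : 0 ≤ tc n := by unfold tc; linarith
  have e1 : wq u o e₁ e₂ ξ η ξ x = a * (tc n * (a * nu u e₁ x * Gam u (af u (a⁻¹ • ξ) o) (af u (a⁻¹ • ξ) o) x +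
      b * nu u e₂ x * Gam u (af u (b⁻¹ • η) o) (af u (a⁻¹ • ξ) o) x) + sP u o e₁ e₂ ξ η x * (a⁻¹ • ξ) (Yv u x)) := by
    have := h.a0.ne'
    have := h.b0.ne'
    simp only [wq, Gam_af_smul_left, Gam_af_smul_right, ContinuousLinearMap.smul_apply, smul_eq_mul]
    field_simp
  have e2 : wq u o e₁ e₂ ξ η η x = b * (tc n * (b * nu u e₂ x * Gam u (af u (b⁻¹ • η) o) (af u (b⁻¹ • η) o) x +
      a * nu u e₁ x * Gam u (af u (a⁻¹ • ξ) o) (af u (b⁻¹ • η) o) x) + sP u o e₁ e₂ ξ η x * (b⁻¹ • η) (Yv u x)) := by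
    have := h.a0.ne'
    have := h.b0.ne'
    simp only [wq, Gam_af_smul_left, Gam_af_smul_right, ContinuousLinearMap.smul_apply, smul_eq_mul]
    field_simp
    ring
  have hA := h.am.Gam_nonneg (af u (a⁻¹ • ξ) o) hΩ
  have hA' := h.am.Gam_nonneg (af u (b⁻¹ • η) o) hΩ
  have hB := h.am.Gam_nonneg (nu u (a • e₁ + b • e₂)) hΩ
  have g1 := h.am.Gam_nu_af (a • e₁ + b • e₂) o (a⁻¹ • ξ) hΩ
  have g2 := h.am.Gam_nu_af (a • e₁ + b • e₂) o (b⁻¹ • η) hΩ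
  rw [h.xi_e] at g1
  rw [h.eta_e] at g2
  have a1 := qup_one ht hρ hs hf hA hA' hB hε h.a0 hx.2.1
    ((h.am.Gam_sq_le (af u (b⁻¹ • η) o) (af u (a⁻¹ • ξ) o) hΩ).trans (mul_comm _ _).le) (h.nu1_le hx) (h.nu2_le hx) g1
    (h.am.Gam_sq_le _ _ hΩ)
  have a2 := qup_one ht hρ hs hf hA' hA hB hε h.b0 hx.2.2.2.1
    ((h.am.Gam_sq_le (af u (a⁻¹ • ξ) o) (af u (b⁻¹ • η) o) hΩ).trans (mul_comm _ _).le) (h.nu2_le hx) (h.nu1_le hx) g2
    (h.am.Gam_sq_le _ _ hΩ)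
  rw [← e1] at a1
  rw [← e2] at a2
  have a3 := h.f_le_s hx
  unfold qG
  generalize Gam u (af u (a⁻¹ • ξ) o) (af u (a⁻¹ • ξ) o) x = A at *
  generalize Gam u (af u (b⁻¹ • η) o) (af u (b⁻¹ • η) o) x = A' at *
  generalize Gam u (nu u (a • e₁ + b • e₂)) (nu u (a • e₁ + b • e₂)) x = B at *
  generalize nu u (a • e₁ + b • e₂) x = f at *
  generalize sP u o e₁ e₂ ξ η x = s at *
  have b1 : s ^ (-(n : ℝ) / 2) * s ≤ ρ ^ (1 - (n : ℝ) / 2) * f ^ (1 - (n : ℝ) / 2) := by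
    rw [← Real.rpow_add_one hs.ne', ← Real.mul_rpow hρ.le hf.le, show -(n : ℝ) / 2 + 1 = 1 - (n : ℝ) / 2 by ring]
    exact Real.rpow_le_rpow_of_nonpos (by positivity) a3 (by linarith)
  have b2 : f ^ (-1 - (n : ℝ) / 2) = f ^ (1 - (n : ℝ) / 2) / f ^ 2 := by
    rw [← Real.rpow_sub_natCast hf.ne']
    congr 1
    push_cast
    ring
  have b3 : f ^ (-(n : ℝ) / 2) = f ^ (1 - (n : ℝ) / 2) / f := by
    rw [← Real.rpow_sub_one hf.ne']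
    congr 1
    ring
  have b4 : 0 < f ^ (1 - (n : ℝ) / 2) := by positivity
  have b5 : 0 < s ^ (-(n : ℝ) / 2) := by positivity
  have b6 : 0 < ρ ^ (1 - (n : ℝ) / 2) := by positivity
  rw [b2, b3]
  have b7 : 0 ≤ tc n / ρ := by positivity
  have b8 : 0 ≤ B / f ^ 2 := by positivity
  have b9 : 0 < 1 / f := by positivity
  calc _ ≤ s ^ (-(n : ℝ) / 2) * (s / ε * ((2 * tc n / ρ + 2) * (A + A' + 2 * (B / f ^ 2) + 1 / f))) * (rho u x)⁻¹ := by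
        gcongr
        refine (add_le_add a1 a2).trans ?_
        rw [← mul_add, mul_div_assoc 2]
        gcongr
        nlinarith [mul_nonneg b7 b8, mul_nonneg b7 b9.le]
    _ = s ^ (-(n : ℝ) / 2) * s * ((2 * tc n / ρ + 2) * (A + A' + 2 * (B / f ^ 2) + 1 / f) / ε * (rho u x)⁻¹) := by ring
    _ ≤ ρ ^ (1 - (n : ℝ) / 2) * f ^ (1 - (n : ℝ) / 2) *
        ((2 * tc n / ρ + 2) * (A + A' + 2 * (B / f ^ 2) + 1 / f) / ε * (rho u x)⁻¹) := by gcongr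
    _ = _ := by ring

/-- Integrate `QD.qG_le` over the box (all functions are continuous on the compact pieces and nonnegative, the box
lies in the pieces of the caps of height `2` and `4`), use `p2` twice (`QD.range`, `QD.qL_e`, `QD.xi_e`, `QD.eta_e`,
`QD.f_pos`) and `area_e1` for the function `f / ρ` (`QD.wid_le_f`): `∫ f^(-n/2) dμ ≤ ρ^(-n/2) C₁`. -/
theorem q_upper (n : ℕ) (hn : 3 ≤ n) {ε ρ : ℝ} (hε : 0 < ε) (hρ : 0 < ρ) : ∃ C : ℝ, 0 ≤ C ∧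
    ∀ (Ω : Set (E n)) (u : E n → ℝ) (a b : ℝ) (o e₁ e₂ : F n) (ξ η : F n →L[ℝ] ℝ),
      QD Ω u ε ρ o e₁ e₂ ξ η a b → ∫ x in bx Ω u o ξ η ε a b, qG u o e₁ e₂ ξ η x ≤ C := by
  obtain ⟨C₁, hC₁, H₁⟩ := area_e1 n hn
  obtain ⟨C₂, hC₂, H₂⟩ := p2 n hn
  have hn' : (3 : ℝ) ≤ n := by exact_mod_cast hn
  have ht : 0 ≤ tc n := by unfold tc; linarith
  refine ⟨ρ ^ (1 - (n : ℝ) / 2) / ε * (2 * tc n / ρ + 2) * ((2 * C₂ + 1) * (ρ ^ (-(n : ℝ) / 2) * C₁)), by positivity,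
    fun Ω u a b o e₁ e₂ ξ η h => ?_⟩
  set P₄ := piece Ω u (capH Ω u (qL ξ η a b) o 4) with hP₄
  set P₂ := piece Ω u (capH Ω u (qL ξ η a b) o 2) with hP₂
  set f := nu u (a • e₁ + b • e₂) with hf
  have c4 : IsCompact P₄ := h.am.piece_isCompact h.cpt fun _ hZ => hZ.1
  have c2 : IsCompact P₂ := h.am.piece_isCompact (capH_isCompact_of_le h.cpt (by norm_num)) fun _ hZ => hZ.1
  have s24 : P₂ ⊆ P₄ := fun x hx => ⟨hx.1, hx.2.1, hx.2.2.trans (by norm_num)⟩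
  have s4 : P₄ ⊆ Ω := piece_subset _
  have f0 : ∀ x ∈ P₄, 0 < f x := fun x hx => h.f_pos hx
  have cf : ContinuousOn f P₄ := (h.am.nu_contDiffOn _).continuousOn.mono s4
  have cr : ContinuousOn (fun x => (rho u x)⁻¹) P₄ :=
    (h.am.rho_contDiffOn.continuousOn.mono s4).inv₀ fun x hx => (h.am.rho_pos (s4 hx)).ne'
  have cp : ∀ c : ℝ, ContinuousOn (fun x => f x ^ c) P₄ := fun c => cf.rpow_const fun x hx => Or.inl (f0 x hx).ne'
  set T : (F n →L[ℝ] ℝ) → E n → ℝ := fun ζ x => (f x ^ (1 - (n : ℝ) / 2) * Gam u (af u ζ o) (af u ζ o) x +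
    f x ^ (-1 - (n : ℝ) / 2) * Gam u f f x) * (rho u x)⁻¹ with hT
  set U : E n → ℝ := fun x => f x ^ (-(n : ℝ) / 2) * (rho u x)⁻¹ with hU
  have cT : ∀ ζ, ContinuousOn (T ζ) P₄ := fun ζ =>
    (((cp _).mul ((h.am.Gam_contDiffOn (h.am.af_contDiffOn ζ o) (h.am.af_contDiffOn ζ o)).continuousOn.mono s4)).add
      ((cp _).mul ((h.am.Gam_contDiffOn (h.am.nu_contDiffOn _) (h.am.nu_contDiffOn _)).continuousOn.mono s4))).mul cr
  have cU : ContinuousOn U P₄ := (cp _).mul cr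
  have T0 : ∀ ζ, ∀ x ∈ P₄, 0 ≤ T ζ x := fun ζ x hx => by
    have a1 := f0 x hx
    have a2 := h.am.rho_pos (s4 hx)
    have a3 := h.am.Gam_nonneg (af u ζ o) (s4 hx)
    have a4 := h.am.Gam_nonneg f (s4 hx)
    simp only [hT]
    positivity
  have U0 : ∀ x ∈ P₄, 0 ≤ U x := fun x hx => by
    have a1 := f0 x hx
    have a2 := h.am.rho_pos (s4 hx)
    simp only [hU]
    positivity
  have iT : ∀ ζ, IntegrableOn (T ζ) P₄ := fun ζ => (cT ζ).integrableOn_compact c4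
  have iU : IntegrableOn U P₄ := cU.integrableOn_compact c4
  have hU1 : ∫ x in P₄, U x ≤ ρ ^ (-(n : ℝ) / 2) * C₁ := by
    have a1 := H₁ Ω u h.am _ h.cpt (h.am.capH_convex _ _ _) (fun _ hZ => hZ.1) h.int (fun x => f x / ρ) (cf.div_const ρ)
      fun x hx Z hZ Z' hZ' => (le_div_iff₀' hρ).2 (h.wid_le_f hx hZ hZ')
    refine le_trans (le_of_eq ?_) (mul_le_mul_of_nonneg_left a1 (by positivity))
    rw [← integral_const_mul]
    refine setIntegral_congr_fun c4.measurableSet fun x hx => ?_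
    have : 0 < ρ ^ (-(n : ℝ) / 2) := by positivity
    simp only [hU]
    rw [Real.div_rpow (f0 x hx).le hρ.le]
    field_simp
  have hT1 : ∀ ζ : F n →L[ℝ] ℝ, (∀ Z ∈ capH Ω u (qL ξ η a b) o 4, |ζ (Z - o)| ≤ 5) → ζ (a • e₁ + b • e₂) = 1 →
      ∫ x in bx Ω u o ξ η ε a b, T ζ x ≤ C₂ * (ρ ^ (-(n : ℝ) / 2) * C₁) := fun ζ h1 h2 => by
    have a1 := H₂ Ω u h.am o (a • e₁ + b • e₂) (qL ξ η a b) ζ h.cpt (fun Z hZ => ⟨(h.range hZ).1, h1 Z hZ⟩) h.qL_e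
      (by rw [h2]; norm_num) f0
    refine (setIntegral_mono_set ((iT ζ).mono_set s24) ?_ h.bx_subset.eventuallyLE).trans
      (a1.trans (mul_le_mul_of_nonneg_left hU1 hC₂))
    exact (ae_restrict_iff' c2.measurableSet).2 (Filter.Eventually.of_forall fun x hx => T0 ζ x (s24 hx))
  have hU2 : ∫ x in bx Ω u o ξ η ε a b, U x ≤ ρ ^ (-(n : ℝ) / 2) * C₁ := by
    refine (setIntegral_mono_set iU ?_ h.bx_subset'.eventuallyLE).trans hU1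
    exact (ae_restrict_iff' c4.measurableSet).2 (Filter.Eventually.of_forall U0)
  have j1 := (iT (a⁻¹ • ξ)).mono_set h.bx_subset'
  have j2 := (iT (b⁻¹ • η)).mono_set h.bx_subset'
  have j3 := iU.mono_set h.bx_subset'
  have j4 : IntegrableOn (fun x => T (a⁻¹ • ξ) x + T (b⁻¹ • η) x) (bx Ω u o ξ η ε a b) := j1.add j2
  have key : ∫ x in bx Ω u o ξ η ε a b, qG u o e₁ e₂ ξ η x ≤ ∫ x in bx Ω u o ξ η ε a b,
      ρ ^ (1 - (n : ℝ) / 2) / ε * (2 * tc n / ρ + 2) * (T (a⁻¹ • ξ) x + T (b⁻¹ • η) x + U x) := by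
    refine integral_mono_of_nonneg ?_ ((j4.add j3).const_mul _) ?_
    · refine (ae_restrict_iff' h.bx_isCompact.measurableSet).2 (Filter.Eventually.of_forall fun x hx => ?_)
      have a1 := h.s_pos hx
      have a2 := h.am.rho_pos hx.1
      have a3 : 0 < af u ξ o x := (mul_pos hε h.a0).trans_le hx.2.1
      have a4 : 0 < af u η o x := (mul_pos hε h.b0).trans_le hx.2.2.2.1
      simp only [qG, Pi.zero_apply]
      positivity
    · exact (ae_restrict_iff' h.bx_isCompact.measurableSet).2 (Filter.Eventually.of_forall fun x hx => h.qG_le hn hx)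
  rw [integral_const_mul, integral_add j4 j3, integral_add j1 j2] at key
  refine key.trans (mul_le_mul_of_nonneg_left ?_ (by positivity))
  linarith [hT1 _ (fun Z hZ => (h.range hZ).2.1) h.xi_e, hT1 _ (fun Z hZ => (h.range hZ).2.2) h.eta_e]

end Crest.Agent.R236
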