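import Crest.Agent.R236.QLow
import Crest.Agent.R236.QUp
import Crest.Agent.R236.QCut
import Crest.Agent.R236.QCount

/-!
# R236/NotQ: part 4 of idea 1100, the analytic theorem (helper96)
-/

set_option autoImplicit false

namespace Crest.Agent.R236

open Set MeasureTheory
open Crest.GeometryTopology.CoordMetric Crest.GeometryTopology.AffineMaximal
open scoped ContDiff

variable {n : ℕ} {Ω : Set (E n)} {u : E n → ℝ}

theorem notq_idx {r τ : ℝ} (m : ℕ) (hm : 1 ≤ m) (h1 : 1 ≤ τ) (h2 : τ ≤ r ^ m) :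
    ∃ i < m, r ^ i ≤ τ ∧ τ ≤ r ^ (i + 1) := by
  induction m with
  | zero => omega
  | succ k ih =>
    rcases Nat.eq_zero_or_pos k with rfl | hk
    · exact ⟨0, by omega, by simpa using h1, h2⟩
    · rcases le_total τ (r ^ k) with h | h
      · obtain ⟨i, hi, h3⟩ := ih hk h
        exact ⟨i, by omega, h3⟩
      · exact ⟨k, by omega, h, h2⟩

theorem notq_box_cpt {S : Set (E n)} (hS : IsCompact S) {f g : E n → ℝ} (hf : ContinuousOn f S)
    (hg : ContinuousOn g S) (r : ℝ) (i j : ℕ) : IsCompact (qBox f g S r i j) := by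
  have h1 := hf.preimage_isClosed_of_isClosed hS.isClosed (isClosed_Icc (a := r ^ i) (b := r ^ (i + 1)))
  have h2 := hg.preimage_isClosed_of_isClosed hS.isClosed (isClosed_Icc (a := r ^ j) (b := r ^ (j + 1)))
  refine hS.of_isClosed_subset ?_ fun x hx => hx.1
  convert h1.inter h2 using 1
  ext x
  simp only [qBox, mem_inter_iff, mem_preimage, mem_Icc, mem_ofPred_eq]
  tauto

theorem notq_pt {s' w₁ w₂ d₁ d₂ k₁ k₂ a b ri K : ℝ} (hs : 0 ≤ s') (hri : 0 ≤ ri) (ha : 0 < a) (hb : 0 < b)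
    (hk₁ : 0 ≤ k₁ ∧ k₁ ≤ 1) (hk₂ : 0 ≤ k₂ ∧ k₂ ≤ 1) (hd₁ : |a * d₁| ≤ K) (hd₂ : |b * d₂| ≤ K) :
    s' * (d₁ * k₂ * w₁ + k₁ * d₂ * w₂) * ri ≤ K * (s' * (|w₁| / a + |w₂| / b) * ri) := by
  have key : ∀ {a d k w : ℝ}, 0 < a → 0 ≤ k ∧ k ≤ 1 → |a * d| ≤ K → d * k * w ≤ K * (|w| / a) := by
    intro a d k w ha hk hd
    have e : d * k * w = (a * d) * k * (w / a) := by field_simp
    rw [e]
    calc (a * d) * k * (w / a) ≤ |(a * d) * k * (w / a)| := le_abs_self _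
      _ = |a * d| * k * (|w| / a) := by rw [abs_mul, abs_mul _ k, abs_of_nonneg hk.1, abs_div, abs_of_pos ha]
      _ ≤ K * 1 * (|w| / a) := by
          have hK : 0 ≤ K := (abs_nonneg _).trans hd
          gcongr
          · exact hk.1
          · exact hk.2
      _ = K * (|w| / a) := by ring
  have h1 := key (w := w₁) ha hk₂ hd₁
  have h2 := key (w := w₂) hb hk₁ hd₂
  have h3 : d₁ * k₂ * w₁ + k₁ * d₂ * w₂ ≤ K * (|w₁| / a + |w₂| / b) := by nlinarith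
  calc s' * (d₁ * k₂ * w₁ + k₁ * d₂ * w₂) * ri ≤ s' * (K * (|w₁| / a + |w₂| / b)) * ri := by gcongr
    _ = _ := by ring

theorem notQ (hn : 3 ≤ n) (hn' : n ≤ 9) (h : AM Ω u) :
    ∃ ε : ℝ, 0 < ε ∧ ε ≤ 1 ∧ ∀ ρ : ℝ, 0 < ρ → ∃ R : ℝ, ¬Geo.Q (Geo.epi Ω u) ε R ρ := by
  obtain ⟨ε, c, hε, hε1, hc, hlow⟩ := q_lower n hn
  refine ⟨ε, hε, by linarith, fun ρ hρ => ?_⟩
  obtain ⟨C, hC, hup⟩ := q_upper n hn hε hρ
  set r : ℝ := ε⁻¹ with hrdef
  have hr : 1 < r := by rw [hrdef]; exact (one_lt_inv₀ hε).2 (by linarith)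
  have hr0 : 0 < r := by linarith
  have hεr : ε * r = 1 := mul_inv_cancel₀ hε.ne'
  obtain ⟨C0, hC0, hcut⟩ := q_cutoff hr
  obtain ⟨M', hM'⟩ := exists_nat_gt (36 * C0 * C / c)
  set M : ℕ := M' + 1 with hMdef
  have hM1 : 1 ≤ M := by omega
  have hM : 36 * C0 * C < M * c := by
    rw [div_lt_iff₀ hc] at hM'
    have : (M' : ℝ) ≤ M := by rw [hMdef]; push_cast; linarith
    nlinarith
  obtain ⟨k, hk, hk01, hk1, hk0, hkd⟩ := hcut (2 * M) (by omega)
  refine ⟨Real.log (r ^ (6 * M)), ?_⟩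
  rintro ⟨o, e₁, e₂, ξ, η, ho, h11, h12, h21, h22, hQ⟩
  have hT : Real.exp (Real.log (r ^ (6 * M))) = r ^ (6 * M) := Real.exp_log (pow_pos hr0 _)
  have hT1 : 1 ≤ r ^ (6 * M) := one_le_pow₀ hr.le
  have hT' : Real.exp (-Real.log (r ^ (6 * M))) ≤ 1 := Real.exp_le_one_iff.2 (neg_nonpos.2 (Real.log_nonneg hT1))
  have hD : ∀ i ≤ 6 * M, ∀ j ≤ 6 * M, QD Ω u ε ρ o e₁ e₂ ξ η (r ^ i) (r ^ j) := fun i hi j hj =>
    ⟨h, hε, hε1, hρ, pow_pos hr0 _, pow_pos hr0 _, ho, h11, h12, h21, h22,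
      hQ _ _ (hT'.trans (one_le_pow₀ hr.le)) (hT.symm ▸ pow_le_pow_right₀ hr.le hi)
        (hT'.trans (one_le_pow₀ hr.le)) (hT.symm ▸ pow_le_pow_right₀ hr.le hj)⟩
  set S : Set (E n) := {x | x ∈ Ω ∧ 1 ≤ af u ξ o x ∧ af u ξ o x ≤ r ^ (6 * M) ∧ 1 ≤ af u η o x ∧
    af u η o x ≤ r ^ (6 * M)} with hSdef
  have hSΩ : S ⊆ Ω := fun x hx => hx.1
  have hbox : ∀ i < 6 * M, ∀ j < 6 * M, qBox (af u ξ o) (af u η o) S r i j =
      bx Ω u o ξ η ε (r ^ (i + 1)) (r ^ (j + 1)) := by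
    intro i hi j hj
    have e1 : ∀ i : ℕ, ε * r ^ (i + 1) = r ^ i := fun i => by rw [pow_succ, mul_comm (r ^ i), ← mul_assoc, hεr, one_mul]
    ext x
    simp only [qBox, bx, e1, hSdef, mem_ofPred_eq]
    constructor
    · rintro ⟨⟨hx, -⟩, h2⟩
      exact ⟨hx, h2⟩
    · rintro ⟨hx, h1, h2, h3, h4⟩
      exact ⟨⟨hx, (one_le_pow₀ hr.le).trans h1, h2.trans (pow_le_pow_right₀ hr.le hi),
        (one_le_pow₀ hr.le).trans h3, h4.trans (pow_le_pow_right₀ hr.le hj)⟩, h1, h2, h3, h4⟩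
  have hcov : ∀ x ∈ S, ∃ i < 6 * M, ∃ j < 6 * M, x ∈ bx Ω u o ξ η ε (r ^ (i + 1)) (r ^ (j + 1)) := by
    intro x hx
    obtain ⟨i, hi, h1, h2⟩ := notq_idx (6 * M) (by omega) hx.2.1 hx.2.2.1
    obtain ⟨j, hj, h3, h4⟩ := notq_idx (6 * M) (by omega) hx.2.2.2.1 hx.2.2.2.2
    exact ⟨i, hi, j, hj, hbox i hi j hj ▸ ⟨hx, h1, h2, h3, h4⟩⟩
  have hS : IsCompact S := by
    have : S = ⋃ i ∈ Finset.range (6 * M), ⋃ j ∈ Finset.range (6 * M),
        bx Ω u o ξ η ε (r ^ (i + 1)) (r ^ (j + 1)) := by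
      ext x
      simp only [mem_iUnion, Finset.mem_range]
      constructor
      · intro hx
        obtain ⟨i, hi, j, hj, hx⟩ := hcov x hx
        exact ⟨i, hi, j, hj, hx⟩
      · rintro ⟨i, hi, j, hj, hx⟩
        rw [← hbox i hi j hj] at hx
        exact hx.1
    rw [this]
    exact Finset.isCompact_biUnion _ fun i hi => Finset.isCompact_biUnion _ fun j hj =>
      (hD _ (Finset.mem_range.1 hi) _ (Finset.mem_range.1 hj)).bx_isCompact
  have hs : ∀ x ∈ S, 0 < sP u o e₁ e₂ ξ η x := fun x hx => by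
    obtain ⟨i, hi, j, hj, hx⟩ := hcov x hx
    exact (hD _ hi _ hj).s_pos hx
  have cξ : ContinuousOn (af u ξ o) S := (h.af_contDiffOn ξ o).continuousOn.mono hSΩ
  have cη : ContinuousOn (af u η o) S := (h.af_contDiffOn η o).continuousOn.mono hSΩ
  have cs : ContinuousOn (fun x => sP u o e₁ e₂ ξ η x ^ (-(n : ℝ) / 2)) S :=
    ((h.sP_contDiffOn o e₁ e₂ ξ η).continuousOn.mono hSΩ).rpow_const fun x hx => Or.inl (hs x hx).ne'
  have cρ : ContinuousOn (fun x => (rho u x)⁻¹) S :=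
    (h.rho_contDiffOn.continuousOn.mono hSΩ).inv₀ fun x hx => (h.rho_pos (hSΩ hx)).ne'
  have cw : ∀ ζ, ContinuousOn (wq u o e₁ e₂ ξ η ζ) S := fun ζ =>
    (h.wq_contDiffOn o e₁ e₂ ξ η ζ).continuousOn.mono hSΩ
  have ck : Continuous k := hk.continuous
  have ck' : Continuous (deriv k) := hk.continuous_deriv (by simp)
  have cG : ContinuousOn (qG u o e₁ e₂ ξ η) S :=
    (cs.mul (((cw ξ).abs.div cξ fun x hx => by have := hx.2.1; positivity).add
      ((cw η).abs.div cη fun x hx => by have := hx.2.2.2.1; positivity))).mul cρ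
  have hB : ∀ i j, MeasurableSet (qBox (af u ξ o) (af u η o) S r i j) := fun i j =>
    (notq_box_cpt hS cξ cη r i j).measurableSet
  have hP := h.p1_int hn hn' h11 h12 h21 h22 hk hk (fun τ => (hk01 τ).1) (fun τ => (hk01 τ).1) hS hSΩ hs (o := o)
    (by
      intro x hx hxS
      have e : 3 * (2 * M) = 6 * M := by ring
      rw [e] at hk0
      by_contra hne
      have h1 : k (af u ξ o x) ≠ 0 := left_ne_zero_of_mul hne
      have h2 : k (af u η o x) ≠ 0 := right_ne_zero_of_mul hne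
      refine hxS ⟨hx, ?_, ?_, ?_, ?_⟩
      · exact le_of_not_ge fun h' => h1 (hk0 _ (Or.inl h'))
      · exact le_of_not_ge fun h' => h1 (hk0 _ (Or.inr h'))
      · exact le_of_not_ge fun h' => h2 (hk0 _ (Or.inl h'))
      · exact le_of_not_ge fun h' => h2 (hk0 _ (Or.inr h')))
  have hL := q_count_lower volume (ξ := af u ξ o) (η := af u η o)
    (σ := fun x => sP u o e₁ e₂ ξ η x ^ (-(n : ℝ) / 2) * (rho u x)⁻¹)
    (H := fun x => k (af u ξ o x) * k (af u η o x) * sP u o e₁ e₂ ξ η x ^ (-(n : ℝ) / 2) * (rho u x)⁻¹)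
    (S := S) (c := c) (M := M) hr hB hS.measurableSet ((cs.mul cρ).integrableOn_compact hS)
    (((((ck.comp_continuousOn cξ).mul (ck.comp_continuousOn cη)).mul cs).mul cρ).integrableOn_compact hS)
    (fun x hx => mul_nonneg (mul_nonneg (mul_nonneg (hk01 _).1 (hk01 _).1) (Real.rpow_nonneg (hs x hx).le _))
      (inv_nonneg.2 (h.rho_pos (hSΩ hx)).le))
    (fun x _ h1 h2 h3 h4 => by
      have e : 2 * (2 * M) = 4 * M := by ring
      rw [e] at hk1
      rw [hk1 _ h1 h2, hk1 _ h3 h4, one_mul, one_mul])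
    (fun i hi j hj => by
      rw [hbox i (by omega) j (by omega)]
      exact hlow Ω u ρ _ _ o e₁ e₂ ξ η (hD _ (by omega) _ (by omega)))
  have hU := q_count_upper volume (ξ := af u ξ o) (η := af u η o) (G := qG u o e₁ e₂ ξ η) (S := S) (C := C)
    (m := 6 * M) hr (by omega) hB hS.measurableSet (cG.integrableOn_compact hS)
    (fun x hx => by
      have h1 := hx.2.1
      have h2 := hx.2.2.2.1
      have h3 := hs x hx
      have h4 := h.rho_pos (hSΩ hx)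
      unfold qG
      positivity)
    (fun x hx => hx.2)
    (fun i hi j hj => by
      rw [hbox i hi j hj]
      exact hup Ω u _ _ o e₁ e₂ ξ η (hD _ hi _ hj))
  have hR : ∫ x in S, sP u o e₁ e₂ ξ η x ^ (-(n : ℝ) / 2) *
        (deriv k (af u ξ o x) * k (af u η o x) * wq u o e₁ e₂ ξ η ξ x +
          k (af u ξ o x) * deriv k (af u η o x) * wq u o e₁ e₂ ξ η η x) * (rho u x)⁻¹ ≤
      ∫ x in S, C0 / ((2 * M : ℕ) : ℝ) * qG u o e₁ e₂ ξ η x := by
    refine setIntegral_mono_on ?_ ((continuousOn_const.mul cG).integrableOn_compact hS) hS.measurableSet ?_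
    · exact ((cs.mul (((((ck'.comp_continuousOn cξ).mul (ck.comp_continuousOn cη)).mul (cw ξ))).add
        (((ck.comp_continuousOn cξ).mul (ck'.comp_continuousOn cη)).mul (cw η)))).mul cρ).integrableOn_compact hS
    · intro x hx
      exact notq_pt (Real.rpow_nonneg (hs x hx).le _) (inv_nonneg.2 (h.rho_pos (hSΩ hx)).le)
        (by have := hx.2.1; linarith) (by have := hx.2.2.2.1; linarith) (hk01 _) (hk01 _) (hkd _) (hkd _)
  rw [integral_const_mul] at hR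
  have hM0 : (0 : ℝ) < M := by exact_mod_cast hM1
  have h5 : C0 / ((2 * M : ℕ) : ℝ) * ∫ x in S, qG u o e₁ e₂ ξ η x ≤ C0 / ((2 * M : ℕ) : ℝ) * (((6 * M : ℕ) : ℝ) ^ 2 * C) :=
    mul_le_mul_of_nonneg_left hU (by positivity)
  have h6 : C0 / ((2 * M : ℕ) : ℝ) * (((6 * M : ℕ) : ℝ) ^ 2 * C) = 18 * C0 * C * M := by
    push_cast; field_simp; ring
  have h7 : (1 / 2) * ((M : ℝ) ^ 2 * c) ≤ 18 * C0 * C * M := by linarith
  nlinarith

end Crest.Agent.R236
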