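import Crest.Agent.R236.Cal1
import Crest.Agent.R236.Ibp

/-!
# R236/P1 (helper90): parts 0 and 1 of idea 1100, in the form used by part 4
-/

set_option autoImplicit false

namespace Crest.Agent.R236

open Set MeasureTheory
open Crest.GeometryTopology.CoordMetric Crest.GeometryTopology.AffineMaximal
open scoped ContDiff

variable {n : ℕ} {Ω : Set (E n)} {u : E n → ℝ}

/-- `Γ(ν_a, ζ) = ν_a ζ(Y) - ζ_lin(a)` -/
theorem AM.Gam_nu_af (h : AM Ω u) (a o : F n) (ζ : F n →L[ℝ] ℝ) {x : E n} (hx : x ∈ Ω) :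
    Gam u (nu u a) (af u ζ o) x = nu u a x * ζ (Yv u x) - ζ a :=
  h.Gam_nu_af' hx a ζ o

/-- `σ = ν(o - X)` -/
noncomputable def p1_sig (u : E n → ℝ) (o : F n) (y : E n) : ℝ := nu u (o - gr u y) y

/-- `π` as a vector valued function -/
noncomputable def p1_pi (u : E n → ℝ) (o e₁ e₂ : F n) (ξ η : F n →L[ℝ] ℝ) (y : E n) : Fin n → ℝ :=
  nu u e₁ y • dd (af u ξ o) y + nu u e₂ y • dd (af u η o) y

/-- `r = ds - π = ξ dν₁ + η dν₂ + dσ` -/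
noncomputable def p1_r (u : E n → ℝ) (o e₁ e₂ : F n) (ξ η : F n →L[ℝ] ℝ) (y : E n) : Fin n → ℝ :=
  (af u ξ o y • dd (nu u e₁) y + af u η o y • dd (nu u e₂) y) + dd (p1_sig u o) y

/-- `r + t π` -/
noncomputable def p1_A (u : E n → ℝ) (o e₁ e₂ : F n) (ξ η : F n →L[ℝ] ℝ) (y : E n) : Fin n → ℝ :=
  p1_r u o e₁ e₂ ξ η y + tc n • p1_pi u o e₁ e₂ ξ η y

theorem p1_sP (o e₁ e₂ : F n) (ξ η : F n →L[ℝ] ℝ) :
    sP u o e₁ e₂ ξ η = fun y =>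
      (af u ξ o y * nu u e₁ y + af u η o y * nu u e₂ y) + p1_sig u o y := by
  funext y
  have : o + (af u ξ o y • e₁ + af u η o y • e₂) - gr u y =
      (af u ξ o y • e₁ + af u η o y • e₂) + (o - gr u y) := by abel
  rw [sP, this, nu_add, nu_add, nu_smul, nu_smul, p1_sig]

theorem p1_sig_cd (h : AM Ω u) (o : F n) : ContDiffOn ℝ ∞ (p1_sig u o) Ω := by
  have := h.sP_contDiffOn o 0 0 0 0
  refine this.congr fun y _ => ?_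
  simp [p1_sig, sP]

theorem p1_da (h : AM Ω u) {f : E n → ℝ} (hf : ContDiffOn ℝ ∞ f Ω) {x : E n} (hx : x ∈ Ω) :
    DifferentiableAt ℝ f x :=
  (hf.contDiffAt (h.isOpen.mem_nhds hx)).differentiableAt (by simp)

theorem p1_dda (h : AM Ω u) {f : E n → ℝ} (hf : ContDiffOn ℝ ∞ f Ω) {x : E n} (hx : x ∈ Ω)
    (i : Fin n) : DifferentiableAt ℝ (fun y => dd f y i) x :=
  p1_da h (contDiffOn_dd h.isOpen hf i) hx

theorem p1_smul_cd (h : AM Ω u) {f g : E n → ℝ} (hf : ContDiffOn ℝ ∞ f Ω) (hg : ContDiffOn ℝ ∞ g Ω)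
    (i : Fin n) : ContDiffOn ℝ ∞ (fun y => (f y • dd g y) i) Ω :=
  hf.mul (contDiffOn_dd h.isOpen hg i)

theorem p1_pi_cd (h : AM Ω u) (o e₁ e₂ : F n) (ξ η : F n →L[ℝ] ℝ) (i : Fin n) :
    ContDiffOn ℝ ∞ (fun y => p1_pi u o e₁ e₂ ξ η y i) Ω :=
  (p1_smul_cd h (h.nu_contDiffOn e₁) (h.af_contDiffOn ξ o) i).add
    (p1_smul_cd h (h.nu_contDiffOn e₂) (h.af_contDiffOn η o) i)

theorem p1_r_cd (h : AM Ω u) (o e₁ e₂ : F n) (ξ η : F n →L[ℝ] ℝ) (i : Fin n) :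
    ContDiffOn ℝ ∞ (fun y => p1_r u o e₁ e₂ ξ η y i) Ω :=
  ((p1_smul_cd h (h.af_contDiffOn ξ o) (h.nu_contDiffOn e₁) i).add
    (p1_smul_cd h (h.af_contDiffOn η o) (h.nu_contDiffOn e₂) i)).add
    (contDiffOn_dd h.isOpen (p1_sig_cd h o) i)

theorem p1_A_cd (h : AM Ω u) (o e₁ e₂ : F n) (ξ η : F n →L[ℝ] ℝ) (i : Fin n) :
    ContDiffOn ℝ ∞ (fun y => p1_A u o e₁ e₂ ξ η y i) Ω :=
  (p1_r_cd h o e₁ e₂ ξ η i).add (contDiffOn_const.mul (p1_pi_cd h o e₁ e₂ ξ η i))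

/-- `div (f dg) = f Δg + Γ(f, g)` -/
theorem p1_dv (h : AM Ω u) {f g : E n → ℝ} (hf : ContDiffOn ℝ ∞ f Ω) (hg : ContDiffOn ℝ ∞ g Ω)
    {x : E n} (hx : x ∈ Ω) : dv u (fun y => f y • dd g y) x = f x * Lap u g x + Gam u f g x :=
  h.dv_smul hx (p1_da h hf hx) (p1_dda h hg hx)

theorem p1_ds (h : AM Ω u) (o e₁ e₂ : F n) (ξ η : F n →L[ℝ] ℝ) {x : E n} (hx : x ∈ Ω) :
    dd (sP u o e₁ e₂ ξ η) x = p1_r u o e₁ e₂ ξ η x + p1_pi u o e₁ e₂ ξ η x := by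
  have a1 := p1_da h (h.af_contDiffOn ξ o) hx
  have a2 := p1_da h (h.af_contDiffOn η o) hx
  have b1 := p1_da h (h.nu_contDiffOn e₁) hx
  have b2 := p1_da h (h.nu_contDiffOn e₂) hx
  rw [p1_sP, dd_add ((a1.fun_mul b1).fun_add (a2.fun_mul b2)) (p1_da h (p1_sig_cd h o) hx),
    dd_add (a1.fun_mul b1) (a2.fun_mul b2), dd_mul a1 b1, dd_mul a2 b2, p1_r, p1_pi]
  abel

theorem p1_dv_pi (h : AM Ω u) {o e₁ e₂ : F n} {ξ η : F n →L[ℝ] ℝ} (h11 : ξ e₁ = 1) (h22 : η e₂ = 1)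
    {x : E n} (hx : x ∈ Ω) : dv u (p1_pi u o e₁ e₂ ξ η) x =
      (n + 1) * (nu u e₁ x * ξ (Yv u x) + nu u e₂ x * η (Yv u x)) - 2 := by
  have e := h.dv_add hx
    (fun i => p1_da h (p1_smul_cd h (h.nu_contDiffOn e₁) (h.af_contDiffOn ξ o) i) hx)
    (fun i => p1_da h (p1_smul_cd h (h.nu_contDiffOn e₂) (h.af_contDiffOn η o) i) hx)
  rw [p1_dv h (h.nu_contDiffOn e₁) (h.af_contDiffOn ξ o) hx,
    p1_dv h (h.nu_contDiffOn e₂) (h.af_contDiffOn η o) hx, h.Lap_af hx, h.Lap_af hx,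
    h.Gam_nu_af' hx, h.Gam_nu_af' hx, h11, h22] at e
  refine Eq.trans e ?_
  ring

theorem p1_dv_r (h : AM Ω u) {o e₁ e₂ : F n} {ξ η : F n →L[ℝ] ℝ} (h11 : ξ e₁ = 1) (h22 : η e₂ = 1)
    {x : E n} (hx : x ∈ Ω) : dv u (p1_r u o e₁ e₂ ξ η) x =
      (nu u e₁ x * ξ (Yv u x) + nu u e₂ x * η (Yv u x)) - 2 + n := by
  have c1 := p1_smul_cd h (h.af_contDiffOn ξ o) (h.nu_contDiffOn e₁)
  have c2 := p1_smul_cd h (h.af_contDiffOn η o) (h.nu_contDiffOn e₂)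
  have e := h.dv_add hx (fun i => p1_da h (c1 i) hx) (fun i => p1_da h (c2 i) hx)
  have e' := h.dv_add hx
    (V := fun y => af u ξ o y • dd (nu u e₁) y + af u η o y • dd (nu u e₂) y)
    (fun i => p1_da h ((c1 i).add (c2 i)) hx) (p1_dda h (p1_sig_cd h o) hx)
  have e'' : dv u (dd (p1_sig u o)) x = n := h.Lap_sig hx o
  rw [e, e'', p1_dv h (h.af_contDiffOn ξ o) (h.nu_contDiffOn e₁) hx,
    p1_dv h (h.af_contDiffOn η o) (h.nu_contDiffOn e₂) hx, h.Lap_nu hx, h.Lap_nu hx,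
    h.Gam_symm _ _ hx, h.Gam_symm (af u η o) _ hx, h.Gam_nu_af' hx, h.Gam_nu_af' hx, h11, h22] at e'
  refine Eq.trans e' ?_
  ring

theorem p1_dv_A (h : AM Ω u) {o e₁ e₂ : F n} {ξ η : F n →L[ℝ] ℝ} (h11 : ξ e₁ = 1) (h22 : η e₂ = 1)
    {x : E n} (hx : x ∈ Ω) : dv u (p1_A u o e₁ e₂ ξ η) x =
      (nu u e₁ x * ξ (Yv u x) + nu u e₂ x * η (Yv u x)) - 2 + n +
        tc n * ((n + 1) * (nu u e₁ x * ξ (Yv u x) + nu u e₂ x * η (Yv u x)) - 2) := by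
  have e := h.dv_add hx (V := p1_r u o e₁ e₂ ξ η) (W := fun y => tc n • p1_pi u o e₁ e₂ ξ η y)
    (fun i => p1_da h (p1_r_cd h o e₁ e₂ ξ η i) hx)
    (fun i => p1_da h (contDiffOn_const.mul (p1_pi_cd h o e₁ e₂ ξ η i)) hx)
  have e' := h.dv_smul hx (ψ := fun _ => tc n) (W := p1_pi u o e₁ e₂ ξ η)
    (differentiableAt_const _) (fun i => p1_da h (p1_pi_cd h o e₁ e₂ ξ η i) hx)
  have e0 : dd (fun _ : E n => tc n) x = 0 := by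
    funext i
    simp [dd, pderiv]
  have e1 : ip u x (0 : Fin n → ℝ) (p1_pi u o e₁ e₂ ξ η x) = 0 := by simp [ip]
  rw [e0, e1, add_zero] at e'
  rw [e', p1_dv_r h h11 h22 hx, p1_dv_pi h h11 h22 hx] at e
  exact e

/-- `⟨r, dζ⟩ = s ζ(Y)` when `ζ (ξ e₁ + η e₂) = ζ` on the graph -/
theorem p1_ip_r (h : AM Ω u) (o e₁ e₂ : F n) (ξ η ζ : F n →L[ℝ] ℝ) {x : E n} (hx : x ∈ Ω)
    (hζ : af u ξ o x * ζ e₁ + af u η o x * ζ e₂ = af u ζ o x) :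
    ip u x (p1_r u o e₁ e₂ ξ η x) (dd (af u ζ o) x) = sP u o e₁ e₂ ξ η x * ζ (Yv u x) := by
  have e1 : ip u x (dd (nu u e₁) x) (dd (af u ζ o) x) = _ := h.Gam_nu_af' hx e₁ ζ o
  have e2 : ip u x (dd (nu u e₂) x) (dd (af u ζ o) x) = _ := h.Gam_nu_af' hx e₂ ζ o
  have e3 : ip u x (dd (p1_sig u o) x) (dd (af u ζ o) x) =
      p1_sig u o x * ζ (Yv u x) + af u ζ o x := h.Gam_sig_af hx o ζ
  rw [p1_r, ip_add_left, ip_add_left, ip_smul_left, ip_smul_left, e1, e2, e3, p1_sP, ← hζ]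
  ring

theorem p1_ip_A (h : AM Ω u) (o e₁ e₂ : F n) (ξ η ζ : F n →L[ℝ] ℝ) {x : E n} (hx : x ∈ Ω)
    (hζ : af u ξ o x * ζ e₁ + af u η o x * ζ e₂ = af u ζ o x) :
    ip u x (dd (af u ζ o) x) (p1_A u o e₁ e₂ ξ η x) = wq u o e₁ e₂ ξ η ζ x := by
  rw [h.ip_symm hx, p1_A, ip_add_left, p1_ip_r h o e₁ e₂ ξ η ζ hx hζ, ip_smul_left, p1_pi,
    ip_add_left, ip_smul_left, ip_smul_left, wq, Gam, Gam]
  ring

theorem p1_tc (hn : 3 ≤ n) (hn' : n ≤ 9) :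
    ((tc n * (n + 2) - (n - 2)) / (2 * n)) ^ 2 ≤ tc n := by
  unfold tc
  interval_cases n <;> norm_num

/-- the pointwise certificate -/
theorem p1_cert (h : AM Ω u) (hn : 3 ≤ n) (hn' : n ≤ 9) {o e₁ e₂ : F n} {ξ η : F n →L[ℝ] ℝ}
    (h11 : ξ e₁ = 1) (h12 : ξ e₂ = 0) (h21 : η e₁ = 0) (h22 : η e₂ = 1) {x : E n} (hx : x ∈ Ω)
    (hs : 0 < sP u o e₁ e₂ ξ η x) :
    1 / 2 * sP u o e₁ e₂ ξ η x ^ (-(n : ℝ) / 2) ≤
      dv u (fun y => (-(sP u o e₁ e₂ ξ η y ^ (-(n : ℝ) / 2))) • p1_A u o e₁ e₂ ξ η y) x := by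
  have hsd := p1_da h (h.sP_contDiffOn o e₁ e₂ ξ η) hx
  have hφ : HasDerivAt (fun t : ℝ => -(t ^ (-(n : ℝ) / 2)))
      (-(-(n : ℝ) / 2 * sP u o e₁ e₂ ξ η x ^ (-(n : ℝ) / 2 - 1))) (sP u o e₁ e₂ ξ η x) :=
    (Real.hasDerivAt_rpow_const (Or.inl hs.ne')).neg
  have hd := dd_comp hsd hφ
  rw [h.dv_smul hx (ψ := fun y => -(sP u o e₁ e₂ ξ η y ^ (-(n : ℝ) / 2)))
    (hφ.differentiableAt.comp x hsd) (fun i => p1_da h (p1_A_cd h o e₁ e₂ ξ η i) hx), hd,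
    p1_dv_A h h11 h22 hx, ip_smul_left, p1_ds h o e₁ e₂ ξ η hx, Real.rpow_sub_one hs.ne']
  have hrπ : ip u x (p1_r u o e₁ e₂ ξ η x) (p1_pi u o e₁ e₂ ξ η x) = sP u o e₁ e₂ ξ η x *
      (nu u e₁ x * ξ (Yv u x) + nu u e₂ x * η (Yv u x)) := by
    conv_lhs => rw [p1_pi]
    rw [ip_add_right, ip_smul_right, ip_smul_right,
      p1_ip_r h o e₁ e₂ ξ η ξ hx (by rw [h11, h12]; ring),
      p1_ip_r h o e₁ e₂ ξ η η hx (by rw [h21, h22]; ring)]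
    ring
  have hP := h.ip_nonneg hx (p1_pi u o e₁ e₂ ξ η x)
  have hl := p1_tc hn hn'
  set l : ℝ := (tc n * (n + 2) - (n - 2)) / (2 * n) with hldef
  have hq := h.ip_nonneg hx (p1_r u o e₁ e₂ ξ η x + (-l) • p1_pi u o e₁ e₂ ξ η x)
  simp only [p1_A, ip_add_left, ip_add_right, ip_smul_left, ip_smul_right] at hq ⊢
  rw [h.ip_symm hx (p1_pi u o e₁ e₂ ξ η x) (p1_r u o e₁ e₂ ξ η x), hrπ] at hq ⊢
  set s := sP u o e₁ e₂ ξ η x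
  set β := nu u e₁ x * ξ (Yv u x) + nu u e₂ x * η (Yv u x)
  set P := ip u x (p1_pi u o e₁ e₂ ξ η x) (p1_pi u o e₁ e₂ ξ η x)
  set R := ip u x (p1_r u o e₁ e₂ ξ η x) (p1_r u o e₁ e₂ ξ η x)
  have hI : 0 < s ^ (-(n : ℝ) / 2) := Real.rpow_pos_of_pos hs _
  set I := s ^ (-(n : ℝ) / 2)
  have hn0 : (0 : ℝ) < n := by exact_mod_cast (by omega : 0 < n)
  have key : 0 ≤ R + tc n * P - 2 * l * (s * β) := by
    nlinarith [mul_le_mul_of_nonneg_right hl hP]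
  have e : -I * (β - 2 + n + tc n * ((n + 1) * β - 2)) + -(-(n : ℝ) / 2 * (I / s)) *
      (R + s * β + tc n * (s * β + P)) - 1 / 2 * I =
      n / 2 * (I / s) * (R + tc n * P - 2 * l * (s * β)) := by
    rw [hldef, tc]
    field_simp
    ring
  have : 0 ≤ n / 2 * (I / s) * (R + tc n * P - 2 * l * (s * β)) := by positivity
  linarith

/-- The integrated certificate.  `W = -s^(-n/2) (ds + (t-1) π)`, `div W ≥ s^(-n/2) / 2` on the open set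
`U = Ω ∩ {s > 0} ⊇ S`; `ψ = h₁(ξ) h₂(η)` vanishes on `U \\ S`, so `∫ ψ div W = -∫ ⟨dψ, W⟩`, and
`⟨dξ, ds + (t-1) π⟩ = wq .. ξ` because `Γ(s, ξ) = ⟨π, dξ⟩ + s ξ(Y)` (same for `η`). -/
theorem AM.p1_int (h : AM Ω u) (hn : 3 ≤ n) (hn' : n ≤ 9) {o e₁ e₂ : F n} {ξ η : F n →L[ℝ] ℝ}
    (h11 : ξ e₁ = 1) (h12 : ξ e₂ = 0) (h21 : η e₁ = 0) (h22 : η e₂ = 1)
    {h₁ h₂ : ℝ → ℝ} (hh₁ : ContDiff ℝ ∞ h₁) (hh₂ : ContDiff ℝ ∞ h₂) (h₁0 : ∀ τ, 0 ≤ h₁ τ) (h₂0 : ∀ τ, 0 ≤ h₂ τ)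
    {S : Set (E n)} (hS : IsCompact S) (hSΩ : S ⊆ Ω) (hs : ∀ x ∈ S, 0 < sP u o e₁ e₂ ξ η x)
    (hsupp : ∀ x ∈ Ω, x ∉ S → h₁ (af u ξ o x) * h₂ (af u η o x) = 0) :
    (1 / 2) * ∫ x in S, h₁ (af u ξ o x) * h₂ (af u η o x) * sP u o e₁ e₂ ξ η x ^ (-(n : ℝ) / 2) * (rho u x)⁻¹ ≤
      ∫ x in S, sP u o e₁ e₂ ξ η x ^ (-(n : ℝ) / 2) *
        (deriv h₁ (af u ξ o x) * h₂ (af u η o x) * wq u o e₁ e₂ ξ η ξ x +
          h₁ (af u ξ o x) * deriv h₂ (af u η o x) * wq u o e₁ e₂ ξ η η x) * (rho u x)⁻¹ := by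
  set U : Set (E n) := Ω ∩ sP u o e₁ e₂ ξ η ⁻¹' Ioi 0 with hU
  have hUo : IsOpen U :=
    (h.sP_contDiffOn o e₁ e₂ ξ η).continuousOn.isOpen_inter_preimage h.isOpen isOpen_Ioi
  have hUΩ : U ⊆ Ω := inter_subset_left
  have hSU : S ⊆ U := fun x hx => ⟨hSΩ hx, hs x hx⟩
  have cξ := h.af_contDiffOn ξ o
  have cη := h.af_contDiffOn η o
  have c1 : ContDiffOn ℝ ∞ (fun y => h₁ (af u ξ o y)) Ω := hh₁.comp_contDiffOn cξ
  have c2 : ContDiffOn ℝ ∞ (fun y => h₂ (af u η o y)) Ω := hh₂.comp_contDiffOn cη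
  have cI : ContDiffOn ℝ ∞ (fun y => sP u o e₁ e₂ ξ η y ^ (-(n : ℝ) / 2)) U :=
    ((h.sP_contDiffOn o e₁ e₂ ξ η).mono hUΩ).rpow_const_of_ne fun y hy => ne_of_gt hy.2
  have cW : ∀ i, ContDiffOn ℝ ∞ (fun y => ((-(sP u o e₁ e₂ ξ η y ^ (-(n : ℝ) / 2))) •
      p1_A u o e₁ e₂ ξ η y) i) U := fun i => cI.neg.mul ((p1_A_cd h o e₁ e₂ ξ η i).mono hUΩ)
  have cV : ∀ i, ContDiffOn ℝ 1 (fun y => ((h₁ (af u ξ o y) * h₂ (af u η o y)) •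
      ((-(sP u o e₁ e₂ ξ η y ^ (-(n : ℝ) / 2))) • p1_A u o e₁ e₂ ξ η y)) i) U := fun i =>
    (((c1.mul c2).mono hUΩ).mul (cW i)).of_le (by simp)
  have hibp := h.ibp hUo hUΩ hS hSU cV fun x hx hxS => by
    simp only [hsupp x (hUΩ hx) hxS, zero_smul]
  have cρ : ContinuousOn (fun x => (rho u x)⁻¹) S := h.contDiffOn_rho_inv.continuousOn.mono hSΩ
  have cIS := cI.continuousOn.mono hSU
  have d1 : ContinuousOn (fun y => deriv h₁ (af u ξ o y)) S :=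
    (hh₁.continuous_deriv (by simp)).comp_continuousOn (cξ.continuousOn.mono hSΩ)
  have d2 : ContinuousOn (fun y => deriv h₂ (af u η o y)) S :=
    (hh₂.continuous_deriv (by simp)).comp_continuousOn (cη.continuousOn.mono hSΩ)
  have c1S := c1.continuousOn.mono hSΩ
  have c2S := c2.continuousOn.mono hSΩ
  have i1 := (((c1S.mul c2S).mul cIS).mul cρ).integrableOn_compact (μ := volume) hS
  have i2 := ((cIS.mul (((d1.mul c2S).mul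
    ((h.wq_contDiffOn o e₁ e₂ ξ η ξ).continuousOn.mono hSΩ)).add ((c1S.mul d2).mul
    ((h.wq_contDiffOn o e₁ e₂ ξ η η).continuousOn.mono hSΩ)))).mul cρ).integrableOn_compact
    (μ := volume) hS
  have i3 := (((h.continuousOn_dv hUo hUΩ cV).mono hSU).mul cρ).integrableOn_compact
    (μ := volume) hS
  have hadd := integral_add i2 i3
  simp only [Pi.mul_apply, Pi.add_apply] at hadd i1 i2 i3
  rw [hibp, add_zero] at hadd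
  rw [← hadd, ← integral_const_mul]
  refine setIntegral_mono_on (i1.const_mul _) (i2.add i3) hS.measurableSet fun x hx => ?_
  have hxΩ := hSΩ hx
  have hρ : 0 < (rho u x)⁻¹ := inv_pos.2 (h.rho_pos hxΩ)
  have a1 := p1_da h cξ hxΩ
  have a2 := p1_da h cη hxΩ
  have hc := p1_cert h hn hn' h11 h12 h21 h22 hxΩ (hs x hx)
  have hWd : ∀ i, DifferentiableAt ℝ (fun y => ((-(sP u o e₁ e₂ ξ η y ^ (-(n : ℝ) / 2))) •
      p1_A u o e₁ e₂ ξ η y) i) x := fun i =>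
    ((cW i).contDiffAt (hUo.mem_nhds (hSU hx))).differentiableAt (by simp)
  rw [h.dv_smul hxΩ (ψ := fun y => h₁ (af u ξ o y) * h₂ (af u η o y))
      (p1_da h (c1.mul c2) hxΩ) hWd,
    dd_mul (p1_da h c1 hxΩ) (p1_da h c2 hxΩ),
    dd_comp a1 (hh₁.differentiable (by simp) _).hasDerivAt,
    dd_comp a2 (hh₂.differentiable (by simp) _).hasDerivAt, ip_smul_right, ip_add_left,
    ip_smul_left, ip_smul_left, ip_smul_left, ip_smul_left,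
    p1_ip_A h o e₁ e₂ ξ η ξ hxΩ (by rw [h11, h12]; ring),
    p1_ip_A h o e₁ e₂ ξ η η hxΩ (by rw [h21, h22]; ring)]
  have hψ : 0 ≤ h₁ (af u ξ o x) * h₂ (af u η o x) * (rho u x)⁻¹ :=
    mul_nonneg (mul_nonneg (h₁0 _) (h₂0 _)) hρ.le
  nlinarith [mul_le_mul_of_nonneg_left hc hψ]

end Crest.Agent.R236
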