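import Crest.Agent.R236.Pin2
import Crest.Prelude.Def_AffineMaximal

/-!
# R236/Pin: pinching of the determinant (part 6)
-/

set_option autoImplicit false
set_option maxSynthPendingDepth 3

noncomputable section

open scoped ContDiff
open Set Filter Topology Matrix
open Crest.Agent.R238.AP
open Crest.GeometryTopology.CoordMetric Crest.GeometryTopology.AffineMaximal

namespace Crest.Agent.R236.Pin

section core

variable {E : Type*} [NormedAddCommGroup E] [NormedSpace ℝ E]
variable {ι : Type*} [Fintype ι] [DecidableEq ι]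

theorem ld_basis {u : E → ℝ} (hu : Sm u) (hpos : ∀ x z, z ≠ 0 → 0 < D2 u x z z)
    (b0 b : Module.Basis ι ℝ E) : ∃ κ, ∀ y, ld b u y = ld b0 u y + κ := by
  have hP : (b0.toMatrix b).det ≠ 0 := by
    rw [← Module.Basis.det_apply]
    exact (b0.isUnit_det b).ne_zero
  refine ⟨_, fun y => Eq.trans ?_ (ld_comb hu hpos b0 hP y)⟩
  congr 1
  funext i
  exact (b0.sum_toMatrix_smul_self b i).symm

theorem Fr.inv_trace {u : E → ℝ} (hu : Sm u) {b : Module.Basis ι ℝ E} {x : E} (F : Fr b u x)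
    (b0 : Module.Basis ι ℝ E) (B : E →L[ℝ] E →L[ℝ] ℝ) :
    ∑ i, B (F.v i) (F.v i) = ∑ k, ∑ l, (hess b0 u x)⁻¹ k l * B (b0 k) (b0 l) := by
  set P : Matrix ι ι ℝ := Matrix.of fun k i => b0.repr (F.v i) k with hP
  have hv : ∀ i, F.v i = ∑ k, P k i • b0 k := fun i => (b0.sum_repr (F.v i)).symm
  have h1 : hess b0 u x * (P * Pᵀ) = 1 := by
    ext l k
    have h2 := congrArg (fun z => b0.repr z k) (F.span (b0 l))
    simp only [map_sum, map_smul, Finsupp.finsetSum_apply, Finsupp.smul_apply, smul_eq_mul,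
      Module.Basis.repr_self, Finsupp.single_apply] at h2
    rw [Matrix.one_apply, ← h2, ← Matrix.mul_assoc, Matrix.mul_apply]
    refine Finset.sum_congr rfl fun i _ => ?_
    congr 1
    rw [hv i, Matrix.mul_apply]
    simp only [map_sum, map_smul, smul_eq_mul, hess, Matrix.of_apply, dd_dd hu]
    exact Finset.sum_congr rfl fun m _ => mul_comm _ _
  rw [Matrix.inv_eq_right_inv h1]
  calc ∑ i, B (F.v i) (F.v i) = ∑ i, ∑ k, ∑ l, P k i * P l i * B (b0 k) (b0 l) :=
        Finset.sum_congr rfl fun i _ => by rw [hv i, bilin_comb]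
    _ = _ := by
        rw [Finset.sum_comm]
        refine Finset.sum_congr rfl fun k _ => ?_
        rw [Finset.sum_comm]
        refine Finset.sum_congr rfl fun l _ => ?_
        rw [Matrix.mul_apply, Finset.sum_mul]
        rfl

theorem eqn_of {u : E → ℝ} (hu : Sm u) (hpos : ∀ x z, z ≠ 0 → 0 < D2 u x z z)
    (b0 : Module.Basis ι ℝ E) {θ : ℝ} (hθ : θ ≠ 0)
    (h : ∀ x, ∑ k, ∑ l, (hess b0 u x)⁻¹ k l *
      D2 (fun y => Real.exp (-θ * ld b0 u y)) x (b0 k) (b0 l) = 0) (b : Module.Basis ι ℝ E) :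
    Eqn b u θ := by
  refine ⟨hu, hpos, fun x F => ?_⟩
  obtain ⟨κ, hκ⟩ := ld_basis hu hpos b b0
  have hl := sm_ld hu hpos b
  have e : (fun y => Real.exp (-θ * ld b0 u y)) = fun y => Real.exp (-θ * (ld b u y + κ)) :=
    funext fun y => by rw [hκ]
  have h1 := h x
  rw [← F.inv_trace hu b0, e] at h1
  have hs : Sm (fun y => Real.exp (-θ * (ld b u y + κ))) :=
    (contDiff_const.mul (hl.add contDiff_const)).exp
  have h2 : ∀ v, D2 (fun y => Real.exp (-θ * (ld b u y + κ))) x v v =
      Real.exp (-θ * (ld b u x + κ)) * θ * (θ * dd v (ld b u) x ^ 2 - D2 (ld b u) x v v) := by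
    intro v
    have j := ((Jet.const (-θ)).mul ((Jet.line hl x v).add (Jet.const κ))).exp
    have := ((Jet.line hs x v).unique j).2
    rw [dd_dd hs, dd_dd hl] at this
    rw [this]
    ring
  simp only [h2, ← Finset.mul_sum, Finset.sum_sub_distrib] at h1
  have h3 := (mul_eq_zero.mp h1).resolve_left (mul_ne_zero (Real.exp_pos _).ne' hθ)
  linarith

variable [FiniteDimensional ℝ E]

theorem pinch_core {u : E → ℝ} (b0 : Module.Basis ι ℝ E)
    (H : ∀ b : Module.Basis ι ℝ E, Eqn b u ((Fintype.card ι + 1) / (Fintype.card ι + 2)))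
    (hcont : Continuous fun v : ι → E => b0.det v) (h00 : u 0 = 0) (hnn : ∀ x, 0 ≤ u x)
    (hb : ∀ h, IsCompact {x | u x ≤ h}) {ρ C c h0 : ℝ} (hρ : 0 < ρ) (hc : 0 < c)
    (hW : ∀ h, h0 ≤ h → ∀ x y z, u x ≤ h → u y ≤ h → u z ≤ h → u (x + ρ • (y - z)) ≤ C * h)
    (hD : ∀ x, h0 ≤ u x → c * u x ≤ eu u x - u x) :
    ∃ M, ∀ x y, ld b0 u x ≤ ld b0 u y + M := by
  have hu := (H b0).sm
  set N : ℝ := (Fintype.card ι : ℝ) with hN
  have hN0 : 0 ≤ N := Nat.cast_nonneg _
  set K1 : ℝ := 8 * ((N + 1) * ((|C| + 1) / ρ) ^ 2) * (N + 4) * (N + 1) with hK1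
  set K2 : ℝ := 4 * (N + 1) * (2 * (N + 2) / 4 + 1) * (2 * (N + 2)) * (N + 1) with hK2
  have hK10 : 0 < K1 := by positivity
  have hK20 : 0 < K2 := by positivity
  refine ⟨N * (Real.log K1 + Real.log (K2 / c)) + ((N + 4) * Real.log 2 + 1 / 8) +
    (2 * (N + 2) * Real.log 2 + 1), fun x y => ?_⟩
  have hψ := (H b0).psi_nonneg h00 y
  have hψc : 0 ≤ 2 * (eu u y - u y) / c := by positivity
  set h : ℝ := |h0| + 2 * u x + u y + 2 * (eu u y - u y) / c + 1 with hh
  have hx0 := hnn x
  have hy0 := hnn y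
  have ha0 := abs_nonneg h0
  have hh0 : 0 < h := by positivity
  have hh1 : h0 ≤ h := by linarith [le_abs_self h0]
  set S := {z | u z ≤ h} with hS
  have h0S : (0 : E) ∈ S := show u 0 ≤ h by linarith
  have hDc : IsCompact ((fun p : E × E => p.1 - p.2) '' (S ×ˢ S)) :=
    ((hb h).prod (hb h)).image (continuous_fst.sub continuous_snd)
  have hSD : ∀ z ∈ S, z ∈ (fun p : E × E => p.1 - p.2) '' (S ×ˢ S) := fun z hz =>
    ⟨(z, 0), ⟨hz, h0S⟩, sub_zero z⟩
  obtain ⟨r, hr, hr0⟩ : ∃ r : ℝ, (∀ i, u (r • b0 i) < h) ∧ r ≠ 0 := by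
    have h1 : ∀ᶠ r : ℝ in 𝓝 0, ∀ i, u (r • b0 i) < h := by
      refine eventually_all.mpr fun i => ?_
      have h2 : Continuous fun r : ℝ => u (r • b0 i) :=
        hu.continuous.comp (continuous_id.smul continuous_const)
      exact h2.continuousAt.eventually_lt continuousAt_const (by simpa [h00] using hh0)
    exact ((h1.filter_mono nhdsWithin_le_nhds).and (self_mem_nhdsWithin (s := {0}ᶜ))).exists
  obtain ⟨b, hbD, hrep⟩ := exists_max_basis b0 hDc hcont hr0 fun i => hSD _ (hr i).le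
  have hQ : ∀ z, u z ≤ h → ip b z z ≤ N + 1 := by
    intro z hz
    have : ip b z z ≤ ∑ _i : ι, (1 : ℝ) := Finset.sum_le_sum fun i _ => by
      have := hrep z (hSD z hz) i
      nlinarith [abs_mul_abs_self (b.repr z i), abs_nonneg (b.repr z i)]
    simp only [Finset.sum_const, Finset.card_univ, nsmul_eq_mul, mul_one, ← hN] at this
    linarith
  have hP : ∀ z, u z ≤ h → gsq b u z ≤ (N + 1) * ((|C| + 1) / ρ) ^ 2 * h ^ 2 := by
    intro z hz
    have h1 : ∀ p q, u p ≤ h → u q ≤ h → dd (p - q) u z ≤ (|C| + 1) / ρ * h := by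
      intro p q hp hq
      have h2 := (tangent_le hu (H b0).nonneg z (ρ • (p - q))).trans (hW h hh1 z p q hz hp hq)
      have h3 : dd (ρ • (p - q)) u z = ρ * dd (p - q) u z := by simp [dd]
      rw [div_mul_eq_mul_div, le_div_iff₀ hρ]
      nlinarith [hnn z, le_abs_self C]
    have h2 : ∀ k, dd (b k) u z * dd (b k) u z ≤ ((|C| + 1) / ρ * h) ^ 2 := by
      intro k
      obtain ⟨⟨p, q⟩, ⟨hp, hq⟩, e⟩ := hbD k
      have h3 := h1 p q hp hq
      have h4 := h1 q p hq hp
      have h5 : dd (q - p) u z = -dd (p - q) u z := by simp [dd]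
      rw [← e, ← sq]
      exact sq_le_sq' (by linarith) h3
    have h3 : gsq b u z ≤ ∑ _i : ι, ((|C| + 1) / ρ * h) ^ 2 := Finset.sum_le_sum fun k _ => h2 k
    simp only [Finset.sum_const, Finset.card_univ, nsmul_eq_mul, ← hN] at h3
    nlinarith [sq_nonneg ((|C| + 1) / ρ * h)]
  have t1 : 1 / 2 ≤ (N + 1) / (N + 2) := by
    rw [div_le_div_iff₀ (by positivity) (by positivity)]; linarith
  have t2 : (N + 1) / (N + 2) ≤ 1 := by rw [div_le_one (by positivity)]; linarith
  have up := (H b).upper t1 t2 (by positivity) hh0 (hb h) hnn hP (x := x) (by linarith)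
  have lo := (H b).lower rfl (k := c * h) (show 0 < N + 1 by positivity) (by positivity) (hb h) h00
    hQ (fun z hz => by have := hD z (by linarith); rwa [hz] at this ⊢) (x := y) (by linarith)
    (by
      have h1 : 2 * (eu u y - u y) / c ≤ h := by linarith
      rw [div_le_iff₀ hc] at h1
      linarith)
  rw [← hN] at up lo
  have e1 : 8 * ((N + 1) * ((|C| + 1) / ρ) ^ 2 * h ^ 2) * (N + 4) * (N + 1) / h = K1 * h := by
    rw [hK1]; field_simp
  have e2 : K2 / (c * h) = K2 / c / h := by rw [div_div]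
  rw [e1, Real.log_mul hK10.ne' hh0.ne'] at up
  rw [← hK2, e2, Real.log_div (by positivity) hh0.ne'] at lo
  obtain ⟨κ, hκ⟩ := ld_basis hu (H b0).pos b0 b
  rw [hκ] at up lo
  nlinarith

end core

variable {n : ℕ}

/-- the standard basis -/
def sb (n : ℕ) : Module.Basis (Fin n) ℝ (EuclideanSpace ℝ (Fin n)) :=
  (EuclideanSpace.basisFun (Fin n) ℝ).toBasis

theorem hessianMat_eq (u : EuclideanSpace ℝ (Fin n) → ℝ) (x : EuclideanSpace ℝ (Fin n)) :
    hessianMat u x = hess (sb n) u x := by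
  ext i j
  simp only [hess, Matrix.of_apply, sb, OrthonormalBasis.coe_toBasis, EuclideanSpace.basisFun_apply]
  rfl

end Crest.Agent.R236.Pin

namespace Crest.Agent.R236

open Pin

/-- **Pinching** of the determinant of an entire affine maximal graph with good sections. -/
theorem pinch {n : ℕ} (u : EuclideanSpace ℝ (Fin n) → ℝ) (hu : ContDiff ℝ ∞ u)
    (hpos : ∀ x, (hessianMat u x).PosDef) (hmax : ∀ x, affineMaximalOp n u x = 0)
    (x0 : EuclideanSpace ℝ (Fin n)) (η : EuclideanSpace ℝ (Fin n) → ℝ)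
    (hη : ∀ x, η x = u x - u x0 - fderiv ℝ u x0 (x - x0))
    (hb : ∀ h, Bornology.IsBounded {x | η x ≤ h}) (ρ C c h0 : ℝ) (hρ : 0 < ρ) (hc : 0 < c)
    (hW : ∀ h, h0 ≤ h → ∀ x y z, η x ≤ h → η y ≤ h → η z ≤ h → η (x + ρ • (y - z)) ≤ C * h)
    (hD : ∀ x, h0 ≤ η x → c * η x ≤ fderiv ℝ η x (x - x0) - η x) :
    ∃ M, ∀ x y, (hessianMat u x).det ≤ M * (hessianMat u y).det := by
  set U : EuclideanSpace ℝ (Fin n) → ℝ := fun x => η (x0 + x) with hU
  have sh : ∀ (f : EuclideanSpace ℝ (Fin n) → ℝ) v,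
      dd v (fun x => f (x0 + x)) = fun x => dd v f (x0 + x) := fun f v => by
    funext x
    simp only [dd, fderiv_comp_add_left]
  have ss : ∀ {f : EuclideanSpace ℝ (Fin n) → ℝ}, Sm f → Sm (fun x => f (x0 + x)) := fun hf =>
    hf.comp (contDiff_const.add contDiff_id)
  have eU : U = fun x => u (x0 + x) - (u x0 + fderiv ℝ u x0 x) := by
    funext x
    simp only [hU, hη, add_sub_cancel_left]
    ring
  have hL : Sm (fun x => u x0 + fderiv ℝ u x0 x) := contDiff_const.add (fderiv ℝ u x0).contDiff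
  have hUs : Sm U := eU ▸ (ss hu).sub hL
  have d1 : ∀ v, dd v U = fun x => dd v u (x0 + x) - dd v u x0 := by
    intro v
    rw [eU, dd_sub (ss hu) hL, sh, dd_add contDiff_const (fderiv ℝ u x0).contDiff, dd_const]
    funext x
    simp [dd]
  have d2 : ∀ v w, dd w (dd v U) = fun x => dd w (dd v u) (x0 + x) := by
    intro v w
    rw [d1, dd_sub (ss (Sm.dd hu v)) contDiff_const, sh, dd_const]
    simp
  have hH : ∀ x, hess (sb n) U x = hessianMat u (x0 + x) := by
    intro x
    rw [hessianMat_eq]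
    ext i j
    simp only [hess, Matrix.of_apply, d2]
  have hp : ∀ x z, z ≠ 0 → 0 < D2 U x z z := by
    intro x z hz
    have h1 := (hH x ▸ hpos (x0 + x)).dotProduct_mulVec_pos (x := (sb n).repr z)
      (fun h => hz ((sb n).repr.injective (by ext i; simpa using congrFun h i)))
    conv_rhs => rw [← (sb n).sum_repr z]
    rw [bilin_comb]
    refine h1.trans_le (le_of_eq ?_)
    simp only [dotProduct, Matrix.mulVec, hess, Matrix.of_apply, dd_dd hUs, star_trivial,
      Finset.mul_sum]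
    exact Finset.sum_congr rfl fun k _ => Finset.sum_congr rfl fun l _ => by ring
  have hw : (fun y => Real.exp (-(((n : ℝ) + 1) / ((n : ℝ) + 2)) * ld (sb n) U y)) =
      fun y => detPower n u (x0 + y) := by
    funext y
    rw [detPower, Real.rpow_def_of_pos (hpos _).det_pos, ld, hH]
    congr 1
    ring
  have hws : Sm (fun y => Real.exp (-(((n : ℝ) + 1) / ((n : ℝ) + 2)) * ld (sb n) U y)) :=
    (contDiff_const.mul (sm_ld hUs hp (sb n))).exp
  have hE : ∀ b : Module.Basis (Fin n) ℝ (EuclideanSpace ℝ (Fin n)),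
      Eqn b U ((Fintype.card (Fin n) + 1) / (Fintype.card (Fin n) + 2)) := by
    intro b
    rw [Fintype.card_fin]
    refine eqn_of hUs hp (sb n) (by positivity) (fun x => ?_) b
    have h1 := hmax (x0 + x)
    simp only [affineMaximalOp, mul_assoc, ← Finset.mul_sum] at h1
    have h2 := (mul_eq_zero.mp h1).resolve_left (hpos _).det_pos.ne'
    rw [← h2, hH]
    refine Finset.sum_congr rfl fun k _ => Finset.sum_congr rfl fun l _ => ?_
    rw [← dd_dd hws, hw, sh, sh, hessianMat_eq (detPower n u)]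
    rfl
  have h00 : U 0 = 0 := by simp [eU]
  have hnn : ∀ x, 0 ≤ U x := by
    intro x
    have := tangent_le hUs (hE (sb n)).nonneg 0 x
    rw [d1, h00] at this
    simpa using this
  have hcont : Continuous fun v : Fin n → EuclideanSpace ℝ (Fin n) => (sb n).det v := by
    simp only [Module.Basis.det_apply]
    refine Continuous.matrix_det (continuous_matrix fun i j => ?_)
    simp only [Module.Basis.toMatrix_apply, sb, OrthonormalBasis.coe_toBasis_repr_apply,
      EuclideanSpace.basisFun_repr]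
    fun_prop
  have hcpt : ∀ h, IsCompact {x | U x ≤ h} := by
    intro h
    refine Metric.isCompact_of_isClosed_isBounded (isClosed_le hUs.continuous continuous_const) ?_
    obtain ⟨R, hR⟩ := (hb h).exists_norm_le
    refine (Metric.isBounded_closedBall (x := 0) (r := R + ‖x0‖)).subset fun z hz => ?_
    have h1 := hR (x0 + z) hz
    have h2 := norm_sub_le (x0 + z) x0
    rw [add_sub_cancel_left] at h2
    rw [mem_closedBall_zero_iff]
    linarith
  obtain ⟨M, hM⟩ := pinch_core (sb n) hE hcont h00 hnn hcpt hρ hc (C := C) (h0 := h0)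
    (fun h hh x y z hx hy hz => by
      have := hW h hh _ _ _ hx hy hz
      rwa [add_sub_add_left_eq_sub, add_assoc] at this)
    (fun x hx => by
      have := hD (x0 + x) hx
      rw [add_sub_cancel_left] at this
      simpa only [eu, hU, fderiv_comp_add_left] using this)
  refine ⟨Real.exp M, fun x y => ?_⟩
  have h1 := hM (x - x0) (y - x0)
  simp only [ld, hH, add_sub_cancel] at h1
  rw [← Real.exp_log (hpos x).det_pos, ← Real.exp_log (hpos y).det_pos, ← Real.exp_add]
  exact Real.exp_le_exp.mpr (by linarith)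

end Crest.Agent.R236
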