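import Crest.Agent.R238.AP3

/-!
# R236/Pin0: local second order jets, tangent inequality, frames for a convex function
-/

set_option autoImplicit false
set_option maxSynthPendingDepth 3

noncomputable section

open scoped ContDiff
open Set Filter Topology Matrix
open Crest.Agent.R238.AP

namespace Crest.Agent.R236.Pin

variable {E : Type*} [NormedAddCommGroup E] [NormedSpace ℝ E]
variable {ι : Type*} [Fintype ι] [DecidableEq ι]

/-- local second order jet at `0` -/
def LJ (p : ℝ → ℝ) (a0 a1 a2 : ℝ) : Prop :=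
  p 0 = a0 ∧ ∃ p1 : ℝ → ℝ, (∀ᶠ s in 𝓝 (0 : ℝ), HasDerivAt p (p1 s) s) ∧ p1 0 = a1 ∧ HasDerivAt p1 a2 0

section jet

variable {p r : ℝ → ℝ} {a0 a1 a2 b0 b1 b2 : ℝ}

theorem LJ.of_jet (h : Jet p a0 a1 a2) : LJ p a0 a1 a2 := by
  obtain ⟨h0, p1, hp, h1, h2⟩ := h
  exact ⟨h0, p1, Eventually.of_forall hp, h1, h2⟩

theorem LJ.add (h : LJ p a0 a1 a2) (k : LJ r b0 b1 b2) :
    LJ (fun s => p s + r s) (a0 + b0) (a1 + b1) (a2 + b2) := by
  obtain ⟨h0, p1, hp, h1, h2⟩ := h
  obtain ⟨k0, r1, hr, k1, k2⟩ := k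
  refine ⟨by simp [h0, k0], fun s => p1 s + r1 s, ?_, by simp [h1, k1], h2.add k2⟩
  filter_upwards [hp, hr] with s h3 h4 using h3.add h4

theorem LJ.cmul (h : LJ p a0 a1 a2) (c : ℝ) : LJ (fun s => c * p s) (c * a0) (c * a1) (c * a2) := by
  obtain ⟨h0, p1, hp, h1, h2⟩ := h
  refine ⟨by simp [h0], fun s => c * p1 s, ?_, by simp [h1], h2.const_mul c⟩
  filter_upwards [hp] with s h3 using h3.const_mul c

theorem LJ.log (h : LJ p a0 a1 a2) (h00 : a0 ≠ 0) :
    LJ (fun s => Real.log (p s)) (Real.log a0) (a1 / a0) (a2 / a0 - a1 ^ 2 / a0 ^ 2) := by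
  obtain ⟨h0, p1, hp, h1, h2⟩ := h
  have hp0 := hp.self_of_nhds
  have hne : ∀ᶠ s in 𝓝 (0 : ℝ), p s ≠ 0 := hp0.continuousAt.eventually_ne (h0 ▸ h00)
  refine ⟨by simp [h0], fun s => p1 s / p s, ?_, by simp [h0, h1], ?_⟩
  · filter_upwards [hp, hne] with s h3 h4 using h3.log h4
  · refine HasDerivAt.congr_deriv (h2.div hp0 (h0 ▸ h00)) ?_
    rw [h0, h1]
    field_simp

theorem LJ.max (h : LJ p a0 a1 a2) (hmax : IsLocalMax p 0) : a1 = 0 ∧ a2 ≤ 0 := by
  obtain ⟨-, p1, hp, h1, h2⟩ := h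
  have hp0 := hp.self_of_nhds
  have e1 : p1 0 = 0 := hmax.hasDerivAt_eq_zero hp0
  refine ⟨h1 ▸ e1, ?_⟩
  by_contra hneg
  push Not at hneg
  have hd : deriv p =ᶠ[𝓝 0] p1 := hp.mono fun s hs => hs.deriv
  have hmin : IsLocalMin p 0 := by
    refine isLocalMin_of_deriv_deriv_pos ?_ ?_ hp0.continuousAt
    · rw [hd.deriv_eq, h2.deriv]
      exact hneg
    · rw [hp0.deriv, e1]
  have hev : p =ᶠ[𝓝 0] fun _ => p 0 := by
    filter_upwards [hmin, hmax] with s hs hs' using le_antisymm hs' hs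
  have hev2 : p1 =ᶠ[𝓝 0] fun _ => 0 := by
    filter_upwards [hev.eventuallyEq_nhds, hp] with s hs hs'
    exact hs'.unique ((hasDerivAt_const s (p 0)).congr_of_eventuallyEq hs)
  have := h2.unique ((hasDerivAt_const (0 : ℝ) (0 : ℝ)).congr_of_eventuallyEq hev2)
  exact hneg.ne' this

end jet

/-- conditions at a local maximum of `f + β log g + k` -/
theorem max_log {f g k : E → ℝ} (hf : Sm f) (hg : Sm g) (hk : Sm k) (β : ℝ) {x : E} (hx : g x ≠ 0)
    (hm : IsLocalMax (fun y => f y + β * Real.log (g y) + k y) x) (v : E) :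
    dd v f x + β * (dd v g x / g x) + dd v k x = 0 ∧
      D2 f x v v + β * (D2 g x v v / g x - dd v g x ^ 2 / g x ^ 2) + D2 k x v v ≤ 0 := by
  have h := ((LJ.of_jet (Jet.line hf x v)).add (((LJ.of_jet (Jet.line hg x v)).log hx).cmul β)).add
    (LJ.of_jet (Jet.line hk x v))
  rw [dd_dd hf, dd_dd hg, dd_dd hk] at h
  refine h.max ?_
  have hc : ContinuousAt (fun s : ℝ => x + s • v) 0 := by fun_prop
  have hm' : IsLocalMax (fun y => f y + β * Real.log (g y) + k y) ((fun s : ℝ => x + s • v) 0) := by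
    simpa using hm
  exact IsLocalMax.comp_continuous (g := fun s : ℝ => x + s • v) hm' hc

/-- the tangent inequality -/
theorem tangent_le {u : E → ℝ} (hu : Sm u) (hc : ∀ x z, 0 ≤ D2 u x z z) (x v : E) :
    u x + dd v u x ≤ u (x + v) := by
  have h1 : Monotone fun s : ℝ => dd v u (x + s • v) :=
    monotone_of_deriv_nonneg (fun s => (hasDerivAt_line (hu.dd v) x v s).differentiableAt) fun s => by
      rw [(hasDerivAt_line (hu.dd v) x v s).deriv, dd_dd hu]
      exact hc _ _
  obtain ⟨s, hs, e⟩ := exists_hasDerivAt_eq_slope (fun t : ℝ => u (x + t • v))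
    (fun t => dd v u (x + t • v)) zero_lt_one
    (fun s _ => (hasDerivAt_line hu x v s).continuousAt.continuousWithinAt)
    (fun s _ => hasDerivAt_line hu x v s)
  have h2 := h1 hs.1.le
  simp only [zero_smul, add_zero, one_smul, sub_zero, div_one] at h2 e
  linarith

variable {b : Module.Basis ι ℝ E} {u : E → ℝ} {x : E}

omit [DecidableEq ι] in
theorem hess_pd (hu : Sm u) (hpos : ∀ x z, z ≠ 0 → 0 < D2 u x z z) (b : Module.Basis ι ℝ E) (x : E) :
    (hess b u x).PosDef := by
  refine Matrix.PosDef.of_dotProduct_mulVec_pos ?_ fun ξ hξ => ?_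
  · ext i j
    simp [hess, dd_dd hu, D2_symm hu x (b i) (b j)]
  · have h0 : ∑ k, ξ k • b k ≠ 0 := fun h => hξ (funext fun k =>
      Fintype.linearIndependent_iff.mp b.linearIndependent ξ h k)
    have h1 := hpos x _ h0
    rw [bilin_comb] at h1
    have h3 : star ξ ⬝ᵥ (hess b u x) *ᵥ ξ = ∑ k, ∑ l, ξ k * ξ l * D2 u x (b k) (b l) := by
      simp only [dotProduct, Matrix.mulVec, hess, Matrix.of_apply, dd_dd hu, star_trivial,
        Finset.mul_sum]
      exact Finset.sum_congr rfl fun k _ => Finset.sum_congr rfl fun l _ => by ring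
    rwa [h3]

/-- `log det D²u` in the directions `v` -/
def ld (v : ι → E) (u : E → ℝ) (x : E) : ℝ := Real.log (hess v u x).det

theorem sm_ld (hu : Sm u) (hpos : ∀ x z, z ≠ 0 → 0 < D2 u x z z) (b : Module.Basis ι ℝ E) :
    Sm (ld b u) := by
  refine ContDiff.log ?_ fun x => (hess_pd hu hpos b x).det_pos.ne'
  simp only [Matrix.det_apply']
  exact ContDiff.sum fun σ _ => contDiff_const.mul
    (contDiff_prod fun i _ => (hu.dd _).dd _)

omit [DecidableEq ι] in
theorem hess_comb (hu : Sm u) (w : ι → E) (P : Matrix ι ι ℝ) (y : E) :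
    hess (fun i => ∑ k, P k i • w k) u y = Pᵀ * hess w u y * P := by
  ext i j
  simp only [hess, Matrix.of_apply, dd_dd hu, bilin_comb, Matrix.mul_apply,
    Matrix.transpose_apply, Finset.sum_mul]
  rw [Finset.sum_comm]
  exact Finset.sum_congr rfl fun k _ => Finset.sum_congr rfl fun l _ => by ring

theorem ld_comb (hu : Sm u) (hpos : ∀ x z, z ≠ 0 → 0 < D2 u x z z) (b : Module.Basis ι ℝ E)
    {P : Matrix ι ι ℝ} (hP : P.det ≠ 0) (y : E) :
    ld (fun i => ∑ k, P k i • b k) u y = ld b u y + Real.log (P.det * P.det) := by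
  rw [ld, hess_comb hu, Matrix.det_mul, Matrix.det_mul, Matrix.det_transpose, ld,
    ← Real.log_mul (hess_pd hu hpos b y).det_pos.ne' (mul_ne_zero hP hP)]
  congr 1
  ring

variable (b) in
/-- an adapted frame at `x` -/
structure Fr (u : E → ℝ) (x : E) where
  v : ι → E
  lam : ι → ℝ
  pos : ∀ i, 0 < lam i
  orth : ∀ i j, D2 u x (v i) (v j) = if i = j then 1 else 0
  nrm : ∀ i, ip b (v i) (v i) = (lam i)⁻¹
  det : ld b u x = ∑ i, Real.log (lam i)
  span : ∀ z, ∑ i, D2 u x z (v i) • v i = z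
  e1 : ∀ e, dd e (ld b u) x = ∑ i, D3 u x (v i) (v i) e

theorem exists_fr (hu : Sm u) (hpos : ∀ x z, z ≠ 0 → 0 < D2 u x z z) (b : Module.Basis ι ℝ E)
    (x : E) : Nonempty (Fr b u x) := by
  obtain ⟨P, lam, hl, hP, hPP, hdet, hinv⟩ := exists_frame_matrix _ (hess_pd hu hpos b x)
  set v : ι → E := fun i => ∑ k, P k i • b k with hv
  have hI : hess v u x = 1 := by rw [hv, hess_comb hu, hP]
  have hdP : P.det ≠ 0 := by
    intro h
    have := congrArg Matrix.det hP
    simp [h] at this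
  refine ⟨⟨v, lam, hl, fun i j => ?_, fun i => ?_, ?_, fun z => ?_, fun e => ?_⟩⟩
  · have := congrFun (congrFun hI i) j
    rw [← dd_dd hu]
    simpa [hess, Matrix.one_apply] using this
  · have := congrFun (congrFun hPP i) i
    rw [hv, ip_comb]
    simpa [Matrix.mul_apply, Matrix.diagonal_apply] using this
  · rw [ld, hdet, Real.log_prod fun i _ => (hl i).ne']
  · have h1 : ∀ i, D2 u x z (v i) = ∑ k, ∑ l, b.repr z k * P l i * hess b u x k l := by
      intro i
      conv_lhs => rw [← b.sum_repr z]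
      rw [hv, bilin_comb]
      simp only [hess, Matrix.of_apply, dd_dd hu]
    have hs : ∀ k l, hess b u x k l = hess b u x l k := fun k l => by
      simp only [hess, Matrix.of_apply, dd_dd hu, D2_symm hu x (b k) (b l)]
    conv_rhs => rw [← b.sum_repr z]
    simp only [h1]
    simp only [hv, Finset.smul_sum, smul_smul]
    rw [Finset.sum_comm]
    refine Finset.sum_congr rfl fun m _ => ?_
    rw [← Finset.sum_smul]
    congr 1
    have h2 : ∀ k, ∑ l, (∑ i, P m i * P l i) * hess b u x l k = if m = k then 1 else 0 := by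
      intro k
      have := congrFun (congrFun hinv m) k
      simpa [Matrix.mul_apply, Matrix.one_apply] using this
    calc ∑ i, (∑ k, ∑ l, b.repr z k * P l i * hess b u x k l) * P m i
        = ∑ k, b.repr z k * ∑ l, (∑ i, P m i * P l i) * hess b u x l k := by
          simp only [Finset.sum_mul, Finset.mul_sum]
          rw [Finset.sum_comm]
          refine Finset.sum_congr rfl fun k _ => ?_
          rw [Finset.sum_comm]
          refine Finset.sum_congr rfl fun l _ => Finset.sum_congr rfl fun i _ => ?_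
          rw [hs k l]
          ring
      _ = b.repr z m := by simp [h2]
  · have hM : MD (fun t : ℝ => hess v u (x + t • e)) (hess v (dd e u) (x + (0 : ℝ) • e)) 0 := by
      intro i j
      have := hasDerivAt_line ((hu.dd (v j)).dd (v i)) x e 0
      rw [dd_comm3 hu] at this
      exact this
    have h1 := hM.logdet (by simp [hI])
    have h2 := (hasDerivAt_line (sm_ld hu hpos b) x e 0).add_const (Real.log (P.det * P.det))
    have e2 : (fun t : ℝ => ld b u (x + t • e) + Real.log (P.det * P.det)) =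
        fun t : ℝ => Real.log (hess v u (x + t • e)).det :=
      funext fun t => (ld_comb hu hpos b hdP _).symm
    rw [e2] at h2
    have h3 := h2.unique h1
    simp only [zero_smul, add_zero, hI, inv_one, Matrix.one_mul] at h3
    simp only [Matrix.trace, Matrix.diag_apply, hess, Matrix.of_apply, dd_dd_dd hu] at h3
    exact h3

theorem Fr.lin (F : Fr b u x) (L : E →L[ℝ] ℝ) (z : E) : L z = ∑ i, D2 u x z (F.v i) * L (F.v i) := by
  conv_lhs => rw [← F.span z]
  simp only [map_sum, map_smul, smul_eq_mul]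

theorem Fr.dd_eq (F : Fr b u x) (f : E → ℝ) (z : E) :
    dd z f x = ∑ i, D2 u x z (F.v i) * dd (F.v i) f x := F.lin (fderiv ℝ f x) z

theorem Fr.parseval (F : Fr b u x) (z w : E) :
    D2 u x w z = ∑ i, D2 u x z (F.v i) * D2 u x w (F.v i) := F.lin (D2 u x w) z

theorem Fr.lam_le (F : Fr b u x) {C : ℝ} (h : ∀ z, D2 u x z z ≤ C * ip b z z) (i : ι) :
    F.lam i ≤ C := by
  have := h (F.v i)
  rw [F.orth, F.nrm, if_pos rfl, ← div_eq_mul_inv, le_div_iff₀ (F.pos i)] at this
  linarith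

omit [DecidableEq ι] in
theorem lin_sq_le (L : E →L[ℝ] ℝ) (z : E) : L z ^ 2 ≤ ip b z z * ∑ k, L (b k) ^ 2 := by
  have e : L z = ∑ k, b.repr z k * L (b k) := by
    conv_lhs => rw [← b.sum_repr z]
    simp only [map_sum, map_smul, smul_eq_mul]
  rw [e, ip_apply]
  simp only [← sq]
  exact Finset.sum_mul_sq_le_sq_mul_sq _ _ _

theorem Fr.D2_le_trace (F : Fr b u x) (hu : Sm u) (z : E) :
    D2 u x z z ≤ (∑ k, D2 u x (b k) (b k)) * ip b z z := by
  rw [F.parseval z z]
  have h1 : ∀ i, D2 u x z (F.v i) * D2 u x z (F.v i) ≤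
      ip b z z * ∑ k, D2 u x (b k) (F.v i) * D2 u x (b k) (F.v i) := by
    intro i
    have := lin_sq_le (b := b) (D2 u x (F.v i)) z
    simp only [sq, D2_symm hu x (F.v i)] at this
    exact this
  refine (Finset.sum_le_sum fun i _ => h1 i).trans (le_of_eq ?_)
  rw [← Finset.mul_sum, Finset.sum_comm, mul_comm]
  congr 1
  exact Finset.sum_congr rfl fun k _ => (F.parseval (b k) (b k)).symm

end Crest.Agent.R236.Pin
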