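import Crest.Agent.R236.Pin0

/-!
# R236/Pin1: the two determinant estimates of Trudinger–Wang by the maximum principle
-/

set_option autoImplicit false
set_option maxSynthPendingDepth 3

noncomputable section

open scoped ContDiff
open Set Filter Topology Matrix
open Crest.Agent.R238.AP

namespace Crest.Agent.R236.Pin

variable {E : Type*} [NormedAddCommGroup E] [NormedSpace ℝ E]
variable {ι : Type*} [Fintype ι] [DecidableEq ι]

omit [NormedSpace ℝ E] in
theorem exists_max_log {f g k : E → ℝ} (hf : Continuous f) (hg : Continuous g) (hk : Continuous k)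
    {β : ℕ} (hβ : β ≠ 0) {S : Set E} (hS : IsCompact S) (h0 : ∀ y ∈ S, 0 ≤ g y)
    (hn : ∀ y ∈ S, 0 < g y → S ∈ 𝓝 y) {x : E} (hx : x ∈ S) (hgx : 0 < g x) :
    ∃ x1 ∈ S, 0 < g x1 ∧ IsLocalMax (fun y => f y + (β : ℝ) * Real.log (g y) + k y) x1 ∧
      f x + (β : ℝ) * Real.log (g x) + k x ≤ f x1 + (β : ℝ) * Real.log (g x1) + k x1 := by
  have hc : Continuous fun y => Real.exp (f y + k y) * g y ^ β :=
    (hf.add hk).rexp.mul (hg.pow β)
  obtain ⟨x1, hx1, hmax⟩ := hS.exists_isMaxOn ⟨x, hx⟩ hc.continuousOn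
  have hlog : ∀ y, 0 < g y → Real.log (Real.exp (f y + k y) * g y ^ β) =
      f y + (β : ℝ) * Real.log (g y) + k y := by
    intro y hy
    rw [Real.log_mul (Real.exp_pos _).ne' (pow_pos hy β).ne', Real.log_exp, Real.log_pow]
    ring
  have hp : ∀ y, 0 < g y → 0 < Real.exp (f y + k y) * g y ^ β := fun y hy =>
    mul_pos (Real.exp_pos _) (pow_pos hy β)
  have h1 : 0 < g x1 := by
    refine lt_of_le_of_ne (h0 x1 hx1) fun h => ?_
    have h2 : Real.exp (f x + k x) * g x ^ β ≤ Real.exp (f x1 + k x1) * g x1 ^ β := hmax hx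
    rw [← h, zero_pow hβ, mul_zero] at h2
    exact absurd (hp x hgx) (not_lt.mpr h2)
  have key : ∀ y ∈ S, 0 < g y → f y + (β : ℝ) * Real.log (g y) + k y ≤
      f x1 + (β : ℝ) * Real.log (g x1) + k x1 := by
    intro y hy hgy
    rw [← hlog y hgy, ← hlog x1 h1]
    exact Real.log_le_log (hp y hgy) (hmax hy)
  refine ⟨x1, hx1, h1, ?_, key x hx hgx⟩
  filter_upwards [hn x1 hx1 h1, (isOpen_lt continuous_const hg).mem_nhds h1] with y hy hgy
  exact key y hy hgy

/-- the affine maximal type equation `L λ = θ |∇λ|²` for `λ = log det D²u` -/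
structure Eqn (b : Module.Basis ι ℝ E) (u : E → ℝ) (θ : ℝ) : Prop where
  sm : Sm u
  pos : ∀ x z, z ≠ 0 → 0 < D2 u x z z
  eq : ∀ (x : E) (F : Fr b u x), ∑ i, D2 (ld b u) x (F.v i) (F.v i) =
    θ * ∑ i, dd (F.v i) (ld b u) x ^ 2

variable {b : Module.Basis ι ℝ E} {u : E → ℝ} {θ : ℝ}

theorem Eqn.nonneg (H : Eqn b u θ) (x z : E) : 0 ≤ D2 u x z z := by
  by_cases hz : z = 0
  · simp [hz]
  · exact (H.pos x z hz).le

variable (b u) in
/-- `|Du|²` -/
def gsq (x : E) : ℝ := ∑ k, dd (b k) u x * dd (b k) u x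

omit [DecidableEq ι] in
theorem sm_gsq (hu : Sm u) : Sm (gsq b u) := ContDiff.sum fun _ _ => (hu.dd _).mul (hu.dd _)

omit [DecidableEq ι] in
theorem gsq_jet (hu : Sm u) (x v : E) :
    dd v (gsq b u) x = 2 * ∑ k, dd (b k) u x * D2 u x v (b k) ∧
      D2 (gsq b u) x v v = 2 * ∑ k, (D2 u x v (b k) ^ 2 + dd (b k) u x * D3 u x v v (b k)) := by
  have h : ∀ s : Finset ι, Jet (fun t : ℝ => ∑ k ∈ s, dd (b k) u (x + t • v) * dd (b k) u (x + t • v))
      (∑ k ∈ s, dd (b k) u x * dd (b k) u x) (2 * ∑ k ∈ s, dd (b k) u x * D2 u x v (b k))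
      (2 * ∑ k ∈ s, (D2 u x v (b k) ^ 2 + dd (b k) u x * D3 u x v v (b k))) := by
    classical
    intro s
    induction s using Finset.induction_on with
    | empty => simpa using Jet.const 0
    | insert k s hk ih =>
      have j := Jet.line (hu.dd (b k)) x v
      rw [dd_dd_dd hu, dd_dd hu] at j
      simp only [Finset.sum_insert hk]
      exact ((j.mul j).add ih).congr rfl (by ring) (by ring)
  have := (Jet.line (sm_gsq (b := b) hu) x v).unique (h Finset.univ)
  rwa [dd_dd (sm_gsq hu)] at this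

theorem upper_alg {θ β a c μ : ℝ} (h1 : 1 / 2 ≤ θ) (h2 : θ ≤ 1) (hβ : 4 ≤ β) (h : μ = β * a - c) :
    -2 * c ^ 2 ≤ θ * μ ^ 2 - β * a ^ 2 + μ * c := by
  subst h
  have e : θ * (β * a - c) ^ 2 - β * a ^ 2 + (β * a - c) * c =
      (θ * β ^ 2 - β) * a ^ 2 + (1 - 2 * θ) * (β * a * c) - (1 - θ) * c ^ 2 := by ring
  rw [e]
  have k1 : β ^ 2 / 4 * a ^ 2 ≤ (θ * β ^ 2 - β) * a ^ 2 :=
    mul_le_mul_of_nonneg_right (by nlinarith) (sq_nonneg a)
  have k2 : -(β ^ 2 / 4 * a ^ 2 + c ^ 2) ≤ (1 - 2 * θ) * (β * a * c) := by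
    nlinarith [sq_nonneg (β * a / 2 - c), sq_nonneg (β * a / 2 + c)]
  nlinarith [sq_nonneg c]

/-- the upper bound for the determinant -/
theorem Eqn.upper (H : Eqn b u θ) (h1 : 1 / 2 ≤ θ) (h2 : θ ≤ 1) {h P0 : ℝ} (hP0 : 0 < P0)
    (hh : 0 < h) (hS : IsCompact {x | u x ≤ h}) (h0 : ∀ x, 0 ≤ u x)
    (hP : ∀ x, u x ≤ h → gsq b u x ≤ P0) {x : E} (hx : u x ≤ h / 2) :
    ld b u x ≤ Fintype.card ι * Real.log (8 * P0 * (Fintype.card ι + 4) * (Fintype.card ι + 1) / h) +
      (Fintype.card ι + 4) * Real.log 2 + 1 / 8 := by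
  have hu := H.sm
  have hl := sm_ld hu H.pos b
  set N : ℝ := (Fintype.card ι : ℝ) with hN
  have hN0 : 0 ≤ N := Nat.cast_nonneg _
  set A : ℝ := 1 / (8 * P0) with hA
  have hA0 : 0 < A := by positivity
  have hg : Sm (fun y => h - u y) := contDiff_const.sub hu
  have hk : Sm (fun y => A * gsq b u y) := contDiff_const.mul (sm_gsq hu)
  obtain ⟨x1, hx1, hg1, hmax, hle⟩ := exists_max_log hl.continuous hg.continuous hk.continuous
    (β := Fintype.card ι + 4) (by omega) hS (fun y hy => sub_nonneg.mpr hy)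
    (fun y _ hy => mem_of_superset ((isOpen_lt hu.continuous continuous_const).mem_nhds
      (show u y < h by linarith)) fun z (hz : u z < h) => hz.le) (x := x) (show u x ≤ h by linarith)
    (show 0 < h - u x by linarith)
  push_cast at hmax hle
  rw [← hN] at hmax hle
  obtain ⟨F⟩ := exists_fr hu H.pos b x1
  set g := h - u x1 with hgdef
  set T := ∑ k, D2 u x1 (b k) (b k) with hT
  have hm := fun i => max_log hl hg hk (N + 4) hg1.ne' hmax (F.v i)
  have d1 : ∀ v, dd v (fun y => h - u y) x1 = -dd v u x1 := fun v => by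
    rw [dd_sub contDiff_const hu, dd_const]
    simp
  have d2 : ∀ v, D2 (fun y => h - u y) x1 v v = -D2 u x1 v v := fun v => by
    rw [D2_sub contDiff_const hu, ← dd_dd contDiff_const, dd_const, dd_const]
    simp
  simp only [d1, d2, D2_cmul (sm_gsq hu), dd_cmul (sm_gsq hu), F.orth, if_true, ← hgdef] at hm
  set μ : ι → ℝ := fun i => dd (F.v i) (ld b u) x1 with hμ
  set a : ι → ℝ := fun i => dd (F.v i) u x1 / g with ha
  set c : ι → ℝ := fun i => A * dd (F.v i) (gsq b u) x1 with hc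
  have s1 : ∑ i, D2 (gsq b u) x1 (F.v i) (F.v i) =
      2 * T + ∑ i, μ i * dd (F.v i) (gsq b u) x1 := by
    simp only [(gsq_jet hu x1 _).1, (gsq_jet hu x1 _).2, Finset.sum_add_distrib, mul_add,
      ← Finset.mul_sum]
    congr 1
    · rw [Finset.sum_comm, hT]
      congr 1
      refine Finset.sum_congr rfl fun k _ => ?_
      rw [F.parseval (b k) (b k)]
      exact Finset.sum_congr rfl fun i _ => by rw [D2_symm hu x1 (F.v i), sq]
    · rw [Finset.sum_comm]
      simp only [← Finset.mul_sum, ← F.e1]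
      simp only [F.dd_eq (ld b u) (b _), Finset.mul_sum]
      rw [Finset.sum_comm]
      refine Finset.sum_congr rfl fun i _ => Finset.sum_congr rfl fun k _ => ?_
      rw [D2_symm hu x1 (F.v i)]
      simp only [hμ]
      ring
  have s2 : ∑ i, c i ^ 2 ≤ 4 * A ^ 2 * P0 * T := by
    have h3 : ∀ i, c i ^ 2 ≤ 4 * A ^ 2 * P0 * ∑ k, D2 u x1 (b k) (F.v i) * D2 u x1 (b k) (F.v i) := by
      intro i
      have h4 : (∑ k, dd (b k) u x1 * D2 u x1 (F.v i) (b k)) ^ 2 ≤
          (∑ k, dd (b k) u x1 ^ 2) * ∑ k, D2 u x1 (F.v i) (b k) ^ 2 :=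
        Finset.sum_mul_sq_le_sq_mul_sq _ _ _
      have h5 : ∑ k, dd (b k) u x1 ^ 2 ≤ P0 := by
        simp only [sq]
        exact hP x1 hx1
      have h6 : 0 ≤ ∑ k, D2 u x1 (F.v i) (b k) ^ 2 := Finset.sum_nonneg fun _ _ => sq_nonneg _
      have h7 := h4.trans (mul_le_mul_of_nonneg_right h5 h6)
      simp only [hc, (gsq_jet hu x1 _).1, ← sq, D2_symm hu x1 (b _) (F.v i)]
      nlinarith [sq_nonneg A]
    refine (Finset.sum_le_sum fun i _ => h3 i).trans (le_of_eq ?_)
    rw [← Finset.mul_sum, Finset.sum_comm, hT]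
    congr 1
    exact Finset.sum_congr rfl fun k _ => (F.parseval (b k) (b k)).symm
  have s3 : ∑ i, (D2 (ld b u) x1 (F.v i) (F.v i) + (N + 4) * (-1 / g - a i ^ 2) +
      A * D2 (gsq b u) x1 (F.v i) (F.v i)) ≤ 0 := by
    refine Finset.sum_nonpos fun i _ => ?_
    have := (hm i).2
    simp only [ha, div_pow]
    rw [neg_sq] at this
    exact this
  have s4 : ∑ i, -2 * c i ^ 2 ≤ ∑ i, (θ * μ i ^ 2 - (N + 4) * a i ^ 2 + μ i * c i) :=
    Finset.sum_le_sum fun i _ => upper_alg h1 h2 (by linarith) (by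
      have := (hm i).1
      simp only [hμ, ha, hc]
      rw [neg_div] at this
      linarith)
  have s5 : ∑ i, μ i * c i = A * ∑ i, μ i * dd (F.v i) (gsq b u) x1 := by
    rw [Finset.mul_sum]
    exact Finset.sum_congr rfl fun i _ => by simp only [hc]; ring
  simp only [Finset.sum_add_distrib, Finset.sum_sub_distrib, ← Finset.mul_sum, Finset.sum_const,
    Finset.card_univ, nsmul_eq_mul, ← hN] at s3 s4
  rw [H.eq x1 F, s1] at s3
  rw [s5] at s4
  have hAP : A * P0 = 1 / 8 := by rw [hA]; field_simp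
  have s6 : A * T ≤ (N + 4) * (N / g) := by
    have e : 4 * A ^ 2 * P0 * T = A * T / 2 := by
      calc _ = 4 * (A * P0) * (A * T) := by ring
        _ = _ := by rw [hAP]; ring
    have e2 : N * (-1 / g) = -(N / g) := by ring
    rw [e] at s2
    rw [e2] at s3
    simp only [hμ] at s4
    nlinarith
  have s7 : T ≤ 8 * P0 * (N + 4) * (N + 1) / g := by
    have h3 : T = 8 * P0 * (A * T) := by rw [hA]; field_simp
    have h4 : N / g ≤ (N + 1) / g := by gcongr; linarith
    calc T = 8 * P0 * (A * T) := h3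
      _ ≤ 8 * P0 * ((N + 4) * ((N + 1) / g)) := by
          refine mul_le_mul_of_nonneg_left (s6.trans ?_) (by positivity)
          exact mul_le_mul_of_nonneg_left h4 (by positivity)
      _ = _ := by ring
  have s8 : ld b u x1 ≤ N * Real.log (8 * P0 * (N + 4) * (N + 1) / g) := by
    rw [F.det]
    refine (Finset.sum_le_sum fun i _ => Real.log_le_log (F.pos i)
      ((F.lam_le (F.D2_le_trace hu) i).trans s7)).trans (le_of_eq ?_)
    simp [hN]
  have hgh : g ≤ h := by linarith [h0 x1]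
  have hW : 0 < 8 * P0 * (N + 4) * (N + 1) := by positivity
  rw [Real.log_div hW.ne' hg1.ne'] at s8
  rw [Real.log_div hW.ne' hh.ne']
  have l1 : Real.log g ≤ Real.log h := Real.log_le_log hg1 hgh
  have l2 : Real.log h - Real.log 2 ≤ Real.log (h - u x) := by
    rw [← Real.log_div hh.ne' two_ne_zero]
    exact Real.log_le_log (by positivity) (by linarith)
  have l3 : A * gsq b u x1 ≤ 1 / 8 := by
    rw [← hAP]
    exact mul_le_mul_of_nonneg_left (hP x1 hx1) hA0.le
  have l4 : 0 ≤ A * gsq b u x := mul_nonneg hA0.le (Finset.sum_nonneg fun _ _ => mul_self_nonneg _)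
  have l5 := mul_le_mul_of_nonneg_left l2 (show 0 ≤ N + 4 by linarith)
  nlinarith

end Crest.Agent.R236.Pin
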