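import Crest.Agent.R236.Pin1

/-!
# R236/Pin2: the lower bound for the determinant, and the maximal determinant basis
-/

set_option autoImplicit false
set_option maxSynthPendingDepth 3

noncomputable section

open scoped ContDiff
open Set Filter Topology Matrix
open Crest.Agent.R238.AP

namespace Crest.Agent.R236.Pin

variable {E : Type*} [NormedAddCommGroup E] [NormedSpace ℝ E]
variable {ι : Type*} [Fintype ι] [DecidableEq ι]
variable {b : Module.Basis ι ℝ E} {u : E → ℝ} {θ : ℝ}

theorem lower_alg {θ β a c μ : ℝ} (h1 : 1 / 2 ≤ θ) (h2 : θ ≤ 1) (hβ0 : 0 ≤ β) (hβ : (1 - θ) * β = 2)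
    (h : μ = c - β * a) : θ * μ ^ 2 + β * (a * μ) + β * a ^ 2 ≤ (β / 4 + 1) * c ^ 2 := by
  subst h
  have e : θ * (c - β * a) ^ 2 + β * (a * (c - β * a)) + β * a ^ 2 =
      θ * c ^ 2 + β * ((1 - 2 * θ) * (a * c)) - ((1 - θ) * β) * β * a ^ 2 + β * a ^ 2 := by ring
  rw [e, hβ]
  have k2 : (1 - 2 * θ) * (a * c) ≤ a ^ 2 + c ^ 2 / 4 := by
    nlinarith [sq_nonneg (a - c / 2), sq_nonneg (a + c / 2)]
  have k3 := mul_le_mul_of_nonneg_left k2 hβ0
  nlinarith [sq_nonneg c]

theorem Eqn.psi_nonneg (H : Eqn b u θ) (h0 : u 0 = 0) (x : E) : 0 ≤ eu u x - u x := by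
  have := tangent_le H.sm H.nonneg x (-x)
  rw [add_neg_cancel, h0] at this
  have e : dd (-x) u x = -eu u x := by simp [dd, eu]
  linarith

variable [FiniteDimensional ℝ E]

/-- the lower bound for the determinant -/
theorem Eqn.lower (H : Eqn b u θ) (hθ : θ = (Fintype.card ι + 1) / (Fintype.card ι + 2)) {h k Q0 : ℝ}
    (hQ0 : 0 < Q0) (hk : 0 < k) (hS : IsCompact {x | u x ≤ h}) (h0 : u 0 = 0)
    (hQ : ∀ x, u x ≤ h → ip b x x ≤ Q0) (hD : ∀ x, u x = h → k ≤ eu u x - u x) {x : E}
    (hx : u x ≤ h) (hx' : eu u x - u x ≤ k / 2) :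
    -ld b u x ≤ Fintype.card ι * Real.log (4 * Q0 * (2 * (Fintype.card ι + 2) / 4 + 1) *
      (2 * (Fintype.card ι + 2)) * (Fintype.card ι + 1) / k) +
      2 * (Fintype.card ι + 2) * Real.log 2 + 1 := by
  have hu := H.sm
  have hl := sm_ld hu H.pos b
  set N : ℝ := (Fintype.card ι : ℝ) with hN
  have hN0 : 0 ≤ N := Nat.cast_nonneg _
  set β : ℝ := 2 * (N + 2) with hβ
  have hβ0 : 0 < β := by positivity
  have t1 : 1 / 2 ≤ θ := by rw [hθ, div_le_div_iff₀ (by positivity) (by positivity)]; linarith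
  have t2 : θ ≤ 1 := by rw [hθ, div_le_one (by positivity)]; linarith
  have t3 : (1 - θ) * β = 2 := by rw [hθ, hβ]; field_simp; ring
  set A : ℝ := 1 / (2 * Q0 * (β / 4 + 1)) with hA
  have hA0 : 0 < A := by positivity
  have hψ : Sm (fun y => eu u y - u y) := hu.eu.sub hu
  have hf : Sm (fun y => -1 * ld b u y) := contDiff_const.mul hl
  have hg : Sm (fun y => k - (eu u y - u y)) := contDiff_const.sub hψ
  have hq : Sm (fun y => A * qd b y) := contDiff_const.mul (sm_qd b)
  obtain ⟨x1, hx1, hg1, hmax, hle⟩ := exists_max_log hf.continuous hg.continuous hq.continuous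
    (β := 2 * (Fintype.card ι + 2)) (by omega) (S := {y | u y ≤ h} ∩ {y | eu u y - u y ≤ k})
    (hS.inter_right (isClosed_le hψ.continuous continuous_const))
    (fun y hy => sub_nonneg.mpr hy.2)
    (fun y hy hy' => by
      have h1 : u y < h := lt_of_le_of_ne hy.1 fun e => by linarith [hD y e]
      filter_upwards [(isOpen_lt hu.continuous continuous_const).mem_nhds h1,
        (isOpen_lt hψ.continuous continuous_const).mem_nhds (show eu u y - u y < k by linarith)]
        with z (hz : u z < h) (hz' : eu u z - u z < k) using ⟨hz.le, hz'.le⟩)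
    (x := x) ⟨hx, show eu u x - u x ≤ k by linarith⟩ (show 0 < k - (eu u x - u x) by linarith)
  push_cast at hmax hle
  rw [← hN, ← hβ] at hmax hle
  obtain ⟨F⟩ := exists_fr hu H.pos b x1
  set g := k - (eu u x1 - u x1) with hgdef
  set T := ∑ i, ip b (F.v i) (F.v i) with hT
  have hm := fun i => max_log hf hg hq β hg1.ne' hmax (F.v i)
  have d0 : ∀ v, dd v (fun y => k - (eu u y - u y)) = fun y => -1 * eu (dd v u) y := fun v => by
    rw [dd_sub contDiff_const hψ, dd_const, dd_sub hu.eu hu, dd_eu hu]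
    funext y
    ring
  have d1 : ∀ v, dd v (fun y => k - (eu u y - u y)) x1 = -D2 u x1 x1 v := fun v => by
    rw [d0]
    simp only
    rw [eu_eq, dd_dd hu]
    ring
  have d2 : ∀ v, D2 (fun y => k - (eu u y - u y)) x1 v v = -(D3 u x1 v v x1 + D2 u x1 v v) :=
    fun v => by
    rw [← dd_dd hg, d0, dd_cmul (hu.dd v).eu, dd_eu (hu.dd v)]
    simp only
    rw [eu_eq, dd_dd_dd hu, dd_dd hu, D3_symm12 hu x1 x1 v v, D3_symm23 hu x1 v x1 v]
    ring
  simp only [d1, d2, D2_cmul (sm_qd b), dd_cmul (sm_qd b), D2_cmul hl, dd_cmul hl, D2_qd, dd_qd,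
    F.orth, if_true, ← hgdef] at hm
  set μ : ι → ℝ := fun i => dd (F.v i) (ld b u) x1 with hμ
  set a : ι → ℝ := fun i => D2 u x1 x1 (F.v i) / g with ha
  set c : ι → ℝ := fun i => A * ip b (F.v i) x1 with hc
  have s1 : ∑ i, D3 u x1 (F.v i) (F.v i) x1 / g = ∑ i, a i * μ i := by
    rw [← Finset.sum_div, ← F.e1, F.dd_eq, Finset.sum_div]
    exact Finset.sum_congr rfl fun i _ => by simp only [ha, hμ]; ring
  have s2 : ∑ i, c i ^ 2 ≤ A ^ 2 * Q0 * T := by
    rw [hT, Finset.mul_sum]
    refine Finset.sum_le_sum fun i _ => ?_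
    have h4 := (ip_cs b (F.v i) x1).trans
      (mul_le_mul_of_nonneg_left (hQ x1 hx1.1) (ip_nonneg b (F.v i)))
    simp only [hc]
    nlinarith [sq_nonneg A]
  have s3 : ∑ i, A * ip b (F.v i) (F.v i) ≤ ∑ i, (D2 (ld b u) x1 (F.v i) (F.v i) +
      β * (D3 u x1 (F.v i) (F.v i) x1 / g + 1 / g + a i ^ 2)) := by
    refine Finset.sum_le_sum fun i _ => ?_
    have := (hm i).2
    simp only [ha, div_pow]
    rw [neg_sq, neg_div, add_div] at this
    linarith
  have s4 : ∑ i, (θ * μ i ^ 2 + β * (a i * μ i) + β * a i ^ 2) ≤ ∑ i, (β / 4 + 1) * c i ^ 2 :=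
    Finset.sum_le_sum fun i _ => lower_alg t1 t2 hβ0.le t3 (by
      have := (hm i).1
      simp only [hμ, ha, hc]
      rw [neg_div] at this
      linarith)
  simp only [Finset.sum_add_distrib, ← Finset.mul_sum, Finset.sum_const,
    Finset.card_univ, nsmul_eq_mul, ← hN, ← hT] at s3 s4
  rw [H.eq x1 F, s1] at s3
  have hAP : A * Q0 * (β / 4 + 1) = 1 / 2 := by rw [hA]; field_simp
  have s6 : A * T ≤ 2 * (β * (N * (1 / g))) := by
    have h3 := mul_le_mul_of_nonneg_left s2 (show 0 ≤ β / 4 + 1 by positivity)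
    have e : (β / 4 + 1) * (A ^ 2 * Q0 * T) = A * T / 2 := by
      calc _ = (A * Q0 * (β / 4 + 1)) * (A * T) := by ring
        _ = _ := by rw [hAP]; ring
    rw [e] at h3
    simp only [hμ] at s4 s3
    nlinarith
  set W := 4 * Q0 * (β / 4 + 1) * β * (N + 1) with hWdef
  have hW : 0 < W := by positivity
  have s7 : T ≤ W / g := by
    have h3 : T = 2 * Q0 * (β / 4 + 1) * (A * T) := by rw [hA]; field_simp
    have h4 : N * (1 / g) ≤ (N + 1) * (1 / g) := by gcongr; linarith
    calc T = 2 * Q0 * (β / 4 + 1) * (A * T) := h3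
      _ ≤ 2 * Q0 * (β / 4 + 1) * (2 * (β * ((N + 1) * (1 / g)))) := by
          refine mul_le_mul_of_nonneg_left (s6.trans ?_) (by positivity)
          gcongr
      _ = _ := by rw [hWdef]; ring
  have s8 : -ld b u x1 ≤ N * Real.log (W / g) := by
    rw [F.det, ← Finset.sum_neg_distrib]
    refine (Finset.sum_le_sum (g := fun _ => Real.log (W / g)) fun i _ => ?_).trans
      (le_of_eq (by simp [hN]))
    rw [← Real.log_inv]
    refine Real.log_le_log (inv_pos.mpr (F.pos i)) (le_trans ?_ s7)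
    rw [← F.nrm]
    exact Finset.single_le_sum (f := fun j => ip b (F.v j) (F.v j)) (fun j _ => ip_nonneg b _)
      (Finset.mem_univ i)
  have hgh : g ≤ k := by linarith [H.psi_nonneg h0 x1]
  rw [Real.log_div hW.ne' hg1.ne'] at s8
  rw [Real.log_div hW.ne' hk.ne']
  have l1 : Real.log g ≤ Real.log k := Real.log_le_log hg1 hgh
  have l2 : Real.log k - Real.log 2 ≤ Real.log (k - (eu u x - u x)) := by
    rw [← Real.log_div hk.ne' two_ne_zero]
    exact Real.log_le_log (by positivity) (by linarith)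
  have l3 : A * qd b x1 ≤ 1 := by
    have h3 := mul_le_mul_of_nonneg_left (hQ x1 hx1.1) hA0.le
    have h4 : A * Q0 ≤ A * Q0 * (β / 4 + 1) := le_mul_of_one_le_right (by positivity) (by linarith)
    unfold qd
    linarith
  have l4 : 0 ≤ A * qd b x := mul_nonneg hA0.le (qd_nonneg b x)
  have l5 := mul_le_mul_of_nonneg_left l2 hβ0.le
  have l6 := mul_le_mul_of_nonneg_left l1 (show 0 ≤ β - N by linarith)
  nlinarith

omit [FiniteDimensional ℝ E] in
/-- the maximal determinant basis of a compact set which contains small multiples of a basis -/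
theorem exists_max_basis (b0 : Module.Basis ι ℝ E) {D : Set E} (hD : IsCompact D)
    (hc : Continuous fun v : ι → E => b0.det v) {r : ℝ} (hr : r ≠ 0) (h0 : ∀ i, r • b0 i ∈ D) :
    ∃ b : Module.Basis ι ℝ E, (∀ i, b i ∈ D) ∧ ∀ z ∈ D, ∀ i, |b.repr z i| ≤ 1 := by
  obtain ⟨v, hv, hmax⟩ := (isCompact_univ_pi fun _ : ι => hD).exists_isMaxOn
    ⟨fun i => r • b0 i, fun i _ => h0 i⟩ hc.abs.continuousOn
  have hpos : 0 < |b0.det v| := by
    refine lt_of_lt_of_le ?_ (hmax (show (fun i => r • b0 i) ∈ univ.pi fun _ : ι => D from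
      fun i _ => h0 i))
    have : b0.det (fun i => r • b0 i) = (∏ _i : ι, r) • b0.det b0 := b0.det.map_smul_univ _ _
    simp only [this, Module.Basis.det_self, smul_eq_mul, mul_one, abs_pos]
    exact Finset.prod_ne_zero_iff.mpr fun _ _ => hr
  have hunit : IsUnit (b0.det v) := isUnit_iff_ne_zero.mpr (abs_pos.mp hpos)
  obtain ⟨hli, hsp⟩ := (b0.is_basis_iff_det (v := v)).mpr hunit
  refine ⟨Module.Basis.mk hli hsp.ge, fun i => by simpa using hv i (mem_univ i), fun z hz i => ?_⟩
  have h1 := congrArg (fun L : E →ₗ[ℝ] ℝ => L z) (b0.det_smul_mk_coord_eq_det_update hli hsp.ge i)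
  have h2 : |b0.det (Function.update v i z)| ≤ |b0.det v| := by
    refine hmax (show Function.update v i z ∈ univ.pi fun _ : ι => D from fun j _ => ?_)
    by_cases hj : j = i
    · subst hj
      simpa using hz
    · simpa [Function.update_of_ne hj] using hv j (mem_univ j)
  simp only [LinearMap.smul_apply, Module.Basis.coord_apply, smul_eq_mul,
    MultilinearMap.toLinearMap_apply, AlternatingMap.coe_multilinearMap] at h1
  rw [← h1, abs_mul] at h2
  exact (mul_le_iff_le_one_right hpos).mp h2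

end Crest.Agent.R236.Pin
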