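import Mathlib

/-!
Part 4 of the proof of S0365 (idea 1100): two volume comparisons for convex sets, by homotheties.
Use `MeasureTheory.Measure.addHaar_image_homothety`
(`μ (AffineMap.homothety x r '' s) = ENNReal.ofReal |r ^ finrank ℝ F| * μ s`).
-/

set_option autoImplicit false
open MeasureTheory Set Module

namespace Crest.Agent.R236

variable {F : Type*} [NormedAddCommGroup F] [NormedSpace ℝ F] [FiniteDimensional ℝ F]
  [MeasurableSpace F] [BorelSpace F]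

theorem qvol_hom (μ : Measure F) [μ.IsAddHaarMeasure] {S A : Set F} (p : F) {r : ℝ} (hr : 0 ≤ r)
    (hA : μ A ≠ ⊤) (h : ∀ Z ∈ S, p + r • (Z - p) ∈ A) : r ^ finrank ℝ F * μ.real S ≤ μ.real A := by
  have h1 : AffineMap.homothety p r '' S ⊆ A := by
    rintro _ ⟨Z, hZ, rfl⟩
    rw [AffineMap.homothety_apply, vadd_eq_add, vsub_eq_sub, add_comm]
    exact h Z hZ
  have h2 := measureReal_mono h1 hA
  rwa [measureReal_def, Measure.addHaar_image_homothety, ENNReal.toReal_mul,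
    ENNReal.toReal_ofReal (abs_nonneg _), abs_of_nonneg (pow_nonneg hr _), ← measureReal_def] at h2

/-- Thin slabs of a convex body have small volume.  Proof: let `S = C ∩ {|z| ≤ ε}` (`z Z = ζ (Z - o)`),
`N = ⌊1/(6ε)⌋₊ + 1`, `λ_k = 1 - 3 ε k ∈ [1/2, 1]` for `k < N`.  The homothety of centre `p` and ratio `λ_k`
maps `S` into `C ∩ {|z - 3εk| ≤ ε}` (`z` of the image point is `λ_k z + (1-λ_k)`); these `N` compact sets are
pairwise disjoint, each has measure `≥ 2^(-d) μ S`, so `N 2^(-d) μ S ≤ μ C` and `N ≥ 1/(6ε)`. -/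
theorem q_slab_vol (μ : Measure F) [μ.IsAddHaarMeasure] {C : Set F} (hC : Convex ℝ C) (hCc : IsCompact C)
    (ζ : F →L[ℝ] ℝ) (o p : F) (hp : p ∈ C) (hζ : ζ (p - o) = 1) {ε : ℝ} (hε : 0 < ε) :
    μ.real (C ∩ {Z | |ζ (Z - o)| ≤ ε}) ≤ 6 * 2 ^ finrank ℝ F * ε * μ.real C := by
  have hfin : μ C ≠ ⊤ := hCc.measure_lt_top.ne
  let A : ℕ → Set F := fun k => C ∩ {Z | |ζ (Z - o) - 3 * ε * k| ≤ ε}
  have hAm : ∀ k, MeasurableSet (A k) := fun k =>
    (hCc.isClosed.inter (isClosed_le (by fun_prop) continuous_const)).measurableSet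
  have hAf : ∀ k, μ (A k) ≠ ⊤ := fun k => ne_top_of_le_ne_top hfin (measure_mono inter_subset_left)
  obtain ⟨N, hN⟩ : ∃ N, N = ⌊1 / (6 * ε)⌋₊ + 1 := ⟨_, rfl⟩
  have hS := measureReal_nonneg (μ := μ) (s := C ∩ {Z | |ζ (Z - o)| ≤ ε})
  have h1 : ∀ k ∈ Finset.range N,
      (1 / 2) ^ finrank ℝ F * μ.real (C ∩ {Z | |ζ (Z - o)| ≤ ε}) ≤ μ.real (A k) := by
    intro k hk
    have a1 : k ≤ ⌊1 / (6 * ε)⌋₊ := by
      have := Finset.mem_range.1 hk
      omega
    have a2 : (k : ℝ) ≤ 1 / (6 * ε) := (Nat.le_floor_iff (by positivity)).1 a1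
    rw [le_div_iff₀ (by positivity)] at a2
    have a3 : 0 ≤ 3 * ε * k := by positivity
    refine le_trans (mul_le_mul_of_nonneg_right
      (pow_le_pow_left₀ (by norm_num) (show 1 / 2 ≤ 1 - 3 * ε * k by linarith) _) hS)
      (qvol_hom μ p (by linarith) (hAf k) fun Z hZ => ⟨?_, ?_⟩)
    · exact hC.add_smul_sub_mem hp hZ.1 ⟨by linarith, by linarith⟩
    · have e : p + (1 - 3 * ε * k) • (Z - p) - o = (p - o) + (1 - 3 * ε * k) • ((Z - o) - (p - o)) := by
        rw [sub_sub_sub_cancel_right]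
        abel
      have hz : |ζ (Z - o)| ≤ ε := hZ.2
      show |ζ (p + (1 - 3 * ε * k) • (Z - p) - o) - 3 * ε * k| ≤ ε
      rw [e, map_add, map_smul, map_sub ζ (Z - o), hζ, smul_eq_mul,
        show 1 + (1 - 3 * ε * k) * (ζ (Z - o) - 1) - 3 * ε * k = (1 - 3 * ε * k) * ζ (Z - o) by ring,
        abs_mul, abs_of_nonneg (by linarith)]
      exact (mul_le_of_le_one_left (abs_nonneg _) (by linarith)).trans hz
  have hd : Set.PairwiseDisjoint (↑(Finset.range N)) A := by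
    intro k _ l _ hkl
    refine Set.disjoint_left.2 fun Z h2 h3 => hkl ?_
    obtain ⟨b1, b2⟩ := abs_le.1 (show |ζ (Z - o) - 3 * ε * k| ≤ ε from h2.2)
    obtain ⟨b3, b4⟩ := abs_le.1 (show |ζ (Z - o) - 3 * ε * l| ≤ ε from h3.2)
    have c1 : (k : ℝ) < l + 1 := by
      by_contra hc
      nlinarith [not_lt.1 hc]
    have c2 : (l : ℝ) < k + 1 := by
      by_contra hc
      nlinarith [not_lt.1 hc]
    have c3 : k < l + 1 := by exact_mod_cast c1
    have c4 : l < k + 1 := by exact_mod_cast c2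
    omega
  have h2 := Finset.sum_le_sum h1
  rw [← measureReal_biUnion_finset hd (fun k _ => hAm k) fun k _ => hAf k] at h2
  have h3 := h2.trans (measureReal_mono (iUnion₂_subset fun k _ => inter_subset_left) hfin)
  simp only [Finset.sum_const, Finset.card_range, nsmul_eq_mul] at h3
  have h4 : 1 / (6 * ε) < N := by
    rw [hN]
    push_cast
    exact Nat.lt_floor_add_one _
  rw [div_lt_iff₀ (by positivity)] at h4
  have h5 : (2 : ℝ) ^ finrank ℝ F * (1 / 2) ^ finrank ℝ F = 1 := by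
    rw [← mul_pow]
    norm_num
  have h6 := mul_le_mul_of_nonneg_left h3 (show 0 ≤ 6 * 2 ^ finrank ℝ F * ε by positivity)
  calc μ.real (C ∩ {Z | |ζ (Z - o)| ≤ ε}) ≤ (N * (6 * ε)) * μ.real (C ∩ {Z | |ζ (Z - o)| ≤ ε}) :=
        le_mul_of_one_le_left hS h4.le
    _ = 6 * 2 ^ finrank ℝ F * ε *
        (N * ((1 / 2) ^ finrank ℝ F * μ.real (C ∩ {Z | |ζ (Z - o)| ≤ ε}))) := by
        linear_combination (-(6 * ε * N * μ.real (C ∩ {Z | |ζ (Z - o)| ≤ ε}))) * h5
    _ ≤ _ := h6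

/-- The cap of height `1` has volume comparable with the cap of height `4`: the homothety of centre `o` and
ratio `1/4` maps the big cap into the small one (which is contained in the big one, so has finite measure). -/
theorem q_cap_vol (μ : Measure F) [μ.IsAddHaarMeasure] {K : Set F} (hK : Convex ℝ K)
    (l : F →L[ℝ] ℝ) (o : F) (ho : o ∈ K) (hCc : IsCompact (K ∩ {Z | l (Z - o) ≤ 4})) :
    μ.real (K ∩ {Z | l (Z - o) ≤ 4}) ≤ 4 ^ finrank ℝ F * μ.real (K ∩ {Z | l (Z - o) ≤ 1}) := by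
  have hA : μ (K ∩ {Z | l (Z - o) ≤ 1}) ≠ ⊤ :=
    ne_top_of_le_ne_top hCc.measure_lt_top.ne (measure_mono fun Z hZ =>
      ⟨hZ.1, le_trans (show l (Z - o) ≤ 1 from hZ.2) (by norm_num : (1 : ℝ) ≤ 4)⟩)
  have h1 := qvol_hom μ (S := K ∩ {Z | l (Z - o) ≤ 4}) o (r := 1 / 4) (by norm_num) hA fun Z hZ =>
    ⟨hK.add_smul_sub_mem ho hZ.1 ⟨by norm_num, by norm_num⟩, by
      have hz : l (Z - o) ≤ 4 := hZ.2
      show l (o + (1 / 4 : ℝ) • (Z - o) - o) ≤ 1
      rw [add_sub_cancel_left, map_smul, smul_eq_mul]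
      linarith⟩
  have h5 : (4 : ℝ) ^ finrank ℝ F * (1 / 4) ^ finrank ℝ F = 1 := by
    rw [← mul_pow]
    norm_num
  have h6 := mul_le_mul_of_nonneg_left h1 (show (0 : ℝ) ≤ 4 ^ finrank ℝ F by positivity)
  rwa [← mul_assoc, h5, one_mul] at h6

end Crest.Agent.R236
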