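import Crest.Agent.R236.QPt
import Crest.Agent.R236.QVol
import Crest.Agent.R236.Area

/-!
# R236/QLow: part 4 of idea 1100, the lower bound on a box

`θ = n/(n+2)`, `C = capH Ω u (qL ξ η a b) o 4`, `V = volume.real C > 0` (compact with interior), `finrank (F n) = n+1`.
`μ(S) = ∫ x in S, (rho u x)⁻¹` (continuous positive integrand on compact pieces).
-/

set_option autoImplicit false

namespace Crest.Agent.R236

open Set MeasureTheory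
open Crest.GeometryTopology.CoordMetric Crest.GeometryTopology.AffineMaximal
open scoped ContDiff

variable {n : ℕ} {Ω : Set (E n)} {u : E n → ℝ}

theorem qlow_int {g : E n → ℝ} (hg : ContinuousOn g Ω) {A : Set (E n)} (hA : IsCompact A) (hAΩ : A ⊆ Ω) :
    IntegrableOn g A := (hg.mono hAΩ).integrableOn_compact hA

theorem qlow_ae {g : E n → ℝ} (hg : ∀ x ∈ Ω, 0 ≤ g x) {A : Set (E n)} (hA : IsCompact A) (hAΩ : A ⊆ Ω) :
    0 ≤ᵐ[volume.restrict A] g :=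
  (ae_restrict_iff' hA.measurableSet).2 (Filter.Eventually.of_forall fun x hx => hg x (hAΩ hx))

theorem qlow_union {g : E n → ℝ} (hg : ContinuousOn g Ω) (h0 : ∀ x ∈ Ω, 0 ≤ g x) {A B : Set (E n)}
    (hA : IsCompact A) (hAΩ : A ⊆ Ω) (hB : IsCompact B) (hBΩ : B ⊆ Ω) :
    ∫ x in A ∪ B, g x ≤ (∫ x in A, g x) + ∫ x in B, g x := by
  rw [← integral_add_measure (qlow_int hg hA hAΩ) (qlow_int hg hB hBΩ)]
  exact integral_mono_measure (Measure.restrict_union_le A B)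
    (ae_add_measure_iff.2 ⟨qlow_ae h0 hA hAΩ, qlow_ae h0 hB hBΩ⟩)
    (Integrable.add_measure (qlow_int hg hA hAΩ) (qlow_int hg hB hBΩ))

theorem qlow_cover {g : E n → ℝ} (hg : ContinuousOn g Ω) (h0 : ∀ x ∈ Ω, 0 ≤ g x) {A B S T : Set (E n)}
    (hB : IsCompact B) (hBΩ : B ⊆ Ω) (hS : IsCompact S) (hSΩ : S ⊆ Ω) (hT : IsCompact T) (hTΩ : T ⊆ Ω)
    (h : A ⊆ B ∪ (S ∪ T)) : ∫ x in A, g x ≤ (∫ x in B, g x) + ((∫ x in S, g x) + ∫ x in T, g x) := by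
  have hU : IsCompact (B ∪ (S ∪ T)) := hB.union (hS.union hT)
  have hUΩ : B ∪ (S ∪ T) ⊆ Ω := union_subset hBΩ (union_subset hSΩ hTΩ)
  refine (setIntegral_mono_set (qlow_int hg hU hUΩ) (qlow_ae h0 hU hUΩ) h.eventuallyLE).trans ?_
  refine (qlow_union hg h0 hB hBΩ (hS.union hT) (union_subset hSΩ hTΩ)).trans ?_
  have := qlow_union hg h0 hS hSΩ hT hTΩ
  linarith

theorem qlow_rho_cont (h : AM Ω u) : ContinuousOn (fun x => (rho u x)⁻¹) Ω :=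
  h.rho_contDiffOn.continuousOn.inv₀ fun _ hx => (h.rho_pos hx).ne'

theorem qlow_eps {θ : ℝ} (hθ : 0 < θ) (A D : ℝ) {c : ℝ} (hc : 0 < c) :
    ∃ ε : ℝ, 0 < ε ∧ ε ≤ 1 / 2 ∧ A * (D * ε) ^ θ ≤ c := by
  have h1 : Continuous fun ε : ℝ => A * (D * ε) ^ θ :=
    continuous_const.mul ((Real.continuous_rpow_const hθ.le).comp (continuous_const.mul continuous_id))
  have h2 : ∀ᶠ ε in nhds (0 : ℝ), A * (D * ε) ^ θ < c :=
    h1.continuousAt.eventually_lt continuousAt_const (by simpa [Real.zero_rpow hθ.ne'] using hc)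
  have h3 : ∀ᶠ ε in nhds (0 : ℝ), ε < 1 / 2 := eventually_lt_nhds (by norm_num)
  obtain ⟨ε, ⟨h4, h5⟩, h6⟩ := (((h2.and h3).filter_mono nhdsWithin_le_nhds).and
    (self_mem_nhdsWithin (s := Ioi (0 : ℝ)) (a := 0))).exists
  exact ⟨ε, h6, h5.le, h4.le⟩

theorem qlow_finrank (n : ℕ) : Module.finrank ℝ (F n) = n + 1 := by
  simp [Module.finrank_prod]

theorem qlow_haar (n : ℕ) : (volume : Measure (F n)).IsAddHaarMeasure :=
  Measure.prod.instIsAddHaarMeasure _ _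

theorem qlow_pt {s l p : ℝ} (hs : 0 < s) (hl : 0 < l) (hp : 0 ≤ p) : 1 ≤ l ^ p * s ^ (-p) + l⁻¹ * s := by
  rcases le_total l s with h | h
  · have h1 : 1 ≤ l⁻¹ * s := by rw [inv_mul_eq_div, le_div_iff₀ hl]; linarith
    have h2 : 0 ≤ l ^ p * s ^ (-p) := by positivity
    linarith
  · have h1 : 1 ≤ l ^ p * s ^ (-p) := by
      rw [Real.rpow_neg hs.le, ← div_eq_mul_inv, le_div_iff₀ (Real.rpow_pos_of_pos hs p), one_mul]
      exact Real.rpow_le_rpow hs.le h hp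
    have h2 : 0 ≤ l⁻¹ * s := by positivity
    linarith

/-- By `QD.cover`, `μ(cap 1) ≤ μ(box) + μ(slab₁) + μ(slab₂)`; `area_e2` + `q_cap_vol`:
`μ(cap 1) ≥ c₂ (V / 4^(n+1))^θ`; `area_e3` + `q_slab_vol` (with `p = o + e`, `QD.oe_mem`, `QD.xi_e`, `QD.eta_e`,
`slab_interior`): `μ(slab) ≤ C₃ (6 · 2^(n+1) ε V)^θ`.  Choose `ε ≤ 1/2` with
`2 C₃ (6 · 2^(n+1) ε)^θ ≤ c := c₂ (1 / 4^(n+1))^θ / 2` (continuity of `ε ↦ ε^θ` at `0`, or explicitly). -/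
theorem q_box_area (n : ℕ) (hn : 3 ≤ n) : ∃ ε c : ℝ, 0 < ε ∧ ε ≤ 1 / 2 ∧ 0 < c ∧
    ∀ (Ω : Set (E n)) (u : E n → ℝ) (ρ a b : ℝ) (o e₁ e₂ : F n) (ξ η : F n →L[ℝ] ℝ),
      QD Ω u ε ρ o e₁ e₂ ξ η a b →
      c * volume.real (capH Ω u (qL ξ η a b) o 4) ^ ((n : ℝ) / (n + 2)) ≤
        ∫ x in bx Ω u o ξ η ε a b, (rho u x)⁻¹ := by
  obtain ⟨c₂, hc₂, h2⟩ := area_e2 n hn
  obtain ⟨C₃, hC₃, h3⟩ := area_e3 n hn
  have := qlow_haar n
  have hn0 : (0 : ℝ) < n := by exact_mod_cast (by omega : 0 < n)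
  obtain ⟨θ, hθe⟩ : ∃ θ : ℝ, θ = (n : ℝ) / (n + 2) := ⟨_, rfl⟩
  have hθ : 0 < θ := by rw [hθe]; positivity
  rw [← hθe] at h2 h3 ⊢
  obtain ⟨c, hce⟩ : ∃ c : ℝ, c = c₂ * (((4 : ℝ) ^ (n + 1))⁻¹) ^ θ / 2 := ⟨_, rfl⟩
  have hc : 0 < c := by rw [hce]; positivity
  obtain ⟨ε, hε0, hε1, hε⟩ := qlow_eps hθ (2 * C₃) (6 * 2 ^ (n + 1)) hc
  refine ⟨ε, c, hε0, hε1, hc, fun Ω u ρ a b o e₁ e₂ ξ η h => ?_⟩
  have hV := measureReal_nonneg (μ := volume) (s := capH Ω u (qL ξ η a b) o 4)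
  have hCK : capH Ω u (qL ξ η a b) o 4 ⊆ epi Ω u := fun Z hZ => hZ.1
  have hCc := h.am.capH_convex (qL ξ η a b) o 4
  have slab : ∀ ζ : F n →L[ℝ] ℝ, ζ (a • e₁ + b • e₂) = 1 →
      ∫ x in piece Ω u (capH Ω u (qL ξ η a b) o 4 ∩ {Z | |ζ (Z - o)| ≤ ε}), (rho u x)⁻¹ ≤
        C₃ * ((6 * 2 ^ (n + 1) * ε) ^ θ * volume.real (capH Ω u (qL ξ η a b) o 4) ^ θ) := by
    intro ζ hζ
    refine (h3 Ω u h.am _ (slab_isCompact h.cpt o ζ ε) (slab_convex hCc o ζ ε)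
      (inter_subset_left.trans hCK) (slab_interior hCc h.int h.o_mem ζ hε0)).trans ?_
    have h4 := q_slab_vol volume hCc h.cpt ζ o _ h.oe_mem (by rw [add_sub_cancel_left, hζ]) hε0
    rw [qlow_finrank] at h4
    rw [← Real.mul_rpow (by positivity) hV]
    exact mul_le_mul_of_nonneg_left (Real.rpow_le_rpow measureReal_nonneg h4 hθ.le) hC₃
  have s1 := slab _ h.xi_e
  have s2 := slab _ h.eta_e
  have c1 := h2 Ω u h.am o (qL ξ η a b) h.mem (capH_isCompact_of_le h.cpt (by norm_num))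
  have c2 : volume.real (capH Ω u (qL ξ η a b) o 4) ≤
      4 ^ Module.finrank ℝ (F n) * volume.real (capH Ω u (qL ξ η a b) o 1) :=
    q_cap_vol volume h.am.epi_convex (qL ξ η a b) o h.mem h.cpt
  rw [qlow_finrank] at c2
  have c3 : (((4 : ℝ) ^ (n + 1))⁻¹) ^ θ * volume.real (capH Ω u (qL ξ η a b) o 4) ^ θ ≤
      volume.real (capH Ω u (qL ξ η a b) o 1) ^ θ := by
    rw [← Real.mul_rpow (by positivity) hV]
    refine Real.rpow_le_rpow (by positivity) ?_ hθ.le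
    rw [inv_mul_le_iff₀ (by positivity)]
    exact c2
  have c4 := qlow_cover (qlow_rho_cont h.am) (fun x hx => (inv_pos.2 (h.am.rho_pos hx)).le)
    h.bx_isCompact (fun x hx => hx.1)
    (h.am.piece_isCompact (slab_isCompact h.cpt o _ ε) (inter_subset_left.trans hCK)) (piece_subset _)
    (h.am.piece_isCompact (slab_isCompact h.cpt o _ ε) (inter_subset_left.trans hCK)) (piece_subset _)
    h.cover
  have hW : 0 ≤ volume.real (capH Ω u (qL ξ η a b) o 4) ^ θ := Real.rpow_nonneg hV θ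
  have c5 := mul_le_mul_of_nonneg_left c3 hc₂.le
  have c6 := mul_le_mul_of_nonneg_right hε hW
  have c7 : c₂ * ((((4 : ℝ) ^ (n + 1))⁻¹) ^ θ * volume.real (capH Ω u (qL ξ η a b) o 4) ^ θ) =
      2 * (c * volume.real (capH Ω u (qL ξ η a b) o 4) ^ θ) := by rw [hce]; ring
  linarith

/-- Pointwise `1 ≤ λ^(n/2) s^(-n/2) + s / λ` for `s, λ > 0`; `area_e4` with `B = box` (`QD.s_le_wid`):
`c V^θ ≤ μ(box) ≤ λ^(n/2) I + C₄ V / λ`.  Take `λ = κ V^(2/(n+2))`, `κ = 2 (C₄ + 1) / c`: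
`λ^(n/2) = κ^(n/2) V^θ`, `V / λ = V^θ / κ`, so `I ≥ c / (2 κ^(n/2))`. -/
theorem q_lower (n : ℕ) (hn : 3 ≤ n) : ∃ ε c : ℝ, 0 < ε ∧ ε ≤ 1 / 2 ∧ 0 < c ∧
    ∀ (Ω : Set (E n)) (u : E n → ℝ) (ρ a b : ℝ) (o e₁ e₂ : F n) (ξ η : F n →L[ℝ] ℝ),
      QD Ω u ε ρ o e₁ e₂ ξ η a b →
      c ≤ ∫ x in bx Ω u o ξ η ε a b, sP u o e₁ e₂ ξ η x ^ (-(n : ℝ) / 2) * (rho u x)⁻¹ := by
  obtain ⟨ε, c, hε0, hε1, hc, h1⟩ := q_box_area n hn
  obtain ⟨C₄, hC₄, h4⟩ := area_e4 n hn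
  have hn0 : (0 : ℝ) < n := by exact_mod_cast (by omega : 0 < n)
  obtain ⟨κ, hκe⟩ : ∃ κ : ℝ, κ = 2 * (C₄ + 1) / c := ⟨_, rfl⟩
  have hκ : 0 < κ := by rw [hκe]; positivity
  have hκp : 0 < κ ^ ((n : ℝ) / 2) := Real.rpow_pos_of_pos hκ _
  refine ⟨ε, c / (2 * κ ^ ((n : ℝ) / 2)), hε0, hε1, by positivity, fun Ω u ρ a b o e₁ e₂ ξ η h => ?_⟩
  have hBΩ : bx Ω u o ξ η ε a b ⊆ Ω := fun x hx => hx.1
  have hsc : ContinuousOn (sP u o e₁ e₂ ξ η) (bx Ω u o ξ η ε a b) :=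
    (h.am.sP_contDiffOn o e₁ e₂ ξ η).continuousOn.mono hBΩ
  have hrc : ContinuousOn (fun x => (rho u x)⁻¹) (bx Ω u o ξ η ε a b) := (qlow_rho_cont h.am).mono hBΩ
  have a1 := h1 Ω u ρ a b o e₁ e₂ ξ η h
  have a2 := h4 Ω u h.am _ h.cpt (h.am.capH_convex _ o 4) (fun Z hZ => hZ.1) h.int _ _ h.bx_isCompact
    h.bx_subset' hsc fun x hx => h.s_le_wid hx
  have hV : 0 < volume.real (capH Ω u (qL ξ η a b) o 4) :=
    ENNReal.toReal_pos (Measure.measure_pos_of_nonempty_interior _ h.int).ne' h.cpt.measure_lt_top.ne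
  generalize volume.real (capH Ω u (qL ξ η a b) o 4) = V at a1 a2 hV
  obtain ⟨l, hle⟩ : ∃ l : ℝ, l = κ * V ^ ((2 : ℝ) / (n + 2)) := ⟨_, rfl⟩
  have hl : 0 < l := by rw [hle]; positivity
  have hW : 0 < V ^ ((n : ℝ) / (n + 2)) := Real.rpow_pos_of_pos hV _
  have l1 : l ^ ((n : ℝ) / 2) = κ ^ ((n : ℝ) / 2) * V ^ ((n : ℝ) / (n + 2)) := by
    rw [hle, Real.mul_rpow hκ.le (by positivity), ← Real.rpow_mul hV.le]
    congr 2
    field_simp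
  have l2 : l * V ^ ((n : ℝ) / (n + 2)) = κ * V := by
    rw [hle, mul_assoc, ← Real.rpow_add hV, show (2 : ℝ) / (n + 2) + (n : ℝ) / (n + 2) = 1 by
      field_simp; ring, Real.rpow_one]
  have i1 : IntegrableOn (fun x => sP u o e₁ e₂ ξ η x ^ (-(n : ℝ) / 2) * (rho u x)⁻¹)
      (bx Ω u o ξ η ε a b) :=
    ((hsc.rpow_const fun x hx => Or.inl (h.s_pos hx).ne').mul hrc).integrableOn_compact h.bx_isCompact
  have i2 : IntegrableOn (fun x => sP u o e₁ e₂ ξ η x * (rho u x)⁻¹) (bx Ω u o ξ η ε a b) :=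
    (hsc.mul hrc).integrableOn_compact h.bx_isCompact
  have a3 : ∫ x in bx Ω u o ξ η ε a b, (rho u x)⁻¹ ≤ ∫ x in bx Ω u o ξ η ε a b,
      (l ^ ((n : ℝ) / 2) * (sP u o e₁ e₂ ξ η x ^ (-(n : ℝ) / 2) * (rho u x)⁻¹) +
        l⁻¹ * (sP u o e₁ e₂ ξ η x * (rho u x)⁻¹)) := by
    refine setIntegral_mono_on (hrc.integrableOn_compact h.bx_isCompact)
      ((i1.const_mul _).add (i2.const_mul _)) h.bx_isCompact.measurableSet fun x hx => ?_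
    have p1 := qlow_pt (h.s_pos hx) hl (show 0 ≤ (n : ℝ) / 2 by positivity)
    have p2 := mul_le_mul_of_nonneg_right p1 (inv_pos.2 (h.am.rho_pos (hBΩ hx))).le
    rw [neg_div]
    linarith
  rw [integral_add (i1.const_mul _) (i2.const_mul _), integral_const_mul, integral_const_mul, l1] at a3
  generalize (∫ x in bx Ω u o ξ η ε a b, sP u o e₁ e₂ ξ η x ^ (-(n : ℝ) / 2) * (rho u x)⁻¹) = I at a3 ⊢
  generalize (∫ x in bx Ω u o ξ η ε a b, sP u o e₁ e₂ ξ η x * (rho u x)⁻¹) = J at a3 a2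
  generalize V ^ ((n : ℝ) / (n + 2)) = W at a1 a3 hW l2
  have a4 : l⁻¹ * J ≤ c / 2 * W := by
    rw [inv_mul_le_iff₀ hl]
    have e : l * (c / 2 * W) = (C₄ + 1) * V := by
      rw [show l * (c / 2 * W) = c / 2 * (l * W) by ring, l2, hκe]
      field_simp
    rw [e]
    linarith
  rw [div_le_iff₀ (by positivity)]
  have a5 : W * c ≤ W * (I * (2 * κ ^ ((n : ℝ) / 2))) := by linarith
  exact le_of_mul_le_mul_left a5 hW

end Crest.Agent.R236
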