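import Crest.Agent.R236.Basic
import Crest.Agent.R236.GeoDefs

/-!
# R236/QPt: part 4 of idea 1100, pointwise consequences of `Geo.QAt`

Notation: `l = qL ξ η a b = ξ/a + η/b`, `C = capH Ω u l o 4` (equal to `Geo.cap2`), `e = a e₁ + b e₂`, `s = sP ..`.
All inequalities come from `AM.nu_nonneg` (the tangent plane supports `K = epi Ω u`) and linearity of `nu`.
-/

set_option autoImplicit false

namespace Crest.Agent.R236

open Set MeasureTheory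
open Crest.GeometryTopology.CoordMetric Crest.GeometryTopology.AffineMaximal
open scoped ContDiff

variable {n : ℕ} {Ω : Set (E n)} {u : E n → ℝ}

/-- `l = ξ/a + η/b` -/
noncomputable def qL (ξ η : F n →L[ℝ] ℝ) (a b : ℝ) : F n →L[ℝ] ℝ := a⁻¹ • ξ + b⁻¹ • η

/-- the box `ξ/a, η/b ∈ [ε, 1]` -/
def bx (Ω : Set (E n)) (u : E n → ℝ) (o : F n) (ξ η : F n →L[ℝ] ℝ) (ε a b : ℝ) : Set (E n) :=
  {x | x ∈ Ω ∧ ε * a ≤ af u ξ o x ∧ af u ξ o x ≤ a ∧ ε * b ≤ af u η o x ∧ af u η o x ≤ b}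

/-- the data at one scale -/
structure QD (Ω : Set (E n)) (u : E n → ℝ) (ε ρ : ℝ) (o e₁ e₂ : F n) (ξ η : F n →L[ℝ] ℝ) (a b : ℝ) :
    Prop where
  am : AM Ω u
  ε0 : 0 < ε
  ε1 : ε ≤ 1 / 2
  ρ0 : 0 < ρ
  a0 : 0 < a
  b0 : 0 < b
  mem : o ∈ epi Ω u
  h11 : ξ e₁ = 1
  h12 : ξ e₂ = 0
  h21 : η e₁ = 0
  h22 : η e₂ = 1
  q : Geo.QAt (epi Ω u) ε ρ o e₁ e₂ ξ η a b

theorem qL_apply (ξ η : F n →L[ℝ] ℝ) (a b : ℝ) (v : F n) : qL ξ η a b v = ξ v / a + η v / b := by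
  simp only [qL, ContinuousLinearMap.add_apply, ContinuousLinearMap.smul_apply, smul_eq_mul]; ring

theorem cap2_eq (o : F n) (ξ η : F n →L[ℝ] ℝ) (a b : ℝ) :
    Geo.cap2 (epi Ω u) o ξ η a b = capH Ω u (qL ξ η a b) o 4 := by
  ext X; simp only [Geo.cap2, capH, qL_apply, mem_setOf_eq]

theorem AM.epi_convex (h : AM Ω u) : Convex ℝ (epi Ω u) := Geo.epi_convex h.isOpen h.convex h.smooth h.pos

theorem AM.capH_convex (h : AM Ω u) (l : F n →L[ℝ] ℝ) (o : F n) (c : ℝ) : Convex ℝ (capH Ω u l o c) := by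
  intro X hX Y hY s t hs ht hst
  refine ⟨h.epi_convex hX.1 hY.1 hs ht hst, ?_⟩
  have e : s • X + t • Y - o = s • (X - o) + t • (Y - o) := by
    rw [smul_sub, smul_sub, sub_add_sub_comm, ← add_smul, hst, one_smul]
  rw [e, map_add, map_smul, map_smul, smul_eq_mul, smul_eq_mul]
  calc _ ≤ s * c + t * c := add_le_add (mul_le_mul_of_nonneg_left hX.2 hs) (mul_le_mul_of_nonneg_left hY.2 ht)
    _ = c := by rw [← add_mul, hst, one_mul]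

/-- a smaller cap is a closed subset of a bigger one -/
theorem capH_isCompact_of_le {l : F n →L[ℝ] ℝ} {o : F n} {c c' : ℝ} (hc : IsCompact (capH Ω u l o c'))
    (hcc : c ≤ c') : IsCompact (capH Ω u l o c) := by
  have e : capH Ω u l o c = capH Ω u l o c' ∩ {X | l (X - o) ≤ c} :=
    Set.ext fun X => ⟨fun hX => ⟨⟨hX.1, hX.2.trans hcc⟩, hX.2⟩, fun hX => ⟨hX.1.1, hX.2⟩⟩
  rw [e]
  exact hc.inter_right (isClosed_le (by fun_prop) continuous_const)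

/-- points `(1-τ) o + τ p`, `p` interior, `τ > 0` small (`Convex.combo_self_interior_mem_interior` or similar) -/
theorem slab_interior {C : Set (F n)} (hC : Convex ℝ C) (hi : (interior C).Nonempty) {o : F n} (ho : o ∈ C)
    (ζ : F n →L[ℝ] ℝ) {ε : ℝ} (hε : 0 < ε) : (interior (C ∩ {Z | |ζ (Z - o)| ≤ ε})).Nonempty := by
  obtain ⟨p, hp⟩ := hi
  have h0 : 0 < |ζ (p - o)| + ε := by positivity
  have h1 : 0 < ε / (|ζ (p - o)| + ε) := div_pos hε h0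
  have h2 : ε / (|ζ (p - o)| + ε) ≤ 1 := (div_le_one h0).2 (le_add_of_nonneg_left (abs_nonneg _))
  refine ⟨o + (ε / (|ζ (p - o)| + ε)) • (p - o), ?_⟩
  rw [interior_inter]
  refine ⟨hC.add_smul_sub_mem_interior ho hp ⟨h1, h2⟩, ?_⟩
  refine interior_maximal (t := {Z | |ζ (Z - o)| < ε}) (fun Z (hZ : |ζ (Z - o)| < ε) => hZ.le)
    (isOpen_lt (by fun_prop) continuous_const) ?_
  rw [mem_setOf_eq, add_sub_cancel_left, map_smul, smul_eq_mul, abs_mul, abs_of_pos h1, div_mul_eq_mul_div,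
    div_lt_iff₀ h0]
  exact mul_lt_mul_of_pos_left (lt_add_of_pos_right _ hε) hε

theorem slab_convex {C : Set (F n)} (hC : Convex ℝ C) (o : F n) (ζ : F n →L[ℝ] ℝ) (ε : ℝ) :
    Convex ℝ (C ∩ {Z | |ζ (Z - o)| ≤ ε}) := by
  intro X hX Y hY s t hs ht hst
  refine ⟨hC hX.1 hY.1 hs ht hst, ?_⟩
  have e : s • X + t • Y - o = s • (X - o) + t • (Y - o) := by
    rw [smul_sub, smul_sub, sub_add_sub_comm, ← add_smul, hst, one_smul]
  rw [mem_setOf_eq, e, map_add, map_smul, map_smul, smul_eq_mul, smul_eq_mul]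
  refine (abs_add_le _ _).trans ?_
  rw [abs_mul, abs_mul, abs_of_nonneg hs, abs_of_nonneg ht]
  calc _ ≤ s * ε + t * ε := add_le_add (mul_le_mul_of_nonneg_left hX.2 hs) (mul_le_mul_of_nonneg_left hY.2 ht)
    _ = ε := by rw [← add_mul, hst, one_mul]

theorem slab_isCompact {C : Set (F n)} (hC : IsCompact C) (o : F n) (ζ : F n →L[ℝ] ℝ) (ε : ℝ) :
    IsCompact (C ∩ {Z | |ζ (Z - o)| ≤ ε}) := by
  exact hC.inter_right (isClosed_le (by fun_prop) continuous_const)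

namespace QD

variable {ε ρ a b : ℝ} {o e₁ e₂ : F n} {ξ η : F n →L[ℝ] ℝ} (h : QD Ω u ε ρ o e₁ e₂ ξ η a b)
include h

theorem cpt : IsCompact (capH Ω u (qL ξ η a b) o 4) := cap2_eq (Ω := Ω) (u := u) o ξ η a b ▸ h.q.cpt

theorem int : (interior (capH Ω u (qL ξ η a b) o 4)).Nonempty := cap2_eq (Ω := Ω) (u := u) o ξ η a b ▸ h.q.int

theorem o_mem : o ∈ capH Ω u (qL ξ η a b) o 4 := by
  exact ⟨h.mem, by simp⟩

theorem qpt_cap {Z : F n} (hZ : Z ∈ capH Ω u (qL ξ η a b) o 4) : Z ∈ Geo.cap2 (epi Ω u) o ξ η a b := by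
  have _ := h
  rwa [cap2_eq]

theorem qpt_qL (x y : ℝ) : qL ξ η a b (x • e₁ + y • e₂) = x / a + y / b := by
  simp [qL_apply, h.h11, h.h12, h.h21, h.h22]

theorem qpt_pt {x y : ℝ} (h1 : ε * a ≤ x) (h2 : x ≤ 2 * a) (h3 : ε * b ≤ y) (h4 : y ≤ 2 * b) :
    o + (x • e₁ + y • e₂) ∈ capH Ω u (qL ξ η a b) o 4 := by
  have h5 := h.q.box x y h1 (by linarith [h.a0]) h3 (by linarith [h.b0]) o (h.qpt_cap h.o_mem) o (h.qpt_cap h.o_mem)
  rw [sub_self, smul_zero, add_zero] at h5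
  refine ⟨h5, ?_⟩
  rw [add_sub_cancel_left, h.qpt_qL]
  linarith [(div_le_iff₀ h.a0).2 h2, (div_le_iff₀ h.b0).2 h4]

theorem qpt_a : ε * a ≤ a := mul_le_of_le_one_left h.a0.le (by linarith [h.ε1])

theorem qpt_b : ε * b ≤ b := mul_le_of_le_one_left h.b0.le (by linarith [h.ε1])

theorem qpt_low {Z : F n} (hZ : Z ∈ capH Ω u (qL ξ η a b) o 4) : -ε ≤ ξ (Z - o) / a ∧ -ε ≤ η (Z - o) / b := by
  rw [le_div_iff₀ h.a0, le_div_iff₀ h.b0, neg_mul, neg_mul]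
  exact ⟨h.q.lowξ Z (h.qpt_cap hZ), h.q.lowη Z (h.qpt_cap hZ)⟩

theorem qL_e : qL ξ η a b (a • e₁ + b • e₂) = 2 := by
  rw [h.qpt_qL, div_self h.a0.ne', div_self h.b0.ne']
  norm_num

theorem xi_e : (a⁻¹ • ξ) (a • e₁ + b • e₂) = 1 := by
  simp [h.h11, h.h12, h.a0.ne']

theorem eta_e : (b⁻¹ • η) (a • e₁ + b • e₂) = 1 := by
  simp [h.h21, h.h22, h.b0.ne']

/-- `wide` with `X = Y = Z = o` -/
theorem oe_mem : o + (a • e₁ + b • e₂) ∈ capH Ω u (qL ξ η a b) o 4 := by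
  exact h.qpt_pt h.qpt_a (by linarith [h.a0]) h.qpt_b (by linarith [h.b0])

/-- ranges on the cap: `ξ/a, η/b ≥ -ε`, `ξ/a + η/b ≤ 4` -/
theorem range {Z : F n} (hZ : Z ∈ capH Ω u (qL ξ η a b) o 4) :
    -2 ≤ qL ξ η a b (Z - o) ∧ |(a⁻¹ • ξ) (Z - o)| ≤ 5 ∧ |(b⁻¹ • η) (Z - o)| ≤ 5 := by
  obtain ⟨h1, h2⟩ := h.qpt_low hZ
  have h3 := hZ.2
  have h4 := h.ε1
  rw [qL_apply] at h3 ⊢
  simp only [ContinuousLinearMap.smul_apply, smul_eq_mul, inv_mul_eq_div, abs_le]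
  refine ⟨?_, ⟨?_, ?_⟩, ?_, ?_⟩ <;> linarith

theorem bx_subset : bx Ω u o ξ η ε a b ⊆ piece Ω u (capH Ω u (qL ξ η a b) o 2) := by
  rintro x ⟨h1, -, h2, -, h3⟩
  refine ⟨h1, gr_mem_epi h1, ?_⟩
  rw [qL_apply]
  have h4 : ξ (gr u x - o) / a ≤ 1 := (div_le_one h.a0).2 h2
  have h5 : η (gr u x - o) / b ≤ 1 := (div_le_one h.b0).2 h3
  linarith

theorem bx_subset' : bx Ω u o ξ η ε a b ⊆ piece Ω u (capH Ω u (qL ξ η a b) o 4) := by
  intro x hx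
  obtain ⟨h1, h2, h3⟩ := h.bx_subset hx
  exact ⟨h1, h2, h3.trans (by norm_num)⟩

/-- the box is the piece of the compact set `C ∩ {ε a ≤ ξ ≤ a, ε b ≤ η ≤ b}` -/
theorem bx_isCompact : IsCompact (bx Ω u o ξ η ε a b) := by
  have e : bx Ω u o ξ η ε a b = piece Ω u (capH Ω u (qL ξ η a b) o 4 ∩
      {Z | ε * a ≤ ξ (Z - o) ∧ ξ (Z - o) ≤ a ∧ ε * b ≤ η (Z - o) ∧ η (Z - o) ≤ b}) :=
    Set.ext fun x => ⟨fun hx => ⟨hx.1, (h.bx_subset' hx).2, hx.2⟩, fun hx => ⟨hx.1, hx.2.2⟩⟩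
  rw [e]
  refine h.am.piece_isCompact (h.cpt.inter_right ?_) fun Z hZ => hZ.1.1
  have c1 : Continuous fun Z => ξ (Z - o) := by fun_prop
  have c2 : Continuous fun Z => η (Z - o) := by fun_prop
  exact (isClosed_le continuous_const c1).inter ((isClosed_le c1 continuous_const).inter
    ((isClosed_le continuous_const c2).inter (isClosed_le c2 continuous_const)))

/-- the cap of height one is covered by the box and two slabs -/
theorem cover : piece Ω u (capH Ω u (qL ξ η a b) o 1) ⊆ bx Ω u o ξ η ε a b ∪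
    (piece Ω u (capH Ω u (qL ξ η a b) o 4 ∩ {Z | |(a⁻¹ • ξ) (Z - o)| ≤ ε}) ∪
      piece Ω u (capH Ω u (qL ξ η a b) o 4 ∩ {Z | |(b⁻¹ • η) (Z - o)| ≤ ε})) := by
  rintro x ⟨h1, h2, h3⟩
  have h4 : gr u x ∈ capH Ω u (qL ξ η a b) o 4 := ⟨h2, h3.trans (by norm_num)⟩
  obtain ⟨h5, h6⟩ := h.qpt_low h4
  rw [qL_apply] at h3
  by_cases k1 : ξ (gr u x - o) / a ≤ ε
  · refine Or.inr (Or.inl ⟨h1, h4, ?_⟩)
    simp only [mem_setOf_eq, ContinuousLinearMap.smul_apply, smul_eq_mul, inv_mul_eq_div, abs_le]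
    exact ⟨h5, k1⟩
  by_cases k2 : η (gr u x - o) / b ≤ ε
  · refine Or.inr (Or.inr ⟨h1, h4, ?_⟩)
    simp only [mem_setOf_eq, ContinuousLinearMap.smul_apply, smul_eq_mul, inv_mul_eq_div, abs_le]
    exact ⟨h6, k2⟩
  have h7 := h.ε0
  rw [not_le] at k1 k2
  exact Or.inl ⟨h1, (le_div_iff₀ h.a0).1 k1.le, (div_le_one h.a0).1 (show ξ (gr u x - o) / a ≤ 1 by linarith),
    (le_div_iff₀ h.b0).1 k2.le, (div_le_one h.b0).1 (show η (gr u x - o) / b ≤ 1 by linarith)⟩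

/-- `f ≥ ρ wid` on the cap: `wide` with `X = gr u x`, `Y = Z'` -/
theorem wid_le_f {x : E n} (hx : x ∈ piece Ω u (capH Ω u (qL ξ η a b) o 4)) {Z Z' : F n}
    (hZ : Z ∈ capH Ω u (qL ξ η a b) o 4) (hZ' : Z' ∈ capH Ω u (qL ξ η a b) o 4) :
    ρ * nu u (Z - Z') x ≤ nu u (a • e₁ + b • e₂) x := by
  have h1 := h.am.nu_nonneg hx.1 (h.q.wide _ (h.qpt_cap hx.2) _ (h.qpt_cap hZ') _ (h.qpt_cap hZ))
  rw [add_assoc, add_sub_cancel_left, nu_add, nu_smul ρ, nu_sub] at h1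
  rw [nu_sub]
  linarith

theorem f_pos {x : E n} (hx : x ∈ piece Ω u (capH Ω u (qL ξ η a b) o 4)) : 0 < nu u (a • e₁ + b • e₂) x := by
  obtain ⟨Z, hZ, Z', hZ', h1⟩ := h.am.exists_nu_pos hx.1 h.int
  exact (mul_pos h.ρ0 h1).trans_le (h.wid_le_f hx hZ hZ')

/-- `s ≥ ρ wid` on the box: field `box` at the point `(ξ x, η x)` -/
theorem wid_le_s {x : E n} (hx : x ∈ bx Ω u o ξ η ε a b) {Z Z' : F n}
    (hZ : Z ∈ capH Ω u (qL ξ η a b) o 4) (hZ' : Z' ∈ capH Ω u (qL ξ η a b) o 4) :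
    ρ * nu u (Z - Z') x ≤ sP u o e₁ e₂ ξ η x := by
  obtain ⟨h1, h2, h3, h4, h5⟩ := hx
  have h6 := h.am.nu_nonneg h1 (h.q.box _ _ h2 (by linarith [h.a0]) h4 (by linarith [h.b0])
    _ (h.qpt_cap hZ') _ (h.qpt_cap hZ))
  rw [add_sub_right_comm, nu_add, nu_smul ρ, nu_sub Z'] at h6
  rw [nu_sub, sP]
  linarith

/-- `e = (o + e) - o` -/
theorem f_le_s {x : E n} (hx : x ∈ bx Ω u o ξ η ε a b) :
    ρ * nu u (a • e₁ + b • e₂) x ≤ sP u o e₁ e₂ ξ η x := by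
  have h1 := h.wid_le_s hx h.oe_mem h.o_mem
  rwa [add_sub_cancel_left] at h1

theorem s_pos {x : E n} (hx : x ∈ bx Ω u o ξ η ε a b) : 0 < sP u o e₁ e₂ ξ η x := by
  exact (mul_pos h.ρ0 (h.f_pos (h.bx_subset' hx))).trans_le (h.f_le_s hx)

/-- `s ≤ wid`: `P(X)` and `X` lie in `C` -/
theorem s_le_wid {x : E n} (hx : x ∈ bx Ω u o ξ η ε a b) : ∃ Z ∈ capH Ω u (qL ξ η a b) o 4,
    ∃ Z' ∈ capH Ω u (qL ξ η a b) o 4, sP u o e₁ e₂ ξ η x ≤ nu u (Z - Z') x := by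
  have h0 := (h.bx_subset' hx).2
  obtain ⟨-, h2, h3, h4, h5⟩ := hx
  exact ⟨_, h.qpt_pt h2 (by linarith [h.a0]) h4 (by linarith [h.b0]), _, h0, le_rfl⟩

/-- the points `o + 2 a e₁ + b e₂` and `o + a e₁ + b e₂` lie in `C` (field `box` with `Y = Z = o`; `l = 3, 2`),
their differences are `± a e₁` -/
theorem nu1_le {x : E n} (hx : x ∈ bx Ω u o ξ η ε a b) : ρ * |a * nu u e₁ x| ≤ sP u o e₁ e₂ ξ η x := by
  have h1 := h.qpt_pt (x := 2 * a) (y := b) (by linarith [h.qpt_a, h.a0]) le_rfl h.qpt_b (by linarith [h.b0])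
  have h2 := h.wid_le_s hx h1 h.oe_mem
  have h3 := h.wid_le_s hx h.oe_mem h1
  simp only [nu_sub, nu_add, nu_smul] at h2 h3
  rcases abs_cases (a * nu u e₁ x) with ⟨e, -⟩ | ⟨e, -⟩ <;> rw [e] <;> linarith

theorem nu2_le {x : E n} (hx : x ∈ bx Ω u o ξ η ε a b) : ρ * |b * nu u e₂ x| ≤ sP u o e₁ e₂ ξ η x := by
  have h1 := h.qpt_pt (x := a) (y := 2 * b) h.qpt_a (by linarith [h.a0]) (by linarith [h.qpt_b, h.b0]) le_rfl
  have h2 := h.wid_le_s hx h1 h.oe_mem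
  have h3 := h.wid_le_s hx h.oe_mem h1
  simp only [nu_sub, nu_add, nu_smul] at h2 h3
  rcases abs_cases (b * nu u e₂ x) with ⟨e, -⟩ | ⟨e, -⟩ <;> rw [e] <;> linarith

end QD

end Crest.Agent.R236
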